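import Crest.Agent.R62.Defs

/-!
# R62-InitNum: the numbers near the critical point `σ = 1/√q`

As `ε = 1 - qσ² → 0⁺` we have `σ → u = 1/√q`, `y → √q`, `κ → 1/q`, `ls → w + 1`, `la → w - 1`,
`w = √q - u = (q-1)u ≥ 1/√2`.  All functions are continuous at `σ = u` (`q ≥ 2` so `y² - 1 → q - 1 ≠ 0`), and
`0 < ε ≤ ε0`, `σ > 0` force `|σ - u| ≤ ε0` (`u - σ = ε u²/(u+σ) ≤ ε u`); use `ContinuousAt.eventually_lt` /
`Metric.eventually_nhds_iff`.  Exact identities: `σ y = 1 - ε²`;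
`D := κ y - σ = (1 - σy)(y + σ)/(y² - 1) = ε² (y+σ)/(y²-1)`;
`r = -σ² - 2σD + (D+σ)² q (1 + 1/y²)`, and `1 - r = ε F(σ)` with `F` continuous, `F(u) = 1 + 1/q ∈ (1,2)`
(with `D = ε² D₁`, `1/y² = σ²/(1-ε²)²`, `qσ² = 1 - ε`:
`1 - r = ε(1+σ²) + 2σD - (2σD + D²) q (1 + 1/y²) - qσ⁴ ε²(2-ε²)/(1-ε²)²`).
`y + σq - 2√q = ((1 - σ√q)² - ε²)/σ < 0` because `ε = (1-σ√q)(1+σ√q)`.
Limits: `A3 - T3 = 4w`, `A3 + T3 = 2w(q-1)`, both `≥ √2 > 1.3`; `(q-1)/q² + 1/q³ ≤ 3/8 < 0.38`.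
-/

set_option autoImplicit false
open Matrix Finset

namespace Crest.Agent.R62

section Gen
variable {K : Type*} [Field K]

def epsv (q : ℕ) (σ : K) : K := 1 - q * σ ^ 2
def yv (q : ℕ) (σ : K) : K := (1 - epsv q σ ^ 2) / σ
def kapv (q : ℕ) (σ : K) : K := (1 - σ ^ 2) / (yv q σ ^ 2 - 1)
def lsv (q : ℕ) (σ : K) : K := -σ + kapv q σ * yv q σ * q + kapv q σ * q
def lav (q : ℕ) (σ : K) : K := -σ + kapv q σ * yv q σ * q - kapv q σ * q
def rv (q : ℕ) (σ : K) : K := (lsv q σ ^ 2 + lav q σ ^ 2) / (2 * q) + (q - 1) * σ ^ 2 / q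
def A3v (q : ℕ) (σ : K) : K := (lsv q σ ^ 3 + lav q σ ^ 3) / 2 - (q - 1) * σ ^ 3
def T3v (q : ℕ) (σ : K) : K :=
  (lsv q σ ^ 2 * lav q σ + lav q σ ^ 2 * lsv q σ) / 2 - (q - 1) * σ ^ 3

end Gen

noncomputable def InitNum_D (q : ℕ) (σ : ℝ) : ℝ := (yv q σ + σ) / (yv q σ ^ 2 - 1)

noncomputable def InitNum_F (q : ℕ) (σ : ℝ) : ℝ :=
  1 + σ ^ 2 * (1 - 2 * epsv q σ + epsv q σ ^ 3) / (1 - epsv q σ ^ 2) ^ 2
    + 2 * σ * epsv q σ * InitNum_D q σ
    - q * (epsv q σ ^ 3 * InitNum_D q σ ^ 2 + 2 * σ * epsv q σ * InitNum_D q σ)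
      * (1 + 1 / yv q σ ^ 2)

theorem InitNum_D_eq (q : ℕ) {σ : ℝ} (h0 : σ ≠ 0) (h1 : yv q σ ^ 2 - 1 ≠ 0) :
    kapv q σ * yv q σ - σ = epsv q σ ^ 2 * InitNum_D q σ := by
  have e : epsv q σ ^ 2 = 1 - σ * yv q σ := by
    unfold yv
    field_simp
    ring
  rw [e]
  unfold kapv InitNum_D
  field_simp
  ring

theorem InitNum_F_eq (q : ℕ) (hq : (q : ℝ) ≠ 0) {σ : ℝ} (h0 : σ ≠ 0) (h1 : yv q σ ^ 2 - 1 ≠ 0)
    (h2 : yv q σ ≠ 0) : 1 - rv q σ = epsv q σ * InitNum_F q σ := by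
  have e1 := InitNum_D_eq q h0 h1
  have e2 : kapv q σ = (epsv q σ ^ 2 * InitNum_D q σ + σ) / yv q σ := by
    rw [← e1]
    field_simp
    ring
  have e3 : yv q σ = (1 - epsv q σ ^ 2) / σ := rfl
  have h3 : 1 - epsv q σ ^ 2 ≠ 0 := fun h => h2 (by rw [e3, h, zero_div])
  have e4 : (q : ℝ) = (1 - epsv q σ) / σ ^ 2 := by
    unfold epsv
    field_simp
    ring
  have e5 : rv q σ = -σ ^ 2 - 2 * σ * (epsv q σ ^ 2 * InitNum_D q σ)
      + q * (epsv q σ ^ 2 * InitNum_D q σ + σ) ^ 2 * (1 + 1 / yv q σ ^ 2) := by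
    unfold rv lsv lav
    rw [e2]
    field_simp
    ring
  rw [e5]
  unfold InitNum_F
  generalize InitNum_D q σ = D
  rw [e3]
  generalize epsv q σ = ε at h3 e4 ⊢
  rw [e4]
  field_simp
  ring

theorem initNum (q : ℕ) (hq : 2 ≤ q) : ∃ ε0 C : ℝ, 0 < ε0 ∧ 1 ≤ C ∧ ∀ σ : ℝ, 0 < σ →
    0 < epsv q σ → epsv q σ ≤ ε0 →
    σ < 1 ∧ 1 < yv q σ ∧ yv q σ + σ * q < 2 * Real.sqrt q ∧ |lsv q σ| ≤ C ∧ |lav q σ| ≤ C ∧
    |kapv q σ * yv q σ - σ| ≤ C * epsv q σ ^ 2 ∧ epsv q σ ≤ 1 - rv q σ ∧ 1 - rv q σ ≤ 2 * epsv q σ ∧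
    1.3 ≤ A3v q σ - |T3v q σ| ∧ |kapv q σ| ≤ C ∧ |kapv q σ * yv q σ| ≤ C ∧
    (q - 1) * (kapv q σ * yv q σ) ^ 4 + q * kapv q σ ^ 4 ≤ 0.38 := by
  have hq2 : (2 : ℝ) ≤ q := by exact_mod_cast hq
  have hq0 : (q : ℝ) ≠ 0 := by linarith
  set Q := Real.sqrt q with hQ
  have hQ2 : Q ^ 2 = q := Real.sq_sqrt (by linarith)
  have hQ0 : 0 ≤ Q := Real.sqrt_nonneg _
  have hQ1 : 1.41 ≤ Q := by nlinarith
  have hQp : 0 < Q := by linarith
  obtain ⟨u, hu⟩ : ∃ u : ℝ, u = 1 / Q := ⟨_, rfl⟩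
  have huQ : u * Q = 1 := by rw [hu]; field_simp
  have hu0 : 0 < u := by rw [hu]; positivity
  have hu1 : u ≤ 0.71 := by nlinarith
  have hq1 : (q : ℝ) - 1 ≠ 0 := by linarith
  have vE : epsv q u = 0 := by unfold epsv; rw [← hQ2]; nlinarith
  have vY : yv q u = Q := by unfold yv; rw [vE, hu]; simp
  have vu2 : u ^ 2 = 1 / q := by rw [hu, div_pow, hQ2, one_pow]
  have vK : kapv q u = 1 / q := by
    unfold kapv; rw [vY, hQ2, vu2]; field_simp
  have vKY : kapv q u * yv q u = u := by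
    rw [vK, vY, ← hQ2, hu]; field_simp
  have vS : lsv q u = Q - u + 1 := by
    unfold lsv; rw [vK, vY]; field_simp; ring
  have vA : lav q u = Q - u - 1 := by
    unfold lav; rw [vK, vY]; field_simp; ring
  have cI : ContinuousAt (fun σ : ℝ => σ) u := continuousAt_id
  have cE : ContinuousAt (fun σ : ℝ => epsv q σ) u := by unfold epsv; fun_prop
  have cY : ContinuousAt (fun σ : ℝ => yv q σ) u :=
    (continuousAt_const.sub (cE.pow 2)).div cI hu0.ne'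
  have hY1 : yv q u ^ 2 - 1 ≠ 0 := by rw [vY, hQ2]; exact hq1
  have cK : ContinuousAt (fun σ : ℝ => kapv q σ) u :=
    (continuousAt_const.sub (cI.pow 2)).div ((cY.pow 2).sub continuousAt_const) hY1
  have cS : ContinuousAt (fun σ : ℝ => lsv q σ) u :=
    (cI.neg.add ((cK.mul cY).mul continuousAt_const)).add (cK.mul continuousAt_const)
  have cA : ContinuousAt (fun σ : ℝ => lav q σ) u :=
    (cI.neg.add ((cK.mul cY).mul continuousAt_const)).sub (cK.mul continuousAt_const)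
  have cD : ContinuousAt (fun σ : ℝ => InitNum_D q σ) u :=
    (cY.add cI).div ((cY.pow 2).sub continuousAt_const) hY1
  have cF : ContinuousAt (fun σ : ℝ => InitNum_F q σ) u :=
    ((continuousAt_const.add (((cI.pow 2).mul ((continuousAt_const.sub
      (continuousAt_const.mul cE)).add (cE.pow 3))).div ((continuousAt_const.sub (cE.pow 2)).pow 2)
        (by simp [vE]))).add (((continuousAt_const.mul cI).mul cE).mul cD)).sub
      ((continuousAt_const.mul (((cE.pow 3).mul (cD.pow 2)).add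
        (((continuousAt_const.mul cI).mul cE).mul cD))).mul
        (continuousAt_const.add (continuousAt_const.div (cY.pow 2)
          (by rw [vY]; positivity))))
  have cA3 : ContinuousAt (fun σ : ℝ => A3v q σ) u :=
    (((cS.pow 3).add (cA.pow 3)).div_const 2).sub (continuousAt_const.mul (cI.pow 3))
  have cT3 : ContinuousAt (fun σ : ℝ => T3v q σ) u :=
    ((((cS.pow 2).mul cA).add ((cA.pow 2).mul cS)).div_const 2).sub
      (continuousAt_const.mul (cI.pow 3))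
  have vF : InitNum_F q u = 1 + 1 / q := by
    unfold InitNum_F; rw [vE, vu2]; simp
  have hw : 0.7 ≤ Q - u := by linarith
  have vm : A3v q u - T3v q u = 4 * (Q - u) := by
    unfold A3v T3v; rw [vS, vA]; ring
  have vp : A3v q u + T3v q u = 2 * (Q - u) * (q - 1) := by
    unfold A3v T3v; rw [vS, vA, ← hQ2, hu]; field_simp; ring
  obtain ⟨C, hC⟩ : ∃ C : ℝ, C = 1 + |lsv q u| + |lav q u| + |InitNum_D q u| + |kapv q u|
    + |kapv q u * yv q u| := ⟨_, rfl⟩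
  have n1 := abs_nonneg (lsv q u)
  have n2 := abs_nonneg (lav q u)
  have n3 := abs_nonneg (InitNum_D q u)
  have n4 := abs_nonneg (kapv q u)
  have n5 := abs_nonneg (kapv q u * yv q u)
  have hq' : 1 / (q : ℝ) ≤ 1 / 2 := one_div_le_one_div_of_le (by norm_num) hq2
  have hq'' : 0 < 1 / (q : ℝ) := by positivity
  have E1 := cI.eventually_lt (continuousAt_const (y := (1 : ℝ))) (by linarith)
  have E2 := (continuousAt_const (y := (1 : ℝ))).eventually_lt cY (by rw [vY]; linarith)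
  have E3 := cS.abs.eventually_lt (continuousAt_const (y := C)) (by linarith)
  have E4 := cA.abs.eventually_lt (continuousAt_const (y := C)) (by linarith)
  have E5 := cD.abs.eventually_lt (continuousAt_const (y := C)) (by linarith)
  have E6 := (continuousAt_const (y := (1 : ℝ))).eventually_lt cF (by rw [vF]; linarith)
  have E7 := cF.eventually_lt (continuousAt_const (y := (2 : ℝ))) (by rw [vF]; linarith)
  have E8 := (continuousAt_const (y := (1.3 : ℝ))).eventually_lt (cA3.sub cT3)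
    (by show (1.3 : ℝ) < A3v q u - T3v q u; rw [vm]; linarith)
  have E9 := (continuousAt_const (y := (1.3 : ℝ))).eventually_lt (cA3.add cT3)
    (by show (1.3 : ℝ) < A3v q u + T3v q u; rw [vp]; nlinarith)
  have E10 := cK.abs.eventually_lt (continuousAt_const (y := C)) (by linarith)
  have E11 := (cK.mul cY).abs.eventually_lt (continuousAt_const (y := C))
    (by show |kapv q u * yv q u| < C; linarith)
  have E12 := (((continuousAt_const (y := (q : ℝ) - 1)).mul ((cK.mul cY).pow 4)).add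
    ((continuousAt_const (y := (q : ℝ))).mul (cK.pow 4))).eventually_lt
      (continuousAt_const (y := (0.38 : ℝ))) (by
    show ((q : ℝ) - 1) * (kapv q u * yv q u) ^ 4 + q * kapv q u ^ 4 < 0.38
    rw [vKY, vK, show u ^ 4 = (u ^ 2) ^ 2 by ring, vu2]
    have a1 : ((q : ℝ) - 1) * (1 / q) ^ 2 = 1 / q - (1 / q) ^ 2 := by field_simp
    have a2 : (q : ℝ) * (1 / q) ^ 4 = (1 / q) ^ 3 := by field_simp
    rw [a1, a2]
    have a3 : (1 / (q : ℝ)) ^ 3 ≤ (1 / 2) ^ 3 := pow_le_pow_left₀ hq''.le hq' 3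
    nlinarith [sq_nonneg (1 / (q : ℝ) - 1 / 2)])
  obtain ⟨r, hr, H⟩ := Metric.eventually_nhds_iff.1 (E1.and (E2.and (E3.and (E4.and (E5.and
    (E6.and (E7.and (E8.and (E9.and (E10.and (E11.and E12)))))))))))
  refine ⟨r / 2, C, by linarith, by linarith, fun σ h0 h1 h2 => ?_⟩
  have f1 : epsv q σ = (1 - Q * σ) * (1 + Q * σ) := by unfold epsv; rw [← hQ2]; ring
  have f2 : 0 < Q * σ := mul_pos hQp h0
  have f3 : 0 < 1 - Q * σ := by
    by_contra h
    rw [f1] at h1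
    nlinarith
  have f4 : 1 - Q * σ < epsv q σ := by rw [f1]; nlinarith
  have f5 : u - σ = u * (1 - Q * σ) := by linear_combination σ * huQ
  obtain ⟨g1, g2, g3, g4, g5, g6, g7, g8, g9, g10, g11, g12⟩ := H (y := σ) (by
    rw [Real.dist_eq, abs_sub_comm, f5, abs_of_pos (mul_pos hu0 f3)]
    nlinarith)
  have y1 : yv q σ ^ 2 - 1 ≠ 0 := by nlinarith
  have y2 : yv q σ ≠ 0 := by linarith
  refine ⟨g1, g2, ?_, g3.le, g4.le, ?_, ?_, ?_, ?_, g10.le, g11.le, g12.le⟩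
  · have : yv q σ * σ = 1 - epsv q σ ^ 2 := by unfold yv; field_simp
    refine lt_of_mul_lt_mul_right ?_ h0.le
    rw [add_mul, this, ← hQ2]
    nlinarith
  · rw [InitNum_D_eq q h0.ne' y1, abs_mul, abs_of_nonneg (sq_nonneg _), mul_comm]
    exact mul_le_mul_of_nonneg_right g5.le (sq_nonneg _)
  · rw [InitNum_F_eq q hq0 h0.ne' y1 y2]
    nlinarith
  · rw [InitNum_F_eq q hq0 h0.ne' y1 y2]
    nlinarith
  · simp only [Pi.sub_apply, Pi.add_apply] at g8 g9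
    rcases abs_cases (T3v q σ) with h | h <;> linarith [h.1]

end Crest.Agent.R62
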