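import Crest.Agent.R62.Graph
import Crest.Agent.R62.InitNum
import Crest.Agent.Lib.PT.Code
import Crest.Prelude.Def_GraphCode

/-!
# R62: the concrete model and the list encodings used by the algorithm
-/

set_option autoImplicit false
open Matrix Finset

namespace Crest.Agent.R62

/-- the initial perfect matching `u ↔ u xor 1` -/
def mateN (u : ℕ) : ℕ := if u % 2 = 0 then u + 1 else u - 1

/-- `n` vertices, `q n` half-edges, half-edge `k` sits at vertex `k / q` -/
def heFin (q n : ℕ) (hq : 0 < q) (hn : Even n) : HE (Fin n) (Fin (q * n)) q where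
  vert k := ⟨k.val / q, Nat.div_lt_of_lt_mul k.isLt⟩
  mate u := ⟨mateN u.val, by
    have := u.isLt
    obtain ⟨r, hr⟩ := hn
    unfold mateN; split_ifs <;> omega⟩
  mate_mate u := by
    apply Fin.ext
    simp only [mateN]
    split_ifs <;> omega
  mate_ne u := by
    intro h
    have := congrArg Fin.val h
    simp only [mateN] at this
    split_ifs at this <;> omega
  fib u := by
    have hb : ∀ r : Fin q, q * u.val + r.val < q * n := fun r => by
      have h1 := u.isLt
      have h2 := r.isLt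
      calc q * u.val + r.val < q * u.val + q := by omega
        _ = q * (u.val + 1) := by ring
        _ ≤ q * n := Nat.mul_le_mul_left _ h1
    have hi : Function.Injective (fun r : Fin q => (⟨q * u.val + r.val, hb r⟩ : Fin (q * n))) := by
      intro r r' h
      apply Fin.ext
      have := congrArg Fin.val h
      simpa using this
    have h : (univ.filter fun k : Fin (q * n) =>
        (⟨k.val / q, Nat.div_lt_of_lt_mul k.isLt⟩ : Fin n) = u) =
        (univ : Finset (Fin q)).map ⟨_, hi⟩ := by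
      ext k
      simp only [mem_filter, mem_univ, true_and, mem_map]
      constructor
      · intro h
        have h1 : k.val / q = u.val := congrArg Fin.val h
        refine ⟨⟨k.val % q, Nat.mod_lt _ hq⟩, Fin.ext ?_⟩
        show q * u.val + k.val % q = k.val
        rw [← h1]; exact Nat.div_add_mod _ _
      · rintro ⟨r, rfl⟩
        apply Fin.ext
        show (q * u.val + r.val) / q = u.val
        rw [Nat.mul_add_div hq, Nat.div_eq_of_lt r.isLt, add_zero]
    rw [h]; simp

/-- `t = ⌊n^(1/eD)⌋` -/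
def tN (n : ℕ) : ℕ := Nat.findGreatest (fun t => t ^ eD ≤ n) n

/-- the rational `σ` slightly below `1/√q` -/
def sigQ (q n : ℕ) : ℚ :=
  (Nat.sqrt ((tN n ^ (2 * ek + 2) - tN n ^ (ek + 2)) / q) : ℚ) / (tN n : ℚ) ^ (ek + 1)

/-- the stopping size -/
def mfN (n : ℕ) : ℕ := tN n ^ (2 * eph)

/-- the initial state -/
def st0 (q n : ℕ) (hq : 0 < q) (hn : Even n) : St (Fin (q * n)) ℚ :=
  ⟨id, (heFin q n hq hn).M0 1 (sigQ q n) (yv q (sigQ q n)),
    (heFin q n hq hn).M0 (-1) (sigQ q n) (yv q (sigQ q n))⟩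

/-- the global constants of the run -/
def glob0 (q n : ℕ) (hq : 0 < q) (hn : Even n) : Glob ℚ :=
  globOf (tN n : ℚ) n (q * n) (st0 q n hq hn).a (st0 q n hq hn).b

/-! ### list encodings -/

def decP (N : ℕ) (p : List ℕ) : Fin N → Fin N :=
  fun k => if h : p.getD k.val 0 < N then ⟨p.getD k.val 0, h⟩ else k

def getM (A : List (List ℚ)) (i j : ℕ) : ℚ := (A.getD i []).getD j 0

def decM (N : ℕ) (A : List (List ℚ)) : Matrix (Fin N) (Fin N) ℚ := Matrix.of fun i j => getM A i j

abbrev StL := List ℕ × List (List ℚ) × List (List ℚ)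

def decS (N : ℕ) (σ : StL) : St (Fin N) ℚ := ⟨decP N σ.1, decM N σ.2.1, decM N σ.2.2⟩

def WFP (N : ℕ) (p : List ℕ) : Prop := p.length = N ∧ ∀ x ∈ p, x < N

def WFM (N : ℕ) (A : List (List ℚ)) : Prop := A.length = N ∧ ∀ r ∈ A, r.length = N

def WFS (N : ℕ) (σ : StL) : Prop := WFP N σ.1 ∧ WFM N σ.2.1 ∧ WFM N σ.2.2

def decG (l : List ℚ) : Glob ℚ :=
  ⟨l.getD 0 0, l.getD 1 0, l.getD 2 0, l.getD 3 0, l.getD 4 0, l.getD 5 0, l.getD 6 0, l.getD 7 0⟩

/-! ### casts `ℚ → ℝ` -/

def Glob.cast (G : Glob ℚ) : Glob ℝ := ⟨G.t, G.n, G.m0, G.E, G.c3a, G.c3b, G.t0a, G.t0b⟩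

def St.cast {H : Type} (σ : St H ℚ) : St H ℝ := ⟨σ.pm, σ.a.map Rat.cast, σ.b.map Rat.cast⟩

end Crest.Agent.R62
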