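import Crest.Agent.R62.AlgVal

/-!
# R62-AlgInit: the initial state and the global constants are polynomial-time

PT library: `Crest.Agent.Lib.PT.*` (see its entry in the `library` table: `PT`/`PB` are `fun_prop`
properties; `unfold …; fun_prop`; mark pair-valued definitions irreducible after their `PT` lemma).
`U` is the type of unary numbers (`u.val`).  NEVER unfold the exponents `eD`, `ek`, … (treat them as
opaque constants; `PT.const`, `PB.const`).
`tN n` = number of `t ∈ [1, n]` with `t^eD ≤ n` (monotonicity), `tN n ≤ n` so it is `PB`;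
`Nat.sqrt x` = number of `s < x` with `(s+1)² ≤ x`, and `x ≤ tN^(2ek+2)` is `PB` (`PB.pow`).
`init n = (List.range (q n), mkM …, mkM …)` with `vert k = k / q`, `mateN`.
-/

set_option autoImplicit false
open Matrix Finset

namespace Crest.Agent.R62

open Crest.Agent.PTime

theorem AlgInit_countP_lt {m : ℕ} : ∀ n : ℕ, (List.range n).countP (fun k => decide (k < m)) = min n m
  | 0 => by simp
  | n + 1 => by
    rw [List.range_succ, List.countP_append, AlgInit_countP_lt n]
    by_cases h : n < m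
    · simp [h]; omega
    · simp [h]; omega

theorem AlgInit_findGreatest_eq (P : ℕ → Prop) [DecidablePred P] (n : ℕ) :
    Nat.findGreatest P n =
      (List.range n).countP (fun k => decide (∃ j < n + 1, k < j ∧ P j)) := by
  have h : ∀ k, (∃ j < n + 1, k < j ∧ P j) ↔ k < Nat.findGreatest P n := by
    intro k
    constructor
    · rintro ⟨j, h1, h2, h3⟩
      exact h2.trans_le (Nat.le_findGreatest (by omega) h3)
    · intro hk
      refine ⟨_, Nat.lt_succ_of_le (Nat.findGreatest_le n), hk, ?_⟩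
      exact Nat.findGreatest_of_ne_zero rfl (by omega)
  simp only [h]
  rw [AlgInit_countP_lt, min_eq_right (Nat.findGreatest_le n)]

theorem AlgInit_PT_findGreatest {α : Type*} [Enc α] {P : α → ℕ → Prop} [∀ a, DecidablePred (P a)]
    {n : α → ℕ} (hn : PT n) (hb : PB n) (hP : PT fun x : α × U => P x.1 x.2.val) :
    PT fun a => Nat.findGreatest (P a) (n a) := by
  have h1 : PT fun x : α × ℕ => ∃ j < n x.1 + 1, x.2 < j ∧ P x.1 j := by
    refine PT.exists_lt (p := fun (x : α × ℕ) j => x.2 < j ∧ P x.1 j)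
      ((hn.comp (by fun_prop)).add (PT.const 1)) ((hb.comp (by fun_prop)).add (PB.const 1)) ?_
    refine PT.and (by fun_prop) ?_
    exact hP.comp (g := fun y : (α × ℕ) × U => (y.1.1, y.2)) (by fun_prop)
  exact (PT.countP (f := fun a k => decide (∃ j < n a + 1, k < j ∧ P a j)) h1.decide
    (PT.range hn hb)).congr fun a => AlgInit_findGreatest_eq _ _

theorem AlgInit_sqrt_eq (x : ℕ) : Nat.sqrt x = Nat.findGreatest (fun s => s * s ≤ x) x := by
  apply le_antisymm
  · exact Nat.le_findGreatest (Nat.sqrt_le_self x) (Nat.sqrt_le x)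
  · exact Nat.le_sqrt.2 (Nat.findGreatest_spec (P := fun s => s * s ≤ x) (m := 0) (Nat.zero_le _)
      (by simp))

theorem AlgInit_PT_sqrt {α : Type*} [Enc α] {x : α → ℕ} (hx : PT x) (hb : PB x) :
    PT fun a => Nat.sqrt (x a) := by
  refine (AlgInit_PT_findGreatest (P := fun a s => s * s ≤ x a) hx hb ?_).congr
    fun a => AlgInit_sqrt_eq _
  have : PT fun y : α × U => x y.1 := hx.comp (by fun_prop)
  fun_prop

theorem PT_tN : PT (fun w : List Bool => tN w.length) := by
  unfold tN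
  refine AlgInit_PT_findGreatest (P := fun (w : List Bool) t => t ^ eD ≤ w.length) (by fun_prop)
    (by fun_prop) ?_
  exact PT.le (PT.pow (by fun_prop) (PT.const eD) (PB.const eD)) (by fun_prop)
theorem PB_tN : PB (fun w : List Bool => tN w.length) :=
  (PB.length PT.id).mono fun _ => Nat.findGreatest_le _
theorem PT_mfN : PT (fun w : List Bool => mfN w.length) :=
  PT.pow PT_tN (PT.const _) (PB.const _)

theorem AlgInit_PT_sigQ (q : ℕ) : PT (fun w : List Bool => sigQ q w.length) := by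
  have hp : ∀ e : ℕ, PT (fun w : List Bool => tN w.length ^ e) := fun e =>
    PT.pow PT_tN (PT.const _) (PB.const _)
  exact (AlgInit_PT_sqrt (((hp _).sub (hp _)).div (PT.const q))
    (PB.div (PB.sub (PB_tN.pow _)))).natCast_rat.rat_div (AlgVal_powc PT_tN.natCast_rat _)

@[fun_prop] theorem AlgInit_PT_mateN {α : Type*} [Enc α] {u : α → ℕ} (hu : PT u) :
    PT (fun a => mateN (u a)) := by
  unfold mateN; fun_prop

theorem AlgInit_PT_yv {α : Type*} [Enc α] (q : ℕ) {σ : α → ℚ} (h : PT σ) :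
    PT (fun a => yv q (σ a)) := by
  unfold yv epsv; fun_prop

/-- list version of `HE.M0` -/
def AlgInit_M0 (q N : ℕ) (s σ y : ℚ) : List (List ℚ) :=
  mkM N fun k l =>
    s * (-σ * (if k = l then 1 else 0) +
        (1 - σ ^ 2) / (y ^ 2 - 1) * y * (if k / q = l / q then 1 else 0))
      + (1 - σ ^ 2) / (y ^ 2 - 1) * (if l / q = mateN (k / q) then 1 else 0)
      + (1 - (s * (-σ + (1 - σ ^ 2) / (y ^ 2 - 1) * y * q) + (1 - σ ^ 2) / (y ^ 2 - 1) * q)) / N

theorem AlgInit_M0_eq {q n : ℕ} (hq : 0 < q) (hn : Even n) (s σ y : ℚ) :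
    decM (q * n) (AlgInit_M0 q (q * n) s σ y) = (heFin q n hq hn).M0 s σ y := by
  ext k l
  unfold AlgInit_M0
  rw [decM_mkM]
  simp only [HE.M0, Matrix.of_apply, Fintype.card_fin, heFin, Fin.ext_iff]

theorem AlgInit_PT_M0 {α : Type*} [Enc α] (q : ℕ) (s : ℚ) {N : α → ℕ} {σ y : α → ℚ} (hN : PT N)
    (hb : PB N) (hσ : PT σ) (hy : PT y) : PT (fun a => AlgInit_M0 q (N a) s (σ a) (y a)) := by
  unfold AlgInit_M0
  refine AlgVal_PT_mkM hN hb ?_
  fun_prop

theorem AlgInit_wfp_range (N : ℕ) : WFP N (List.range N) := ⟨by simp, fun x hx => by simpa using hx⟩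

theorem AlgInit_decP_range (N : ℕ) : decP N (List.range N) = id := by
  funext k
  apply Fin.ext
  rw [decP_val (AlgInit_wfp_range N), List.getD_eq_getElem?_getD, List.getElem?_range k.isLt]
  rfl

def AlgInit_gl (t : ℚ) (n N : ℕ) (A B : List (List ℚ)) : List ℚ :=
  [t, n, N, (N - AlgVal_tau2 N A) * N / AlgVal_tau2 N A, AlgVal_WW N A A, AlgVal_WW N B B,
    |AlgVal_WW N A B|, |AlgVal_WW N B A|]

theorem AlgInit_gl_eq (t : ℚ) (n N : ℕ) (A B : List (List ℚ)) :
    decG (AlgInit_gl t n N A B) = globOf t n N (decM N A) (decM N B) := by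
  simp only [decG, AlgInit_gl, globOf, AlgVal_tau2_eq, AlgVal_WW_eq, List.getD_cons_zero,
    List.getD_cons_succ]

theorem AlgInit_PT_gl {α : Type*} [Enc α] {t : α → ℚ} {n N : α → ℕ} {A B : α → List (List ℚ)}
    (ht : PT t) (hn : PT n) (hN : PT N) (hb : PB N) (hA : PT A) (hB : PT B) :
    PT (fun a => AlgInit_gl (t a) (n a) (N a) (A a) (B a)) := by
  unfold AlgInit_gl; fun_prop

theorem exists_init (q : ℕ) (hq : 0 < q) : ∃ (init : ℕ → StL) (gl : ℕ → List ℚ),
    PT (fun w : List Bool => init w.length) ∧ PT (fun w : List Bool => gl w.length) ∧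
    ∀ (n : ℕ) (hn : Even n), WFS (q * n) (init n) ∧ decS (q * n) (init n) = st0 q n hq hn ∧
      decG (gl n) = glob0 q n hq hn := by
  have hN : PT (fun w : List Bool => q * w.length) := by fun_prop
  have hb : PB (fun w : List Bool => q * w.length) := by fun_prop
  have hσ := AlgInit_PT_sigQ q
  have hy := AlgInit_PT_yv q hσ
  have hA := AlgInit_PT_M0 q 1 hN hb hσ hy
  have hB := AlgInit_PT_M0 q (-1) hN hb hσ hy
  refine ⟨fun n => (List.range (q * n), AlgInit_M0 q (q * n) 1 (sigQ q n) (yv q (sigQ q n)),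
      AlgInit_M0 q (q * n) (-1) (sigQ q n) (yv q (sigQ q n))),
    fun n => AlgInit_gl (tN n) n (q * n) (AlgInit_M0 q (q * n) 1 (sigQ q n) (yv q (sigQ q n)))
      (AlgInit_M0 q (q * n) (-1) (sigQ q n) (yv q (sigQ q n))),
    (PT.range hN hb).pair (hA.pair hB),
    AlgInit_PT_gl PT_tN.natCast_rat (by fun_prop) hN hb hA hB, fun n hn => ⟨?_, ?_, ?_⟩⟩
  · exact ⟨AlgInit_wfp_range _, wfm_mkM _ _, wfm_mkM _ _⟩
  · unfold decS st0
    simp only [AlgInit_decP_range, AlgInit_M0_eq hq hn]
  · show decG (AlgInit_gl _ _ _ _ _) = _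
    rw [AlgInit_gl_eq, AlgInit_M0_eq hq hn, AlgInit_M0_eq hq hn, Nat.cast_mul]
    rfl

end Crest.Agent.R62
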