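import Crest.Agent.R62.AlgVal

/-!
# R62-AlgStep: the greedy step is polynomial-time

PT library: `Crest.Agent.Lib.PT.*` (see its entry in the `library` table: `PT`/`PB` are `fun_prop`
properties; `unfold …; fun_prop`; mark pair-valued definitions irreducible after their `PT` lemma).
`U` is the type of unary numbers (`u.val`).  NEVER unfold the exponents `eD`, `ek`, … (treat them as
opaque constants; `PT.const`, `PB.const`).
`adjL` below decides `adj`.  Candidates: the list of pairs `(i,j) ∈ range N × range N` with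
`p[i] = i`, `p[j] = j`, `i/q ≠ j/q`, `¬ adjL`, `0 < ddL A i j`, `0 < ddL B i j`.  Choose
`cands.find? (fun x => cands.all fun y => val x ≤ val y)` with `val x = valL N g (nextL N σ x.1 x.2)`;
a non-empty finite list has a minimiser.  If `cntL ≤ mf` or there is no candidate return `σ`.
-/

set_option autoImplicit false
open Matrix Finset

namespace Crest.Agent.R62

open Crest.Agent.PTime

def adjL (q N : ℕ) (p : List ℕ) (u v : ℕ) : Bool :=
  decide (v = mateN u) ||
    (List.range N).any fun k => decide (k / q = u) && !decide (p.getD k 0 = k) && decide (p.getD k 0 / q = v)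

theorem adjL_iff {q n : ℕ} (hq : 0 < q) (hn : Even n) {p : List ℕ} (hp : WFP (q * n) p) (u v : Fin n) :
    adjL q (q * n) p u v = true ↔ (heFin q n hq hn).adj (decP (q * n) p) u v := by
  unfold adjL HE.adj
  simp only [Bool.or_eq_true, decide_eq_true_eq, List.any_eq_true, List.mem_range, Bool.and_eq_true,
    Bool.not_eq_true', decide_eq_false_iff_not]
  refine or_congr (by simp [heFin, Fin.ext_iff]) ⟨?_, ?_⟩
  · rintro ⟨k, hk, ⟨h1, h2⟩, h3⟩
    refine ⟨⟨k, hk⟩, Fin.ext h1, fun h => h2 ?_, Fin.ext ?_⟩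
    · have := congrArg Fin.val h
      rwa [decP_val hp] at this
    · show (decP (q * n) p ⟨k, hk⟩).val / q = v
      rw [decP_val hp]; exact h3
  · rintro ⟨k, h1, h2, h3⟩
    refine ⟨k, k.isLt, ⟨congrArg Fin.val h1, fun h => h2 (Fin.ext ?_)⟩, ?_⟩
    · rw [decP_val hp]; exact h
    · rw [← decP_val hp]; exact congrArg Fin.val h3

@[fun_prop] theorem AlgStep_PT_mateN {α : Type*} [Enc α] {u : α → ℕ} (hu : PT u) :
    PT (fun a => mateN (u a)) := by
  unfold mateN; fun_prop

@[fun_prop] theorem PT_adjL {α : Type*} [Enc α] (q : ℕ) {N u v : α → ℕ} {p : α → List ℕ} (hN : PT N)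
    (hb : PB N) (hp : PT p) (hu : PT u) (hv : PT v) : PT (fun a => adjL q (N a) (p a) (u a) (v a)) := by
  unfold adjL; fun_prop

def AlgStep_candB (q N : ℕ) (σ : StL) (i j : ℕ) : Bool :=
  decide (σ.1.getD i 0 = i) && (decide (σ.1.getD j 0 = j) && ((!decide (i / q = j / q) &&
    !adjL q N σ.1 (i / q) (j / q)) && (decide (0 < ddL σ.2.1 i j) && decide (0 < ddL σ.2.2 i j))))

theorem AlgStep_candB_iff {q n : ℕ} (hq : 0 < q) (hn : Even n) {σ : StL} (h : WFS (q * n) σ)
    (i j : Fin (q * n)) :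
    AlgStep_candB q (q * n) σ i j = true ↔ (heFin q n hq hn).Cand (decS (q * n) σ) i j := by
  unfold AlgStep_candB HE.Cand HE.allowed
  have e := adjL_iff hq hn h.1 ((heFin q n hq hn).vert i) ((heFin q n hq hn).vert j)
  simp only [Bool.and_eq_true, decide_eq_true_eq, Bool.not_eq_true', decide_eq_false_iff_not]
  refine and_congr ?_ (and_congr ?_ (and_congr (and_congr ?_ ?_) Iff.rfl))
  · rw [← decP_val h.1, Fin.val_inj]; rfl
  · rw [← decP_val h.1, Fin.val_inj]; rfl
  · exact not_congr (by simp [heFin, Fin.ext_iff])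
  · rw [← Bool.not_eq_true]
    exact not_congr e

@[fun_prop] theorem AlgStep_PT_candB {α : Type*} [Enc α] (q : ℕ) {N i j : α → ℕ} {σ : α → StL}
    (hN : PT N) (hb : PB N) (hσ : PT σ) (hi : PT i) (hj : PT j) :
    PT (fun a => AlgStep_candB q (N a) (σ a) (i a) (j a)) := by
  unfold AlgStep_candB; fun_prop

def AlgStep_cands (q N : ℕ) (σ : StL) : List (ℕ × ℕ) :=
  ((List.range N).flatMap fun i => (List.range N).map fun j => (i, j)).filter
    fun x => AlgStep_candB q N σ x.1 x.2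

theorem AlgStep_mem_cands {q N : ℕ} {σ : StL} {x : ℕ × ℕ} :
    x ∈ AlgStep_cands q N σ ↔ x.1 < N ∧ x.2 < N ∧ AlgStep_candB q N σ x.1 x.2 = true := by
  obtain ⟨i, j⟩ := x
  simp [AlgStep_cands, and_assoc]

@[fun_prop] theorem AlgStep_PT_cands {α : Type*} [Enc α] (q : ℕ) {N : α → ℕ} {σ : α → StL}
    (hN : PT N) (hb : PB N) (hσ : PT σ) : PT (fun a => AlgStep_cands q (N a) (σ a)) := by
  unfold AlgStep_cands; fun_prop

def AlgStep_best {β : Type} (l : List β) (f : β → ℚ) : Option β :=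
  l.find? fun x => l.all fun y => decide (f x ≤ f y)

theorem AlgStep_best_mem {β : Type} {l : List β} {f : β → ℚ} {x : β} (h : AlgStep_best l f = some x) :
    x ∈ l ∧ ∀ y ∈ l, f x ≤ f y := by
  refine ⟨List.mem_of_find?_eq_some h, ?_⟩
  simpa using List.find?_some h

theorem AlgStep_best_ex {β : Type} {l : List β} (f : β → ℚ) {y : β} (hy : y ∈ l) :
    ∃ x, AlgStep_best l f = some x := by
  classical
  obtain ⟨x, hx, hm⟩ := Finset.exists_min_image l.toFinset f ⟨y, List.mem_toFinset.2 hy⟩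
  rw [← Option.isSome_iff_exists]
  unfold AlgStep_best
  rw [List.find?_isSome]
  refine ⟨x, List.mem_toFinset.1 hx, ?_⟩
  simpa using hm

theorem AlgStep_PT_best {α β : Type} [Enc α] [Enc β] {l : α → List β} {f : α → β → ℚ} (hl : PT l)
    (hf : PT fun x : α × β => f x.1 x.2) : PT fun a => AlgStep_best (l a) (f a) := by
  unfold AlgStep_best
  refine PT.find? (f := fun a x => (l a).all fun y => decide (f a x ≤ f a y)) ?_ hl
  refine PT.all (f := fun (x : α × β) y => decide (f x.1 x.2 ≤ f x.1 y)) ?_ (hl.comp (by fun_prop))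
  exact PT.decide (PT.rat_le (hf.comp (g := fun z : (α × β) × β => z.1) (by fun_prop))
    (hf.comp (g := fun z : (α × β) × β => (z.1.1, z.2)) (by fun_prop)))

theorem exists_stepL (q : ℕ) (hq : 0 < q) : ∃ stepL : ℕ → List ℚ → ℕ → StL → StL,
    PT (fun x : U × List ℚ × ℕ × StL => stepL x.1.val x.2.1 x.2.2.1 x.2.2.2) ∧
    ∀ (n : ℕ) (hn : Even n) (g : List ℚ) (mf : ℕ) (σ : StL), WFS (q * n) σ →
      WFS (q * n) (stepL n g mf σ) ∧
      ((free (decS (q * n) σ).pm).card ≤ mf → stepL n g mf σ = σ) ∧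
      (mf < (free (decS (q * n) σ).pm).card → (∃ i j, (heFin q n hq hn).Cand (decS (q * n) σ) i j) →
        (heFin q n hq hn).Step (decG g) (decS (q * n) σ) (decS (q * n) (stepL n g mf σ))) := by
  obtain ⟨valL, hv, hval⟩ := exists_valL
  refine ⟨fun n g mf σ => if cntL (q * n) σ.1 ≤ mf then σ else
    ((AlgStep_best (AlgStep_cands q (q * n) σ) fun x => valL (q * n) g (nextL (q * n) σ x.1 x.2)).map
      fun x => nextL (q * n) σ x.1 x.2).getD σ, ?_, fun n hn g mf σ h => ⟨?_, fun hc => ?_,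
        fun hc hex => ?_⟩⟩
  · have hN : PT fun x : U × List ℚ × ℕ × StL => q * x.1.val := by fun_prop
    have hb : PB fun x : U × List ℚ × ℕ × StL => q * x.1.val := by fun_prop
    have hσ : PT fun x : U × List ℚ × ℕ × StL => x.2.2.2 := by fun_prop
    have hN' : PT fun x : (U × List ℚ × ℕ × StL) × ℕ × ℕ => q * x.1.1.val := by fun_prop
    have hb' : PB fun x : (U × List ℚ × ℕ × StL) × ℕ × ℕ => q * x.1.1.val := by fun_prop
    have hnx : PT fun x : (U × List ℚ × ℕ × StL) × ℕ × ℕ =>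
        nextL (q * x.1.1.val) x.1.2.2.2 x.2.1 x.2.2 :=
      PT_nextL hN' hb' (by fun_prop) (by fun_prop) (by fun_prop)
    refine PT.ite (PT.le (PT_cntL hN hb hσ.fst) (by fun_prop)) hσ (PT.getD_option ?_ hσ)
    refine PT.option_map (f := fun (x : U × List ℚ × ℕ × StL) (y : ℕ × ℕ) =>
      nextL (q * x.1.val) x.2.2.2 y.1 y.2) hnx ?_
    refine AlgStep_PT_best (f := fun (x : U × List ℚ × ℕ × StL) (y : ℕ × ℕ) =>
      valL (q * x.1.val) x.2.1 (nextL (q * x.1.val) x.2.2.2 y.1 y.2)) (AlgStep_PT_cands q hN hb hσ) ?_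
    have hg : PT fun x : (U × List ℚ × ℕ × StL) × ℕ × ℕ => x.1.2.1 := by fun_prop
    have := hv.comp ((hN'.toU hb').pair (hg.pair hnx))
    exact this
  · show WFS _ (ite _ _ _)
    split_ifs
    · exact h
    · rcases hb : AlgStep_best (AlgStep_cands q (q * n) σ)
        (fun x => valL (q * n) g (nextL (q * n) σ x.1 x.2)) with _ | x
      · exact h
      · obtain ⟨h1, h2, -⟩ := AlgStep_mem_cands.1 (AlgStep_best_mem hb).1
        exact wfs_nextL h ⟨x.1, h1⟩ ⟨x.2, h2⟩
  · show ite _ _ _ = _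
    rw [if_pos (by rw [cntL_eq h.1]; exact hc)]
  · show HE.Step _ _ _ (decS _ (ite _ _ _))
    rw [if_neg (by rw [cntL_eq h.1]; exact not_le.2 hc)]
    obtain ⟨i0, j0, h0⟩ := hex
    have hm : ∀ i j : Fin (q * n), (heFin q n hq hn).Cand (decS (q * n) σ) i j →
        (i.val, j.val) ∈ AlgStep_cands q (q * n) σ := fun i j hij =>
      AlgStep_mem_cands.2 ⟨i.isLt, j.isLt, (AlgStep_candB_iff hq hn h i j).2 hij⟩
    obtain ⟨x, hx⟩ := AlgStep_best_ex (fun x : ℕ × ℕ => valL (q * n) g (nextL (q * n) σ x.1 x.2))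
      (hm i0 j0 h0)
    obtain ⟨hx1, hx2⟩ := AlgStep_best_mem hx
    obtain ⟨h1, h2, h3⟩ := AlgStep_mem_cands.1 hx1
    rw [hx]
    refine ⟨⟨x.1, h1⟩, ⟨x.2, h2⟩, (AlgStep_candB_iff hq hn h ⟨x.1, h1⟩ ⟨x.2, h2⟩).1 h3,
      decS_nextL h ⟨x.1, h1⟩ ⟨x.2, h2⟩, fun i j hij => ?_⟩
    have := hx2 _ (hm i j hij)
    rw [← decS_nextL h, ← decS_nextL h, ← hval _ _ _ (wfs_nextL h _ _), ← hval _ _ _ (wfs_nextL h _ _)]
    exact this

/-- the output -/
theorem exists_outL (q : ℕ) (hq : 0 < q) : ∃ outL : ℕ → List ℕ → List Bool,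
    PT (fun x : U × List ℕ => outL x.1.val x.2) ∧
    ∀ (n : ℕ) (hn : Even n) (p : List ℕ), WFP (q * n) p → Function.Involutive (decP (q * n) p) →
      (heFin q n hq hn).Simple (decP (q * n) p) → ∀ u v : Fin n,
      (Crest.CombinatoricsR.GraphCode.adjGraph n (outL n p)).Adj u v ↔
        (heFin q n hq hn).adj (decP (q * n) p) u v := by
  refine ⟨fun n p => (List.range (n * n)).map fun t => adjL q (q * n) p (t / n) (t % n),
    by fun_prop, fun n hn p hp hi hs u v => ?_⟩
  have key : ∀ u v : Fin n, ((List.range (n * n)).map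
      fun t => adjL q (q * n) p (t / n) (t % n)).getD (u.val * n + v.val) false = true ↔
      (heFin q n hq hn).adj (decP (q * n) p) u v := by
    intro u v
    have h1 : u.val * n + v.val < n * n := by
      have := u.isLt
      have := v.isLt
      calc u.val * n + v.val < u.val * n + n := by omega
        _ = (u.val + 1) * n := by ring
        _ ≤ n * n := Nat.mul_le_mul_right _ (by omega)
    have h2 : (u.val * n + v.val) / n = u.val := by
      rw [mul_comm, Nat.mul_add_div u.pos, Nat.div_eq_of_lt v.isLt, add_zero]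
    have h3 : (u.val * n + v.val) % n = v.val := by
      rw [mul_comm, Nat.mul_add_mod, Nat.mod_eq_of_lt v.isLt]
    rw [AlgVal_getD_map_range _ _ _ h1, h2, h3]
    exact adjL_iff hq hn hp u v
  show (u ≠ v ∧ _ ∧ _) ↔ _
  rw [key, key]
  exact ⟨fun h => h.2.1, fun h => ⟨HE.adj_ne _ hs h, h, HE.adj_symm _ hi h⟩⟩

end Crest.Agent.R62
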