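import Crest.Agent.R62.AlgDefs

/-!
# R62-AlgVal: matrix arithmetic on lists; the potential is polynomial-time

PT library: `Crest.Agent.Lib.PT.*` (see its entry in the `library` table: `PT`/`PB` are `fun_prop`
properties; `unfold …; fun_prop`; mark pair-valued definitions irreducible after their `PT` lemma).
`U` is the type of unary numbers (`u.val`).  NEVER unfold the exponents `eD`, `ek`, … (treat them as
opaque constants; `PT.const`, `PB.const`).
Implement `mkM`, `mulL`, `trL`, `updL`, `joinL` as below, prove `PT` and the specifications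
(`Finset.sum_range`, `Fin.sum_univ_eq_sum_range`, `List.getD`, `List.getElem?_map`).  For `valL`: compute the
number of free half-edges `cntL`, the 17 fields of `par (decG g) m` (each is a `PT` rational expression) and
the sums of `pot` over `Finset.range N` (with an `if p.getD k 0 = k` for `rho`).
-/

set_option autoImplicit false
open Matrix Finset

namespace Crest.Agent.R62

open Crest.Agent.PTime

def mkM (N : ℕ) (f : ℕ → ℕ → ℚ) : List (List ℚ) :=
  (List.range N).map fun i => (List.range N).map fun j => f i j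

def mulL (N : ℕ) (A B : List (List ℚ)) : List (List ℚ) :=
  mkM N fun i j => ∑ k ∈ range N, getM A i k * getM B k j

def trL (N : ℕ) (A : List (List ℚ)) : ℚ := ∑ k ∈ range N, getM A k k

def ddL (A : List (List ℚ)) (i j : ℕ) : ℚ := (1 - getM A i j) ^ 2 - getM A i i * getM A j j

def updL (N : ℕ) (A : List (List ℚ)) (i j : ℕ) : List (List ℚ) :=
  mkM N fun k l => if k = i ∨ k = j ∨ l = i ∨ l = j then 0 else
    getM A k l + (((1 - getM A i j) * getM A k j + getM A j j * getM A k i) / ddL A i j * getM A l i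
      + ((1 - getM A i j) * getM A k i + getM A i i * getM A k j) / ddL A i j * getM A l j)

def joinL (N : ℕ) (p : List ℕ) (i j : ℕ) : List ℕ :=
  (List.range N).map fun k => if k = i then j else if k = j then i else p.getD k 0

def nextL (N : ℕ) (σ : StL) (i j : ℕ) : StL := (joinL N σ.1 i j, updL N σ.2.1 i j, updL N σ.2.2 i j)

def cntL (N : ℕ) (p : List ℕ) : ℕ := (List.range N).countP fun k => p.getD k 0 = k

theorem AlgVal_getD_map_range {β : Type*} (N : ℕ) (f : ℕ → β) (d : β) {k : ℕ} (hk : k < N) :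
    ((List.range N).map f).getD k d = f k := by
  rw [List.getD_eq_getElem?_getD, List.getElem?_map, List.getElem?_range hk]
  rfl

theorem AlgVal_getM_mkM (N : ℕ) (f : ℕ → ℕ → ℚ) {i j : ℕ} (hi : i < N) (hj : j < N) :
    getM (mkM N f) i j = f i j := by
  unfold getM mkM
  rw [AlgVal_getD_map_range N _ _ hi, AlgVal_getD_map_range N _ _ hj]

theorem AlgVal_countP_range (N : ℕ) (P : ℕ → Prop) [DecidablePred P] :
    (List.range N).countP (fun k => decide (P k)) =
      (univ.filter fun k : Fin N => P k.val).card := by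
  rw [Finset.card_filter, Fin.sum_univ_eq_sum_range (fun k => if P k then 1 else 0) N]
  induction N with
  | zero => simp
  | succ N ih =>
    rw [List.range_succ, List.countP_append, ih, Finset.sum_range_succ]
    by_cases h : P N <;> simp [h]

theorem wfm_mkM (N : ℕ) (f : ℕ → ℕ → ℚ) : WFM N (mkM N f) := by
  refine ⟨by simp [mkM], fun r hr => ?_⟩
  simp only [mkM, List.mem_map] at hr
  obtain ⟨i, -, rfl⟩ := hr
  simp
theorem decM_mkM (N : ℕ) (f : ℕ → ℕ → ℚ) (i j : Fin N) : decM N (mkM N f) i j = f i j :=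
  AlgVal_getM_mkM N f i.isLt j.isLt
theorem decM_mulL (N : ℕ) (A B : List (List ℚ)) : decM N (mulL N A B) = decM N A * decM N B := by
  ext i j
  unfold mulL
  rw [decM_mkM, Matrix.mul_apply, ← Fin.sum_univ_eq_sum_range (fun k => getM A i k * getM B k j) N]
  rfl
theorem trL_eq (N : ℕ) (A : List (List ℚ)) : trL N A = (decM N A).trace := by
  unfold trL
  rw [← Fin.sum_univ_eq_sum_range (fun k => getM A k k) N]
  rfl
theorem ddL_eq (N : ℕ) (A : List (List ℚ)) (i j : Fin N) : ddL A i j = dd (decM N A) i j := rfl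

theorem AlgVal_getD_lt {N : ℕ} {p : List ℕ} (hp : WFP N p) {k : ℕ} (hk : k < N) : p.getD k 0 < N := by
  have h : k < p.length := hp.1 ▸ hk
  rw [List.getD_eq_getElem?_getD, List.getElem?_eq_getElem h]
  exact hp.2 _ (List.getElem_mem h)

theorem AlgVal_wfp_map_range {N : ℕ} {f : ℕ → ℕ} (h : ∀ k < N, f k < N) :
    WFP N ((List.range N).map f) := by
  refine ⟨by simp, fun x hx => ?_⟩
  simp only [List.mem_map, List.mem_range] at hx
  obtain ⟨k, hk, rfl⟩ := hx
  exact h k hk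

theorem wfp_joinL {N : ℕ} {p : List ℕ} (hp : WFP N p) (i j : Fin N) : WFP N (joinL N p i j) := by
  refine AlgVal_wfp_map_range fun k hk => ?_
  split_ifs
  · exact j.isLt
  · exact i.isLt
  · exact AlgVal_getD_lt hp hk

theorem AlgVal_decP_val {N : ℕ} {p : List ℕ} (hp : WFP N p) (k : Fin N) :
    (decP N p k).val = p.getD k 0 := by
  unfold decP
  rw [dif_pos (AlgVal_getD_lt hp k.isLt)]

theorem decP_joinL {N : ℕ} {p : List ℕ} (hp : WFP N p) (i j : Fin N) :
    decP N (joinL N p i j) = join (decP N p) i j := by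
  funext k
  apply Fin.ext
  rw [AlgVal_decP_val (wfp_joinL hp i j)]
  unfold joinL join
  rw [AlgVal_getD_map_range N _ _ k.isLt]
  simp only [Fin.val_inj]
  split_ifs
  · rfl
  · rfl
  · exact (AlgVal_decP_val hp k).symm
theorem decP_val {N : ℕ} {p : List ℕ} (hp : WFP N p) (k : Fin N) : (decP N p k).val = p.getD k 0 :=
  AlgVal_decP_val hp k
theorem wfs_nextL {N : ℕ} {σ : StL} (h : WFS N σ) (i j : Fin N) : WFS N (nextL N σ i j) :=
  ⟨wfp_joinL h.1 i j, wfm_mkM _ _, wfm_mkM _ _⟩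

theorem AlgVal_decM_updL (N : ℕ) (A : List (List ℚ)) (i j : Fin N) :
    decM N (updL N A i j) = upd (decM N A) i j := by
  ext k l
  unfold updL
  rw [decM_mkM]
  simp only [upd, Matrix.of_apply, Fin.val_inj]
  rfl

theorem decS_nextL {N : ℕ} {σ : StL} (h : WFS N σ) (i j : Fin N) :
    decS N (nextL N σ i j) = (decS N σ).next i j := by
  unfold decS nextL St.next
  simp only [decP_joinL h.1, AlgVal_decM_updL]
theorem cntL_eq {N : ℕ} {p : List ℕ} (hp : WFP N p) : cntL N p = (free (decP N p)).card := by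
  unfold cntL free
  rw [AlgVal_countP_range N fun k => p.getD k 0 = k]
  congr 1
  ext k
  simp only [mem_filter, mem_univ, true_and, Fin.ext_iff, decP_val hp]

section PT
variable {α : Type*} [Enc α]

@[fun_prop] theorem PT_getM {A : α → List (List ℚ)} {i j : α → ℕ} (hA : PT A) (hi : PT i) (hj : PT j) :
    PT (fun a => getM (A a) (i a) (j a)) := by
  unfold getM; fun_prop

theorem AlgVal_PT_mkM {N : α → ℕ} {f : α → ℕ → ℕ → ℚ} (hN : PT N) (hb : PB N)
    (hf : PT (fun p : (α × U) × U => f p.1.1 p.1.2.val p.2.val)) : PT (fun a => mkM (N a) (f a)) := by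
  unfold mkM
  refine PT.map_range (f := fun a i => (List.range (N a)).map fun j => f a i j) hN hb ?_
  exact PT.map_range (n := fun p : α × U => N p.1) (f := fun (p : α × U) j => f p.1 p.2.val j)
    (hN.comp (by fun_prop)) (hb.comp (by fun_prop)) hf

@[fun_prop] theorem PT_mulL {N : α → ℕ} {A B : α → List (List ℚ)} (hN : PT N) (hb : PB N) (hA : PT A)
    (hB : PT B) : PT (fun a => mulL (N a) (A a) (B a)) := by
  unfold mulL
  refine AlgVal_PT_mkM hN hb ?_
  fun_prop
@[fun_prop] theorem PT_trL {N : α → ℕ} {A : α → List (List ℚ)} (hN : PT N) (hb : PB N) (hA : PT A) :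
    PT (fun a => trL (N a) (A a)) := by
  unfold trL; fun_prop
@[fun_prop] theorem PT_ddL {A : α → List (List ℚ)} {i j : α → ℕ} (hA : PT A) (hi : PT i) (hj : PT j) :
    PT (fun a => ddL (A a) (i a) (j a)) := by
  unfold ddL; fun_prop
@[fun_prop] theorem PT_joinL {N i j : α → ℕ} {p : α → List ℕ} (hN : PT N) (hb : PB N) (hp : PT p)
    (hi : PT i) (hj : PT j) : PT (fun a => joinL (N a) (p a) (i a) (j a)) := by
  unfold joinL; fun_prop
@[fun_prop] theorem AlgVal_PT_updL {N i j : α → ℕ} {A : α → List (List ℚ)} (hN : PT N) (hb : PB N)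
    (hA : PT A) (hi : PT i) (hj : PT j) : PT (fun a => updL (N a) (A a) (i a) (j a)) := by
  unfold updL
  refine AlgVal_PT_mkM hN hb ?_
  fun_prop
@[fun_prop] theorem PT_nextL {N i j : α → ℕ} {σ : α → StL} (hN : PT N) (hb : PB N) (hσ : PT σ)
    (hi : PT i) (hj : PT j) : PT (fun a => nextL (N a) (σ a) (i a) (j a)) := by
  unfold nextL; fun_prop
@[fun_prop] theorem PT_cntL {N : α → ℕ} {p : α → List ℕ} (hN : PT N) (hb : PB N) (hp : PT p) :
    PT (fun a => cntL (N a) (p a)) := by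
  unfold cntL; fun_prop

/-! ### the potential -/

def AlgVal_tau2 (N : ℕ) (A : List (List ℚ)) : ℚ := trL N (mulL N A A)
def AlgVal_tau4 (N : ℕ) (A : List (List ℚ)) : ℚ := trL N (mulL N (mulL N (mulL N A A) A) A)
def AlgVal_WW (N : ℕ) (A B : List (List ℚ)) : ℚ := trL N (mulL N (mulL N A A) B)
def AlgVal_rho (N : ℕ) (p : List ℕ) (c : ℚ) (A : List (List ℚ)) : ℚ :=
  ∑ k ∈ range N, if p.getD k 0 = k then (getM (mulL N A A) k k - c) ^ 2 else 0
def AlgVal_Del (N : ℕ) (A : List (List ℚ)) : ℚ := ∑ k ∈ range N, getM A k k ^ 2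
def AlgVal_Q4 (N : ℕ) (A : List (List ℚ)) : ℚ := ∑ k ∈ range N, ∑ l ∈ range N, getM A k l ^ 4

theorem AlgVal_tau2_eq (N : ℕ) (A : List (List ℚ)) : AlgVal_tau2 N A = tau2 (decM N A) := by
  unfold AlgVal_tau2 tau2; rw [trL_eq, decM_mulL]
theorem AlgVal_tau4_eq (N : ℕ) (A : List (List ℚ)) : AlgVal_tau4 N A = tau4 (decM N A) := by
  unfold AlgVal_tau4 tau4; rw [trL_eq, decM_mulL, decM_mulL, decM_mulL]
theorem AlgVal_WW_eq (N : ℕ) (A B : List (List ℚ)) : AlgVal_WW N A B = WW (decM N A) (decM N B) := by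
  unfold AlgVal_WW WW; rw [trL_eq, decM_mulL, decM_mulL]
theorem AlgVal_rho_eq {N : ℕ} {p : List ℕ} (hp : WFP N p) (c : ℚ) (A : List (List ℚ)) :
    AlgVal_rho N p c A = rho (free (decP N p)) c (decM N A) := by
  unfold AlgVal_rho rho free rr
  rw [Finset.sum_filter, ← Fin.sum_univ_eq_sum_range
    (fun k => if p.getD k 0 = k then (getM (mulL N A A) k k - c) ^ 2 else 0) N, ← decM_mulL]
  refine Finset.sum_congr rfl fun k _ => ?_
  simp only [Fin.ext_iff, decP_val hp]
  rfl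
theorem AlgVal_Del_eq (N : ℕ) (A : List (List ℚ)) : AlgVal_Del N A = Del (decM N A) := by
  unfold AlgVal_Del Del
  rw [← Fin.sum_univ_eq_sum_range (fun k => getM A k k ^ 2) N]
  rfl
theorem AlgVal_Q4_eq (N : ℕ) (A : List (List ℚ)) : AlgVal_Q4 N A = Q4 (decM N A) := by
  unfold AlgVal_Q4 Q4
  rw [← Fin.sum_univ_eq_sum_range (fun k => ∑ l ∈ range N, getM A k l ^ 4) N]
  refine Finset.sum_congr rfl fun k _ => ?_
  rw [← Fin.sum_univ_eq_sum_range (fun l => getM A k l ^ 4) N]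
  rfl

@[fun_prop] theorem AlgVal_PT_tau2 {N : α → ℕ} {A : α → List (List ℚ)} (hN : PT N) (hb : PB N)
    (hA : PT A) : PT (fun a => AlgVal_tau2 (N a) (A a)) := by
  unfold AlgVal_tau2; fun_prop
@[fun_prop] theorem AlgVal_PT_tau4 {N : α → ℕ} {A : α → List (List ℚ)} (hN : PT N) (hb : PB N)
    (hA : PT A) : PT (fun a => AlgVal_tau4 (N a) (A a)) := by
  unfold AlgVal_tau4; fun_prop
@[fun_prop] theorem AlgVal_PT_WW {N : α → ℕ} {A B : α → List (List ℚ)} (hN : PT N) (hb : PB N)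
    (hA : PT A) (hB : PT B) : PT (fun a => AlgVal_WW (N a) (A a) (B a)) := by
  unfold AlgVal_WW; fun_prop
@[fun_prop] theorem AlgVal_PT_rho {N : α → ℕ} {p : α → List ℕ} {c : α → ℚ} {A : α → List (List ℚ)}
    (hN : PT N) (hb : PB N) (hp : PT p) (hc : PT c) (hA : PT A) :
    PT (fun a => AlgVal_rho (N a) (p a) (c a) (A a)) := by
  unfold AlgVal_rho; fun_prop
@[fun_prop] theorem AlgVal_PT_Del {N : α → ℕ} {A : α → List (List ℚ)} (hN : PT N) (hb : PB N)
    (hA : PT A) : PT (fun a => AlgVal_Del (N a) (A a)) := by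
  unfold AlgVal_Del; fun_prop
@[fun_prop] theorem AlgVal_PT_Q4 {N : α → ℕ} {A : α → List (List ℚ)} (hN : PT N) (hb : PB N)
    (hA : PT A) : PT (fun a => AlgVal_Q4 (N a) (A a)) := by
  unfold AlgVal_Q4; fun_prop
@[fun_prop] theorem AlgVal_PT_pp {x : α → ℚ} (hx : PT x) : PT (fun a => pp (x a)) := by
  unfold pp; fun_prop

/-- all fields are polynomial time -/
structure AlgVal_ParPT (P : α → Par ℚ) : Prop where
  m : PT fun a => (P a).m
  g : PT fun a => (P a).g
  c : PT fun a => (P a).c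
  ell : PT fun a => (P a).ell
  Wq : PT fun a => (P a).Wq
  a1 : PT fun a => (P a).a1
  a2 : PT fun a => (P a).a2
  a3 : PT fun a => (P a).a3
  a3L : PT fun a => (P a).a3L
  a4 : PT fun a => (P a).a4
  a5 : PT fun a => (P a).a5
  a6 : PT fun a => (P a).a6
  a7 : PT fun a => (P a).a7
  c3a : PT fun a => (P a).c3a
  c3b : PT fun a => (P a).c3b
  t0a : PT fun a => (P a).t0a
  t0b : PT fun a => (P a).t0b

theorem AlgVal_ParPT.ite {p : α → Prop} [∀ a, Decidable (p a)] {P Q : α → Par ℚ} (hp : PT p)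
    (hP : AlgVal_ParPT P) (hQ : AlgVal_ParPT Q) : AlgVal_ParPT fun a => if p a then P a else Q a :=
  ⟨(hp.ite hP.m hQ.m).congr fun a => by split_ifs <;> rfl,
   (hp.ite hP.g hQ.g).congr fun a => by split_ifs <;> rfl,
   (hp.ite hP.c hQ.c).congr fun a => by split_ifs <;> rfl,
   (hp.ite hP.ell hQ.ell).congr fun a => by split_ifs <;> rfl,
   (hp.ite hP.Wq hQ.Wq).congr fun a => by split_ifs <;> rfl,
   (hp.ite hP.a1 hQ.a1).congr fun a => by split_ifs <;> rfl,
   (hp.ite hP.a2 hQ.a2).congr fun a => by split_ifs <;> rfl,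
   (hp.ite hP.a3 hQ.a3).congr fun a => by split_ifs <;> rfl,
   (hp.ite hP.a3L hQ.a3L).congr fun a => by split_ifs <;> rfl,
   (hp.ite hP.a4 hQ.a4).congr fun a => by split_ifs <;> rfl,
   (hp.ite hP.a5 hQ.a5).congr fun a => by split_ifs <;> rfl,
   (hp.ite hP.a6 hQ.a6).congr fun a => by split_ifs <;> rfl,
   (hp.ite hP.a7 hQ.a7).congr fun a => by split_ifs <;> rfl,
   (hp.ite hP.c3a hQ.c3a).congr fun a => by split_ifs <;> rfl,
   (hp.ite hP.c3b hQ.c3b).congr fun a => by split_ifs <;> rfl,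
   (hp.ite hP.t0a hQ.t0a).congr fun a => by split_ifs <;> rfl,
   (hp.ite hP.t0b hQ.t0b).congr fun a => by split_ifs <;> rfl⟩

theorem AlgVal_powc {x : α → ℚ} (hx : PT x) (e : ℕ) : PT (fun a => x a ^ e) :=
  hx.rat_pow (PT.const e) (PB.const e)

theorem AlgVal_parAB {G : α → Glob ℚ} {m : α → ℚ} (ht : PT fun a => (G a).t) (hn : PT fun a => (G a).n)
    (hm0 : PT fun a => (G a).m0) (hE : PT fun a => (G a).E) (h1 : PT fun a => (G a).c3a)
    (h2 : PT fun a => (G a).c3b) (h3 : PT fun a => (G a).t0a) (h4 : PT fun a => (G a).t0b) (hm : PT m) :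
    AlgVal_ParPT fun a => parAB (G a) (m a) := by
  have hp := AlgVal_powc ht
  have hc : PT fun a => (G a).t ^ (2 * eal) < m a := (hp _).rat_lt hm
  have h1p : ∀ e : ℕ, PT fun a => 1 / (G a).t ^ e := fun e => (PT.const 1).rat_div (hp e)
  have hn2 : PT fun a => 100 / (G a).n ^ 2 := (PT.const 100).rat_div (AlgVal_powc hn 2)
  refine ⟨hm, (hE.rat_mul hm).rat_div (hE.rat_add hm), hm.rat_div (hE.rat_add hm),
    (hp er0).rat_mul ((PT.const 0).rat_max ((PT.const 1).rat_min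
      ((hm.rat_sub (hp (2 * eal))).rat_div (hp (2 * eal))))),
    ((PT.const 11).rat_div ((PT.const 10).rat_mul hm)).rat_add
      (hm0.rat_div ((PT.const 10).rat_mul (AlgVal_powc hm 2))),
    h1p _, hc.ite (h1p _) (h1p _), hn2, hc.ite hn2 (PT.const 0), hc.ite (h1p _) (h1p _),
    hc.ite (h1p _) (h1p _), h1p _, PT.const 0, h1, h2, h3, h4⟩

theorem AlgVal_parC {G : α → Glob ℚ} {m : α → ℚ} (ht : PT fun a => (G a).t)
    (h1 : PT fun a => (G a).c3a)
    (h2 : PT fun a => (G a).c3b) (h3 : PT fun a => (G a).t0a) (h4 : PT fun a => (G a).t0b) (hm : PT m) :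
    AlgVal_ParPT fun a => parC (G a) (m a) := by
  have hp := AlgVal_powc ht
  refine ⟨hm, PT.const 0, PT.const 0, PT.const 0, PT.const 0, PT.const 0, PT.const 0, PT.const 0,
    PT.const 0, PT.const 0, (hp _).rat_div hm,
    (PT.const 1).rat_div ((((hp _).rat_mul hm).rat_div (hp _)).rat_add ((PT.const 1).rat_div (hp _))),
    (PT.const 1).rat_div (((AlgVal_powc hm 2).rat_div (hp _)).rat_add (PT.const (1 / 2))),
    h1, h2, h3, h4⟩

theorem AlgVal_par {g : α → List ℚ} {m : α → ℚ} (hg : PT g) (hm : PT m) :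
    AlgVal_ParPT fun a => par (decG (g a)) (m a) := by
  have h : ∀ i : ℕ, PT fun a => (g a).getD i 0 := fun i => (PT.const i).getD hg (PT.const 0)
  exact AlgVal_ParPT.ite ((AlgVal_powc (h 0) _).rat_lt hm)
    (AlgVal_parAB (G := fun a => decG (g a)) (h 0) (h 1) (h 2) (h 3) (h 4) (h 5) (h 6) (h 7) hm)
    (AlgVal_parC (G := fun a => decG (g a)) (h 0) (h 4) (h 5) (h 6) (h 7) hm)

def AlgVal_half (P : Par ℚ) (N : ℕ) (p : List ℕ) (x y : List (List ℚ)) (c3 t0 : ℚ) : ℚ :=
  P.a1 * pp (|trL N x| - P.ell) + P.a2 * (AlgVal_tau2 N x - P.m + P.g) ^ 2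
    + P.a3 * pp (|AlgVal_WW N x x| - |c3|) + P.a3 * pp (|AlgVal_WW N x y| - t0)
    + P.a3L * (AlgVal_WW N x x - c3) ^ 2
    + P.a4 * AlgVal_tau4 N x + P.a5 * AlgVal_rho N p P.c x + P.a6 * AlgVal_Del N x
    + P.a7 * (AlgVal_tau2 N x - 1)

def AlgVal_pot (P : Par ℚ) (N : ℕ) (p : List ℕ) (a b : List (List ℚ)) : ℚ :=
  P.Wq * (AlgVal_Q4 N a + AlgVal_Q4 N b) + AlgVal_half P N p a b P.c3a P.t0a
    + AlgVal_half P N p b a P.c3b P.t0b

theorem AlgVal_half_eq (P : Par ℚ) {N : ℕ} {p : List ℕ} (hp : WFP N p) (x y : List (List ℚ))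
    (c3 t0 : ℚ) : AlgVal_half P N p x y c3 t0 =
      half P (free (decP N p)) (decM N x) (decM N y) c3 t0 := by
  unfold AlgVal_half half tau1
  rw [trL_eq, AlgVal_tau2_eq, AlgVal_WW_eq, AlgVal_WW_eq, AlgVal_tau4_eq, AlgVal_rho_eq hp,
    AlgVal_Del_eq]

theorem AlgVal_pot_eq (P : Par ℚ) {N : ℕ} {p : List ℕ} (hp : WFP N p) (a b : List (List ℚ)) :
    AlgVal_pot P N p a b = pot P (free (decP N p)) (decM N a) (decM N b) := by
  unfold AlgVal_pot pot
  rw [AlgVal_half_eq P hp, AlgVal_half_eq P hp, AlgVal_Q4_eq, AlgVal_Q4_eq]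

theorem AlgVal_PT_half {P : α → Par ℚ} {N : α → ℕ} {p : α → List ℕ} {x y : α → List (List ℚ)}
    {c3 t0 : α → ℚ} (hP : AlgVal_ParPT P) (hN : PT N) (hb : PB N) (hp : PT p) (hx : PT x) (hy : PT y)
    (hc : PT c3) (ht : PT t0) :
    PT fun a => AlgVal_half (P a) (N a) (p a) (x a) (y a) (c3 a) (t0 a) := by
  have e1 := PT_trL hN hb hx
  have e2 := AlgVal_PT_tau2 hN hb hx
  have e3 := AlgVal_PT_WW hN hb hx hx
  have e4 := AlgVal_PT_WW hN hb hx hy
  exact ((((((((hP.a1.rat_mul (AlgVal_PT_pp (e1.rat_abs.rat_sub hP.ell))).rat_add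
    (hP.a2.rat_mul (AlgVal_powc ((e2.rat_sub hP.m).rat_add hP.g) 2))).rat_add
    (hP.a3.rat_mul (AlgVal_PT_pp (e3.rat_abs.rat_sub hc.rat_abs)))).rat_add
    (hP.a3.rat_mul (AlgVal_PT_pp (e4.rat_abs.rat_sub ht)))).rat_add
    (hP.a3L.rat_mul (AlgVal_powc (e3.rat_sub hc) 2))).rat_add
    (hP.a4.rat_mul (AlgVal_PT_tau4 hN hb hx))).rat_add
    (hP.a5.rat_mul (AlgVal_PT_rho hN hb hp hP.c hx))).rat_add
    (hP.a6.rat_mul (AlgVal_PT_Del hN hb hx))).rat_add
    (hP.a7.rat_mul (e2.rat_sub (PT.const 1)))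

theorem AlgVal_PT_pot {P : α → Par ℚ} {N : α → ℕ} {p : α → List ℕ} {x y : α → List (List ℚ)}
    (hP : AlgVal_ParPT P) (hN : PT N) (hb : PB N) (hp : PT p) (hx : PT x) (hy : PT y) :
    PT fun a => AlgVal_pot (P a) (N a) (p a) (x a) (y a) :=
  ((hP.Wq.rat_mul ((AlgVal_PT_Q4 hN hb hx).rat_add (AlgVal_PT_Q4 hN hb hy))).rat_add
    (AlgVal_PT_half hP hN hb hp hx hy hP.c3a hP.t0a)).rat_add
    (AlgVal_PT_half hP hN hb hp hy hx hP.c3b hP.t0b)

end PT

theorem exists_valL : ∃ valL : ℕ → List ℚ → StL → ℚ,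
    PT (fun x : U × List ℚ × StL => valL x.1.val x.2.1 x.2.2) ∧
    ∀ (N : ℕ) (g : List ℚ) (σ : StL), WFS N σ → valL N g σ = (decS N σ).val (decG g) := by
  refine ⟨fun N g σ => AlgVal_pot (par (decG g) (cntL N σ.1 : ℕ)) N σ.1 σ.2.1 σ.2.2, ?_,
    fun N g σ h => ?_⟩
  · have hN : PT fun x : U × List ℚ × StL => x.1.val := by fun_prop
    have hb : PB fun x : U × List ℚ × StL => x.1.val := by fun_prop
    have hp : PT fun x : U × List ℚ × StL => x.2.2.1 := by fun_prop
    exact AlgVal_PT_pot (AlgVal_par (by fun_prop) (PT_cntL hN hb hp).natCast_rat) hN hb hp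
      (by fun_prop) (by fun_prop)
  · show AlgVal_pot _ _ _ _ _ = _
    rw [AlgVal_pot_eq _ h.1, cntL_eq h.1]
    rfl

end Crest.Agent.R62
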