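import Crest.Agent.R62.Defs

/-!
# R62-Bas1: elementary facts on the two matrices of a `Ctx`

`m = s²`, `w = u²`.  All proofs are Cauchy-Schwarz (`Finset.sum_mul_sq_le_sq_mul_sq`,
`Finset.inner_mul_le_norm_mul_norm`, `sq_sum_le_card_mul_sum_sq`).
* `op`: `|x v|² = vᵀ x² v ≤ ‖x²‖_F |v|²` and `‖x²‖_F² = tau4 x ≤ K⁴`.
* `F2`: `‖x y‖_F² = tr(x² y²) ≤ ‖x²‖_F ‖y²‖_F`.
* `sum_om_gam`: put `ξ = ω - 1`; if `ξ k ≤ 1` then `ω γ ≤ 2 γ`, else `ω γ ≤ K² ω² ≤ 4 K² ξ²`;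
  `∑ ξ² ≤ 4 w²`, so the sum is `≤ 2K⁴ + 16 K² w² ≤ sS²`.
* `schurH`: `(∑_i v_i x_ki²)² ≤ r_k ∑_i v_i² x_ki²`, and `r ≤ 3w` twice.
-/

set_option autoImplicit false
open Matrix Finset

namespace Crest.Agent.R62

section General
variable {ι : Type} [Fintype ι] [DecidableEq ι]

/-- squared norm of column `k` of `x y` -/
def gam (x y : Matrix ι ι ℝ) (k : ι) : ℝ := ∑ l, (x * y) l k ^ 2

omit [DecidableEq ι] in
theorem Bas1_mul_sq_le (A B : Matrix ι ι ℝ) (i j : ι) :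
    (A * B) i j ^ 2 ≤ (∑ l, A i l ^ 2) * ∑ l, B l j ^ 2 :=
  Finset.sum_mul_sq_le_sq_mul_sq _ _ _

omit [DecidableEq ι] in
theorem Bas1_cs2 (A B : ι → ι → ℝ) :
    (∑ k, ∑ l, A k l * B k l) ^ 2 ≤ (∑ k, ∑ l, A k l ^ 2) * ∑ k, ∑ l, B k l ^ 2 := by
  simp only [← Fintype.sum_prod_type']
  exact Finset.sum_mul_sq_le_sq_mul_sq _ _ _

omit [DecidableEq ι] in
theorem Bas1_symm2 {M : Matrix ι ι ℝ} (hM : M.IsSymm) : (M * M).IsSymm := by
  unfold Matrix.IsSymm at *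
  rw [Matrix.transpose_mul, hM]

omit [DecidableEq ι] in
theorem Bas1_trace_le {A B : Matrix ι ι ℝ} (hB : B.IsSymm) :
    (A * B).trace ≤ (∑ k, ∑ l, A k l ^ 2 + ∑ k, ∑ l, B k l ^ 2) / 2 := by
  simp only [Matrix.trace, Matrix.diag, Matrix.mul_apply, ← Finset.sum_add_distrib, Finset.sum_div]
  refine Finset.sum_le_sum fun k _ => Finset.sum_le_sum fun l _ => ?_
  rw [hB.apply k l]
  nlinarith [sq_nonneg (A k l - B k l)]

omit [DecidableEq ι] in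
theorem Bas1_abs_sum (f : ι → ℝ) {s F : ℝ} (hs : 0 ≤ s) (hF : 0 ≤ F) (hc : s ^ 2 = Fintype.card ι)
    (h : ∑ k, f k ^ 2 ≤ F ^ 2) : ∑ k, |f k| ≤ s * F := by
  refine le_of_sq_le_sq (sq_sum_le_card_mul_sum_sq.trans ?_) (by positivity)
  simp only [sq_abs, Finset.card_univ, ← hc, mul_pow]
  gcongr

theorem Bas1_pp_le {a b : ℝ} (h : a ≤ |b|) : pp a ≤ b ^ 2 := by
  rw [pp, ← sq_abs b]
  exact pow_le_pow_left₀ (le_max_right _ _) (max_le h (abs_nonneg _)) 2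

theorem Bas1_pow3 {a b : ℝ} (ha : 0 ≤ a) (hb : 0 ≤ b) (n : ℕ) :
    (1 + a + b) ^ (n + 1) ≤ 3 ^ n * (1 + a ^ (n + 1) + b ^ (n + 1)) := by
  have := pow_sum_le_card_mul_sum_pow (s := (univ : Finset (Fin 3))) (f := ![1, a, b])
    (fun i _ => by fin_cases i <;> simp [ha, hb]) n
  simpa [Fin.sum_univ_three] using this

theorem rr_eq {x : Matrix ι ι ℝ} (hx : x.IsSymm) (k : ι) : rr x k = ∑ l, x k l ^ 2 := by
  rw [rr, Matrix.mul_apply]
  exact Finset.sum_congr rfl fun l _ => by rw [hx.apply k l, sq]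

theorem rr_nonneg {x : Matrix ι ι ℝ} (hx : x.IsSymm) (k : ι) : 0 ≤ rr x k := by
  rw [rr_eq hx]
  exact Finset.sum_nonneg fun _ _ => sq_nonneg _

theorem sq_le_rr {x : Matrix ι ι ℝ} (hx : x.IsSymm) (k l : ι) : x k l ^ 2 ≤ rr x k := by
  rw [rr_eq hx]
  exact Finset.single_le_sum (f := fun l => x k l ^ 2) (fun _ _ => sq_nonneg _) (Finset.mem_univ l)

theorem tau2_eq (x : Matrix ι ι ℝ) : tau2 x = ∑ k, rr x k := rfl

theorem tau4_eq {x : Matrix ι ι ℝ} (hx : x.IsSymm) : tau4 x = ∑ k, ∑ l, (x * x) k l ^ 2 := by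
  rw [tau4, Matrix.mul_assoc (x * x)]
  exact Finset.sum_congr rfl fun k _ => rr_eq (Bas1_symm2 hx) k

theorem tau4_nonneg {x : Matrix ι ι ℝ} (hx : x.IsSymm) : 0 ≤ tau4 x := by
  rw [tau4_eq hx]
  exact Finset.sum_nonneg fun _ _ => Finset.sum_nonneg fun _ _ => sq_nonneg _

theorem tau4_le_sq {x : Matrix ι ι ℝ} (hx : x.IsSymm) : tau4 x ≤ tau2 x ^ 2 := by
  rw [tau4_eq hx, tau2_eq, sq, Finset.sum_mul_sum]
  refine Finset.sum_le_sum fun k _ => Finset.sum_le_sum fun l _ => ?_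
  refine (Bas1_mul_sq_le x x k l).trans (le_of_eq ?_)
  rw [rr_eq hx, rr_eq hx]
  simp only [hx.apply l]

theorem sum_rr_sq_le {x : Matrix ι ι ℝ} (hx : x.IsSymm) : ∑ k, rr x k ^ 2 ≤ tau2 x ^ 2 := by
  rw [tau2_eq]
  exact Finset.sum_sq_le_sq_sum_of_nonneg fun k _ => rr_nonneg hx k

theorem Q4_nonneg (x : Matrix ι ι ℝ) : 0 ≤ Q4 x := Finset.sum_nonneg fun _ _ => Finset.sum_nonneg fun _ _ => by positivity

theorem Q4_le {x : Matrix ι ι ℝ} (hx : x.IsSymm) : Q4 x ≤ ∑ k, rr x k ^ 2 := by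
  refine Finset.sum_le_sum fun k _ => ?_
  rw [rr_eq hx]
  refine le_of_eq_of_le ?_ (Finset.sum_sq_le_sq_sum_of_nonneg fun l _ => sq_nonneg (x k l))
  exact Finset.sum_congr rfl fun l _ => by ring

theorem WW_sq_le {x : Matrix ι ι ℝ} (hx : x.IsSymm) : WW x x ^ 2 ≤ tau2 x * tau4 x := by
  have e : WW x x = ∑ k, ∑ l, x k l * (x * x) k l := by
    rw [WW, Matrix.trace]
    refine Finset.sum_congr rfl fun k _ => ?_
    rw [Matrix.diag, Matrix.mul_apply]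
    exact Finset.sum_congr rfl fun l _ => by rw [hx.apply k l, mul_comm]
  rw [e, tau4_eq hx, tau2_eq]
  simp only [rr_eq hx]
  exact Bas1_cs2 _ _

theorem tau1_sq_le (x : Matrix ι ι ℝ) : tau1 x ^ 2 ≤ Fintype.card ι * Del x := sq_sum_le_card_mul_sum_sq

theorem mul_sq_le (A B : Matrix ι ι ℝ) (i j : ι) :
    (A * B) i j ^ 2 ≤ (∑ l, A i l ^ 2) * ∑ l, B l j ^ 2 := Bas1_mul_sq_le A B i j

/-- row sums of a product -/
theorem rowsum_mul {A B : Matrix ι ι ℝ} (hA : ∀ k, ∑ l, A k l = 1) (hB : ∀ k, ∑ l, B k l = 1)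
    (k : ι) : ∑ l, (A * B) k l = 1 := by
  simp only [Matrix.mul_apply]
  rw [Finset.sum_comm]
  simp only [← Finset.mul_sum, hB, mul_one, hA]

/-- `τ₂ ≥ 1` when the support is non-empty -/
theorem one_le_tau2 {U : Finset ι} {x : Matrix ι ι ℝ} (hx : RSU U x) (hU : U.Nonempty) :
    1 ≤ tau2 x := by
  obtain ⟨h1, h2, h3⟩ := hx
  have hc : (0 : ℝ) < U.card := by exact_mod_cast hU.card_pos
  have h4 : ∀ k ∈ U, 1 / (U.card : ℝ) ≤ rr x k := fun k hk => by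
    have e : ∑ l ∈ U, x k l = 1 := by
      rw [← h3 k hk]
      exact Finset.sum_subset (Finset.subset_univ U) fun l _ hl => by
        rw [h1.apply l k, h2 l k hl]
    have h5 := sq_sum_le_card_mul_sum_sq (s := U) (f := fun l => x k l)
    rw [e, one_pow] at h5
    rw [div_le_iff₀' hc, rr_eq h1]
    refine h5.trans (mul_le_mul_of_nonneg_left ?_ hc.le)
    exact Finset.sum_le_sum_of_subset_of_nonneg (Finset.subset_univ U) fun _ _ _ => sq_nonneg _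
  rw [tau2_eq]
  calc (1 : ℝ) = ∑ _k ∈ U, 1 / (U.card : ℝ) := by
        rw [Finset.sum_const, nsmul_eq_mul]; field_simp
    _ ≤ ∑ k ∈ U, rr x k := Finset.sum_le_sum h4
    _ ≤ _ := Finset.sum_le_sum_of_subset_of_nonneg (Finset.subset_univ U)
        fun k _ _ => rr_nonneg h1 k

theorem RS.rsu {x : Matrix ι ι ℝ} (hx : RS x) : RSU univ x := ⟨hx.1, fun k _ hk => absurd (Finset.mem_univ k) hk, fun k _ => hx.2 k⟩

/-- `(|x+δ| - l')₊² ≤ ...`, the one-step inequality for the soft-threshold potentials -/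
theorem pp_step (x δ l l' : ℝ) (h0 : 0 ≤ l') (h1 : l' ≤ l) :
    pp (|x + δ| - l') ≤ pp (|x| - l)
      + 2 * max (|x| - l) 0 * ((if 0 ≤ x then 1 else -1) * δ + (l - l')) + (|δ| + (l - l')) ^ 2 := by
  have a1 := le_abs_self δ
  have a2 := neg_abs_le δ
  have a3 : |δ| ^ 2 = δ ^ 2 := sq_abs δ
  rcases le_total |x| l with h | h
  · rw [pp, pp, max_eq_right (sub_nonpos.2 h)]
    have h2 : |x + δ| - l' ≤ |(|δ| + (l - l'))| :=
      le_trans (by linarith [abs_add_le x δ]) (le_abs_self _)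
    have := Bas1_pp_le h2
    rw [pp] at this
    linarith
  · rw [pp, pp, max_eq_left (sub_nonneg.2 h)]
    split_ifs with hx
    · have h2 : |x + δ| - l' ≤ |x + δ - l'| := by
        have := abs_sub_abs_le_abs_sub (x + δ) l'
        rwa [abs_of_nonneg h0] at this
      have := Bas1_pp_le h2
      rw [pp] at this
      rw [abs_of_nonneg hx]
      nlinarith
    · have h2 : |x + δ| - l' ≤ |x + δ + l'| := by
        have := abs_sub_abs_le_abs_sub (x + δ) (-l')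
        rwa [abs_neg, abs_of_nonneg h0, sub_neg_eq_add] at this
      have := Bas1_pp_le h2
      rw [pp] at this
      rw [abs_of_neg (not_le.1 hx)]
      nlinarith

end General

namespace Ctx
variable {ι : Type} [Fintype ι] [DecidableEq ι] (C : Ctx ι) {x y : Matrix ι ι ℝ}

theorem Let.bnd {C : Ctx ι} (hx : C.Let x) : Bnd C.toNum x := by
  rcases hx with rfl | rfl
  · exact C.ha
  · exact C.hb

theorem Let.symm {C : Ctx ι} (hx : C.Let x) : x.IsSymm := hx.bnd.rs.1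
theorem let_a : C.Let C.a := Or.inl rfl
theorem let_b : C.Let C.b := Or.inr rfl

theorem Bas1_dev_sq (hx : C.Let x) : ∑ k, (rr x k - C.c) ^ 2 ≤ C.w ^ 2 := hx.bnd.rho

theorem Bas1_dev_le (hx : C.Let x) (k : ι) : |rr x k - C.c| ≤ C.w :=
  abs_le_of_sq_le_sq' ((Finset.single_le_sum (f := fun k => (rr x k - C.c) ^ 2)
    (fun _ _ => sq_nonneg _) (Finset.mem_univ k)).trans (C.Bas1_dev_sq hx)) (sq_nonneg _) |> abs_le.2

theorem Bas1_abs_dev (hx : C.Let x) : ∑ k, |rr x k - C.c| ≤ C.w * C.s := by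
  rw [mul_comm]
  exact Bas1_abs_sum _ C.ok.s0 (sq_nonneg _) C.card (C.Bas1_dev_sq hx)

theorem Bas1_om (k : ι) : C.ω k = 1 + |rr C.a k - C.c| + |rr C.b k - C.c| := rfl

theorem Bas1_one : ∑ _k : ι, (1 : ℝ) = C.s ^ 2 := by simp [C.card]

theorem one_le_w : 1 ≤ C.w := one_le_pow₀ C.ok.u1
theorem w_le_s : C.w ≤ C.s := C.ok.us
theorem ten_le_m : 10 ≤ C.s ^ 2 := by nlinarith [C.ok.bts, C.ok.bt1]
theorem bt_le_s : C.bt ≤ C.s := le_of_sq_le_sq (by nlinarith [C.ok.bts, sq_nonneg C.bt]) C.ok.s0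
theorem sS_ge : C.K ^ 2 ≤ C.sS := by
  have := C.ok.K1
  unfold Num.sS
  nlinarith [sq_nonneg C.K, mul_nonneg (by linarith : 0 ≤ C.K) (sq_nonneg C.u)]
theorem one_le_om (k : ι) : 1 ≤ C.ω k := by
  rw [Bas1_om]
  linarith [abs_nonneg (rr C.a k - C.c), abs_nonneg (rr C.b k - C.c)]
theorem om_le (k : ι) : C.ω k ≤ 3 * C.w := by
  rw [Bas1_om]
  linarith [C.Bas1_dev_le C.let_a k, C.Bas1_dev_le C.let_b k, C.one_le_w]
theorem rr_le_om (hx : C.Let x) (k : ι) : rr x k ≤ C.ω k := by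
  rw [Bas1_om]
  have := C.ok.c1
  rcases hx with rfl | rfl
  · linarith [le_abs_self (rr C.a k - C.c), abs_nonneg (rr C.b k - C.c)]
  · linarith [le_abs_self (rr C.b k - C.c), abs_nonneg (rr C.a k - C.c)]
theorem dev_le_om (hx : C.Let x) (k : ι) : |rr x k - C.c| ≤ C.ω k - 1 := by
  rw [Bas1_om]
  rcases hx with rfl | rfl
  · linarith [abs_nonneg (rr C.b k - C.c)]
  · linarith [abs_nonneg (rr C.a k - C.c)]
theorem dev_one_le_om (hx : C.Let x) (k : ι) : |rr x k - 1| ≤ C.ω k := by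
  have h := abs_le.1 (C.dev_le_om hx k)
  have := C.ok.c1
  have := C.ok.c0
  rw [abs_le]
  constructor <;> linarith [h.1, h.2]
theorem sum_xi_sq : ∑ k, (C.ω k - 1) ^ 2 ≤ 4 * C.w ^ 2 := by
  have h : ∀ k, (C.ω k - 1) ^ 2 ≤ 2 * (rr C.a k - C.c) ^ 2 + 2 * (rr C.b k - C.c) ^ 2 := fun k => by
    rw [Bas1_om, ← sq_abs (rr C.a k - C.c), ← sq_abs (rr C.b k - C.c)]
    nlinarith [sq_nonneg (|rr C.a k - C.c| - |rr C.b k - C.c|)]
  refine (Finset.sum_le_sum fun k _ => h k).trans ?_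
  rw [Finset.sum_add_distrib, ← Finset.mul_sum, ← Finset.mul_sum]
  linarith [C.Bas1_dev_sq C.let_a, C.Bas1_dev_sq C.let_b]
theorem sum_om : ∑ k, C.ω k ≤ 3 * C.s ^ 2 := by
  simp only [Bas1_om, Finset.sum_add_distrib, C.Bas1_one]
  nlinarith [C.Bas1_abs_dev C.let_a, C.Bas1_abs_dev C.let_b, C.w_le_s, C.ok.s0]
theorem sum_om2 : ∑ k, C.ω k ^ 2 ≤ 9 * C.s ^ 2 := by
  refine (Finset.sum_le_sum fun k _ => Bas1_pow3 (abs_nonneg _) (abs_nonneg _) 1).trans ?_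
  simp only [← Finset.mul_sum, Finset.sum_add_distrib, one_pow, C.Bas1_one, Nat.reduceAdd, sq_abs]
  have : C.w ^ 2 ≤ C.s ^ 2 := pow_le_pow_left₀ (sq_nonneg _) C.w_le_s 2
  linarith [C.Bas1_dev_sq C.let_a, C.Bas1_dev_sq C.let_b]
theorem sum_om3 : ∑ k, C.ω k ^ 3 ≤ 9 * (C.s ^ 2 + 2 * C.w ^ 3) := by
  refine (Finset.sum_le_sum fun k _ => Bas1_pow3 (abs_nonneg _) (abs_nonneg _) 2).trans ?_
  have h : ∀ {x}, C.Let x → ∑ k, |rr x k - C.c| ^ 3 ≤ C.w ^ 3 := fun {x} hx => by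
    calc _ ≤ ∑ k, C.w * (rr x k - C.c) ^ 2 := Finset.sum_le_sum fun k _ => by
          rw [pow_succ', sq_abs]
          exact mul_le_mul_of_nonneg_right (C.Bas1_dev_le hx k) (sq_nonneg _)
      _ ≤ C.w * C.w ^ 2 := by
          rw [← Finset.mul_sum]
          exact mul_le_mul_of_nonneg_left (C.Bas1_dev_sq hx) (sq_nonneg _)
      _ = _ := by ring
  simp only [← Finset.mul_sum, Finset.sum_add_distrib, one_pow, C.Bas1_one, Nat.reduceAdd]
  linarith [h C.let_a, h C.let_b]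
theorem sum_om4 : ∑ k, C.ω k ^ 4 ≤ 27 * (C.s ^ 2 + 2 * C.w ^ 4) := by
  refine (Finset.sum_le_sum fun k _ => Bas1_pow3 (abs_nonneg _) (abs_nonneg _) 3).trans ?_
  have h : ∀ {x}, C.Let x → ∑ k, |rr x k - C.c| ^ 4 ≤ C.w ^ 4 := fun {x} hx => by
    calc _ ≤ ∑ k, C.w ^ 2 * (rr x k - C.c) ^ 2 := Finset.sum_le_sum fun k _ => by
          rw [show 4 = 2 + 2 from rfl, pow_add, sq_abs]
          refine mul_le_mul_of_nonneg_right ?_ (sq_nonneg _)
          rw [← sq_abs]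
          exact pow_le_pow_left₀ (abs_nonneg _) (C.Bas1_dev_le hx k) 2
      _ ≤ C.w ^ 2 * C.w ^ 2 := by
          rw [← Finset.mul_sum]
          exact mul_le_mul_of_nonneg_left (C.Bas1_dev_sq hx) (sq_nonneg _)
      _ = _ := by ring
  simp only [← Finset.mul_sum, Finset.sum_add_distrib, one_pow, C.Bas1_one, Nat.reduceAdd]
  linarith [h C.let_a, h C.let_b]
theorem sum_y_sq (hx : C.Let x) : ∑ k, (rr x k - 1) ^ 2 ≤ 4 * C.s ^ 2 := by
  have h : ∀ k, (rr x k - 1) ^ 2 ≤ 2 * (rr x k - C.c) ^ 2 + 2 * 1 := fun k => by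
    nlinarith [sq_nonneg (rr x k - C.c + (1 - C.c)), C.ok.c0, C.ok.c1]
  refine (Finset.sum_le_sum fun k _ => h k).trans ?_
  rw [Finset.sum_add_distrib, ← Finset.mul_sum, ← Finset.mul_sum, Bas1_one]
  have : C.w ^ 2 ≤ C.s ^ 2 := pow_le_pow_left₀ (sq_nonneg _) C.w_le_s 2
  linarith [C.Bas1_dev_sq hx]
theorem sum_abs_dev (hx : C.Let x) : ∑ k, |rr x k - C.c| ≤ C.w * C.s := C.Bas1_abs_dev hx
theorem tau2_le_m (hx : C.Let x) : tau2 x ≤ C.s ^ 2 := hx.bnd.t2.trans (pow_le_pow_left₀ C.ok.tt0 C.ok.tts 2)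
theorem sum_sq_le (hx : C.Let x) : ∑ i, ∑ j, x i j ^ 2 ≤ C.tt ^ 2 := by
  simp only [← rr_eq hx.symm]
  exact hx.bnd.t2
theorem abs_diag_le (hx : C.Let x) (k : ι) : |x k k| ≤ C.dl := abs_le.2 (abs_le_of_sq_le_sq' ((Finset.single_le_sum (f := fun k => x k k ^ 2)
    (fun _ _ => sq_nonneg _) (Finset.mem_univ k)).trans hx.bnd.dl) C.ok.dl0)
theorem sum_abs_diag (hx : C.Let x) : ∑ k, |x k k| ≤ C.s * C.dl := Bas1_abs_sum _ C.ok.s0 C.ok.dl0 C.card hx.bnd.dl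
theorem abs_tau1_le (hx : C.Let x) : |tau1 x| ≤ C.s * C.dl := (Finset.abs_sum_le_sum_abs (fun k => x k k) _).trans (C.sum_abs_diag hx)
theorem row_abs (hx : C.Let x) (i : ι) : ∑ j, |x i j| ≤ 2 * C.s * C.u := by
  have h := Bas1_abs_sum (fun j => x i j) (F := 2 * C.u) C.ok.s0 (by linarith [C.ok.u1]) C.card (by
    rw [← rr_eq hx.symm]
    have h1 := (C.rr_le_om hx i).trans (C.om_le i)
    have h2 : C.w = C.u ^ 2 := rfl
    nlinarith [sq_nonneg C.u])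
  linarith
theorem trace_mul_le (hx : C.Let x) (hy : C.Let y) : (x * y).trace ≤ C.s ^ 2 := by
  have := pow_le_pow_left₀ C.ok.tt0 C.ok.tts 2
  linarith [Bas1_trace_le (A := x) hy.symm, C.sum_sq_le hx, C.sum_sq_le hy]

theorem op (hx : C.Let x) (v : ι → ℝ) : ∑ k, (x *ᵥ v) k ^ 2 ≤ C.K ^ 2 * ∑ k, v k ^ 2 := by
  have e : ∑ k, (x *ᵥ v) k ^ 2 = ∑ k, ∑ l, (x * x) k l * (v k * v l) := by
    calc ∑ k, (x *ᵥ v) k ^ 2 = ∑ m, ∑ k, ∑ l, x m k * v k * (x m l * v l) :=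
          Finset.sum_congr rfl fun m _ => by rw [sq]; exact Finset.sum_mul_sum _ _ _ _
      _ = ∑ k, ∑ l, ∑ m, x m k * v k * (x m l * v l) := by
          rw [Finset.sum_comm]
          exact Finset.sum_congr rfl fun k _ => Finset.sum_comm
      _ = _ := by
          refine Finset.sum_congr rfl fun k _ => Finset.sum_congr rfl fun l _ => ?_
          rw [Matrix.mul_apply, Finset.sum_mul]
          refine Finset.sum_congr rfl fun m _ => ?_
          rw [hx.symm.apply k m]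
          ring
  have e2 : ∑ k, ∑ l, (v k * v l) ^ 2 = (∑ k, v k ^ 2) ^ 2 := by
    simp only [mul_pow]
    rw [← Finset.sum_mul_sum, ← sq]
  have h0 : 0 ≤ ∑ k, v k ^ 2 := Finset.sum_nonneg fun _ _ => sq_nonneg _
  rw [e]
  refine le_of_sq_le_sq ((Bas1_cs2 _ _).trans ?_) (by positivity)
  rw [e2, ← tau4_eq hx.symm, mul_pow, ← pow_mul]
  exact mul_le_mul_of_nonneg_right hx.bnd.t4 (sq_nonneg _)

theorem opL (hx : C.Let x) (M : Matrix ι ι ℝ) :
    ∑ i, ∑ j, (x * M) i j ^ 2 ≤ C.K ^ 2 * ∑ i, ∑ j, M i j ^ 2 := by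
  rw [Finset.sum_comm, Finset.sum_comm (f := fun i j => M i j ^ 2), Finset.mul_sum]
  exact Finset.sum_le_sum fun j _ => C.op hx fun l => M l j

theorem opR (hx : C.Let x) (M : Matrix ι ι ℝ) :
    ∑ i, ∑ j, (M * x) i j ^ 2 ≤ C.K ^ 2 * ∑ i, ∑ j, M i j ^ 2 := by
  rw [Finset.mul_sum]
  refine Finset.sum_le_sum fun i _ => le_of_eq_of_le ?_ (C.op hx (M i))
  refine Finset.sum_congr rfl fun j _ => ?_
  simp only [Matrix.mulVec, dotProduct, Matrix.mul_apply, hx.symm.apply j, mul_comm]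

theorem F2 (hx : C.Let x) (hy : C.Let y) : ∑ i, ∑ j, (x * y) i j ^ 2 ≤ C.K ^ 4 := by
  have e : ∑ i, ∑ j, (x * y) i j ^ 2 = (x * x * (y * y)).trace := by
    have e1 : (x * x * (y * y)).trace = ((x * y) * (x * y)ᵀ).trace := by
      rw [Matrix.transpose_mul, hx.symm.eq, hy.symm.eq, Matrix.mul_assoc x x, Matrix.trace_mul_comm]
      simp only [Matrix.mul_assoc]
    rw [e1]
    simp only [Matrix.trace, Matrix.diag, Matrix.mul_apply (M := x * y), Matrix.transpose_apply, sq]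
  have h := Bas1_trace_le (A := x * x) (Bas1_symm2 hy.symm)
  rw [← tau4_eq hx.symm, ← tau4_eq hy.symm] at h
  linarith [hx.bnd.t4, hy.bnd.t4]

theorem gam_le (hx : C.Let x) (hy : C.Let y) (k : ι) : gam x y k ≤ C.K ^ 2 * rr y k := by
  refine (C.op hx fun l => y l k).trans (le_of_eq ?_)
  rw [rr_eq hy.symm]
  simp only [hy.symm.apply k]

theorem sum_gam (hx : C.Let x) (hy : C.Let y) : ∑ k, gam x y k ≤ C.K ^ 4 := by
  unfold gam
  rw [Finset.sum_comm]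
  exact C.F2 hx hy

theorem sum_om_gam (hx : C.Let x) (hy : C.Let y) : ∑ k, C.ω k * gam x y k ≤ C.sS ^ 2 := by
  have h : ∀ k, C.ω k * gam x y k ≤ 2 * gam x y k + 4 * C.K ^ 2 * (C.ω k - 1) ^ 2 := fun k => by
    have g0 : 0 ≤ gam x y k := Finset.sum_nonneg fun _ _ => sq_nonneg _
    have g1 : gam x y k ≤ C.K ^ 2 * C.ω k :=
      (C.gam_le hx hy k).trans (mul_le_mul_of_nonneg_left (C.rr_le_om hy k) (sq_nonneg _))
    have o1 := C.one_le_om k
    have k0 := sq_nonneg C.K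
    rcases le_total (C.ω k) 2 with h | h
    · nlinarith [mul_nonneg k0 (sq_nonneg (C.ω k - 1))]
    · have a1 : C.ω k * gam x y k ≤ C.ω k * (C.K ^ 2 * C.ω k) :=
        mul_le_mul_of_nonneg_left g1 (by linarith)
      have a2 : C.ω k ^ 2 ≤ 4 * (C.ω k - 1) ^ 2 := by nlinarith
      nlinarith [mul_le_mul_of_nonneg_left a2 k0]
  refine (Finset.sum_le_sum fun k _ => h k).trans ?_
  rw [Finset.sum_add_distrib, ← Finset.mul_sum, ← Finset.mul_sum]
  have a1 := C.sum_gam hx hy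
  have a2 := mul_le_mul_of_nonneg_left C.sum_xi_sq (by positivity : 0 ≤ 4 * C.K ^ 2)
  have k0 : 0 ≤ C.K := by linarith [C.ok.K1]
  have a3 : 0 ≤ C.K ^ 3 * C.u ^ 2 := by positivity
  have a4 : 0 ≤ C.K ^ 4 := by positivity
  unfold Num.sS
  unfold Num.w at a2
  nlinarith

theorem schurH (hx : C.Let x) (v : ι → ℝ) :
    ∑ k, (∑ i, v i * x k i ^ 2) ^ 2 ≤ 9 * C.w ^ 2 * ∑ i, v i ^ 2 := by
  have r3 : ∀ k, rr x k ≤ 3 * C.w := fun k => (C.rr_le_om hx k).trans (C.om_le k)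
  have w0 : 0 ≤ 3 * C.w := by linarith [C.one_le_w]
  have h : ∀ k, (∑ i, v i * x k i ^ 2) ^ 2 ≤ 3 * C.w * ∑ i, v i ^ 2 * x k i ^ 2 := fun k => by
    have h1 := Finset.sum_mul_sq_le_sq_mul_sq univ (fun i => x k i) (fun i => v i * x k i)
    rw [← rr_eq hx.symm] at h1
    simp only [mul_pow] at h1
    refine (le_of_eq_of_le ?_ h1).trans (mul_le_mul_of_nonneg_right (r3 k)
      (Finset.sum_nonneg fun _ _ => by positivity))
    congr 1
    exact Finset.sum_congr rfl fun i _ => by ring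
  refine (Finset.sum_le_sum fun k _ => h k).trans ?_
  rw [← Finset.mul_sum, Finset.sum_comm, show 9 * C.w ^ 2 = 3 * C.w * (3 * C.w) by ring, mul_assoc,
    mul_assoc (3 * C.w), ← mul_assoc 3]
  refine mul_le_mul_of_nonneg_left ?_ w0
  rw [Finset.mul_sum]
  refine Finset.sum_le_sum fun i _ => ?_
  rw [← Finset.mul_sum, mul_comm]
  refine mul_le_mul_of_nonneg_right (le_of_eq_of_le ?_ (r3 i)) (sq_nonneg _)
  rw [rr_eq hx.symm]
  simp only [hx.symm.apply i]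

end Ctx

end Crest.Agent.R62
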