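import Crest.Agent.R62.Bas1

/-!
# R62-Bas2: tools for the weighted average `C.E`, and bounds for `dd` on good pairs

`π = 1 - lam φ - β`.  `β` is symmetric with `∑_j |β i j| ≤ bt² ω i` (`C.hβ`), so (AM-GM / Schur)
`|∑ β X| ≤ ∑ |β| (μ u_i² + v_j²/μ)/2` when `|X i j| ≤ u_i v_j`.  `TF` is Cauchy-Schwarz with `C.hF`.
`|Z - m²| ≤ lam |∑ φ| + ∑|β| ≤ 2 lam m + 3 bt² m`.
-/

set_option autoImplicit false
open Matrix Finset

namespace Crest.Agent.R62

section Good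
variable {ι : Type} [Fintype ι] [DecidableEq ι] {x : Matrix ι ι ℝ} {i j : ι}

/-- the two smallness conditions for one matrix -/
def Sm (x : Matrix ι ι ℝ) (i j : ι) : Prop := |x i j| ≤ 1 / 1000 ∧ |x i i * x j j| ≤ 1 / 1000

theorem Bas2_div {N d A : ℝ} (hd : 0.997 ≤ d) (hA : 0 ≤ A) (h : |N| ≤ 0.997 * A) : |N / d| ≤ A := by
  have d0 : 0 < d := by linarith
  rw [abs_div, abs_of_pos d0, div_le_iff₀ d0]
  nlinarith

theorem Sm.dd_ge (h : Sm x i j) : 0.997 ≤ dd x i j := by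
  obtain ⟨f1, f2⟩ := abs_le.1 h.1
  obtain ⟨p1, p2⟩ := abs_le.1 h.2
  unfold dd
  nlinarith
theorem Sm.dd_le (h : Sm x i j) : dd x i j ≤ 1.004 := by
  obtain ⟨f1, f2⟩ := abs_le.1 h.1
  obtain ⟨p1, p2⟩ := abs_le.1 h.2
  unfold dd
  nlinarith
theorem Sm.dd_pos (h : Sm x i j) : 0 < dd x i j := lt_of_lt_of_le (by norm_num) h.dd_ge
theorem Sm.inv_le (h : Sm x i j) : 1 / dd x i j ≤ 1.0031 := by
  rw [div_le_iff₀ h.dd_pos]
  linarith [h.dd_ge]
theorem Sm.inv_sub (h : Sm x i j) : |1 / dd x i j - 1| ≤ 3 * (|x i j| + |x i i * x j j|) := by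
  have hd := h.dd_ge
  have d0 := h.dd_pos
  have a1 := le_abs_self (x i j)
  have a2 := neg_abs_le (x i j)
  have a3 := le_abs_self (x i i * x j j)
  have a4 := neg_abs_le (x i i * x j j)
  have a5 := h.1
  have a6 := h.2
  have a7 := abs_nonneg (x i j)
  have a8 := abs_nonneg (x i i * x j j)
  have a9 := sq_abs (x i j)
  have e : 1 / dd x i j - 1 = (2 * x i j - x i j ^ 2 + x i i * x j j) / dd x i j := by
    field_simp
    unfold dd
    ring
  rw [e]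
  refine Bas2_div hd (by positivity) (abs_le.2 ⟨?_, ?_⟩) <;> nlinarith
theorem Sm.inv_sub2 (h : Sm x i j) :
    |1 / dd x i j - 1 - 2 * x i j| ≤ 4 * (x i j ^ 2 + |x i i * x j j|) := by
  have hd := h.dd_ge
  have d0 := h.dd_pos
  have a1 := le_abs_self (x i j)
  have a2 := neg_abs_le (x i j)
  have a3 := le_abs_self (x i i * x j j)
  have a4 := neg_abs_le (x i i * x j j)
  have a5 := h.1
  have a6 := h.2
  have a7 := abs_nonneg (x i j)
  have a8 := abs_nonneg (x i i * x j j)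
  have a9 := sq_abs (x i j)
  have e : 1 / dd x i j - 1 - 2 * x i j =
      (3 * x i j ^ 2 - 2 * x i j * x i j ^ 2 + x i i * x j j + 2 * (x i j * (x i i * x j j)))
        / dd x i j := by
    field_simp
    unfold dd
    ring
  have b1 : |x i j * (x i i * x j j)| ≤ 1 / 1000 * |x i i * x j j| := by
    rw [abs_mul]
    gcongr
  obtain ⟨b2, b3⟩ := abs_le.1 b1
  have b4 := sq_nonneg (x i j)
  rw [e]
  refine Bas2_div hd (by positivity) (abs_le.2 ⟨?_, ?_⟩) <;> nlinarith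
theorem Sm.k_pos (h : Sm x i j) : 0 ≤ (1 - x i j) / dd x i j := div_nonneg (by linarith [(abs_le.1 h.1).2]) h.dd_pos.le
theorem Sm.k_le (h : Sm x i j) : (1 - x i j) / dd x i j ≤ 1.005 := by
  rw [div_le_iff₀ h.dd_pos]
  linarith [h.dd_ge, (abs_le.1 h.1).1]
theorem Sm.k_sub (h : Sm x i j) :
    |(1 - x i j) / dd x i j - 1| ≤ 2 * (|x i j| + |x i i * x j j|) := by
  have hd := h.dd_ge
  have d0 := h.dd_pos
  have a1 := le_abs_self (x i j)
  have a2 := neg_abs_le (x i j)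
  have a3 := le_abs_self (x i i * x j j)
  have a4 := neg_abs_le (x i i * x j j)
  have a5 := h.1
  have a6 := h.2
  have a7 := abs_nonneg (x i j)
  have a8 := abs_nonneg (x i i * x j j)
  have a9 := sq_abs (x i j)
  have e : (1 - x i j) / dd x i j - 1 = (x i j - x i j ^ 2 + x i i * x j j) / dd x i j := by
    field_simp
    unfold dd
    ring
  rw [e]
  refine Bas2_div hd (by positivity) (abs_le.2 ⟨?_, ?_⟩) <;> nlinarith
theorem Sm.inv_sq_ge (h : Sm x i j) :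
    1 - 7 * (|x i j| + |x i i * x j j|) ≤ 1 / dd x i j ^ 2 := by
  have h1 := (abs_le.1 h.inv_sub).1
  have e : 1 / dd x i j ^ 2 = (1 / dd x i j) ^ 2 := by rw [div_pow, one_pow]
  rw [e]
  nlinarith [sq_nonneg (1 / dd x i j - 1), abs_nonneg (x i j), abs_nonneg (x i i * x j j)]
theorem Sm.prod_le (h : Sm x i j) : |x i i * x j j| ≤ |x i i| + |x j j| := by
  have h2 := h.2
  rw [abs_mul] at h2 ⊢
  have a1 := abs_nonneg (x i i)
  have a2 := abs_nonneg (x j j)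
  rcases le_total |x i i| 1 with h1 | h1
  · nlinarith
  · have : |x j j| ≤ 1 := by nlinarith
    nlinarith

end Good

namespace Ctx
variable {ι : Type} [Fintype ι] [DecidableEq ι] (C : Ctx ι) {x y : Matrix ι ι ℝ}

theorem Let.sm {C : Ctx ι} (hx : C.Let x) {i j : ι} (h : Good C.a C.b i j) : Sm x i j := by
  rcases hx with rfl | rfl
  · exact ⟨h.2.1, h.2.2.2.1⟩
  · exact ⟨h.2.2.1, h.2.2.2.2⟩

theorem Bas2_β_symm (i j : ι) : C.β i j = C.β j i := by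
  unfold β
  rw [C.πs i j, C.ha.rs.1.apply i j, C.hb.rs.1.apply i j]

theorem Bas2_β_row (i : ι) : ∑ j, |C.β i j| ≤ C.bt ^ 2 * C.ω i := C.hβ i

omit [DecidableEq ι] in
theorem Bas2_cs2 (X Y : ι → ι → ℝ) {F G : ℝ} (hF : 0 ≤ F) (hG : 0 ≤ G)
    (hX : ∑ i, ∑ j, X i j ^ 2 ≤ F ^ 2) (hY : ∑ i, ∑ j, Y i j ^ 2 ≤ G ^ 2) :
    ∑ i, ∑ j, |X i j| * |Y i j| ≤ F * G := by
  refine le_of_sq_le_sq ((Bas1_cs2 _ _).trans ?_) (by positivity)
  simp only [sq_abs, mul_pow]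
  exact mul_le_mul hX hY (Finset.sum_nonneg fun _ _ => Finset.sum_nonneg fun _ _ => sq_nonneg _)
    (sq_nonneg _)

omit [DecidableEq ι] in
theorem Bas2_abs2 (X : ι → ι → ℝ) : |∑ i, ∑ j, X i j| ≤ ∑ i, ∑ j, |X i j| :=
  (Finset.abs_sum_le_sum_abs _ _).trans
    (Finset.sum_le_sum fun _ _ => Finset.abs_sum_le_sum_abs _ _)

theorem E_add (X Y : ι → ι → ℝ) : C.E (fun i j => X i j + Y i j) = C.E X + C.E Y := by
  simp only [E, mul_add, Finset.sum_add_distrib]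
theorem E_sub (X Y : ι → ι → ℝ) : C.E (fun i j => X i j - Y i j) = C.E X - C.E Y := by
  simp only [E, mul_sub, Finset.sum_sub_distrib]
theorem E_mul (r : ℝ) (X : ι → ι → ℝ) : C.E (fun i j => r * X i j) = r * C.E X := by
  simp only [E, Finset.mul_sum, mul_left_comm]
theorem E_const (r : ℝ) : C.E (fun _ _ => r) = r * C.Z := by
  simp only [E, Z, Finset.mul_sum, mul_comm]
theorem E_swap (X : ι → ι → ℝ) : C.E (fun i j => X j i) = C.E X := by
  unfold E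
  rw [Finset.sum_comm]
  exact Finset.sum_congr rfl fun i _ => Finset.sum_congr rfl fun j _ => by rw [C.πs j i]

theorem E_congr {X Y : ι → ι → ℝ} (h : ∀ i j, Good C.a C.b i j → X i j = Y i j) :
    C.E X = C.E Y := by
  refine Finset.sum_congr rfl fun i _ => Finset.sum_congr rfl fun j _ => ?_
  by_cases h0 : C.π i j = 0
  · rw [h0, zero_mul, zero_mul]
  · rw [h i j (C.supp i j h0)]

theorem E_mono {X Y : ι → ι → ℝ} (h : ∀ i j, Good C.a C.b i j → X i j ≤ Y i j) :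
    C.E X ≤ C.E Y := by
  refine Finset.sum_le_sum fun i _ => Finset.sum_le_sum fun j _ => ?_
  by_cases h0 : C.π i j = 0
  · rw [h0, zero_mul, zero_mul]
  · exact mul_le_mul_of_nonneg_left (h i j (C.supp i j h0)) (C.π0 i j)

theorem abs_E_le {X Y : ι → ι → ℝ} (h : ∀ i j, Good C.a C.b i j → |X i j| ≤ Y i j) :
    |C.E X| ≤ C.E Y := by
  refine abs_le.2 ⟨?_, C.E_mono fun i j g => (abs_le.1 (h i j g)).2⟩
  have := C.E_mono (X := fun i j => -1 * Y i j) (Y := X) fun i j g => by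
    linarith [(abs_le.1 (h i j g)).1]
  rw [E_mul] at this
  linarith

/-- Cauchy-Schwarz for the weighted sum -/
theorem E_mul_sq_le (X Y : ι → ι → ℝ) :
    C.E (fun i j => X i j * Y i j) ^ 2 ≤ C.E (fun i j => X i j ^ 2) * C.E (fun i j => Y i j ^ 2) := by
  have h := Bas1_cs2 (fun i j => √(C.π i j) * X i j) (fun i j => √(C.π i j) * Y i j)
  have e : ∀ i j, √(C.π i j) * X i j * (√(C.π i j) * Y i j) = C.π i j * (X i j * Y i j) :=
    fun i j => by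
      rw [mul_mul_mul_comm, Real.mul_self_sqrt (C.π0 i j)]
  simp only [e, mul_pow, Real.sq_sqrt (C.π0 _ _)] at h
  exact h

theorem TU {X Y : ι → ι → ℝ} (h : ∀ i j, Good C.a C.b i j → X i j ≤ Y i j) (h0 : ∀ i j, 0 ≤ Y i j) :
    C.E X ≤ C.pm * ∑ i, ∑ j, Y i j := by
  refine (C.E_mono h).trans ?_
  simp only [E, Finset.mul_sum]
  exact Finset.sum_le_sum fun i _ => Finset.sum_le_sum fun j _ =>
    mul_le_mul_of_nonneg_right (C.πle i j) (h0 i j)

theorem TUabs {X Y : ι → ι → ℝ} (h : ∀ i j, Good C.a C.b i j → |X i j| ≤ Y i j)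
    (h0 : ∀ i j, 0 ≤ Y i j) : |C.E X| ≤ 3 / 2 * ∑ i, ∑ j, Y i j := ((C.abs_E_le h).trans (C.TU (fun _ _ _ => le_rfl) h0)).trans
    (mul_le_mul_of_nonneg_right C.ok.pm2
      (Finset.sum_nonneg fun i _ => Finset.sum_nonneg fun j _ => h0 i j))

theorem E_eq (X : ι → ι → ℝ) : C.E X = ∑ i, ∑ j, X i j - C.lam * ∑ i, ∑ j, C.φ i j * X i j
    - ∑ i, ∑ j, C.β i j * X i j := by
  simp only [E, Finset.mul_sum, ← Finset.sum_sub_distrib]
  refine Finset.sum_congr rfl fun i _ => Finset.sum_congr rfl fun j _ => ?_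
  simp only [φ, β, Matrix.add_apply, Matrix.smul_apply, smul_eq_mul]
  ring

theorem TP {X : ι → ι → ℝ} {u v : ι → ℝ} (h : ∀ i j, |X i j| ≤ u i * v j) {μ : ℝ} (hμ : 0 < μ) :
    |∑ i, ∑ j, C.β i j * X i j| ≤
      C.bt ^ 2 * (μ * ∑ i, C.ω i * u i ^ 2 + (∑ j, C.ω j * v j ^ 2) / μ) / 2 := by
  have h1 : ∀ i j, |C.β i j * X i j| ≤
      μ / 2 * (u i ^ 2 * |C.β i j|) + 1 / (2 * μ) * (v j ^ 2 * |C.β j i|) := fun i j => by
    rw [abs_mul, ← C.Bas2_β_symm i j]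
    have a1 : u i * v j ≤ μ / 2 * u i ^ 2 + 1 / (2 * μ) * v j ^ 2 := by
      have : 0 ≤ (μ * u i - v j) ^ 2 / (2 * μ) := by positivity
      have e : (μ * u i - v j) ^ 2 / (2 * μ) =
          μ / 2 * u i ^ 2 + 1 / (2 * μ) * v j ^ 2 - u i * v j := by
        field_simp
        ring
      linarith
    nlinarith [mul_le_mul_of_nonneg_left ((h i j).trans a1) (abs_nonneg (C.β i j))]
  have h2 : ∀ u : ι → ℝ, ∑ i, ∑ j, u i ^ 2 * |C.β i j| ≤ C.bt ^ 2 * ∑ i, C.ω i * u i ^ 2 :=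
    fun u => by
      rw [Finset.mul_sum]
      refine Finset.sum_le_sum fun i _ => ?_
      rw [← Finset.mul_sum]
      nlinarith [mul_le_mul_of_nonneg_left (C.Bas2_β_row i) (sq_nonneg (u i))]
  refine (Bas2_abs2 _).trans ((Finset.sum_le_sum fun i _ => Finset.sum_le_sum fun j _ =>
    h1 i j).trans ?_)
  simp only [Finset.sum_add_distrib, ← Finset.mul_sum]
  rw [Finset.sum_comm (f := fun i j => v j ^ 2 * |C.β j i|)]
  have a1 := mul_le_mul_of_nonneg_left (h2 u) (by positivity : 0 ≤ μ / 2)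
  have a2 := mul_le_mul_of_nonneg_left (h2 v) (by positivity : 0 ≤ 1 / (2 * μ))
  simp only [← Finset.mul_sum] at a1 a2 ⊢
  refine (add_le_add a1 a2).trans (le_of_eq ?_)
  field_simp

theorem T1 {X : ι → ι → ℝ} {u : ι → ℝ} (h : ∀ i j, |X i j| ≤ u i) :
    |∑ i, ∑ j, C.β i j * X i j| ≤ C.bt ^ 2 * ∑ i, C.ω i * u i := by
  refine (Bas2_abs2 _).trans ?_
  rw [Finset.mul_sum]
  refine Finset.sum_le_sum fun i _ => ?_
  have u0 : 0 ≤ u i := (abs_nonneg _).trans (h i i)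
  calc ∑ j, |C.β i j * X i j| ≤ ∑ j, |C.β i j| * u i := Finset.sum_le_sum fun j _ => by
        rw [abs_mul]
        exact mul_le_mul_of_nonneg_left (h i j) (abs_nonneg _)
    _ ≤ C.bt ^ 2 * C.ω i * u i := by
        rw [← Finset.sum_mul]
        exact mul_le_mul_of_nonneg_right (C.Bas2_β_row i) u0
    _ = _ := mul_assoc _ _ _

theorem TF {X : ι → ι → ℝ} {F : ℝ} (hF : 0 ≤ F) (h : ∑ i, ∑ j, X i j ^ 2 ≤ F ^ 2) :
    |C.E X - ∑ i, ∑ j, X i j| ≤ 2 * C.bt * C.s * F := by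
  have b0 : 0 ≤ C.bt := by linarith [C.ok.bt1]
  have s0 := C.ok.s0
  have e : ∑ i, ∑ j, X i j - C.E X = ∑ i, ∑ j, (1 - C.π i j) * X i j := by
    simp only [E, ← Finset.sum_sub_distrib, sub_mul, one_mul]
  rw [abs_sub_comm, e]
  refine (Bas2_abs2 _).trans ?_
  simp only [abs_mul]
  refine Bas2_cs2 _ _ (by positivity) hF (C.hF.trans ?_) h
  nlinarith [sq_nonneg (C.bt * C.s)]

/-- functions of the first index only -/
theorem E_one (u : ι → ℝ) :
    |C.E (fun i _ => u i) - C.s ^ 2 * ∑ i, u i| ≤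
      2 * C.lam * |∑ i, u i| + C.bt ^ 2 * ∑ i, C.ω i * |u i| := by
  have e1 : ∑ i, ∑ _j : ι, u i = C.s ^ 2 * ∑ i, u i := by
    simp only [Finset.sum_const, Finset.card_univ, nsmul_eq_mul, ← Finset.mul_sum, C.card]
  have e2 : ∑ i, ∑ j, C.φ i j * u i = (C.χa + C.χb) * ∑ i, u i := by
    rw [Finset.mul_sum]
    refine Finset.sum_congr rfl fun i _ => ?_
    simp only [φ, Matrix.add_apply, Matrix.smul_apply, smul_eq_mul, ← Finset.sum_mul,
      Finset.sum_add_distrib, ← Finset.mul_sum, C.ha.rs.2 i, C.hb.rs.2 i, mul_one]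
  have h1 := C.T1 (X := fun i _ => u i) (u := fun i => |u i|) fun _ _ => le_rfl
  have h2 : |C.lam * ((C.χa + C.χb) * ∑ i, u i)| ≤ 2 * C.lam * |∑ i, u i| := by
    rw [abs_mul, abs_mul, abs_of_nonneg C.ok.lam0]
    have : |C.χa + C.χb| ≤ 2 := (abs_add_le _ _).trans (by linarith [C.χa1, C.χb1])
    nlinarith [mul_le_mul_of_nonneg_right this (mul_nonneg C.ok.lam0 (abs_nonneg (∑ i, u i)))]
  rw [E_eq, e1, e2]
  obtain ⟨a1, a2⟩ := abs_le.1 h1
  obtain ⟨a3, a4⟩ := abs_le.1 h2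
  rw [abs_le]
  constructor <;> linarith

theorem Z_sub : |C.Z - C.s ^ 4| ≤ 5 * C.bt ^ 2 * C.s ^ 2 := by
  have h := C.E_one fun _ => 1
  rw [E_const, C.Bas1_one, one_mul, abs_of_nonneg (sq_nonneg C.s), ← pow_add] at h
  simp only [abs_one, mul_one] at h
  refine h.trans ?_
  have a1 := mul_le_mul_of_nonneg_left C.sum_om (sq_nonneg C.bt)
  have a2 : C.lam ≤ C.bt ^ 2 := by nlinarith [C.ok.lamb, C.ok.bt1]
  nlinarith [mul_le_mul_of_nonneg_right a2 (sq_nonneg C.s)]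
theorem Z_ge : C.s ^ 4 / 2 ≤ C.Z := by
  have h := (abs_le.1 C.Z_sub).1
  nlinarith [mul_le_mul_of_nonneg_right C.ok.bts (sq_nonneg C.s)]
theorem Z_le : C.Z ≤ C.pm * C.s ^ 4 := by
  have h := C.TU (X := fun _ _ => 1) (Y := fun _ _ => 1) (fun _ _ _ => le_rfl) fun _ _ => zero_le_one
  rw [E_const, one_mul] at h
  simp only [C.Bas1_one, Finset.sum_const, Finset.card_univ, nsmul_eq_mul, ← C.card] at h
  refine h.trans (le_of_eq ?_)
  ring

/-- Frobenius norm of `|f| + |g h|` -/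
theorem F_fgh (hx : C.Let x) :
    ∑ i, ∑ j, (|x i j| + |x i i * x j j|) ^ 2 ≤ (C.tt + C.dl ^ 2) ^ 2 := by
  have h1 := C.sum_sq_le hx
  have h2 : ∑ i, ∑ j, (x i i * x j j) ^ 2 ≤ (C.dl ^ 2) ^ 2 := by
    simp only [mul_pow]
    rw [← Finset.sum_mul_sum, ← sq]
    exact pow_le_pow_left₀ (Finset.sum_nonneg fun _ _ => sq_nonneg _) hx.bnd.dl 2
  have h3 := Bas2_cs2 _ _ C.ok.tt0 (sq_nonneg _) h1 h2
  have e : ∀ i j, (|x i j| + |x i i * x j j|) ^ 2 =
      x i j ^ 2 + 2 * (|x i j| * |x i i * x j j|) + (x i i * x j j) ^ 2 := fun i j => by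
    rw [add_sq, sq_abs, sq_abs, mul_assoc]
  simp only [e, Finset.sum_add_distrib, ← Finset.mul_sum]
  nlinarith

theorem tt_add_le : C.tt + C.dl ^ 2 ≤ 2 * C.s := by
  have := pow_le_pow_left₀ C.ok.dl0 C.ok.dle 2
  linarith [C.ok.tts, C.ok.deb, C.bt_le_s]

/-- Cauchy-Schwarz for double sums -/
theorem cs2 (X Y : ι → ι → ℝ) {F G : ℝ} (hF : 0 ≤ F) (hG : 0 ≤ G)
    (hX : ∑ i, ∑ j, X i j ^ 2 ≤ F ^ 2) (hY : ∑ i, ∑ j, Y i j ^ 2 ≤ G ^ 2) :
    ∑ i, ∑ j, |X i j| * |Y i j| ≤ F * G := Bas2_cs2 X Y hF hG hX hY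

/-- averaging -/
theorem exists_le {X : ι → ι → ℝ} {A : ℝ} (hA : 0 ≤ A) (h : C.E X ≤ A) :
    ∃ i j, C.π i j ≠ 0 ∧ X i j ≤ 2 * A / C.s ^ 4 := by
  by_contra hn
  push Not at hn
  have s4 : 0 < C.s ^ 4 := by nlinarith [C.ten_le_m]
  have h1 : ∀ i j, 0 ≤ C.π i j * (X i j - 2 * A / C.s ^ 4) := fun i j => by
    by_cases h0 : C.π i j = 0
    · rw [h0, zero_mul]
    · exact mul_nonneg (C.π0 i j) (sub_nonneg.2 (hn i j h0).le)
  have h2 : C.E (fun i j => X i j - 2 * A / C.s ^ 4) ≤ 0 := by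
    rw [E_sub, E_const]
    have a1 : 2 * A / C.s ^ 4 * (C.s ^ 4 / 2) ≤ 2 * A / C.s ^ 4 * C.Z :=
      mul_le_mul_of_nonneg_left C.Z_ge (by positivity)
    have a2 : 2 * A / C.s ^ 4 * (C.s ^ 4 / 2) = A := by
      generalize C.s ^ 4 = t at s4
      field_simp
    linarith
  have h3 : ∀ i j, C.π i j = 0 := fun i j => by
    by_contra h0
    have a1 : 0 < C.π i j * (X i j - 2 * A / C.s ^ 4) :=
      mul_pos (lt_of_le_of_ne (C.π0 i j) (Ne.symm h0)) (sub_pos.2 (hn i j h0))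
    have a2 : 0 < C.E (fun i j => X i j - 2 * A / C.s ^ 4) :=
      Finset.sum_pos' (fun i _ => Finset.sum_nonneg fun j _ => h1 i j)
        ⟨i, Finset.mem_univ i, Finset.sum_pos' (fun j _ => h1 i j) ⟨j, Finset.mem_univ j, a1⟩⟩
    linarith
  have h4 : C.Z = 0 := by simp [Z, h3]
  linarith [C.Z_ge]

end Ctx

end Crest.Agent.R62
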