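import Crest.Agent.R62.AlgDefs

/-!
# R62-Cast: from `ℚ` to `ℝ`, and the parameters `t`, `σ`

All quantities commute with `Rat.cast` (`Matrix.map_mul` for `Rat.castHom ℝ`, `AddMonoidHom.map_trace` or
unfold and `push_cast`; `Rat.cast_lt`, `Rat.cast_max`, `Rat.cast_min`, `Rat.cast_abs`).
`params`: `t = tN n` satisfies `t^eD ≤ n < (t+1)^eD` (`Nat.findGreatest_spec`, `Nat.findGreatest_is_greatest`;
`t + 1 ≤ n` or `n ≤ (t+1)^eD` trivially), `(t+1)^D ≤ 2 t^D` for `t ≥ 2D` (`(1+1/t)^D ≤ exp(D/t) ≤ 2`), `t → ∞`.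
With `X = t^(2k+2) - t^(k+2)`, `s = sqrt(X/q)`: `q s² ≤ X < q (s+1)²`, so
`t^(k+2) ≤ t^(2k+2) - q s² < t^(k+2) + q(2s+1) ≤ 2 t^(k+2)` for `t ≥ 3q` (`s ≤ t^(k+1)`).
Prove these for a variable exponent and instantiate at the end.
-/

set_option autoImplicit false
open Matrix Finset

namespace Crest.Agent.R62

open Crest.Agent.PTime

variable {V H : Type} [Fintype V] [DecidableEq V] [Fintype H] [DecidableEq H] {q : ℕ}

omit [Fintype H] [DecidableEq H] in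
theorem Cast_dd (M : Matrix H H ℚ) (i j : H) : dd (M.map (Rat.cast : ℚ → ℝ)) i j = (dd M i j : ℚ) := by
  simp [dd]

omit [Fintype H] in
theorem Cast_upd (M : Matrix H H ℚ) (i j : H) :
    (upd M i j).map (Rat.cast : ℚ → ℝ) = upd (M.map Rat.cast) i j := by
  ext k l
  simp only [upd, map_apply, of_apply, del, kap1, kap2, Cast_dd]
  split_ifs <;> simp

omit [DecidableEq H] in
theorem Cast_mul (A B : Matrix H H ℚ) :
    A.map (Rat.cast : ℚ → ℝ) * B.map Rat.cast = (A * B).map Rat.cast := by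
  ext k l
  simp [mul_apply]

omit [DecidableEq H] in
theorem Cast_trace (A : Matrix H H ℚ) : (A.map (Rat.cast : ℚ → ℝ)).trace = (A.trace : ℚ) := by
  simp [trace]

/-- cast of the parameters -/
def Par.cast (P : Par ℚ) : Par ℝ :=
  ⟨P.m, P.g, P.c, P.ell, P.Wq, P.a1, P.a2, P.a3, P.a3L, P.a4, P.a5, P.a6, P.a7, P.c3a, P.c3b, P.t0a,
    P.t0b⟩

omit [DecidableEq H] in
theorem Cast_half (P : Par ℚ) (S : Finset H) (a b : Matrix H H ℚ) (c t : ℚ) :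
    half P.cast S (a.map Rat.cast) (b.map Rat.cast) c t = (half P S a b c t : ℚ) := by
  simp [half, Par.cast, pp, tau1, tau2, tau4, WW, rho, rr, Del, Cast_mul, Cast_trace]

omit [DecidableEq H] in
theorem Cast_pot (P : Par ℚ) (S : Finset H) (a b : Matrix H H ℚ) :
    pot P.cast S (a.map Rat.cast) (b.map Rat.cast) = (pot P S a b : ℚ) := by
  have h1 := Cast_half P S a b P.c3a P.t0a
  have h2 := Cast_half P S b a P.c3b P.t0b
  simp only [pot, Rat.cast_add, ← h1, ← h2]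
  simp [Par.cast, Q4]

theorem Cast_par (G : Glob ℚ) (m : ℚ) : par G.cast m = (par G m).cast := by
  have h : ∀ k : ℕ, (G.cast.t ^ k < (m : ℝ)) ↔ G.t ^ k < m := fun k => by
    rw [← Rat.cast_lt (K := ℝ), Rat.cast_pow]; rfl
  simp only [par, h]
  split_ifs
  · simp only [parAB, h]
    split_ifs <;> simp [Par.cast, Glob.cast]
  · simp [parC, Par.cast, Glob.cast]

theorem St.cast_next (σ : St H ℚ) (i j : H) : (σ.next i j).cast = σ.cast.next i j := by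
  simp only [St.next, St.cast, Cast_upd]

theorem St.cast_val (G : Glob ℚ) (σ : St H ℚ) : σ.cast.val G.cast = ((σ.val G : ℚ) : ℝ) := by
  rw [St.val, St.val, ← Cast_pot, ← Cast_par, Rat.cast_natCast]
  rfl

theorem HE.cast_cand (Γ : HE V H q) (σ : St H ℚ) (i j : H) : Γ.Cand σ.cast i j ↔ Γ.Cand σ i j := by
  simp only [HE.Cand, St.cast, Cast_dd, Rat.cast_pos]

theorem HE.cast_step (Γ : HE V H q) (G : Glob ℚ) {σ σ' : St H ℚ} (h : Γ.Step G σ σ') :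
    Γ.Step G.cast σ.cast σ'.cast := by
  obtain ⟨i, j, h1, rfl, h2⟩ := h
  refine ⟨i, j, (Γ.cast_cand σ i j).2 h1, σ.cast_next i j, fun i' j' h3 => ?_⟩
  rw [← St.cast_next, ← St.cast_next, St.cast_val, St.cast_val, Rat.cast_le]
  exact h2 i' j' ((Γ.cast_cand σ i' j').1 h3)

theorem HE.cast_M0 (Γ : HE V H q) (s σ y : ℚ) :
    (Γ.M0 s σ y).map Rat.cast = Γ.M0 (s : ℝ) (σ : ℝ) (y : ℝ) := by
  ext k l
  simp only [HE.M0, map_apply, of_apply]
  split_ifs <;> simp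

theorem cast_yv (q : ℕ) (σ : ℚ) : ((yv q σ : ℚ) : ℝ) = yv q (σ : ℝ) := by
  simp [yv, epsv]

theorem cast_globOf (t n m0 : ℚ) (a b : Matrix H H ℚ) :
    (globOf t n m0 a b).cast = globOf (t : ℝ) n m0 (a.map Rat.cast) (b.map Rat.cast) := by
  simp [globOf, Glob.cast, tau2, WW, Cast_mul, Cast_trace]

theorem Cast_root {D : ℕ} (hD : 0 < D) (T : ℕ) {n : ℕ} (hn : (T + 2 * D) ^ D ≤ n) {t : ℕ}
    (ht : t = Nat.findGreatest (fun t => t ^ D ≤ n) n) :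
    T < t ∧ (t : ℝ) ^ D ≤ n ∧ (n : ℝ) ≤ 2 * (t : ℝ) ^ D := by
  have h1 : t ^ D ≤ n := ht ▸ Nat.findGreatest_spec (P := fun t => t ^ D ≤ n) (Nat.zero_le n)
    (by simp [hD.ne'])
  have h2 : T + 2 * D ≤ t := ht ▸ Nat.le_findGreatest ((Nat.le_self_pow hD.ne' _).trans hn) hn
  have h3 : n ≤ (t + 1) ^ D := by
    by_cases h : t + 1 ≤ n
    · exact (not_le.1 (Nat.findGreatest_is_greatest (P := fun t => t ^ D ≤ n)
        (ht ▸ Nat.lt_succ_self t) h)).le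
    · exact (not_le.1 h).le.trans (Nat.le_self_pow hD.ne' _)
  refine ⟨by omega, by exact_mod_cast h1, ?_⟩
  have t0 : (0 : ℝ) < t := by exact_mod_cast (by omega : 0 < t)
  have h4 : (2 : ℝ) * D ≤ t := by exact_mod_cast (by omega : 2 * D ≤ t)
  have h5 : ((t : ℝ) + 1) ^ D ≤ (t * Real.exp (1 / t)) ^ D := by
    refine pow_le_pow_left₀ (by positivity) ?_ D
    have := mul_le_mul_of_nonneg_left (Real.add_one_le_exp (1 / t)) t0.le
    rwa [mul_add, mul_one_div_cancel t0.ne', mul_one, add_comm] at this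
  have h6 : Real.exp (1 / t) ^ D ≤ 2 := by
    rw [← Real.exp_nat_mul, ← Real.exp_log two_pos, Real.exp_le_exp, mul_one_div, div_le_iff₀ t0]
    nlinarith [Real.log_two_gt_d9]
  calc (n : ℝ) ≤ ((t : ℝ) + 1) ^ D := by exact_mod_cast h3
    _ ≤ _ := h5
    _ ≤ _ := by rw [mul_pow, mul_comm]; gcongr

theorem Cast_sig {q k t s : ℕ} (hq : 0 < q) (hk : 0 < k) (ht : 3 * q ≤ t)
    (hs : s = Nat.sqrt ((t ^ (2 * k + 2) - t ^ (k + 2)) / q)) :
    0 < s ∧ q * s ^ 2 + t ^ (k + 2) ≤ t ^ (2 * k + 2) ∧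
      t ^ (2 * k + 2) ≤ q * s ^ 2 + 2 * t ^ (k + 2) := by
  have t3 : 3 ≤ t := by omega
  have a1 : t ≤ t ^ k := Nat.le_self_pow hk.ne' _
  have a2 : t ≤ t ^ (k + 2) := Nat.le_self_pow (by omega) _
  have a3 : t ^ (2 * k + 2) = t ^ (k + 2) * t ^ k := by ring
  have a4 : t ^ (k + 2) * 3 ≤ t ^ (2 * k + 2) := a3 ▸ Nat.mul_le_mul_left _ (by omega)
  obtain ⟨X, hX⟩ : ∃ X, t ^ (2 * k + 2) = X + t ^ (k + 2) := ⟨_, (Nat.sub_add_cancel (by omega)).symm⟩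
  rw [hX, Nat.add_sub_cancel] at hs
  have b1 : s ^ 2 ≤ X / q := hs ▸ Nat.sqrt_le' _
  have b2 : X / q < (s + 1) ^ 2 := hs ▸ Nat.lt_succ_sqrt' _
  have b3 : q * (X / q) ≤ X := Nat.mul_div_le _ _
  have b4 : X < q * (X / q + 1) := Nat.lt_mul_div_succ _ hq
  have b5 := Nat.mul_le_mul_left q b1
  have b6 : q * (X / q + 1) ≤ q * (s + 1) ^ 2 := Nat.mul_le_mul_left q b2
  have b7 : s ≤ t ^ (k + 1) := by
    refine (Nat.pow_le_pow_iff_left two_ne_zero).1 ?_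
    rw [← pow_mul, show (k + 1) * 2 = 2 * k + 2 by ring]
    have := Nat.div_le_self X q
    omega
  have b8 : 0 < t ^ (k + 1) := by positivity
  have b9 : q * (2 * s + 1) ≤ t ^ (k + 2) := by
    calc q * (2 * s + 1) ≤ q * (3 * t ^ (k + 1)) := Nat.mul_le_mul_left _ (by omega)
      _ = t ^ (k + 1) * (3 * q) := by ring
      _ ≤ t ^ (k + 1) * t := Nat.mul_le_mul_left _ ht
  refine ⟨hs ▸ Nat.sqrt_pos.2 (Nat.div_pos (by omega) hq), by omega, ?_⟩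
  have : q * (s + 1) ^ 2 = q * s ^ 2 + q * (2 * s + 1) := by ring
  omega

theorem params (q : ℕ) (hq : 0 < q) (t0 : ℝ) : ∃ n0 : ℕ, ∀ n, n0 ≤ n →
    t0 ≤ (tN n : ℝ) ∧ (tN n : ℝ) ^ eD ≤ n ∧ (n : ℝ) ≤ 2 * (tN n : ℝ) ^ eD ∧ 0 < (sigQ q n : ℝ) ∧
    1 / (tN n : ℝ) ^ ek ≤ epsv q (sigQ q n : ℝ) ∧ epsv q (sigQ q n : ℝ) ≤ 2 / (tN n : ℝ) ^ ek := by
  refine ⟨(⌈t0⌉₊ + 3 * q + 2 * eD) ^ eD, fun n hn => ?_⟩
  obtain ⟨h1, h2, h3⟩ := Cast_root (by decide) _ hn (t := tN n) rfl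
  obtain ⟨h4, h5, h6⟩ := Cast_sig hq (k := ek) (by decide) (t := tN n) (by omega) rfl
  simp only [sigQ, epsv]
  generalize Nat.sqrt ((tN n ^ (2 * ek + 2) - tN n ^ (ek + 2)) / q) = s at *
  generalize tN n = t at *
  generalize ek = k at *
  have t0' : (0 : ℝ) < t := by exact_mod_cast (by omega : 0 < t)
  have h5' : (q : ℝ) * s ^ 2 + t ^ (k + 2) ≤ t ^ (2 * k + 2) := by exact_mod_cast h5
  have h6' : (t : ℝ) ^ (2 * k + 2) ≤ q * s ^ 2 + 2 * t ^ (k + 2) := by exact_mod_cast h6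
  have e : 1 - (q : ℝ) * (((s : ℚ) / (t : ℚ) ^ (k + 1) : ℚ) : ℝ) ^ 2 =
      (t ^ (2 * k + 2) - q * s ^ 2) / t ^ (k + 2) / t ^ k := by
    push_cast
    field_simp
    ring
  refine ⟨(Nat.le_ceil t0).trans (by exact_mod_cast (by omega : ⌈t0⌉₊ ≤ t)), h2, h3,
    by push_cast; positivity, ?_, ?_⟩
  · rw [e]
    gcongr
    rw [le_div_iff₀ (by positivity)]
    linarith
  · rw [e]
    gcongr
    rw [div_le_iff₀ (by positivity)]
    linarith

end Crest.Agent.R62
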