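import Crest.Agent.R62.Graph

/-!
# R62-CompMath: a simple completion can always be continued

Take two free half-edges if some pair of free half-edges is allowed: `join` (`simple_join`).  Otherwise fix
free `i ≠ j`; all free half-edges are non-allowed for `i`, so `|free pm| ≤ (q+1)²` (`not_allowed_card`) and
at least `9(q+1)²` half-edges `k ∈ free pm0` are matched in `pm`.  At most `2 (q+1)²` half-edges are
non-allowed for `i` or for `j`; so at most `4 (q+1)²` matched `k` have `k` or `pm k` among them.  For any
other `k` (then `pm0 (pm k) = pm k` too, by `Ext` and involutivity) `swi pm i j k` (edges `i k` and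
`j (pm k)` instead of `k (pm k)`) is simple: e.g. `swi = join (join pm° i k) j (pm k)` where `pm°` frees
`k` and `pm k`.
-/

set_option autoImplicit false
open Matrix Finset

namespace Crest.Agent.R62

variable {V H : Type} [Fintype V] [DecidableEq V] [Fintype H] [DecidableEq H] {q : ℕ}

/-- replace the edge `k (pm k)` by the edges `i k` and `j (pm k)` -/
def swi (pm : H → H) (i j k : H) : H → H := fun l =>
  if l = i then k else if l = k then i else if l = j then pm k else if l = pm k then j else pm l

/-- `pm` keeps all edges of `pm0` -/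
def Ext (pm0 pm : H → H) : Prop := ∀ k, pm0 k ≠ k → pm k = pm0 k

theorem comp_move (Γ : HE V H q) {pm0 pm : H → H} (h0 : Function.Involutive pm0)
    (hp : Function.Involutive pm) (hs : Γ.Simple pm) (he : Ext pm0 pm) (h2 : 2 ≤ (free pm).card)
    (hbig : 10 * (q + 1) ^ 2 ≤ (free pm0).card) :
    ∃ i j k : H, ∃ pm' : H → H, (pm' = join pm i j ∨ pm' = swi pm i j k) ∧ Function.Involutive pm' ∧
      Γ.Simple pm' ∧ Ext pm0 pm' ∧ (free pm').card + 2 = (free pm).card := by
  classical
  by_cases hA : ∃ i j, pm i = i ∧ pm j = j ∧ Γ.allowed pm i j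
  · obtain ⟨i, j, hi, hj, h⟩ := hA
    refine ⟨i, j, i, _, Or.inl rfl, join_invol hp hi hj, Γ.simple_join hp hs hi hj h,
      fun k hk => ?_, card_free_join hp (Γ.allowed_ne h) hi hj⟩
    have := he k hk
    simp only [join]
    grind
  obtain ⟨i, hi, j, hj, hij⟩ := one_lt_card.1 (show 1 < (free pm).card from h2)
  simp only [free, mem_filter, mem_univ, true_and] at hi hj
  let B : Finset H := (univ.filter fun l => ¬ Γ.allowed pm i l) ∪
    univ.filter fun l => ¬ Γ.allowed pm j l
  have hB : B.card ≤ 2 * (q + 1) ^ 2 := by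
    have := Γ.not_allowed_card pm i
    have := Γ.not_allowed_card pm j
    exact (card_union_le _ _).trans (by omega)
  have hT : (B ∪ B.image pm).card < (free pm0).card := by
    have h1 := card_union_le B (B.image pm)
    have h2 : (B.image pm).card ≤ B.card := card_image_le
    have h3 : 0 < (q + 1) ^ 2 := by positivity
    omega
  obtain ⟨k, hk0, hk⟩ := exists_mem_notMem_of_card_lt_card hT
  simp only [free, mem_filter, mem_univ, true_and] at hk0
  rw [mem_union, not_or] at hk
  have hk' : pm k ∉ B := fun h => hk.2 (mem_image.2 ⟨_, h, hp k⟩)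
  have hk1 := hk.1
  simp only [B, mem_union, mem_filter, mem_univ, true_and, not_or, not_not] at hk1 hk'
  have hkf : pm k ≠ k := fun h => hA ⟨i, k, hi, h, hk1.1⟩
  have n1 := Γ.allowed_ne hk1.1
  have n2 := Γ.allowed_ne hk1.2
  have n3 := Γ.allowed_ne hk'.1
  have n4 := Γ.allowed_ne hk'.2
  have hkk := hp k
  obtain ⟨p, hpd⟩ : ∃ p : H → H, ∀ l, p l = if l = k ∨ l = pm k then l else pm l :=
    ⟨_, fun _ => rfl⟩
  have p1 : Function.Involutive p := fun l => by
    have := hp l
    simp only [hpd]
    grind
  have p2 : ∀ l, p l ≠ l → p l = pm l := fun l => by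
    simp only [hpd]
    grind
  have p3 : Γ.Simple p := fun l hl => by
    have h1 := p2 l hl
    have h2 := hs l (h1 ▸ hl)
    rw [h1]
    refine ⟨h2.1, h2.2.1, fun l' a b c => ?_⟩
    rw [p2 l' c]
    exact h2.2.2 l' a b (p2 l' c ▸ c)
  have pi : p i = i := by simp only [hpd]; grind
  have pj : p j = j := by simp only [hpd]; grind
  have pk : p k = k := by simp only [hpd]; grind
  have pk' : p (pm k) = pm k := by simp only [hpd]; grind
  have a1 : Γ.allowed p i k := ⟨hk1.1.1, fun h => hk1.1.2 (h.imp id fun ⟨l, a, b, c⟩ =>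
    ⟨l, a, p2 l b ▸ b, p2 l b ▸ c⟩)⟩
  have q1 := join_invol p1 pi pk
  have qj : join p i k j = j := by simp only [join]; grind
  have qk : join p i k (pm k) = pm k := by simp only [join]; grind
  have a2 : Γ.allowed (join p i k) j (pm k) := by
    refine ⟨hk'.2.1, fun h => hk'.2.2 (h.imp id fun ⟨l, a, b, c⟩ => ?_)⟩
    have b1 := (hs k hkf).1
    have b2 := hk1.2.1
    have b3 := p2 l
    simp only [join] at b c
    exact ⟨l, a, by grind, by grind⟩
  have e : join (join p i k) j (pm k) = swi pm i j k := by
    ext l
    simp only [join, swi, hpd]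
    grind
  have e2 : join p k (pm k) = pm := by
    ext l
    simp only [join, hpd]
    grind
  refine ⟨i, j, k, _, Or.inr e, join_invol q1 qj qk,
    Γ.simple_join q1 (Γ.simple_join p1 p3 pi pk a1) qj qk a2, fun l hl => ?_, ?_⟩
  · have := he l hl
    have := h0 l
    rw [e]
    simp only [swi]
    grind
  · have c1 := card_free_join q1 n4 qj qk
    have c2 := card_free_join p1 n1 pi pk
    have c3 := card_free_join p1 hkf.symm pk pk'
    rw [e2] at c3
    omega

end Crest.Agent.R62
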