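import Crest.Agent.R62.InvStep
import Crest.Agent.R62.Bas1

/-!
# R62-InvEnds: the invariant at the start and its consequence at the end

`inv_init`: `free id = univ`, `∑_k z (vert k) = q ∑ z = 0` so `∑ w = 0`; put `p u = ∑_{vert k = u} w k`.
Then `s wᵀ M0 w + σ|w|² = κ (y ∑ p² + s ∑ p_u p_(mate u))`, `κ = (1-σ²)/(y²-1)`, and
`form = y∑z² - s∑ z_u z_(mate u) - 2∑ z p + (y∑p² + s∑ p_u p_(mate u))/(y²-1)
 = y ∑ ζ² - s ∑ ζ_u ζ_(mate u) ≥ (y-1)∑ζ² ≥ 0` with `ζ_u = z_u - (y p_u + s p_(mate u))/(y²-1)`.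
`inv_final`: `U = free pm`, `m = |U|`, `S = ∑_U v`, `v° = v - S/m` on `U`; take
`w = (1-σ) v° + (s-σ) S/m` on `U`.  `M° = M - J_U/m` has `‖M°‖_F² = τ₂ - 1 ≤ 1`, so
`|w°ᵀ M w°| ≤ |w°|²` for `w° ⟂ 1`, and `form ≤ x|z|² - s(…) - s S²/m - |v°|²`.  `pm'` permutes `U`,
`∑_U v_k v_(pm' k) = S²/m + ∑_U v°_k v°_(pm' k)` and `|∑ v° v°∘pm'| ≤ |v°|²`.
-/

set_option autoImplicit false
open Matrix Finset

namespace Crest.Agent.R62

variable {V H : Type} [Fintype V] [DecidableEq V] [Fintype H] [DecidableEq H] {q : ℕ}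

theorem InvEnds_fib (Γ : HE V H q) (f : V → ℝ) (w : H → ℝ) :
    ∑ k, f (Γ.vert k) * w k = ∑ u, f u * ∑ k ∈ univ.filter fun k => Γ.vert k = u, w k := by
  rw [← sum_fiberwise (s := univ) (g := Γ.vert)]
  refine sum_congr rfl fun u _ => ?_
  rw [mul_sum]
  exact sum_congr rfl fun k hk => by rw [(mem_filter.1 hk).2]

theorem InvEnds_fib1 (Γ : HE V H q) (f : V → ℝ) : ∑ k, f (Γ.vert k) = q * ∑ u, f u := by
  simpa [Γ.fib, ← sum_mul, mul_comm (q : ℝ)] using InvEnds_fib Γ f fun _ => 1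

theorem InvEnds_quad {U : Finset H} {M : Matrix H H ℝ} (hM : RSU U M) (hne : U.Nonempty)
    (h2 : tau2 M ≤ 2) {w : H → ℝ} (hw : ∀ k, k ∉ U → w k = 0) (h0 : ∑ k ∈ U, w k = 0) :
    |w ⬝ᵥ M *ᵥ w| ≤ ∑ k ∈ U, w k ^ 2 := by
  have hm : (0 : ℝ) < U.card := by exact_mod_cast hne.card_pos
  have hc : ∀ k l, l ∉ U → M k l = 0 := fun k l hl => by rw [← hM.1.apply k l, hM.2.1 l k hl]
  have e1 : w ⬝ᵥ M *ᵥ w = ∑ z ∈ U ×ˢ U, (w z.1 * w z.2) * (M z.1 z.2 - 1 / U.card) := by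
    rw [dotProduct, ← sum_subset (subset_univ U) fun k _ hk => by rw [hw k hk, zero_mul],
      sum_product]
    refine sum_congr rfl fun k _ => ?_
    rw [mulVec, dotProduct, ← sum_subset (subset_univ U) fun l _ hl => by rw [hw l hl, mul_zero]]
    simp only [mul_sub, sum_sub_distrib, ← sum_mul, ← mul_sum, h0, mul_zero, zero_mul, sub_zero,
      mul_assoc]
    exact congrArg _ (sum_congr rfl fun l _ => mul_comm _ _)
  have e2 : ∑ z ∈ U ×ˢ U, (w z.1 * w z.2) ^ 2 = (∑ k ∈ U, w k ^ 2) ^ 2 := by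
    rw [sum_product, sq (∑ k ∈ U, w k ^ 2), sum_mul_sum]
    simp only [mul_pow]
  have e3 : ∑ z ∈ U ×ˢ U, (M z.1 z.2 - 1 / U.card) ^ 2 = tau2 M - 1 := by
    have a1 : ∀ k ∈ U, ∑ l ∈ U, (M k l - 1 / U.card) ^ 2 = rr M k - 1 / U.card := fun k hk => by
      have b1 : ∑ l ∈ U, M k l = 1 := by
        rw [← hM.2.2 k hk]; exact sum_subset (subset_univ _) fun l _ hl => hc k l hl
      have b2 : ∑ l ∈ U, M k l ^ 2 = rr M k := by
        rw [rr_eq hM.1]; exact sum_subset (subset_univ _) fun l _ hl => by simp [hc k l hl]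
      simp only [sub_sq, sum_add_distrib, sum_sub_distrib, b2, ← sum_mul, ← mul_sum, b1, sum_const,
        nsmul_eq_mul]
      field_simp
      ring
    rw [sum_product, sum_congr rfl a1, sum_sub_distrib, tau2_eq,
      sum_subset (subset_univ U) fun k _ hk => by rw [rr_eq hM.1]; simp [hM.2.1 k _ hk]]
    simp [hm.ne']
  have := sum_mul_sq_le_sq_mul_sq (U ×ˢ U) (fun z => w z.1 * w z.2)
    fun z => M z.1 z.2 - 1 / U.card
  rw [← e1, e2, e3] at this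
  refine abs_le_of_sq_le_sq (this.trans (mul_le_of_le_one_right (sq_nonneg _) (by linarith)))
    (sum_nonneg fun _ _ => sq_nonneg _)

theorem inv_init (Γ : HE V H q) {s σ y : ℝ} (hs : s = 1 ∨ s = -1) (hσ0 : 0 < σ) (hσ1 : σ < 1)
    (hy : 1 < y) : Γ.Inv (y + σ * q) σ s id (Γ.M0 s σ y) := by
  intro z hz w _ hsum
  have hs2 : s ^ 2 = 1 := by rcases hs with rfl | rfl <;> norm_num
  have hσ : 0 < 1 - σ ^ 2 := by nlinarith
  have hy2 : 0 < y ^ 2 - 1 := by nlinarith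
  rw [free_id, InvEnds_fib1, hz, mul_zero, mul_zero] at hsum
  obtain ⟨p, hp⟩ : ∃ p : V → ℝ, ∀ u, p u = ∑ k ∈ univ.filter fun k => Γ.vert k = u, w k :=
    ⟨_, fun _ => rfl⟩
  have e1 : ∀ k, (Γ.M0 s σ y *ᵥ w) k = s * (-σ * w k + (1 - σ ^ 2) / (y ^ 2 - 1) * y * p (Γ.vert k))
      + (1 - σ ^ 2) / (y ^ 2 - 1) * p (Γ.mate (Γ.vert k)) := fun k => by
    simp only [mulVec, dotProduct, HE.M0, of_apply, add_mul, mul_add, sum_add_distrib, mul_assoc,
      ← mul_sum, hsum, mul_zero, add_zero, hp, sum_filter, ite_mul, one_mul, zero_mul, sum_ite_eq,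
      mem_univ, if_true, eq_comm (a := Γ.vert k)]
  have e2 : w ⬝ᵥ Γ.M0 s σ y *ᵥ w = s * (-σ * ∑ k, w k ^ 2 +
      (1 - σ ^ 2) / (y ^ 2 - 1) * y * ∑ u, p u * p u)
      + (1 - σ ^ 2) / (y ^ 2 - 1) * ∑ u, p (Γ.mate u) * p u := by
    have a1 := InvEnds_fib Γ p w
    have a2 := InvEnds_fib Γ (fun u => p (Γ.mate u)) w
    simp only [← hp] at a1 a2
    rw [← a1, ← a2]
    simp only [dotProduct, e1, mul_sum, ← sum_add_distrib]
    exact sum_congr rfl fun k _ => by ring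
  have e3 := InvEnds_fib Γ z w
  simp only [← hp] at e3
  obtain ⟨F, hF⟩ : ∃ F : V → ℝ, ∀ u, F u = y * z u ^ 2 - s * (z u * z (Γ.mate u)) - 2 * (z u * p u) +
    (y * (p u * p u) + s * (p (Γ.mate u) * p u)) / (y ^ 2 - 1) := ⟨_, fun _ => rfl⟩
  have e4 : Γ.form (y + σ * q) σ s id (Γ.M0 s σ y) z w = ∑ u, F u := by
    simp only [HE.form, free_id, sdiff_self, bot_eq_empty, sum_empty, e2, e3,
      InvEnds_fib1 Γ fun u => z u ^ 2, hF, sum_add_distrib, sum_sub_distrib, ← mul_sum, ← sum_div]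
    field_simp
    linear_combination (-σ * (y ^ 2 - 1) * ∑ k, w k ^ 2 + (1 - σ ^ 2) * y * ∑ u, p u ^ 2) * hs2
  have e5 : ∑ u, F (Γ.mate u) = ∑ u, F u :=
    Equiv.sum_comp (Function.Involutive.toPerm Γ.mate Γ.mate_mate) F
  have e6 : 0 ≤ ∑ u, (F u + F (Γ.mate u)) := sum_nonneg fun u _ => by
    rw [hF, hF, Γ.mate_mate]
    generalize z (Γ.mate u) = b, p (Γ.mate u) = d, z u = a, p u = c
    have : y * a ^ 2 - s * (a * b) - 2 * (a * c) + (y * (c * c) + s * (d * c)) / (y ^ 2 - 1) +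
        (y * b ^ 2 - s * (b * a) - 2 * (b * d) + (y * (d * d) + s * (c * d)) / (y ^ 2 - 1)) =
        (y - 1) * ((a - (y * c + s * d) / (y ^ 2 - 1)) ^ 2 + (b - (y * d + s * c) / (y ^ 2 - 1)) ^ 2) +
          ((a - (y * c + s * d) / (y ^ 2 - 1)) - s * (b - (y * d + s * c) / (y ^ 2 - 1))) ^ 2 := by
      rcases hs with rfl | rfl <;> field_simp <;> ring
    rw [this]
    have : 0 < y - 1 := by linarith
    positivity
  rw [sum_add_distrib, e5] at e6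
  linarith

theorem inv_final (Γ : HE V H q) {x σ s : ℝ} (hs : s = 1 ∨ s = -1) (hσ0 : 0 < σ) (hσ1 : σ < 1)
    {pm pm' : H → H} (hp : Function.Involutive pm) (hp' : Function.Involutive pm')
    (hext : ∀ k, pm k ≠ k → pm' k = pm k) {M : Matrix H H ℝ} (hM : RSU (free pm) M)
    (hne : (free pm).Nonempty) (h2 : tau2 M ≤ 2) (h : Γ.Inv x σ s pm M) (z : V → ℝ)
    (hz : ∑ u, z u = 0) :
    s * (∑ u, z u * z (Γ.mate u) + ∑ k, z (Γ.vert k) * z (Γ.vert (pm' k))) ≤ x * ∑ u, z u ^ 2 := by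
  have hs2 : s ^ 2 = 1 := by rcases hs with rfl | rfl <;> norm_num
  have hσ : 0 < 1 - σ ^ 2 := by nlinarith
  have hm : (0 : ℝ) < (free pm).card := by exact_mod_cast hne.card_pos
  obtain ⟨μ, hμ⟩ : ∃ μ, ∑ k ∈ free pm, z (Γ.vert k) = (free pm).card * μ :=
    ⟨(∑ k ∈ free pm, z (Γ.vert k)) / (free pm).card, by field_simp⟩
  obtain ⟨v, hv⟩ : ∃ v : H → ℝ, ∀ k, z (Γ.vert k) = v k + μ :=
    ⟨fun k => z (Γ.vert k) - μ, fun k => by ring⟩
  have v0 : ∑ k ∈ free pm, v k = 0 := by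
    simpa [hv, sum_add_distrib] using hμ
  obtain ⟨w, hw⟩ : ∃ w : H → ℝ, ∀ k, w k = if k ∈ free pm then (1 - σ) * v k else 0 :=
    ⟨_, fun _ => rfl⟩
  have w0 : ∀ k, k ∉ free pm → w k = 0 := fun k hk => by rw [hw, if_neg hk]
  have w1 : ∑ k, w k = 0 := by simp [hw, ← mul_sum, v0]
  have w2 : ∑ k, w k ^ 2 = (1 - σ) ^ 2 * ∑ k ∈ free pm, v k ^ 2 := by
    simp [hw, mul_pow, ← mul_sum]
  have w3 : ∑ k ∈ free pm, z (Γ.vert k) * w k = (1 - σ) * ∑ k ∈ free pm, v k ^ 2 := by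
    rw [sum_congr rfl (g := fun k => (1 - σ) * v k ^ 2 + (1 - σ) * μ * v k) fun k hk => by
      rw [hw, if_pos hk, hv]; ring]
    simp [sum_add_distrib, ← mul_sum, v0]
  have w4 : ∑ k ∈ free pm, z (Γ.vert k) ^ 2 = ∑ k ∈ free pm, v k ^ 2 + (free pm).card * μ ^ 2 := by
    simp [hv, add_sq, sum_add_distrib, ← mul_sum, ← sum_mul, v0]
  have w5 := InvEnds_quad hM hne h2 w0
    (by rw [← w1]; exact sum_subset (subset_univ _) fun k _ hk => w0 k hk)
  rw [sum_subset (subset_univ _) fun k _ hk => by simp [w0 k hk], w2] at w5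
  have w6 : s * (w ⬝ᵥ M *ᵥ w) ≤ (1 - σ) ^ 2 * ∑ k ∈ free pm, v k ^ 2 := by
    rcases hs with rfl | rfl <;> linarith [abs_le.1 w5]
  have h5 := h z hz (w + fun k => if k ∈ free pm then (s - σ) * μ else 0)
    (fun k hk => by simp [w0 k hk, hk]) (by
      simp only [Pi.add_apply, sum_add_distrib, w1, sum_ite_mem, univ_inter, sum_const, nsmul_eq_mul,
        hμ]
      ring)
  rw [InvStep_shift Γ x σ s hM z w0, HE.form, w1, w2, w3, w4, hμ] at h5
  have k1 : (s * (w ⬝ᵥ M *ᵥ w) + σ * ((1 - σ) ^ 2 * ∑ k ∈ free pm, v k ^ 2)) / (1 - σ ^ 2) ≤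
      (1 - σ) * ∑ k ∈ free pm, v k ^ 2 := by
    rw [div_le_iff₀ hσ]; linarith
  have k2 : (s + σ) * (2 * ((s - σ) * μ) * 0 + ((s - σ) * μ) ^ 2 * (free pm).card) / (1 - σ ^ 2) =
      (s - σ) * μ ^ 2 * (free pm).card := by
    rw [div_eq_iff hσ.ne']
    linear_combination ((s - σ) * μ ^ 2 * (free pm).card) * hs2
  have hU : ∀ k ∈ free pm, pm' k ∈ free pm := fun k hk => by
    simp only [free, mem_filter, mem_univ, true_and] at hk ⊢
    by_contra hc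
    have a1 := hext _ hc
    have a2 := hp' k
    have a3 := hp (pm' k)
    grind
  have hperm : ∀ f : H → ℝ, ∑ k ∈ free pm, f (pm' k) = ∑ k ∈ free pm, f k := fun f =>
    sum_nbij' pm' pm' hU hU (fun k _ => hp' k) (fun k _ => hp' k) fun _ _ => rfl
  have k3 : ∑ k, z (Γ.vert k) * z (Γ.vert (pm' k)) =
      ∑ k ∈ univ \ free pm, z (Γ.vert k) * z (Γ.vert (pm k)) +
        (∑ k ∈ free pm, v k * v (pm' k) + (free pm).card * μ ^ 2) := by
    rw [← sum_sdiff (subset_univ (free pm))]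
    congr 1
    · exact sum_congr rfl fun k hk => by rw [hext k (by simpa [free] using hk)]
    · simp [hv, add_mul, mul_add, sum_add_distrib, ← mul_sum, ← sum_mul, v0, hperm v, sq]
  have k4 : s * ∑ k ∈ free pm, v k * v (pm' k) ≤ ∑ k ∈ free pm, v k ^ 2 := by
    have : 2 * (s * ∑ k ∈ free pm, v k * v (pm' k)) ≤
        ∑ k ∈ free pm, v k ^ 2 + ∑ k ∈ free pm, v (pm' k) ^ 2 := by
      rw [mul_sum, mul_sum, ← sum_add_distrib]
      refine sum_le_sum fun k _ => ?_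
      rcases hs with rfl | rfl
      · nlinarith [sq_nonneg (v k - v (pm' k))]
      · nlinarith [sq_nonneg (v k + v (pm' k))]
    rw [hperm fun k => v k ^ 2] at this
    linarith
  rw [k2] at h5
  rw [k3]
  linarith

end Crest.Agent.R62
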