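import Crest.Agent.R62.Defs

/-!
# R62-Graph: partial matchings and the final graph

`not_allowed_card`: a non-allowed `j` sits at `vert i`, at `mate (vert i)` or at `vert (pm k)` for one of
the `q` half-edges `k` at `vert i`: at most `q + 2` vertices with `q` half-edges each, `q(q+2) ≤ (q+1)²`.
`regular`: the neighbours of `u` are `mate u` and the `q` distinct vertices `vert (pm k)`, `vert k = u`.
`quad`: `zᵀ A z = ∑_u z_u ∑_{v ∼ u} z_v` and `∑_{v ∼ u} z_v = z (mate u) + ∑_{vert k = u} z (vert (pm k))`;
`Finset.sum_fiberwise`.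
-/

set_option autoImplicit false
open Matrix Finset

namespace Crest.Agent.R62

variable {V H : Type} [Fintype V] [DecidableEq V] [Fintype H] [DecidableEq H] {q : ℕ}

theorem free_join {pm : H → H} (hp : Function.Involutive pm) {i j : H} (hij : i ≠ j) :
    free (join pm i j) = free pm \ {i, j} := by
  have _ := hp
  ext k
  simp only [free, join, mem_filter, mem_univ, true_and, mem_sdiff, mem_insert, mem_singleton]
  grind

theorem join_invol {pm : H → H} (hp : Function.Involutive pm) {i j : H} (hi : pm i = i)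
    (hj : pm j = j) : Function.Involutive (join pm i j) := by
  intro k
  have := hp k
  simp only [join]
  grind

theorem card_free_join {pm : H → H} (hp : Function.Involutive pm) {i j : H} (hij : i ≠ j)
    (hi : pm i = i) (hj : pm j = j) : (free (join pm i j)).card + 2 = (free pm).card := by
  rw [free_join hp hij, ← card_pair hij, card_sdiff_add_card_eq_card]
  intro k hk
  simp only [mem_insert, mem_singleton] at hk
  rcases hk with rfl | rfl <;> simpa [free]

theorem free_id : free (id : H → H) = univ := by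
  simp [free]

namespace HE
variable (Γ : HE V H q)

include Γ in
theorem card_H : Fintype.card H = q * Fintype.card V := by
  rw [← card_univ, card_eq_sum_card_fiberwise (f := Γ.vert) (t := univ) fun _ _ => mem_univ _]
  simp [Γ.fib, mul_comm]

theorem simple_id : Γ.Simple id := by
  intro k hk
  exact (hk rfl).elim

theorem adj_symm {pm : H → H} (hp : Function.Involutive pm) {u v : V} (h : Γ.adj pm u v) :
    Γ.adj pm v u := by
  rcases h with rfl | ⟨k, rfl, h1, rfl⟩
  · exact Or.inl (Γ.mate_mate u).symm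
  · exact Or.inr ⟨pm k, rfl, by rw [hp k]; exact h1.symm, by rw [hp k]⟩

theorem adj_ne {pm : H → H} (hs : Γ.Simple pm) {u v : V} (h : Γ.adj pm u v) : u ≠ v := by
  rcases h with rfl | ⟨k, rfl, h1, rfl⟩
  · exact (Γ.mate_ne u).symm
  · exact (hs k h1).1.symm

theorem allowed_symm {pm : H → H} (hp : Function.Involutive pm) {i j : H} (h : Γ.allowed pm i j) :
    Γ.allowed pm j i := by
  exact ⟨h.1.symm, fun h' => h.2 (Γ.adj_symm hp h')⟩

theorem allowed_ne {pm : H → H} {i j : H} (h : Γ.allowed pm i j) : i ≠ j := by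
  rintro rfl
  exact h.1 rfl

theorem not_allowed_card (pm : H → H) (i : H) [DecidablePred fun j => ¬ Γ.allowed pm i j] :
    (univ.filter fun j => ¬ Γ.allowed pm i j).card ≤ (q + 1) ^ 2 := by
  let T : Finset V := insert (Γ.vert i) (insert (Γ.mate (Γ.vert i))
    ((univ.filter fun k => Γ.vert k = Γ.vert i).image fun k => Γ.vert (pm k)))
  have hT : T.card ≤ q + 2 := by
    refine (card_insert_le _ _).trans (Nat.succ_le_succ ((card_insert_le _ _).trans
      (Nat.succ_le_succ (card_image_le.trans (Γ.fib _).le))))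
  have h1 : (univ.filter fun j => ¬ Γ.allowed pm i j) ⊆
      T.biUnion fun u => univ.filter fun k => Γ.vert k = u := by
    intro j hj
    simp only [mem_filter, mem_univ, true_and, allowed, not_and_or, not_not] at hj
    simp only [mem_biUnion, mem_filter, mem_univ, true_and, exists_eq_right', T, mem_insert,
      mem_image]
    rcases hj with h | h | ⟨k, h1, -, h2⟩
    · exact Or.inl h.symm
    · exact Or.inr (Or.inl h)
    · exact Or.inr (Or.inr ⟨k, h1, h2⟩)
  refine (card_le_card h1).trans ((card_biUnion_le_card_mul _ _ q fun u _ => (Γ.fib u).le).trans ?_)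
  nlinarith

theorem simple_join {pm : H → H} (hp : Function.Involutive pm) (hs : Γ.Simple pm) {i j : H}
    (hi : pm i = i) (hj : pm j = j) (h : Γ.allowed pm i j) : Γ.Simple (join pm i j) := by
  have h' := Γ.allowed_symm hp h
  have hij := Γ.allowed_ne h
  obtain ⟨a1, a2⟩ := h
  obtain ⟨b1, b2⟩ := h'
  simp only [adj, not_or, not_exists, not_and] at a2 b2
  intro k hk
  have := hs k
  simp only [join] at hk ⊢
  refine ⟨by grind, by grind, fun l hl h1 h2 => ?_⟩
  have := a2.2 l
  have := b2.2 l
  have := a2.2 k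
  have := b2.2 k
  grind

theorem sum_adj {pm : H → H} (hs : Γ.Simple pm) (hf : ∀ k, pm k ≠ k) (u : V)
    [DecidablePred (Γ.adj pm u)] {M : Type*} [AddCommMonoid M] (f : V → M) :
    ∑ v ∈ univ.filter (Γ.adj pm u), f v =
      f (Γ.mate u) + ∑ k ∈ univ.filter fun k => Γ.vert k = u, f (Γ.vert (pm k)) := by
  have e : univ.filter (Γ.adj pm u) = insert (Γ.mate u)
      ((univ.filter fun k => Γ.vert k = u).image fun k => Γ.vert (pm k)) := by
    ext v
    simp [adj, hf]
  rw [e, sum_insert, sum_image]
  · intro k hk l hl h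
    simp only [coe_filter, mem_univ, true_and, Set.mem_setOf_eq] at hk hl
    by_contra hne
    exact (hs l (hf l)).2.2 k hne (hk.trans hl.symm) (hf k) h
  · simp only [mem_image, mem_filter, mem_univ, true_and, not_exists, not_and]
    rintro k rfl
    exact (hs k (hf k)).2.1

theorem regular {pm : H → H} (hs : Γ.Simple pm) (hf : ∀ k, pm k ≠ k) (Gr : SimpleGraph V)
    [Gr.LocallyFinite] (hG : ∀ u v, Gr.Adj u v ↔ Γ.adj pm u v) : Gr.IsRegularOfDegree (q + 1) := by
  classical
  intro u
  have := Γ.sum_adj hs hf u fun _ => (1 : ℕ)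
  simp only [← card_eq_sum_ones, Γ.fib] at this
  rw [← SimpleGraph.card_neighborFinset_eq_degree, add_comm, ← this]
  congr 1
  ext v
  simp [hG]

theorem quad {pm : H → H} (hs : Γ.Simple pm) (hf : ∀ k, pm k ≠ k) (Gr : SimpleGraph V)
    [DecidableRel Gr.Adj] (hG : ∀ u v, Gr.Adj u v ↔ Γ.adj pm u v) (z : V → ℝ) :
    z ⬝ᵥ (Gr.adjMatrix ℝ *ᵥ z) =
      ∑ u, z u * z (Γ.mate u) + ∑ k, z (Γ.vert k) * z (Γ.vert (pm k)) := by
  classical
  have e : ∀ u, (Gr.adjMatrix ℝ *ᵥ z) u =
      z (Γ.mate u) + ∑ k ∈ univ.filter fun k => Γ.vert k = u, z (Γ.vert (pm k)) := fun u => by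
    rw [SimpleGraph.adjMatrix_mulVec_apply, ← Γ.sum_adj hs hf u]
    congr 1
    ext v
    simp [hG]
  simp only [dotProduct, e, mul_add, sum_add_distrib, mul_sum]
  congr 1
  rw [← sum_fiberwise (s := univ) (g := Γ.vert)]
  exact sum_congr rfl fun u _ => sum_congr rfl fun k hk => by rw [(mem_filter.1 hk).2]

end HE

end Crest.Agent.R62
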