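import Crest.Agent.R62.Upd
import Crest.Agent.R62.Graph

/-!
# R62-InvStep: the invariant is preserved

Write `U = free pm`, `U' = U \ {i,j}`, `v k = z (vert k)`, `G = br M i j`, `X = !![0,1;1,0]`, `K = KK M i j`.
Given `w'` supported on `U'`, extend it by `ξ = (ξ₁, ξ₂)` on `i, j`: `w = w' + ξ₁ e_i + ξ₂ e_j`.  With
`p = ((M w')_i, (M w')_j)`, `ξ* = (s v_j - σ v_i, s v_i - σ v_j)`, `s = ±1`:
`form pm M z w = form (join) (upd) z w' + [(ξ-ξ*)ᵀ(sX+σ)(ξ-ξ*) - s (ξ-Kp)ᵀ(X-G)(ξ-Kp)]/(1-σ²)`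
(use `w'ᵀ upd w' = w'ᵀ M w' + pᵀ K p`; the rest is `field_simp; ring` in the scalars).
`indef`: a symmetric 2×2 form of negative determinant takes a value `≥ 0` on every line.
* `s = 1`: `ξ = ξ* + τ(1,-1)` satisfies the linear constraint, the first term is `-2(1-σ)τ² ≤ 0`; choose `τ`
  by `indef` for `X - G` (determinant `-d`).
* `s = -1`: first, for `w'` satisfying the constraint of the new state and any `c`,
  `form' (w' + c 1_{U'}) = form' w' - c² |U'|/(1+σ) ≤ form' w'` (row sums of `upd` are `1`: `upd_RSU`).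
  Apply the identity to `w' + c 1_{U'}` with `ξ = ξ* + τ(1,1)`, `c = -2τ/|U'|` (constraint holds); the first term is
  `-2(1-σ)τ² ≤ 0`; `K p` is shifted by `c(1,1)` (because `(M 1_{U'})_{i,j} = (X - G)(1,1)`), so
  `ξ - Kp = η + τ(1 + 2/|U'|)(1,1)`; choose `τ` by `indef` for `G - X`.
-/

set_option autoImplicit false
open Matrix Finset

namespace Crest.Agent.R62

variable {V H : Type} [Fintype V] [DecidableEq V] [Fintype H] [DecidableEq H] {q : ℕ}

theorem indef (A B D η1 η2 a1 a2 : ℝ) (hdet : A * D - B ^ 2 < 0) (ha : a1 ≠ 0 ∨ a2 ≠ 0) :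
    ∃ τ : ℝ, 0 ≤ A * (η1 + τ * a1) ^ 2 + 2 * B * (η1 + τ * a1) * (η2 + τ * a2)
      + D * (η2 + τ * a2) ^ 2 := by
  obtain ⟨a, ha'⟩ : ∃ a, a = A * a1 ^ 2 + 2 * B * a1 * a2 + D * a2 ^ 2 := ⟨_, rfl⟩
  obtain ⟨b, hb'⟩ : ∃ b, b = A * η1 * a1 + B * (η1 * a2 + η2 * a1) + D * η2 * a2 := ⟨_, rfl⟩
  obtain ⟨c, hc'⟩ : ∃ c, c = A * η1 ^ 2 + 2 * B * η1 * η2 + D * η2 ^ 2 := ⟨_, rfl⟩
  have e : ∀ τ : ℝ, A * (η1 + τ * a1) ^ 2 + 2 * B * (η1 + τ * a1) * (η2 + τ * a2)
      + D * (η2 + τ * a2) ^ 2 = a * τ ^ 2 + 2 * b * τ + c := fun τ => by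
    rw [ha', hb', hc']; ring
  have e2 : b ^ 2 - a * c = -(A * D - B ^ 2) * (η1 * a2 - η2 * a1) ^ 2 := by
    rw [ha', hb', hc']; ring
  simp only [e]
  by_contra hc
  push Not at hc
  have hq : ∀ τ : ℝ, a * (τ * τ) + (2 * b) * τ + c ≤ 0 := fun τ => by nlinarith [hc τ]
  have h1 := discrim_le_zero_of_nonpos hq
  rw [discrim] at h1
  have h2 : (η1 * a2 - η2 * a1) ^ 2 ≤ 0 := by nlinarith [sq_nonneg (η1 * a2 - η2 * a1)]
  have h3 : η1 * a2 = η2 * a1 := by nlinarith [sq_nonneg (η1 * a2 - η2 * a1)]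
  rcases ha with h | h
  · have := hc (-η1 / a1)
    rw [← e] at this
    have e3 : η1 + -η1 / a1 * a1 = 0 := by field_simp; ring
    have e4 : η2 + -η1 / a1 * a2 = 0 := by field_simp; linarith
    rw [e3, e4] at this
    simp at this
  · have := hc (-η2 / a2)
    rw [← e] at this
    have e3 : η1 + -η2 / a2 * a1 = 0 := by field_simp; linarith
    have e4 : η2 + -η2 / a2 * a2 = 0 := by field_simp; ring
    rw [e3, e4] at this
    simp at this

omit [DecidableEq H] in
theorem InvStep_symm {M : Matrix H H ℝ} (hM : M.IsSymm) (u w : H → ℝ) :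
    u ⬝ᵥ M *ᵥ w = w ⬝ᵥ M *ᵥ u := by
  rw [dotProduct_mulVec, dotProduct_comm, ← mulVec_transpose, hM.eq]

theorem InvStep_upd {M : Matrix H H ℝ} (hM : M.IsSymm) {i j : H} {w : H → ℝ} (hi : w i = 0)
    (hj : w j = 0) : w ⬝ᵥ upd M i j *ᵥ w = w ⬝ᵥ M *ᵥ w +
      (((1 - M i j) * (M *ᵥ w) j + M j j * (M *ᵥ w) i) / dd M i j * (M *ᵥ w) i +
        ((1 - M i j) * (M *ᵥ w) i + M i i * (M *ᵥ w) j) / dd M i j * (M *ᵥ w) j) := by
  have e : ∀ k l, w k * (upd M i j k l * w l) = w k * (M k l * w l) +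
      (w k * kap1 M i j k * (M i l * w l) + w k * kap2 M i j k * (M j l * w l)) := fun k l => by
    simp only [upd, of_apply, del, hM.apply i l, hM.apply j l]
    split_ifs with h
    · rcases h with rfl | rfl | rfl | rfl <;> simp [hi, hj]
    · ring
  have e1 : ∑ k, w k * kap1 M i j k =
      ((1 - M i j) * (M *ᵥ w) j + M j j * (M *ᵥ w) i) / dd M i j := by
    simp only [mulVec, dotProduct, mul_sum, ← sum_add_distrib, sum_div, kap1]
    exact sum_congr rfl fun k _ => by rw [hM.apply i k, hM.apply j k]; ring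
  have e2 : ∑ k, w k * kap2 M i j k =
      ((1 - M i j) * (M *ᵥ w) i + M i i * (M *ᵥ w) j) / dd M i j := by
    simp only [mulVec, dotProduct, mul_sum, ← sum_add_distrib, sum_div, kap2]
    exact sum_congr rfl fun k _ => by rw [hM.apply i k, hM.apply j k]; ring
  rw [← e1, ← e2]
  simp only [mulVec, dotProduct, mul_sum, e, sum_add_distrib, sum_mul]
  rw [sum_comm (f := fun k l => w k * kap1 M i j k * (M i l * w l)),
    sum_comm (f := fun k l => w k * kap2 M i j k * (M j l * w l))]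

theorem InvStep_sum {pm : H → H} (hp : Function.Involutive pm) {i j : H} (hij : i ≠ j)
    (hi : pm i = i) (hj : pm j = j) (f : H → ℝ) :
    ∑ k ∈ free pm, f k = ∑ k ∈ free (join pm i j), f k + f i + f j := by
  rw [free_join hp hij, add_assoc, ← sum_pair hij, sum_sdiff]
  intro k hk
  simp only [mem_insert, mem_singleton] at hk
  rcases hk with rfl | rfl <;> simpa [free]

theorem InvStep_id (Γ : HE V H q) (x : ℝ) {σ s : ℝ} (hσ : 1 - σ ^ 2 ≠ 0) (hs : s ^ 2 = 1) {pm : H → H}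
    (hp : Function.Involutive pm) {M : Matrix H H ℝ} (hM : M.IsSymm) {i j : H} (hij : i ≠ j)
    (hi : pm i = i) (hj : pm j = j) (hd : dd M i j ≠ 0) (z : V → ℝ) {w : H → ℝ} (hwi : w i = 0)
    (hwj : w j = 0) (a b : ℝ) {α β γ δ : ℝ} (hα : α = a - (s * z (Γ.vert j) - σ * z (Γ.vert i)))
    (hβ : β = b - (s * z (Γ.vert i) - σ * z (Γ.vert j)))
    (hγ : γ = a - ((1 - M i j) * (M *ᵥ w) j + M j j * (M *ᵥ w) i) / dd M i j)
    (hδ : δ = b - ((1 - M i j) * (M *ᵥ w) i + M i i * (M *ᵥ w) j) / dd M i j) :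
    Γ.form x σ s pm M z (w + Pi.single i a + Pi.single j b) =
      Γ.form x σ s (join pm i j) (upd M i j) z w + ((2 * s * α * β + σ * (α ^ 2 + β ^ 2)) -
        s * (-M i i * γ ^ 2 + 2 * (1 - M i j) * γ * δ + -M j j * δ ^ 2)) / (1 - σ ^ 2) := by
  have hU := free_join hp hij
  have e1 : ∑ k ∈ univ \ free (join pm i j), z (Γ.vert k) * z (Γ.vert (join pm i j k)) =
      ∑ k ∈ univ \ free pm, z (Γ.vert k) * z (Γ.vert (pm k)) +
        2 * (z (Γ.vert i) * z (Γ.vert j)) := by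
    have : univ \ free (join pm i j) = insert i (insert j (univ \ free pm)) := by
      ext k; rw [hU]; simp [free]; grind
    rw [this, sum_insert (by simp [free, hi, hij]), sum_insert (by simp [free, hj]),
      sum_congr rfl (g := fun k => z (Γ.vert k) * z (Γ.vert (pm k))) fun k hk => by
        have h1 : pm k ≠ k := by simpa [free] using hk
        have : join pm i j k = pm k := by simp only [join]; grind
        rw [this]]
    simp only [join, if_true, if_neg hij.symm]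
    ring
  have e2 : ∑ k ∈ free pm, z (Γ.vert k) * (w + Pi.single i a + Pi.single j b : H → ℝ) k =
      ∑ k ∈ free (join pm i j), z (Γ.vert k) * w k + z (Γ.vert i) * a + z (Γ.vert j) * b := by
    rw [InvStep_sum hp hij hi hj, sum_congr rfl (g := fun k => z (Γ.vert k) * w k) fun k hk => by
      rw [hU] at hk
      simp only [mem_sdiff, mem_insert, mem_singleton, not_or] at hk
      simp [hk.2.1, hk.2.2]]
    simp [hwi, hwj, hij, hij.symm]
  have e3 : ∑ k, (w + Pi.single i a + Pi.single j b : H → ℝ) k ^ 2 = ∑ k, w k ^ 2 + a ^ 2 + b ^ 2 := by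
    have : ∀ k, (w + Pi.single i a + Pi.single j b : H → ℝ) k ^ 2 =
        w k ^ 2 + (if k = i then a ^ 2 else 0) + if k = j then b ^ 2 else 0 := fun k => by
      by_cases h1 : k = i
      · subst h1; simp [hwi, hij]
      by_cases h2 : k = j
      · subst h2; simp [hwj, h1]
      · simp [h1, h2]
    simp [-Pi.add_apply, this, sum_add_distrib]
  have e4 : (w + Pi.single i a + Pi.single j b) ⬝ᵥ M *ᵥ (w + Pi.single i a + Pi.single j b) =
      w ⬝ᵥ M *ᵥ w + 2 * (a * (M *ᵥ w) i + b * (M *ᵥ w) j) +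
        (M i i * a ^ 2 + 2 * M i j * a * b + M j j * b ^ 2) := by
    simp only [mulVec_add, add_dotProduct, dotProduct_add, InvStep_symm hM w (Pi.single _ _),
      single_dotProduct, Pi.add_apply]
    simp [hM.apply i j]
    ring
  simp only [HE.form]
  rw [e1, e2, e3, e4, InvStep_upd hM hwi hwj, InvStep_sum hp hij hi hj, hα, hβ, hγ, hδ]
  have hd' : dd M i j = (1 - M i j) ^ 2 - M i i * M j j := rfl
  generalize dd M i j = d at *
  generalize (M *ᵥ w) i = p₁
  generalize (M *ᵥ w) j = p₂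
  generalize z (Γ.vert i) = u
  generalize z (Γ.vert j) = v
  have k1 : -M i i * (a - ((1 - M i j) * p₂ + M j j * p₁) / d) ^ 2 +
      2 * (1 - M i j) * (a - ((1 - M i j) * p₂ + M j j * p₁) / d) *
        (b - ((1 - M i j) * p₁ + M i i * p₂) / d) +
      -M j j * (b - ((1 - M i j) * p₁ + M i i * p₂) / d) ^ 2 =
      2 * a * b - (M i i * a ^ 2 + 2 * M i j * a * b + M j j * b ^ 2) - 2 * (a * p₁ + b * p₂) +
        (((1 - M i j) * p₂ + M j j * p₁) / d * p₁ + ((1 - M i j) * p₁ + M i i * p₂) / d * p₂) := by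
    field_simp
    rw [hd']
    ring
  have k2 : 2 * s * (a - (s * v - σ * u)) * (b - (s * u - σ * v)) +
      σ * ((a - (s * v - σ * u)) ^ 2 + (b - (s * u - σ * v)) ^ 2) =
      2 * s * a * b + σ * (a ^ 2 + b ^ 2) + (1 - σ ^ 2) *
        (2 * s * u * v - σ * (u ^ 2 + v ^ 2) - 2 * (u * a + v * b)) := by
    linear_combination (2 * s * u * v - σ * (u ^ 2 + v ^ 2) - 2 * (u * a + v * b)) * hs
  rw [k1, k2]
  field_simp
  ring

theorem InvStep_shift (Γ : HE V H q) (x σ s : ℝ) {pm : H → H} {M : Matrix H H ℝ}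
    (hM : RSU (free pm) M) (z : V → ℝ) {w : H → ℝ} (hw : ∀ k, k ∉ free pm → w k = 0) (c : ℝ) :
    Γ.form x σ s pm M z (w + fun k => if k ∈ free pm then c else 0) =
      Γ.form x σ s pm M z w - 2 * c * ∑ k ∈ free pm, z (Γ.vert k) +
        (s + σ) * (2 * c * ∑ k, w k + c ^ 2 * (free pm).card) / (1 - σ ^ 2) := by
  have e0 : (M *ᵥ fun k => if k ∈ free pm then c else 0) =
      fun k => if k ∈ free pm then c else 0 := by
    ext k
    have : ∀ l, (M k l * if l ∈ free pm then c else 0) = M k l * c := fun l => by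
      split_ifs with h
      · rfl
      · rw [← hM.1.apply k l, hM.2.1 l k h]; simp
    simp only [mulVec, dotProduct, this, ← sum_mul]
    split_ifs with h
    · rw [hM.2.2 k h, one_mul]
    · simp [hM.2.1 k _ h]
  have e1 : (w ⬝ᵥ fun k => if k ∈ free pm then c else 0) = c * ∑ k, w k := by
    rw [dotProduct, mul_sum]
    refine sum_congr rfl fun k _ => ?_
    split_ifs with h
    · ring
    · simp [hw k h]
  have e2 : ((fun k => if k ∈ free pm then c else 0) ⬝ᵥ fun k => if k ∈ free pm then c else 0) =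
      c ^ 2 * (free pm).card := by
    simp only [dotProduct, ite_zero_mul_ite_zero, and_self]
    simp [sq, mul_comm]
  have e3 : ∀ u : H → ℝ, ∑ k, u k ^ 2 = u ⬝ᵥ u := fun u => by simp [dotProduct, sq]
  have e4 : ∑ k ∈ free pm, z (Γ.vert k) * (w + fun k => if k ∈ free pm then c else 0 : H → ℝ) k =
      ∑ k ∈ free pm, z (Γ.vert k) * w k + c * ∑ k ∈ free pm, z (Γ.vert k) := by
    rw [mul_sum, ← sum_add_distrib]
    exact sum_congr rfl fun k hk => by simp [hk]; ring
  simp only [HE.form]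
  rw [e4, e3, e3 w]
  simp only [mulVec_add, add_dotProduct, dotProduct_add, ← InvStep_symm hM.1 w, e0,
    dotProduct_comm _ w, e1, e2]
  ring

theorem InvStep_supp {pm : H → H} (hp : Function.Involutive pm) {i j : H} (hij : i ≠ j)
    (hi : pm i = i) (hj : pm j = j) {w : H → ℝ} (hw : ∀ k, k ∉ free (join pm i j) → w k = 0)
    (a b : ℝ) : w i = 0 ∧ w j = 0 ∧
      (∀ k, k ∉ free pm → (w + Pi.single i a + Pi.single j b : H → ℝ) k = 0) ∧
      ∑ k, (w + Pi.single i a + Pi.single j b : H → ℝ) k = ∑ k, w k + a + b := by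
  rw [free_join hp hij] at hw
  refine ⟨hw _ (by simp), hw _ (by simp), fun k hk => ?_, by simp [sum_add_distrib]⟩
  have h1 : k ≠ i := by rintro rfl; exact hk (by simpa [free])
  have h2 : k ≠ j := by rintro rfl; exact hk (by simpa [free])
  simp [h1, h2, hw k (by simp [hk])]

theorem inv_step_pos (Γ : HE V H q) {x σ : ℝ} (hσ0 : 0 < σ) (hσ1 : σ < 1) {pm : H → H}
    (hp : Function.Involutive pm) {M : Matrix H H ℝ} (hM : RSU (free pm) M) {i j : H} (hij : i ≠ j)
    (hi : pm i = i) (hj : pm j = j) (hd : 0 < dd M i j) (h : Γ.Inv x σ 1 pm M) :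
    Γ.Inv x σ 1 (join pm i j) (upd M i j) := by
  intro z hz w hw hsum
  have hσ : 0 < 1 - σ ^ 2 := by nlinarith
  obtain ⟨τ, hτ⟩ := indef (-M i i) (1 - M i j) (-M j j)
    (1 * z (Γ.vert j) - σ * z (Γ.vert i) -
      ((1 - M i j) * (M *ᵥ w) j + M j j * (M *ᵥ w) i) / dd M i j)
    (1 * z (Γ.vert i) - σ * z (Γ.vert j) -
      ((1 - M i j) * (M *ᵥ w) i + M i i * (M *ᵥ w) j) / dd M i j) 1 (-1)
    (by unfold dd at hd; linarith) (Or.inl one_ne_zero)
  obtain ⟨h1, h2, h3, h4⟩ := InvStep_supp hp hij hi hj hw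
    (1 * z (Γ.vert j) - σ * z (Γ.vert i) + τ) (1 * z (Γ.vert i) - σ * z (Γ.vert j) - τ)
  have h5 := h z hz _ h3 (by rw [h4, hsum, InvStep_sum hp hij hi hj]; ring)
  rw [InvStep_id Γ x hσ.ne' (by norm_num) hp hM.1 hij hi hj hd.ne' z h1 h2 _ _ (α := τ) (β := -τ)
    (by ring) (by ring) rfl rfl] at h5
  refine h5.trans (add_le_of_nonpos_right (div_nonpos_of_nonpos_of_nonneg ?_ hσ.le))
  have : σ * τ ^ 2 ≤ τ ^ 2 := by nlinarith [sq_nonneg τ]
  linarith

theorem inv_step_neg (Γ : HE V H q) {x σ : ℝ} (hσ0 : 0 < σ) (hσ1 : σ < 1) {pm : H → H}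
    (hp : Function.Involutive pm) {M : Matrix H H ℝ} (hM : RSU (free pm) M) {i j : H} (hij : i ≠ j)
    (hi : pm i = i) (hj : pm j = j) (hd : 0 < dd M i j) (h2 : 2 < (free pm).card)
    (h : Γ.Inv x σ (-1) pm M) : Γ.Inv x σ (-1) (join pm i j) (upd M i j) := by
  intro z hz w hw hsum
  have hσ : 0 < 1 - σ ^ 2 := by nlinarith
  have hi' : i ∈ free pm := by simpa [free]
  have hj' : j ∈ free pm := by simpa [free]
  have hM' := upd_RSU hM hi' hj' hij hd.ne'
  rw [← free_join hp hij] at hM'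
  have hm : (0 : ℝ) < (free (join pm i j)).card := by
    have := card_free_join hp hij hi hj
    exact_mod_cast (by omega : 0 < (free (join pm i j)).card)
  obtain ⟨τ, hτ⟩ := indef (M i i) (-(1 - M i j)) (M j j)
    (-1 * z (Γ.vert j) - σ * z (Γ.vert i) -
      ((1 - M i j) * (M *ᵥ w) j + M j j * (M *ᵥ w) i) / dd M i j)
    (-1 * z (Γ.vert i) - σ * z (Γ.vert j) -
      ((1 - M i j) * (M *ᵥ w) i + M i i * (M *ᵥ w) j) / dd M i j)
    (1 + 2 / (free (join pm i j)).card) (1 + 2 / (free (join pm i j)).card)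
    (by unfold dd at hd; linarith) (Or.inl (by positivity))
  obtain ⟨c, hc⟩ : ∃ c, c = -2 * τ / (free (join pm i j)).card := ⟨_, rfl⟩
  have k1 := InvStep_shift Γ x σ (-1) hM' z hw c
  have hrow : ∀ k ∈ free pm, (M *ᵥ (w + fun k => if k ∈ free (join pm i j) then c else 0)) k =
      (M *ᵥ w) k + c * (1 - M k i - M k j) := fun k hk => by
    have a1 := InvStep_sum hp hij hi hj (M k)
    have a2 : ∑ l ∈ free pm, M k l = 1 := by
      rw [← hM.2.2 k hk]
      exact sum_subset (subset_univ _) fun l _ hl => by rw [← hM.1.apply k l, hM.2.1 l k hl]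
    rw [mulVec_add, Pi.add_apply]
    congr 1
    simp only [mulVec, dotProduct, mul_ite, mul_zero, sum_ite_mem, univ_inter, ← sum_mul]
    linear_combination c * (a2 - a1)
  have hs' : ∑ k, (w + fun k => if k ∈ free (join pm i j) then c else 0 : H → ℝ) k =
      ∑ k, w k - 2 * τ := by
    simp only [Pi.add_apply, sum_add_distrib, sum_ite_mem, univ_inter, sum_const, nsmul_eq_mul, hc]
    field_simp
    ring
  obtain ⟨h1, h2, h3, h4⟩ := InvStep_supp hp hij hi hj
    (w := w + fun k => if k ∈ free (join pm i j) then c else 0) (fun k hk => by simp [hw k hk, hk])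
    (-1 * z (Γ.vert j) - σ * z (Γ.vert i) + τ) (-1 * z (Γ.vert i) - σ * z (Γ.vert j) + τ)
  have h5 := h z hz _ h3 (by rw [h4, hs', hsum, InvStep_sum hp hij hi hj]; ring)
  have hd' : dd M i j = (1 - M i j) ^ 2 - M i i * M j j := rfl
  rw [InvStep_id Γ x hσ.ne' (by norm_num) hp hM.1 hij hi hj hd.ne' z h1 h2 _ _ (α := τ) (β := τ)
    (γ := -1 * z (Γ.vert j) - σ * z (Γ.vert i) -
      ((1 - M i j) * (M *ᵥ w) j + M j j * (M *ᵥ w) i) / dd M i j +
        τ * (1 + 2 / (free (join pm i j)).card))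
    (δ := -1 * z (Γ.vert i) - σ * z (Γ.vert j) -
      ((1 - M i j) * (M *ᵥ w) i + M i i * (M *ᵥ w) j) / dd M i j +
        τ * (1 + 2 / (free (join pm i j)).card))
    (by ring) (by ring)
    (by rw [hrow i hi', hrow j hj', hM.1.apply i j, hc]; field_simp; rw [hd']; ring)
    (by rw [hrow i hi', hrow j hj', hM.1.apply i j, hc]; field_simp; rw [hd']; ring), k1, hsum] at h5
  have k2 : (-1 + σ) * (2 * c * ((-1 - σ) * ∑ k ∈ free (join pm i j), z (Γ.vert k)) +
      c ^ 2 * (free (join pm i j)).card) / (1 - σ ^ 2) ≤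
        2 * c * ∑ k ∈ free (join pm i j), z (Γ.vert k) := by
    rw [div_le_iff₀ hσ]
    have : 0 ≤ (1 - σ) * (c ^ 2 * (free (join pm i j)).card) :=
      mul_nonneg (by linarith) (by positivity)
    linarith
  refine h5.trans ((add_le_of_nonpos_right (div_nonpos_of_nonpos_of_nonneg ?_ hσ.le)).trans
    (by linarith))
  have : σ * τ ^ 2 ≤ τ ^ 2 := by nlinarith [sq_nonneg τ]
  linarith

end Crest.Agent.R62
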