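import Crest.Agent.R62.StepU
import Crest.Agent.R62.InvStep
import Crest.Agent.R62.InvEnds

/-!
# R62-Good: the invariant of the greedy procedure

`step_good`: `stepU` with `al = Γ.allowed pm`, `A = 0.95 + Cc/t² log(m0/m) ≤ 0.99` (for large `t`:
`log m0 ≤ (eD+1) log t`, `m0 = q n ≤ t^(eD+1)`; `log t / t² → 0`); `log(m0/(m-2)) - log(m0/m) ≥ 1/m`.  The
minimiser is at least as good as the pair of `stepU`.  Other fields: `join_invol`, `simple_join`, `free_join`,
`upd_RSU`, `inv_step_pos`, `inv_step_neg`, `card_free_join`.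
`final_good`: `finalC` and `inv_final` for `s = 1` and `s = -1`.
-/

set_option autoImplicit false
open Matrix Finset

namespace Crest.Agent.R62

variable {V H : Type} [Fintype V] [DecidableEq V] [Fintype H] [DecidableEq H] {q : ℕ}

structure GoodSt (Γ : HE V H q) (G : Glob ℝ) (x σ Cc : ℝ) (st : St H ℝ) : Prop where
  inv : Function.Involutive st.pm
  simp : Γ.Simple st.pm
  ra : RSU (free st.pm) st.a
  rb : RSU (free st.pm) st.b
  ia : Γ.Inv x σ 1 st.pm st.a
  ib : Γ.Inv x σ (-1) st.pm st.b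
  ev : Even (free st.pm).card
  lo : G.t ^ (2 * eph) - 2 < (free st.pm).card
  val : st.val G ≤ 0.95 + Cc / G.t ^ 2 * Real.log (G.m0 / (free st.pm).card)

theorem Good_log {M m : ℝ} (hM : 0 < M) (hm : 2 < m) :
    Real.log (M / m) + 1 / m ≤ Real.log (M / (m - 2)) := by
  have h0 : 0 < m := by linarith
  have h1 : 0 < m - 2 := by linarith
  have h2 := Real.log_le_sub_one_of_pos (div_pos h1 h0)
  rw [Real.log_div h1.ne' h0.ne'] at h2
  rw [Real.log_div hM.ne' h0.ne', Real.log_div hM.ne' h1.ne']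
  have h3 : (m - 2) / m - 1 = -(2 * (1 / m)) := by field_simp; ring
  have h4 : 0 < 1 / m := by positivity
  linarith

theorem Good_small {C t M m : ℝ} {e : ℕ} (hC : 0 ≤ C) (ht1 : 1 ≤ t) (ht : 25 * C * e ≤ t)
    (hM : M ≤ t ^ e) (hm : 1 ≤ m) (hmM : m ≤ M) : C / t ^ 2 * Real.log (M / m) ≤ 0.04 := by
  have h0 : 0 < t := by linarith
  have h1 : Real.log (M / m) ≤ e * t := by
    calc Real.log (M / m) ≤ Real.log (t ^ e) :=
          Real.log_le_log (div_pos (by linarith) (by linarith))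
            ((div_le_self (by linarith) hm).trans hM)
      _ = e * Real.log t := Real.log_pow _ _
      _ ≤ e * t := mul_le_mul_of_nonneg_left
          ((Real.log_le_sub_one_of_pos h0).trans (by linarith)) (Nat.cast_nonneg _)
  calc C / t ^ 2 * Real.log (M / m) ≤ C / t ^ 2 * (e * t) :=
        mul_le_mul_of_nonneg_left h1 (by positivity)
    _ = C * e / t := by field_simp
    _ ≤ 0.04 := by rw [div_le_iff₀ h0]; linarith

theorem good_main (q : ℕ) (hq : 2 ≤ q) : ∃ Cc t0 : ℝ, 0 ≤ Cc ∧ ∀ {V H : Type} [Fintype V]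
    [DecidableEq V] [Fintype H] [DecidableEq H] (Γ : HE V H q) (G : Glob ℝ) (x σ : ℝ), GoodG q G →
    t0 ≤ G.t → G.m0 = Fintype.card H → 0 < σ → σ < 1 → ∀ st : St H ℝ, GoodSt Γ G x σ Cc st →
    (G.t ^ (2 * eph) < (free st.pm).card →
      (∃ i j, Γ.Cand st i j) ∧ ∀ st', Γ.Step G st st' → GoodSt Γ G x σ Cc st') ∧
    (((free st.pm).card : ℝ) ≤ G.t ^ (2 * eph) → ∀ pm' : H → H, Function.Involutive pm' →
      (∀ k, st.pm k ≠ k → pm' k = st.pm k) → ∀ z : V → ℝ, ∑ u, z u = 0 →
      |∑ u, z u * z (Γ.mate u) + ∑ k, z (Γ.vert k) * z (Γ.vert (pm' k))| ≤ x * ∑ u, z u ^ 2) := by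
  obtain ⟨C0, t1, hC0, hU⟩ := stepU q hq
  obtain ⟨t2, hF⟩ := finalC
  refine ⟨C0, max (max t1 t2) (max (2 * q) (25 * C0 * ((eD + 1 : ℕ) : ℝ))), by linarith, ?_⟩
  intro V H _ _ _ _ Γ G x σ hG ht hm0 hσ0 hσ1 st hst
  classical
  simp only [max_le_iff] at ht
  obtain ⟨⟨ht1, ht2⟩, ht3, ht4⟩ := ht
  have hq' : (2 : ℝ) ≤ q := by exact_mod_cast hq
  have ht0 : 1 ≤ G.t := by linarith
  have hph : G.t ≤ G.t ^ (2 * eph) := by
    calc G.t = G.t ^ 1 := (pow_one _).symm
      _ ≤ _ := pow_le_pow_right₀ ht0 (by decide)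
  have hM : G.m0 ≤ G.t ^ (eD + 1) := by
    have h1 := hG.n2
    have h2 : 0 ≤ G.t ^ eD := by positivity
    rw [hG.m0, pow_succ]
    calc (q : ℝ) * G.n ≤ q * (2 * G.t ^ eD) := mul_le_mul_of_nonneg_left h1 (by linarith)
      _ = G.t ^ eD * (2 * q) := by ring
      _ ≤ _ := mul_le_mul_of_nonneg_left ht3 h2
  have hle : ((free st.pm).card : ℝ) ≤ G.m0 := by
    rw [hm0]; exact_mod_cast card_le_univ _
  have hlo := hst.lo
  have hgt : (2 : ℝ) < (free st.pm).card := by linarith
  have hsm := Good_small (by linarith : 0 ≤ C0) ht0 ht4 hM (by linarith) hle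
  have hlog : 0 ≤ C0 / G.t ^ 2 * Real.log (G.m0 / (free st.pm).card) :=
    mul_nonneg (by positivity) (Real.log_nonneg ((one_le_div (by linarith)).2 hle))
  have hfree : ∀ k, k ∈ free st.pm ↔ st.pm k = k := fun k => by simp [free]
  have hcard : ∀ i j, Γ.Cand st i j →
      ((free (st.next i j).pm).card : ℝ) = (free st.pm).card - 2 := fun i j h => by
    have := card_free_join hst.inv (Γ.allowed_ne h.2.2.1) h.1 h.2.1
    rw [← this]
    push_cast
    simp [St.next]
  refine ⟨fun hbig => ?_, fun hsmall pm' hp' hext z hz => ?_⟩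
  · obtain ⟨i0, hi0, j0, hj0, e1, e2, e3, e4⟩ := hU G hG ht1 (free st.pm) st.a st.b hst.ra hst.rb
      hbig hle (Γ.allowed st.pm) (fun i j => Γ.allowed_symm hst.inv)
      (fun i h => Γ.allowed_ne h rfl) (fun i => Γ.not_allowed_card st.pm i)
      (0.95 + C0 / G.t ^ 2 * Real.log (G.m0 / (free st.pm).card)) (by linarith) (by linarith)
      hst.val
    have hc0 : Γ.Cand st i0 j0 := ⟨(hfree _).1 hi0, (hfree _).1 hj0, e1, e2, e3⟩
    refine ⟨⟨i0, j0, hc0⟩, ?_⟩
    rintro st' ⟨i, j, hc, rfl, hmin⟩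
    have hc' := hc
    obtain ⟨hi, hj, hal, da, db⟩ := hc'
    have hij := Γ.allowed_ne hal
    have hfj := free_join hst.inv hij
    have hcj := card_free_join hst.inv hij hi hj
    refine ⟨join_invol hst.inv hi hj, Γ.simple_join hst.inv hst.simp hi hj hal, ?_, ?_,
      inv_step_pos Γ hσ0 hσ1 hst.inv hst.ra hij hi hj da hst.ia,
      inv_step_neg Γ hσ0 hσ1 hst.inv hst.rb hij hi hj db (by exact_mod_cast hgt) hst.ib, ?_, ?_, ?_⟩
    · change RSU (free (join st.pm i j)) (upd st.a i j)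
      rw [hfj]
      exact upd_RSU hst.ra ((hfree _).2 hi) ((hfree _).2 hj) hij da.ne'
    · change RSU (free (join st.pm i j)) (upd st.b i j)
      rw [hfj]
      exact upd_RSU hst.rb ((hfree _).2 hi) ((hfree _).2 hj) hij db.ne'
    · change Even (free (join st.pm i j)).card
      have h := hst.ev
      rw [← hcj] at h
      exact (Nat.even_add.1 h).2 even_two
    · rw [hcard i j hc]
      linarith
    · refine (hmin i0 j0 hc0).trans ?_
      rw [hcard i j hc, St.val, hcard i0 j0 hc0]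
      change pot _ (free (join st.pm i0 j0)) (upd st.a i0 j0) (upd st.b i0 j0) ≤ _
      rw [free_join hst.inv (Γ.allowed_ne e1)]
      refine e4.trans ?_
      have h1 := mul_le_mul_of_nonneg_left (Good_log (M := G.m0) (by linarith) hgt)
        (by positivity : 0 ≤ C0 / G.t ^ 2)
      have h2 : C0 / (G.t ^ 2 * (free st.pm).card) = C0 / G.t ^ 2 * (1 / (free st.pm).card) := by
        field_simp
      rw [h2]
      linarith
  · have hne : (free st.pm).Nonempty := by
      rw [← card_pos]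
      exact_mod_cast (by linarith : (0 : ℝ) < (free st.pm).card)
    have hpar : par G ((free st.pm).card : ℝ) = parC G (free st.pm).card := by
      rw [par, if_neg]
      exact not_lt.2 (hsmall.trans (pow_le_pow_right₀ ht0 (by decide)))
    have hv := hst.val
    rw [St.val, hpar] at hv
    obtain ⟨f1, f2⟩ := hF G ht2 (free st.pm) st.a st.b hst.ra hst.rb hne hsmall (by linarith)
    have g1 := inv_final Γ (Or.inl rfl) hσ0 hσ1 hst.inv hp' hext hst.ra hne f1 hst.ia z hz
    have g2 := inv_final Γ (Or.inr rfl) hσ0 hσ1 hst.inv hp' hext hst.rb hne f2 hst.ib z hz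
    rw [abs_le]
    constructor <;> linarith

end Crest.Agent.R62
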