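import Crest.Agent.R62.Bas2

/-!
# R62-H25: shared tools for the drift estimates `L4a`–`L6`
-/

set_option autoImplicit false
open Matrix Finset

namespace Crest.Agent.R62

section General
variable {ι : Type} [Fintype ι] [DecidableEq ι]

omit [DecidableEq ι] in
theorem h_prod (u v : ι → ℝ) : ∑ i, ∑ j, u i * v j = (∑ i, u i) * ∑ j, v j :=
  (Finset.sum_mul_sum _ _ _ _).symm

omit [DecidableEq ι] in
theorem h_prod' (u v : ι → ℝ) : ∑ i, ∑ j, u j * v i = (∑ i, u i) * ∑ j, v j := by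
  rw [Finset.sum_comm, h_prod]

omit [DecidableEq ι] in
theorem h_frob_prod {u v : ι → ℝ} {A B : ℝ} (hu : ∑ i, u i ^ 2 ≤ A ^ 2) (hv : ∑ i, v i ^ 2 ≤ B ^ 2) :
    ∑ i, ∑ j, (u i * v j) ^ 2 ≤ (A * B) ^ 2 := by
  simp only [mul_pow]
  rw [h_prod]
  exact mul_le_mul hu hv (Finset.sum_nonneg fun _ _ => sq_nonneg _) (sq_nonneg _)

omit [DecidableEq ι] in
theorem h_frob_prod' {u v : ι → ℝ} {A B : ℝ} (hu : ∑ i, u i ^ 2 ≤ A ^ 2) (hv : ∑ i, v i ^ 2 ≤ B ^ 2) :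
    ∑ i, ∑ j, (u j * v i) ^ 2 ≤ (A * B) ^ 2 := by
  rw [Finset.sum_comm]
  exact h_frob_prod hu hv

omit [DecidableEq ι] in
theorem h_cs1 (u v : ι → ℝ) {A B : ℝ} (hA : 0 ≤ A) (hB : 0 ≤ B) (hu : ∑ i, u i ^ 2 ≤ A ^ 2)
    (hv : ∑ i, v i ^ 2 ≤ B ^ 2) : ∑ i, |u i| * |v i| ≤ A * B := by
  refine (abs_le_of_sq_le_sq' ?_ (mul_nonneg hA hB)).2
  refine (Finset.sum_mul_sq_le_sq_mul_sq _ _ _).trans ?_
  simp only [sq_abs, mul_pow]
  exact mul_le_mul hu hv (Finset.sum_nonneg fun _ _ => sq_nonneg _) (sq_nonneg _)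

omit [DecidableEq ι] in
theorem h_cs2 (X Y : ι → ι → ℝ) {F G : ℝ} (hF : 0 ≤ F) (hG : 0 ≤ G)
    (hX : ∑ i, ∑ j, X i j ^ 2 ≤ F ^ 2) (hY : ∑ i, ∑ j, Y i j ^ 2 ≤ G ^ 2) :
    ∑ i, ∑ j, |X i j| * |Y i j| ≤ F * G := by
  rw [← Finset.sum_product'] at hX hY ⊢
  rw [Finset.univ_product_univ] at hX hY ⊢
  exact h_cs1 (fun p : ι × ι => X p.1 p.2) (fun p => Y p.1 p.2) hF hG hX hY

omit [DecidableEq ι] in
theorem h_abs_sum_mul (u v : ι → ℝ) : |∑ i, u i * v i| ≤ ∑ i, |u i| * |v i| := by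
  simpa only [abs_mul] using Finset.abs_sum_le_sum_abs (fun i => u i * v i) univ

omit [DecidableEq ι] in
theorem h_abs_sum2 (X : ι → ι → ℝ) : |∑ i, ∑ j, X i j| ≤ ∑ i, ∑ j, |X i j| :=
  (Finset.abs_sum_le_sum_abs _ _).trans
    (Finset.sum_le_sum fun _ _ => Finset.abs_sum_le_sum_abs _ _)

omit [DecidableEq ι] in
/-- inner product bound by a geometric mean -/
theorem h_inner_le (p q : ι → ℝ) {n : ℝ} (hn : 0 ≤ n) (h : (∑ i, p i ^ 2) * ∑ i, q i ^ 2 ≤ n ^ 2) :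
    ∑ i, |p i| * |q i| ≤ n := by
  refine (abs_le_of_sq_le_sq' ?_ hn).2
  refine (Finset.sum_mul_sq_le_sq_mul_sq _ _ _).trans ?_
  simpa only [sq_abs] using h

omit [DecidableEq ι] in
/-- triangle inequality for the Frobenius norm of a sum of rank one matrices -/
theorem h_frob_sum (c : ι → ℝ) (p q : ι → ι → ℝ) (n : ι → ℝ) (hn : ∀ k, 0 ≤ n k)
    (h : ∀ k, (∑ i, p k i ^ 2) * ∑ j, q k j ^ 2 ≤ n k ^ 2) {N : ℝ} (hN : ∑ k, |c k| * n k ≤ N) :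
    ∑ i, ∑ j, (∑ k, c k * (p k i * q k j)) ^ 2 ≤ N ^ 2 := by
  set A : ι → ι → ℝ := fun i j => ∑ k, c k * (p k i * q k j) with hA
  have h0 : 0 ≤ ∑ i, ∑ j, A i j ^ 2 :=
    Finset.sum_nonneg fun _ _ => Finset.sum_nonneg fun _ _ => sq_nonneg _
  set F := √(∑ i, ∑ j, A i j ^ 2) with hF
  have hF0 : 0 ≤ F := Real.sqrt_nonneg _
  have hF2 : F ^ 2 = ∑ i, ∑ j, A i j ^ 2 := Real.sq_sqrt h0
  have hN0 : 0 ≤ N := (Finset.sum_nonneg fun k _ => mul_nonneg (abs_nonneg _) (hn k)).trans hN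
  have h1 : ∑ i, ∑ j, A i j ^ 2 = ∑ k, c k * ∑ i, ∑ j, A i j * (p k i * q k j) := by
    simp only [Finset.mul_sum]
    rw [Finset.sum_comm (s := univ) (t := univ)
      (f := fun k i => ∑ j, c k * (A i j * (p k i * q k j)))]
    refine Finset.sum_congr rfl fun i _ => ?_
    rw [Finset.sum_comm]
    refine Finset.sum_congr rfl fun j _ => ?_
    rw [sq]
    nth_rewrite 2 [hA]
    simp only [Finset.mul_sum]
    exact Finset.sum_congr rfl fun k _ => by ring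
  have h2 : ∀ k, |∑ i, ∑ j, A i j * (p k i * q k j)| ≤ F * n k := by
    intro k
    refine (h_abs_sum2 _).trans ?_
    simp only [abs_mul (A _ _)]
    refine h_cs2 A (fun i j => p k i * q k j) hF0 (hn k) hF2.ge ?_
    simp only [mul_pow]
    rw [h_prod]
    exact h k
  have h3 : F ^ 2 ≤ F * N := by
    rw [hF2, h1]
    refine (le_abs_self _).trans ((h_abs_sum_mul _ _).trans ?_)
    refine le_trans (Finset.sum_le_sum fun k _ =>
      mul_le_mul_of_nonneg_left (h2 k) (abs_nonneg (c k))) ?_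
    simp only [mul_left_comm _ F]
    rw [← Finset.mul_sum]
    exact mul_le_mul_of_nonneg_left hN hF0
  show ∑ i, ∑ j, A i j ^ 2 ≤ N ^ 2
  rw [← hF2]
  by_cases hz : F = 0
  · rw [hz]
    simpa using sq_nonneg N
  · have : F ≤ N := by
      have := lt_of_le_of_ne hF0 (Ne.symm hz)
      nlinarith
    gcongr

omit [DecidableEq ι] in
/-- weighted Cauchy-Schwarz, entrywise -/
theorem h_entry (c p q : ι → ℝ) :
    |∑ k, c k * (p k * q k)| ≤ √(∑ k, |c k| * p k ^ 2) * √(∑ k, |c k| * q k ^ 2) := by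
  have h1 : ∀ k, c k * (p k * q k) ≤ (√|c k| * |p k|) * (√|c k| * |q k|) ∧
      -(c k * (p k * q k)) ≤ (√|c k| * |p k|) * (√|c k| * |q k|) := by
    intro k
    have : (√|c k| * |p k|) * (√|c k| * |q k|) = |c k * (p k * q k)| := by
      rw [mul_mul_mul_comm, Real.mul_self_sqrt (abs_nonneg _), abs_mul, abs_mul]
    rw [this]
    exact ⟨le_abs_self _, neg_le_abs _⟩
  have h2 := Real.sum_mul_le_sqrt_mul_sqrt univ (fun k => √|c k| * |p k|) (fun k => √|c k| * |q k|)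
  simp only [mul_pow, Real.sq_sqrt (abs_nonneg _), sq_abs] at h2
  rw [abs_le]
  constructor
  · rw [neg_le, ← Finset.sum_neg_distrib]
    exact (Finset.sum_le_sum fun k _ => (h1 k).2).trans h2
  · exact (Finset.sum_le_sum fun k _ => (h1 k).1).trans h2

omit [Fintype ι] [DecidableEq ι] in
theorem h_dd_swap {M : Matrix ι ι ℝ} (hM : M.IsSymm) (i j : ι) : dd M j i = dd M i j := by
  simp only [dd, hM.apply i j]
  ring

omit [Fintype ι] [DecidableEq ι] in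
theorem h_kap_swap {M : Matrix ι ι ℝ} (hM : M.IsSymm) (i j k : ι) :
    kap1 M j i k = kap2 M i j k := by
  simp only [kap1, kap2, h_dd_swap hM i j, hM.apply i j]

omit [Fintype ι] [DecidableEq ι] in
theorem h_kap_swap' {M : Matrix ι ι ℝ} (hM : M.IsSymm) (i j k : ι) :
    kap2 M j i k = kap1 M i j k := (h_kap_swap hM j i k).symm

omit [DecidableEq ι] in
theorem h_mul_swap {x y : Matrix ι ι ℝ} (hx : x.IsSymm) (hy : y.IsSymm) (i j : ι) :
    (x * y) i j = (y * x) j i := by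
  simp only [Matrix.mul_apply]
  exact Finset.sum_congr rfl fun l _ => by rw [hx.apply i l, hy.apply l j, mul_comm]

omit [DecidableEq ι] in
theorem h_gam_row {x y : Matrix ι ι ℝ} (hx : x.IsSymm) (hy : y.IsSymm) (k : ι) :
    ∑ l, (x * y) k l ^ 2 = gam y x k := by
  simp only [gam, h_mul_swap hx hy k]

omit [DecidableEq ι] in
theorem h_gam_nonneg (x y : Matrix ι ι ℝ) (k : ι) : 0 ≤ gam x y k :=
  Finset.sum_nonneg fun _ _ => sq_nonneg _

theorem h_col {x : Matrix ι ι ℝ} (hx : x.IsSymm) (k : ι) : ∑ l, x l k ^ 2 = rr x k := by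
  rw [rr_eq hx]
  exact Finset.sum_congr rfl fun l _ => by rw [hx.apply k l]

omit [DecidableEq ι] in
theorem h_drr_swap {M : Matrix ι ι ℝ} (hM : M.IsSymm) (i j k : ι) : drr M j i k = drr M i j k := by
  simp only [drr, h_kap_swap hM i j, h_kap_swap' hM i j, h_mul_swap hM hM j i]
  ring

theorem h_f2_sq {M : Matrix ι ι ℝ} (hM : M.IsSymm) (i j : ι) :
    (M * M) i j ^ 2 ≤ rr M i * rr M j := by
  have := mul_sq_le M M i j
  rwa [← rr_eq hM, h_col hM] at this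

theorem h_sum4 {M : Matrix ι ι ℝ} (hM : M.IsSymm) (i : ι) : ∑ k, M k i ^ 4 ≤ rr M i ^ 2 := by
  rw [sq, ← h_col hM i, Finset.sum_mul]
  refine Finset.sum_le_sum fun k _ => ?_
  have h1 : M k i ^ 2 ≤ ∑ l, M l i ^ 2 :=
    Finset.single_le_sum (f := fun l => M l i ^ 2) (fun _ _ => sq_nonneg _) (mem_univ k)
  calc M k i ^ 4 = M k i ^ 2 * M k i ^ 2 := by ring
    _ ≤ _ := mul_le_mul_of_nonneg_left h1 (sq_nonneg _)

end General

namespace Ctx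
variable {ι : Type} [Fintype ι] [DecidableEq ι] (C : Ctx ι) {x y : Matrix ι ι ℝ}

theorem h_sm {i j : ι} (h : Good C.a C.b i j) : Sm C.a i j := C.let_a.sm h

theorem h_card : ∑ _i : ι, (1 : ℝ) = C.s ^ 2 := by simp [C.card]

/-- replacing a factor close to `1` by `1` -/
theorem h_rem {q X : ι → ι → ℝ} {c F : ℝ} (hc : 0 ≤ c) (hF : 0 ≤ F)
    (hq : ∀ i j, Good C.a C.b i j → |q i j - 1| ≤ c * (|C.a i j| + |C.a i i * C.a j j|))
    (hX : ∑ i, ∑ j, X i j ^ 2 ≤ F ^ 2) :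
    |C.E (fun i j => q i j * X i j) - C.E X| ≤ 3 / 2 * c * ((C.tt + C.dl ^ 2) * F) := by
  rw [← C.E_sub]
  refine (C.TUabs (Y := fun i j => c * (|(|C.a i j| + |C.a i i * C.a j j|)| * |X i j|))
    (fun i j h => ?_) fun i j => by positivity).trans ?_
  · rw [← sub_one_mul, abs_mul, abs_of_nonneg (by positivity : 0 ≤ |C.a i j| + |C.a i i * C.a j j|),
      ← mul_assoc]
    exact mul_le_mul_of_nonneg_right (hq i j h) (abs_nonneg _)
  · simp only [← Finset.mul_sum]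
    rw [mul_assoc]
    have := h_cs2 (fun i j => |C.a i j| + |C.a i i * C.a j j|) X
      (add_nonneg C.ok.tt0 (sq_nonneg C.dl)) hF (C.F_fgh C.let_a) hX
    gcongr

theorem h_TFd {X : ι → ι → ℝ} {F : ℝ} (hF : 0 ≤ F) (hX : ∑ i, ∑ j, X i j ^ 2 ≤ F ^ 2) :
    |C.E (fun i j => 1 / dd C.a i j * X i j) - ∑ i, ∑ j, X i j| ≤ 11 * (C.bt * C.s * F) := by
  have h1 := C.h_rem (q := fun i j => 1 / dd C.a i j) (c := 3) (by norm_num) hF
    (fun i j h => (C.h_sm h).inv_sub) hX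
  have h2 := C.TF hF hX
  have h3 := mul_le_mul_of_nonneg_right C.tt_add_le hF
  have h4 : C.s * F ≤ C.bt * C.s * F := by
    have := mul_nonneg C.ok.s0 hF
    have := C.ok.bt1
    nlinarith
  have h5 := abs_sub_le (C.E fun i j => 1 / dd C.a i j * X i j) (C.E X) (∑ i, ∑ j, X i j)
  linarith

theorem h_abs {q X : ι → ι → ℝ} {c A : ℝ} (hc : 0 ≤ c)
    (hq : ∀ i j, Good C.a C.b i j → |q i j| ≤ c) (hX : ∑ i, ∑ j, |X i j| ≤ A) :
    |C.E (fun i j => q i j * X i j)| ≤ 3 / 2 * c * A := by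
  refine (C.TUabs (Y := fun i j => c * |X i j|) (fun i j h => ?_) fun i j => by positivity).trans ?_
  · rw [abs_mul]
    exact mul_le_mul_of_nonneg_right (hq i j h) (abs_nonneg _)
  · simp only [← Finset.mul_sum]
    rw [mul_assoc]
    gcongr

theorem h_inv_abs {i j : ι} (h : Good C.a C.b i j) : |1 / dd C.a i j| ≤ 4 / 3 := by
  have h1 := (C.h_sm h).inv_le
  rw [abs_of_pos (one_div_pos.2 (C.h_sm h).dd_pos)]
  linarith

theorem h_absd {X : ι → ι → ℝ} {A : ℝ} (hX : ∑ i, ∑ j, |X i j| ≤ A) :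
    |C.E (fun i j => 1 / dd C.a i j * X i j)| ≤ 2 * A := by
  have := C.h_abs (q := fun i j => 1 / dd C.a i j) (c := 4 / 3) (by norm_num)
    (fun i j h => C.h_inv_abs h) hX
  linarith

theorem h_tilt {X : ι → ι → ℝ} {T : ℝ} (h : ∀ y, C.Let y → |∑ i, ∑ j, y i j * X i j| ≤ T) :
    |C.lam * ∑ i, ∑ j, C.φ i j * X i j| ≤ 2 * (C.lam * T) := by
  have h1 : ∑ i, ∑ j, C.φ i j * X i j =
      C.χa * ∑ i, ∑ j, C.a i j * X i j + C.χb * ∑ i, ∑ j, C.b i j * X i j := by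
    simp only [φ, Matrix.add_apply, Matrix.smul_apply, smul_eq_mul, Finset.mul_sum,
      ← Finset.sum_add_distrib]
    exact Finset.sum_congr rfl fun i _ => Finset.sum_congr rfl fun j _ => by ring
  have hT : 0 ≤ T := (abs_nonneg _).trans (h _ C.let_a)
  rw [h1, abs_mul, abs_of_nonneg C.ok.lam0, mul_left_comm]
  refine mul_le_mul_of_nonneg_left ((abs_add_le _ _).trans ?_) C.ok.lam0
  rw [abs_mul, abs_mul]
  have h2 := mul_le_mul C.χa1 (h _ C.let_a) (abs_nonneg _) zero_le_one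
  have h3 := mul_le_mul C.χb1 (h _ C.let_b) (abs_nonneg _) zero_le_one
  linarith

theorem h_w0 : 0 ≤ C.w := zero_le_one.trans C.one_le_w
theorem h_K0 : 0 ≤ C.K := zero_le_one.trans C.ok.K1
theorem h_sS0 : 0 ≤ C.sS := (sq_nonneg _).trans C.sS_ge
theorem h_s1 : 1 ≤ C.s := C.ok.bt1.trans C.bt_le_s
theorem h_de_bt : C.de ≤ C.bt := by
  have := C.ok.de1
  have := C.ok.deb
  nlinarith

theorem h_x_sq : ∑ k, (rr C.a k - C.c) ^ 2 ≤ C.w ^ 2 := C.ha.rho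
theorem h_D_sq : ∑ k, C.a k k ^ 2 ≤ C.dl ^ 2 := C.ha.dl
theorem h_y_sq : ∑ k, (rr C.a k - 1) ^ 2 ≤ (2 * C.s) ^ 2 := by
  have := C.sum_y_sq C.let_a
  linarith

theorem h_r_gam (hx : C.Let x) (hy : C.Let y) : ∑ k, rr C.a k * gam x y k ≤ C.sS ^ 2 :=
  le_trans (Finset.sum_le_sum fun k _ =>
    mul_le_mul_of_nonneg_right (C.rr_le_om C.let_a k) (h_gam_nonneg _ _ _)) (C.sum_om_gam hx hy)

/-- `∑ |v| √(r gam) ≤ V sS` -/
theorem h_sqrt_r_gam (hx : C.Let x) (hy : C.Let y) (v : ι → ℝ) {V : ℝ} (hV : 0 ≤ V)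
    (hv : ∑ k, v k ^ 2 ≤ V ^ 2) : ∑ k, |v k| * √(rr C.a k * gam x y k) ≤ V * C.sS := by
  have := h_cs1 v (fun k => √(rr C.a k * gam x y k)) hV C.h_sS0 hv (by
    simp only [fun k => Real.sq_sqrt (mul_nonneg (rr_nonneg C.let_a.symm k) (h_gam_nonneg x y k))]
    exact C.h_r_gam hx hy)
  simpa only [abs_of_nonneg (Real.sqrt_nonneg _)] using this

/-- `∑ |v| r ≤ V rt` -/
theorem h_v_r (v : ι → ℝ) {V : ℝ} (hV : 0 ≤ V) (hv : ∑ k, v k ^ 2 ≤ V ^ 2) :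
    ∑ k, |v k| * rr C.a k ≤ V * C.rt := by
  have := h_cs1 v (rr C.a) hV C.ok.rt0 hv C.ha.r2
  simpa only [abs_of_nonneg (rr_nonneg C.let_a.symm _)] using this

/-- Schur bound, column form -/
theorem h_schur (v : ι → ℝ) {V : ℝ} (hv : ∑ k, v k ^ 2 ≤ V ^ 2) :
    ∑ j, (∑ k, v k * C.a k j ^ 2) ^ 2 ≤ (3 * C.w * V) ^ 2 := by
  have h := C.schurH C.let_a v
  have h1 : ∀ j, ∑ k, v k * C.a k j ^ 2 = ∑ k, v k * C.a j k ^ 2 := fun j =>
    Finset.sum_congr rfl fun k _ => by rw [C.let_a.symm.apply j k]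
  simp only [h1]
  refine h.trans ?_
  have := mul_le_mul_of_nonneg_left hv (by positivity : 0 ≤ 9 * C.w ^ 2)
  linarith

theorem h_sum_zbar (v : ι → ℝ) : ∑ j, ∑ k, v k * C.a k j ^ 2 = ∑ k, v k * rr C.a k := by
  rw [Finset.sum_comm]
  simp only [← Finset.mul_sum, ← rr_eq C.let_a.symm]

/-- `∑ ω z̄` -/
theorem h_om_zbar (v : ι → ℝ) {V : ℝ} (hV : 0 ≤ V) (hv : ∑ k, v k ^ 2 ≤ V ^ 2) :
    ∑ j, C.ω j * ∑ k, |v k| * C.a k j ^ 2 ≤ V * C.rt + 6 * C.w ^ 2 * V := by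
  have h1 : ∑ j, C.ω j * ∑ k, |v k| * C.a k j ^ 2 =
      ∑ j, ∑ k, |v k| * C.a k j ^ 2 + ∑ j, |C.ω j - 1| * |∑ k, |v k| * C.a k j ^ 2| := by
    rw [← Finset.sum_add_distrib]
    refine Finset.sum_congr rfl fun j _ => ?_
    rw [abs_of_nonneg (sub_nonneg.2 (C.one_le_om j)),
      abs_of_nonneg (Finset.sum_nonneg fun _ _ => by positivity)]
    ring
  rw [h1, C.h_sum_zbar]
  have h2 := C.h_v_r v hV hv
  have hw := C.h_w0
  have h3 := h_cs1 (fun j => C.ω j - 1) (fun j => ∑ k, |v k| * C.a k j ^ 2) (A := 2 * C.w)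
    (B := 3 * C.w * V) (by positivity) (by positivity) (by have := C.sum_xi_sq; linarith)
    (C.h_schur _ (by simpa only [sq_abs] using hv))
  linarith

/-- `‖M diag(v) M‖ ≤ V rt` -/
theorem h_Y (v : ι → ℝ) {V : ℝ} (hV : 0 ≤ V) (hv : ∑ k, v k ^ 2 ≤ V ^ 2) :
    ∑ i, ∑ j, (∑ k, v k * (C.a k i * C.a k j)) ^ 2 ≤ (V * C.rt) ^ 2 :=
  h_frob_sum v C.a C.a (rr C.a) (rr_nonneg C.let_a.symm)
    (fun k => by rw [← rr_eq C.let_a.symm, sq]) (C.h_v_r v hV hv)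

/-- `∑_k (∑_i v_i M_ki²)²` when `|v| ≤ |x| + 1` -/
theorem h_cross (v : ι → ℝ) (h0 : ∀ i, 0 ≤ v i) (hv : ∀ i, v i ≤ |rr C.a i - C.c| + 1) :
    ∑ k, (∑ i, v i * C.a k i ^ 2) ^ 2 ≤ 18 * C.w ^ 4 + 8 * C.s ^ 2 := by
  have h1 := C.schurH C.let_a fun i => |rr C.a i - C.c|
  simp only [sq_abs] at h1
  have h2 := mul_le_mul_of_nonneg_left C.h_x_sq (by positivity : 0 ≤ 9 * C.w ^ 2)
  have h3 := C.ha.r2
  have h4 : C.rt ^ 2 ≤ (2 * C.s) ^ 2 := by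
    have := C.ok.rt0
    have := C.ok.rts
    gcongr
  have h5 : ∑ k, (∑ i, v i * C.a k i ^ 2) ^ 2 ≤
      ∑ k, (2 * (∑ i, |rr C.a i - C.c| * C.a k i ^ 2) ^ 2 + 2 * rr C.a k ^ 2) := by
    refine Finset.sum_le_sum fun k _ => ?_
    have h6 : ∑ i, v i * C.a k i ^ 2 ≤ ∑ i, |rr C.a i - C.c| * C.a k i ^ 2 + rr C.a k := by
      rw [rr_eq C.let_a.symm k, ← Finset.sum_add_distrib]
      refine Finset.sum_le_sum fun i _ => ?_
      have := mul_le_mul_of_nonneg_right (hv i) (sq_nonneg (C.a k i))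
      linarith
    have h7 : 0 ≤ ∑ i, v i * C.a k i ^ 2 :=
      Finset.sum_nonneg fun i _ => mul_nonneg (h0 i) (sq_nonneg _)
    have h8 := pow_le_pow_left₀ h7 h6 2
    nlinarith [sq_nonneg (∑ i, |rr C.a i - C.c| * C.a k i ^ 2 - rr C.a k)]
  rw [Finset.sum_add_distrib, ← Finset.mul_sum, ← Finset.mul_sum] at h5
  linarith

end Ctx

end Crest.Agent.R62
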