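import Crest.Agent.R62.H25

/-!
# R62-H25e: monomials dominated by `err4`, `err5`, `err6`
-/

set_option autoImplicit false
open Matrix Finset

namespace Crest.Agent.R62

namespace Ctx
variable {ι : Type} [Fintype ι] [DecidableEq ι] (C : Ctx ι)

theorem h_u0 : 0 ≤ C.u := zero_le_one.trans C.ok.u1
theorem h_bt0 : 0 ≤ C.bt := zero_le_one.trans C.ok.bt1
theorem h_de0 : 0 ≤ C.de := zero_le_one.trans C.ok.de1

theorem h_err4 : C.bt * C.K ^ 2 * C.s ^ 3 ≤ C.err4 ∧ C.bt * C.K ^ 6 ≤ C.err4 ∧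
    C.bt ^ 2 * C.K ^ 5 ≤ C.err4 ∧ C.de * C.s * C.K ^ 5 ≤ C.err4 ∧ C.K ^ 3 * C.s ^ 2 ≤ C.err4 ∧
    C.bt * C.s * C.K ^ 4 ≤ C.err4 ∧ C.s ^ 4 ≤ C.err4 := by
  have := C.h_bt0
  have := C.h_K0
  have := C.ok.s0
  have := C.h_de0
  have h1 : 0 ≤ C.bt * C.K ^ 2 * C.s ^ 3 := by positivity
  have h2 : 0 ≤ C.bt * C.K ^ 6 := by positivity
  have h3 : 0 ≤ C.bt ^ 2 * C.K ^ 5 := by positivity
  have h4 : 0 ≤ C.de * C.s * C.K ^ 5 := by positivity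
  have h5 : 0 ≤ C.K ^ 3 * C.s ^ 2 := by positivity
  have h6 : 0 ≤ C.bt * C.s * C.K ^ 4 := by positivity
  have h7 : 0 ≤ C.s ^ 4 := by positivity
  unfold Num.err4
  refine ⟨?_, ?_, ?_, ?_, ?_, ?_, ?_⟩ <;> linarith

theorem h_err5 : C.de ^ 4 * C.u ^ 3 * C.s ^ 2 ≤ C.err5 ∧ C.bt ^ 2 * (C.w ^ 2 * C.s) ≤ C.err5 ∧
    C.bt ^ 2 * C.w ^ 4 ≤ C.err5 ∧ C.bt ^ 2 * (C.K * C.sS) ≤ C.err5 ∧
    C.bt * C.s * C.w ^ 3 ≤ C.err5 ∧ C.lam * C.w * C.K * C.sS ≤ C.err5 ∧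
    C.de * C.s * C.w * C.sS ≤ C.err5 ∧ C.de ^ 2 * C.sS ^ 2 ≤ C.err5 := by
  have := C.h_bt0
  have := C.h_K0
  have := C.ok.s0
  have := C.h_de0
  have := C.h_u0
  have := C.h_w0
  have := C.h_sS0
  have := C.ok.lam0
  have h1 : 0 ≤ C.de ^ 4 * C.u ^ 3 * C.s ^ 2 := by positivity
  have h2 : 0 ≤ C.bt ^ 2 * (C.w ^ 2 * C.s) := by positivity
  have h3 : 0 ≤ C.bt ^ 2 * C.w ^ 4 := by positivity
  have h4 : 0 ≤ C.bt ^ 2 * (C.K * C.sS) := by positivity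
  have h5 : 0 ≤ C.bt * C.s * C.w ^ 3 := by positivity
  have h6 : 0 ≤ C.lam * C.w * C.K * C.sS := by positivity
  have h7 : 0 ≤ C.de * C.s * C.w * C.sS := by positivity
  have h8 : 0 ≤ C.de ^ 2 * C.sS ^ 2 := by positivity
  unfold Num.err5
  refine ⟨?_, ?_, ?_, ?_, ?_, ?_, ?_, ?_⟩ <;> linarith

/-- derived monomials -/
theorem h_err5' : C.u ^ 3 * C.s ^ 2 ≤ C.err5 ∧ C.de ^ 2 * (C.w * C.s ^ 2) ≤ C.err5 ∧
    C.de ^ 4 * C.s ^ 2 ≤ C.err5 ∧ C.s ^ 2 ≤ C.err5 ∧ C.de ^ 4 * C.w ^ 4 ≤ C.err5 ∧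
    C.w ^ 4 ≤ C.err5 ∧ C.de ^ 2 * (C.w ^ 2 * C.s) ≤ C.err5 ∧ C.bt ^ 2 * (C.w * C.s) ≤ C.err5 ∧
    C.w * C.s ≤ C.err5 ∧ C.s * C.w ^ 3 ≤ C.err5 ∧ C.s * C.w * C.sS ≤ C.err5 ∧
    C.sS ^ 2 ≤ C.err5 ∧ C.bt ^ 2 * C.w ^ 3 ≤ C.err5 ∧ C.bt * C.w ^ 2 ≤ C.err5 ∧ 0 ≤ C.err5 := by
  obtain ⟨e1, e2, e3, e4, e5, e6, e7, e8⟩ := C.h_err5
  have hb := C.ok.bt1
  have hs := C.h_s1
  have hd := C.ok.de1
  have hu := C.ok.u1
  have hw := C.one_le_w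
  have hS := C.h_sS0
  have hdb := C.ok.deb
  have hwu : C.w = C.u ^ 2 := rfl
  have hd4 : 1 ≤ C.de ^ 4 := one_le_pow₀ hd
  have hd2 : 1 ≤ C.de ^ 2 := one_le_pow₀ hd
  have hu3 : 1 ≤ C.u ^ 3 := one_le_pow₀ hu
  have hb2 : 1 ≤ C.bt ^ 2 := one_le_pow₀ hb
  have hd4b : C.de ^ 4 ≤ C.bt ^ 2 := by
    calc C.de ^ 4 = (C.de ^ 2) ^ 2 := by ring
      _ ≤ _ := by gcongr
  have hbb : C.bt ≤ C.bt ^ 2 := by nlinarith
  have hww : C.w ≤ C.w ^ 2 := by nlinarith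
  have f1 : C.u ^ 3 * C.s ^ 2 ≤ C.err5 := by
    refine le_trans ?_ e1
    rw [mul_assoc]
    exact le_mul_of_one_le_left (by positivity) hd4
  have f3 : C.de ^ 4 * C.s ^ 2 ≤ C.err5 := by
    refine le_trans ?_ e1
    gcongr
    exact le_mul_of_one_le_right (by positivity) hu3
  have f4 : C.s ^ 2 ≤ C.err5 := (le_mul_of_one_le_left (by positivity) hd4).trans f3
  have f8 : C.bt ^ 2 * (C.w * C.s) ≤ C.err5 := by
    refine le_trans ?_ e2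
    gcongr
  refine ⟨f1, ?_, f3, f4, ?_, ?_, ?_, f8, ?_, ?_, ?_, ?_, ?_, ?_, le_trans (by positivity) f4⟩
  · refine le_trans ?_ e1
    rw [mul_assoc, hwu]
    gcongr <;> norm_num
  · refine le_trans ?_ e3
    gcongr
  · exact (le_mul_of_one_le_left (by positivity) hb2).trans e3
  · refine le_trans ?_ e2
    gcongr
    exact C.h_de_bt
  · exact (le_mul_of_one_le_left (by positivity) hb2).trans f8
  · refine le_trans ?_ e5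
    rw [mul_assoc]
    exact le_mul_of_one_le_left (by positivity) hb
  · refine le_trans ?_ e7
    rw [mul_assoc, mul_assoc, mul_assoc]
    exact le_mul_of_one_le_left (by positivity) hd
  · exact (le_mul_of_one_le_left (by positivity) hd2).trans e8
  · refine le_trans ?_ e3
    gcongr
    norm_num
  · refine le_trans ?_ e2
    gcongr
    exact le_mul_of_one_le_right (by positivity) hs

theorem h_err6 {p : ℝ} (hp : 0 ≤ p) : C.s * C.dl ≤ C.err6 p ∧ C.lam * C.dl * C.sS ≤ C.err6 p ∧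
    C.bt ^ 2 * C.dl * (C.rt + C.w ^ 2) ≤ C.err6 p ∧
    (C.tt + C.dl ^ 2) * C.dl * C.rt ≤ C.err6 p ∧ p * C.dl * C.rt ≤ C.err6 p ∧
    C.bt * C.s * C.dl ^ 2 * C.w ≤ C.err6 p ∧ C.rt ^ 2 ≤ C.err6 p ∧ C.dl ^ 4 * C.s ≤ C.err6 p := by
  have := C.h_bt0
  have := C.ok.s0
  have := C.ok.dl0
  have := C.ok.tt0
  have := C.ok.rt0
  have := C.h_w0
  have := C.h_sS0
  have := C.ok.lam0
  have h1 : 0 ≤ C.s * C.dl := by positivity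
  have h2 : 0 ≤ C.lam * C.dl * C.sS := by positivity
  have h3 : 0 ≤ C.bt ^ 2 * C.dl * (C.rt + C.w ^ 2) := by positivity
  have h4 : 0 ≤ (C.tt + C.dl ^ 2) * C.dl * C.rt := by positivity
  have h5 : 0 ≤ p * C.dl * C.rt := by positivity
  have h6 : 0 ≤ C.bt * C.s * C.dl ^ 2 * C.w := by positivity
  have h7 : 0 ≤ C.rt ^ 2 := by positivity
  have h8 : 0 ≤ C.dl ^ 4 * C.s := by positivity
  unfold Num.err6
  refine ⟨?_, ?_, ?_, ?_, ?_, ?_, ?_, ?_⟩ <;> linarith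

end Ctx

end Crest.Agent.R62
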