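import Crest.Agent.R62.Upd

/-!
# R62-IdR: increments of row norms, diagonal and fourth powers

`rr_upd`: for `k ∉ {i,j}`, with `κ = (kap1 k, kap2 k)`, `M̃ k l = M k l + κ₁ M l i + κ₂ M l j`:
`∑_l M̃ k l ² = r_k + 2(κ₁ (MM) k i + κ₂ (MM) k j) + κ₁² r_i + 2κ₁κ₂ (MM) i j + κ₂² r_j`, and the two removed
entries are `M̃ k i = κ₂`, `M̃ k j = κ₁` (`field_simp; ring`).
`Del_upd`: `M i i + del i i = M i i / d`, `M j j + del j j = M j j / d`.
-/

set_option autoImplicit false
open Matrix Finset

namespace Crest.Agent.R62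

variable {K : Type*} [Field K] {ι : Type*} [Fintype ι] [DecidableEq ι]

theorem IdR_sum {i j : ι} (F : ι → K) :
    ∑ l, (if l = i ∨ l = j then 0 else F l) = ∑ l ∈ univ \ {i, j}, F l := by
  rw [← Finset.sum_subset (Finset.subset_univ (univ \ {i, j}))]
  · refine Finset.sum_congr rfl fun l hl => if_neg ?_
    simpa [not_or] using hl
  · intro l _ hl
    refine if_pos ?_
    by_contra h
    exact hl (by simpa [not_or] using h)

theorem kap1_i {M : Matrix ι ι K} (i j : ι) :
    kap1 M i j i = (M i i * M j j + M i j - M i j ^ 2) / dd M i j := by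
  unfold kap1
  ring

theorem kap2_i {M : Matrix ι ι K} (i j : ι) : kap2 M i j i = M i i / dd M i j := by
  unfold kap2
  ring

theorem kap1_j {M : Matrix ι ι K} (hM : M.IsSymm) (i j : ι) : kap1 M i j j = M j j / dd M i j := by
  unfold kap1
  rw [hM.apply i j]
  ring

theorem kap2_j {M : Matrix ι ι K} (hM : M.IsSymm) (i j : ι) :
    kap2 M i j j = (M i i * M j j + M i j - M i j ^ 2) / dd M i j := by
  unfold kap2
  rw [hM.apply i j]
  ring

theorem rr_upd {M : Matrix ι ι K} (hM : M.IsSymm) {i j : ι} (hij : i ≠ j) (hd : dd M i j ≠ 0)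
    {k : ι} (hi : k ≠ i) (hj : k ≠ j) : rr (upd M i j) k = rr M k + drr M i j k := by
  have h1 : rr (upd M i j) k =
      ∑ l, if l = i ∨ l = j then 0 else (M k l + del M i j k l) ^ 2 := by
    rw [rr, Matrix.mul_apply]
    refine Finset.sum_congr rfl fun l _ => ?_
    rw [(upd_symm hM i j).apply k l]
    simp only [upd, Matrix.of_apply, hi, hj, false_or]
    split_ifs
    · simp
    · ring
  have h2 : ∑ l, (M k l + del M i j k l) ^ 2 = (M * M) k k
      + 2 * (kap1 M i j k * (M * M) k i + kap2 M i j k * (M * M) k j)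
      + kap1 M i j k ^ 2 * (M * M) i i + kap2 M i j k ^ 2 * (M * M) j j
      + 2 * kap1 M i j k * kap2 M i j k * (M * M) i j := by
    simp only [Matrix.mul_apply, Finset.mul_sum, ← Finset.sum_add_distrib]
    refine Finset.sum_congr rfl fun l _ => ?_
    rw [del, hM.apply k l, hM.apply l i, hM.apply l j]
    ring
  have h3 : M k i + del M i j k i = kap2 M i j k := by
    unfold del kap1 kap2
    field_simp
    unfold dd
    ring
  have h4 : M k j + del M i j k j = kap1 M i j k := by
    unfold del kap1 kap2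
    rw [hM.apply i j]
    field_simp
    unfold dd
    ring
  rw [h1, Upd_sum_sdiff hij, h2, h3, h4, drr, rr, rr, rr]
  ring

theorem rho_upd {M : Matrix ι ι K} (hM : M.IsSymm) {i j : ι} (hij : i ≠ j) (hd : dd M i j ≠ 0)
    (c' : K) : rho (univ \ {i, j}) c' (upd M i j) =
      ∑ k ∈ univ \ {i, j}, (rr M k + drr M i j k - c') ^ 2 := by
  refine Finset.sum_congr rfl fun k hk => ?_
  simp only [Finset.mem_sdiff, Finset.mem_univ, Finset.mem_insert, Finset.mem_singleton, not_or,
    true_and] at hk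
  rw [rr_upd hM hij hd hk.1 hk.2]

theorem Del_upd {M : Matrix ι ι K} (hM : M.IsSymm) {i j : ι} (hij : i ≠ j) (hd : dd M i j ≠ 0) :
    Del (upd M i j) =
      ∑ k, (M k k + del M i j k k) ^ 2 - (M i i ^ 2 + M j j ^ 2) / dd M i j ^ 2 := by
  have h1 : Del (upd M i j) =
      ∑ l, if l = i ∨ l = j then 0 else (M l l + del M i j l l) ^ 2 := by
    refine Finset.sum_congr rfl fun l _ => ?_
    simp only [upd, Matrix.of_apply]
    by_cases h : l = i ∨ l = j
    · rw [if_pos h, if_pos (by tauto)]
      simp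
    · rw [if_neg h, if_neg (by tauto)]
  have h2 : M i i + del M i j i i = M i i / dd M i j := by
    rw [del, kap1_i, kap2_i]
    field_simp
    unfold dd
    ring
  have h3 : M j j + del M i j j j = M j j / dd M i j := by
    rw [del, kap1_j hM, kap2_j hM, hM.apply i j]
    field_simp
    unfold dd
    ring
  rw [h1, Upd_sum_sdiff hij, h2, h3]
  ring

theorem Q4_upd (M : Matrix ι ι K) (i j : ι) :
    Q4 (upd M i j) = ∑ k ∈ univ \ {i, j}, ∑ l ∈ univ \ {i, j}, (M k l + del M i j k l) ^ 4 := by
  rw [Q4, ← IdR_sum]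
  refine Finset.sum_congr rfl fun k _ => ?_
  by_cases h : k = i ∨ k = j
  · rw [if_pos h]
    refine Finset.sum_eq_zero fun l _ => ?_
    simp only [upd, Matrix.of_apply]
    rw [if_pos (by tauto)]
    simp
  · rw [if_neg h, ← IdR_sum]
    refine Finset.sum_congr rfl fun l _ => ?_
    simp only [upd, Matrix.of_apply]
    by_cases h' : l = i ∨ l = j
    · rw [if_pos h', if_pos (by tauto)]
      simp
    · rw [if_neg h', if_neg (by tauto)]

end Crest.Agent.R62
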