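import Crest.Agent.R62.Upd

/-!
# R62-IdW: the increments of `tr(x x y)` and of `tau4`

`WW_upd`: by `upd_eq`, `Pm_mul` and cyclicity `WW (upd x) (upd y) = tr((x+Zx)(x+Zx)(y+Zy))`; expand into 8
traces, rotate each one so that it starts with a `Z` and use `trace_Zm`, `trace_Zm2`, `trace_Zm3`
(insert `* 1` where no letter stands between two `Z`).

`tau4_upd`: `tr((M+Z)^4) - tr M^4 = 4 tr(Z M³) + 4 tr(Z Z M²) + 2 tr(Z M Z M) + 4 tr(Z Z Z M) + tr(Z⁴)`
(prove a four-`Z` version of `trace_Zm3`), i.e. with `F_p = FF M (M^p) M i j`: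
`4 tr F₄ + 4 tr(F₁F₃) + 2 tr(F₂F₂) + 4 tr(F₁F₁F₂) + tr(F₁⁴)`.  Generalise the 15 numbers
`g_p = (M^p) i i, h_p = (M^p) j j, f_p = (M^p) i j = (M^p) j i` (p ≤ 5) and finish with 2×2 algebra.
A cheap way: Cayley-Hamilton for 2×2 matrices (`tr(F₁⁴)`, `tr(F₁F₁F₂)` in terms of `tr F₁`, `det F₁`,
`tr F₂`, `tr(F₁F₂)`), `tr F₁ = ε₁`, and the polarised identities
`ε₂ = tr F₂ - det F₁`, `ε₃ = tr F₃ - (tr F₁ tr F₂ - tr(F₁F₂))`,
`ε₄ = tr F₄ - (tr F₁ tr F₃ - tr(F₁F₃)) - det F₂` where `ε₂ = NN2/d - 1`, `ε₃ = NN3/d`, `ε₄ = NN4/d`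
(each is `field_simp; ring` with only `d` or `d²` as denominator).  The final identity was checked
numerically in exact arithmetic.
-/

set_option autoImplicit false
open Matrix Finset

namespace Crest.Agent.R62

variable {K : Type*} [Field K] {ι : Type*} [Fintype ι] [DecidableEq ι]

theorem IdW_trace4 (x : Matrix ι ι K) {i j : ι} (hij : i ≠ j) :
    (Zm x i j * Zm x i j * Zm x i j * Zm x i j).trace =
      (FF x x x i j * FF x x x i j * FF x x x i j * FF x x x i j).trace := by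
  rw [Upd_FF_eq _ _ _ hij, Zm]
  simp only [Matrix.mul_assoc]
  rw [Matrix.trace_mul_comm]
  simp only [Matrix.mul_assoc]

omit [DecidableEq ι] in
theorem IdW_P3 {P A B C : Matrix ι ι K} (hA : P * A = A) (hB : P * B = B) (hC : P * C = C) :
    (A * P * (B * P) * (C * P)).trace = (A * B * C).trace := by
  have e : A * P * (B * P) * (C * P) = A * (P * B) * (P * C) * P := by simp only [Matrix.mul_assoc]
  rw [e, hB, hC, Matrix.trace_mul_comm, ← Matrix.mul_assoc, ← Matrix.mul_assoc, hA]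

omit [DecidableEq ι] in
theorem IdW_P4 {P A : Matrix ι ι K} (hA : P * A = A) :
    (A * P * (A * P) * (A * P) * (A * P)).trace = (A * A * A * A).trace := by
  have e : A * P * (A * P) * (A * P) * (A * P) = A * (P * A) * (P * A) * (P * A) * P := by
    simp only [Matrix.mul_assoc]
  rw [e, hA, Matrix.trace_mul_comm, ← Matrix.mul_assoc, ← Matrix.mul_assoc, ← Matrix.mul_assoc, hA]

omit [DecidableEq ι] in
theorem IdW_rot (A B C D : Matrix ι ι K) : (A * B * C * D).trace = (B * C * D * A).trace := by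
  rw [Matrix.mul_assoc A, Matrix.mul_assoc A, Matrix.trace_mul_comm]

omit [DecidableEq ι] in
theorem IdW_exp4 (M Z : Matrix ι ι K) :
    ((M + Z) * (M + Z) * (M + Z) * (M + Z)).trace = (M * M * M * M).trace
      + 4 * (Z * M * M * M).trace + 4 * (Z * Z * M * M).trace + 2 * (Z * M * Z * M).trace
      + 4 * (Z * Z * Z * M).trace + (Z * Z * Z * Z).trace := by
  simp only [Matrix.add_mul, Matrix.mul_add, Matrix.trace_add]
  have a1 := IdW_rot M M M Z
  have a2 := IdW_rot M M Z M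
  have a3 := IdW_rot M Z M M
  have b1 := IdW_rot M M Z Z
  have b2 := IdW_rot M Z Z M
  have b3 := IdW_rot Z M M Z
  have c1 := IdW_rot M Z M Z
  have d1 := IdW_rot M Z Z Z
  have d2 := IdW_rot Z M Z Z
  have d3 := IdW_rot Z Z M Z
  rw [a1, a2, a3, b3, b1, b2, c1, d3, d2, d1]
  ring

theorem IdW_2x2 (A B C D : Matrix (Fin 2) (Fin 2) K) :
    4 * D.trace + 4 * (A * C).trace + 2 * (B * B).trace + 4 * (A * A * B).trace
      + (A * A * A * A).trace =
    4 * (D.trace - (A.trace * C.trace - (A * C).trace) - B.det)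
      + 4 * A.trace * (C.trace - (A.trace * B.trace - (A * B).trace))
      + 2 * (B.trace - A.det) ^ 2 + 4 * A.trace ^ 2 * (B.trace - A.det) + A.trace ^ 4 := by
  simp only [Matrix.trace_fin_two, Matrix.det_fin_two, Matrix.mul_apply, Fin.sum_univ_two]
  ring

theorem WW_upd {x y : Matrix ι ι K} (hx : x.IsSymm) (hy : y.IsSymm) {i j : ι} (hij : i ≠ j)
    (hdx : dd x i j ≠ 0) (hdy : dd y i j ≠ 0) :
    WW (upd x i j) (upd y i j) - WW x y =
      (FF x (x * x * y) x i j).trace + (FF x (x * y * x) x i j).trace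
        + (FF y (y * x * x) y i j).trace
        + (FF x x x i j * FF x (x * y) x i j).trace + (FF x x y i j * FF y (y * x) x i j).trace
        + (FF y y x i j * FF x (x * x) y i j).trace
        + (FF x x x i j * FF x x y i j * FF y y x i j).trace := by
  have t1 := trace_Zm x (x * y) hij
  have t2 := trace_Zm x (y * x) hij
  have t3 := trace_Zm y (x * x) hij
  have t4 := trace_Zm2 x x 1 y hij
  have t5 := trace_Zm2 x y 1 x hij
  have t6 := trace_Zm2 y x 1 x hij
  have t7 := trace_Zm3 x x y 1 1 1 hij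
  simp only [Matrix.mul_one, ← Matrix.mul_assoc] at t1 t2 t3 t4 t5 t6 t7
  rw [WW, WW, upd_eq hx hij hdx, upd_eq hy hij hdy,
    IdW_P3 (Pm_mul hx hij hdx) (Pm_mul hx hij hdx) (Pm_mul hy hij hdy), ← t1, ← t2, ← t3, ← t4, ← t5,
    ← t6, ← t7]
  simp only [Matrix.add_mul, Matrix.mul_add, Matrix.trace_add]
  rw [Matrix.trace_mul_cycle x x (Zm y i j), Matrix.trace_mul_cycle (Zm x i j) x (Zm y i j),
    ← Matrix.trace_mul_cycle (Zm x i j) y x, ← Matrix.trace_mul_cycle (Zm x i j) (Zm y i j) x]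
  ring

theorem tau4_upd {M : Matrix ι ι K} (hM : M.IsSymm) {i j : ι} (hij : i ≠ j) (hd : dd M i j ≠ 0) :
    tau4 (upd M i j) - tau4 M =
      4 * (NN4 M i j / dd M i j) + 4 * eps1 M i j * (NN3 M i j / dd M i j)
        + 2 * (NN2 M i j / dd M i j - 1) ^ 2 + 4 * eps1 M i j ^ 2 * (NN2 M i j / dd M i j - 1)
        + eps1 M i j ^ 4 := by
  have t1 := trace_Zm M (M * M * M) hij
  have t2 := trace_Zm2 M M 1 (M * M) hij
  have t3 := trace_Zm2 M M M M hij
  have t4 := trace_Zm3 M M M 1 1 M hij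
  have t5 := IdW_trace4 M hij
  simp only [Matrix.mul_one, ← Matrix.mul_assoc] at t1 t2 t3 t4
  rw [tau4, tau4, upd_eq hM hij hd, IdW_P4 (Pm_mul hM hij hd), IdW_exp4, t1, t2, t3, t4, t5]
  have s1 := hM.apply i j
  have s2 := (Upd_symm2 hM).apply i j
  have s3 := (Upd_symm3 hM).apply i j
  have s4 := (Upd_symm4 hM).apply i j
  have s5 := (Upd_symm5 hM).apply i j
  have e1 : eps1 M i j = (FF M M M i j).trace := by
    rw [Upd_FF, Matrix.trace_fin_two_of, eps1, rr, rr, s1, s2]
    ring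
  have e2 : NN2 M i j / dd M i j - 1 = (FF M (M * M) M i j).trace - (FF M M M i j).det := by
    rw [Upd_FF, Upd_FF, Matrix.trace_fin_two_of, Matrix.det_fin_two_of, NN2, rr, rr, s1, s2, s3]
    field_simp
    unfold dd
    ring
  have e3 : NN3 M i j / dd M i j = (FF M (M * M * M) M i j).trace -
      ((FF M M M i j).trace * (FF M (M * M) M i j).trace
        - (FF M M M i j * FF M (M * M) M i j).trace) := by
    rw [Upd_FF, Upd_FF, Upd_FF, Matrix.mul_fin_two]
    simp only [Matrix.trace_fin_two_of]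
    rw [NN3, rr, rr, s1, s2, s3, s4]
    field_simp
    unfold dd
    ring
  have e4 : NN4 M i j / dd M i j = (FF M (M * M * M * M) M i j).trace -
      ((FF M M M i j).trace * (FF M (M * M * M) M i j).trace
        - (FF M M M i j * FF M (M * M * M) M i j).trace) - (FF M (M * M) M i j).det := by
    rw [Upd_FF, Upd_FF, Upd_FF, Upd_FF, Matrix.mul_fin_two, Matrix.det_fin_two_of]
    simp only [Matrix.trace_fin_two_of]
    rw [NN4, rr, rr, s1, s2, s3, s4, s5]
    field_simp
    unfold dd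
    ring
  rw [e2, e3, e4, e1, ← IdW_2x2]
  ring

end Crest.Agent.R62
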