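import Crest.Agent.R62.Defs

/-!
# R62-RegMov: the moving targets and a toolkit for monomial inequalities

Elementary real inequalities (`field_simp`, `div_le_iff₀`, `nlinarith`, `positivity`).
With `E = G.E > 0`: `c - c' = 2E/((E+m)(E+m-2))`, `g - g' = 2E²/((E+m)(E+m-2))`, `2cg = 2m²E/(E+m)²`,
`(E+m)² ≥ 4Em`.  `Wq = 11/(10m) + m0/(10 m²)`:
`m²(W'-W) - 4mW' = -(11/5) m/(m-2) - (m0/10)·4/(m-2)² ≤ -11/5`.
NEVER unfold the exponents under a power of a numeral; keep `t` a variable and compare exponents with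
`pow_le_pow_right₀` + `by decide`/`by norm_num [eD, …]`/`omega`.
-/

set_option autoImplicit false
open Matrix Finset

namespace Crest.Agent.R62

section Mov
variable (G : Glob ℝ) {m : ℝ}

theorem mov_g (hE : 0 < G.E) (hm : 10 ≤ m) : (parAB G m).g = m * (1 - (parAB G m).c) := by
  have h : 0 < G.E + m := by linarith
  simp only [parAB]
  field_simp
  ring
theorem mov_c0 (hE : 0 < G.E) (hm : 10 ≤ m) : 0 ≤ (parAB G m).c := by
  simp only [parAB]
  exact div_nonneg (by linarith) (by linarith)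
theorem mov_c1 (hE : 0 < G.E) (hm : 10 ≤ m) : (parAB G m).c ≤ 1 := by
  simp only [parAB]
  rw [div_le_one (by linarith)]
  linarith
theorem mov_c_le (hE : 0 < G.E) (hm : 0 < m) : (parAB G m).c ≤ m / G.E := by
  simp only [parAB]
  exact div_le_div_of_nonneg_left hm.le hE (by linarith)
theorem mov_one_sub_c (hE : 0 < G.E) (hm : 10 ≤ m) : 1 - (parAB G m).c ≤ G.E / m := by
  have h : 0 < G.E + m := by linarith
  have e : 1 - (parAB G m).c = G.E / (G.E + m) := by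
    simp only [parAB]
    field_simp
    ring
  rw [e]
  exact div_le_div_of_nonneg_left hE.le (by linarith) (by linarith)
theorem mov_g_le (hE : 0 < G.E) (hm : 10 ≤ m) : (parAB G m).g ≤ G.E := by
  simp only [parAB]
  rw [div_le_iff₀ (by linarith)]
  nlinarith
theorem mov_g_ge (hE : 0 < G.E) (hm : 10 ≤ m) : min G.E m / 2 ≤ (parAB G m).g := by
  simp only [parAB]
  rw [le_div_iff₀ (by linarith)]
  rcases le_total G.E m with h | h
  · rw [min_eq_left h]; nlinarith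
  · rw [min_eq_right h]; nlinarith
theorem mov_m_sub_g (hE : 0 < G.E) (hm : 0 < m) : m - (parAB G m).g ≤ m ^ 2 / G.E := by
  have h : 0 < G.E + m := by linarith
  have e : m - (parAB G m).g = m ^ 2 / (G.E + m) := by
    simp only [parAB]
    field_simp
    ring
  rw [e]
  exact div_le_div_of_nonneg_left (by positivity) hE (by linarith)
theorem mov_dc (hE : 0 < G.E) (hm : 10 ≤ m) :
    |(parAB G (m - 2)).c - (parAB G m).c| ≤ 2 / m := by
  have h : 0 < G.E + m := by linarith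
  have h' : 0 < G.E + (m - 2) := by linarith
  have e : (parAB G (m - 2)).c - (parAB G m).c = -(2 * G.E / ((G.E + m) * (G.E + (m - 2)))) := by
    simp only [parAB]
    field_simp
    ring
  rw [e, abs_neg, abs_of_nonneg (by positivity), div_le_div_iff₀ (by positivity) (by linarith)]
  nlinarith
theorem mov_dc2 (hE : 0 < G.E) (hm : 10 ≤ m) :
    |2 * (parAB G m).c * (parAB G m).g + m ^ 2 * ((parAB G (m - 2)).c - (parAB G m).c)| ≤ 4 := by
  have h : 0 < G.E + m := by linarith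
  have h' : 0 < G.E + (m - 2) := by linarith
  have e : 2 * (parAB G m).c * (parAB G m).g + m ^ 2 * ((parAB G (m - 2)).c - (parAB G m).c) =
      -(4 * (m ^ 2 * G.E) / ((G.E + m) ^ 2 * (G.E + (m - 2)))) := by
    simp only [parAB]
    field_simp
    ring
  rw [e, abs_neg, abs_of_nonneg (by positivity), div_le_iff₀ (by positivity)]
  have h1 : 4 * (G.E * m) ≤ (G.E + m) ^ 2 := by nlinarith [sq_nonneg (G.E - m)]
  have h2 : m / 4 ≤ G.E + (m - 2) := by linarith
  have h3 := mul_le_mul h1 h2 (by linarith) (by positivity)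
  nlinarith
theorem mov_dg (hE : 0 < G.E) (hm : 10 ≤ m) :
    |(parAB G (m - 2)).g - (parAB G m).g + 2 * (1 - (parAB G m).c) ^ 2| ≤ 8 / m := by
  have h : 0 < G.E + m := by linarith
  have h' : 0 < G.E + (m - 2) := by linarith
  have e : (parAB G (m - 2)).g - (parAB G m).g + 2 * (1 - (parAB G m).c) ^ 2 =
      -(4 * G.E ^ 2 / ((G.E + m) ^ 2 * (G.E + (m - 2)))) := by
    simp only [parAB]
    field_simp
    ring
  rw [e, abs_neg, abs_of_nonneg (by positivity), div_le_div_iff₀ (by positivity) (by linarith)]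
  have h1 : G.E ^ 2 ≤ (G.E + m) ^ 2 := by nlinarith
  have h2 : m / 2 ≤ G.E + (m - 2) := by linarith
  have h3 := mul_le_mul h1 h2 (by linarith) (by positivity)
  nlinarith

theorem mov_ell0 (ht : 1 ≤ G.t) : 0 ≤ (parAB G m).ell := by
  simp only [parAB]
  exact mul_nonneg (pow_nonneg (by linarith) _) (le_max_left _ _)
theorem mov_ell_le (ht : 1 ≤ G.t) : (parAB G m).ell ≤ G.t ^ er0 := by
  simp only [parAB]
  exact mul_le_of_le_one_right (pow_nonneg (by linarith) _)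
    (max_le zero_le_one (min_le_left _ _))
theorem mov_ell1 (ht : 1 ≤ G.t) : (parAB G (m - 2)).ell ≤ (parAB G m).ell := by
  simp only [parAB]
  have hp : 0 < G.t ^ (2 * eal) := pow_pos (by linarith) _
  refine mul_le_mul_of_nonneg_left (max_le_max le_rfl (min_le_min le_rfl ?_))
    (pow_nonneg (by linarith) _)
  exact div_le_div_of_nonneg_right (by linarith) hp.le
theorem mov_dell (ht : 1 ≤ G.t) :
    (parAB G m).ell - (parAB G (m - 2)).ell ≤ 2 * G.t ^ er0 / G.t ^ (2 * eal) := by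
  simp only [parAB]
  have hp : 0 < G.t ^ (2 * eal) := pow_pos (by linarith) _
  have hq : 0 < G.t ^ er0 := pow_pos (by linarith) _
  generalize G.t ^ (2 * eal) = T at hp ⊢
  generalize G.t ^ er0 = R at hq ⊢
  have e : (m - T) / T = (m - 2 - T) / T + 2 / T := by ring
  have h2 : 0 < 2 / T := by positivity
  rw [e, ← mul_sub, mul_comm 2, mul_div_assoc]
  generalize (m - 2 - T) / T = x
  generalize 2 / T = d at h2 ⊢
  refine mul_le_mul_of_nonneg_left ?_ hq.le
  simp only [max_def, min_def]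
  split_ifs <;> linarith
theorem mov_ell_hi (ht : 1 ≤ G.t) (h : 2 * G.t ^ (2 * eal) ≤ m) : (parAB G m).ell = G.t ^ er0 := by
  simp only [parAB]
  have hp : 0 < G.t ^ (2 * eal) := pow_pos (by linarith) _
  rw [min_eq_left (by rw [le_div_iff₀ hp]; linarith), max_eq_right zero_le_one, mul_one]
theorem mov_ell_lo (ht : 1 ≤ G.t) (h : m ≤ G.t ^ (2 * eal)) : (parAB G m).ell = 0 := by
  simp only [parAB]
  have hp : 0 < G.t ^ (2 * eal) := pow_pos (by linarith) _
  rw [max_eq_left ((min_le_right _ _).trans (div_nonpos_of_nonpos_of_nonneg (by linarith) hp.le)),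
    mul_zero]

theorem mov_W0 (h0 : 0 ≤ G.m0) (hm : 0 < m) : 0 < (parAB G m).Wq := by
  simp only [parAB]
  positivity
theorem mov_dW (h0 : 0 ≤ G.m0) (hm : 10 ≤ m) :
    |(parAB G (m - 2)).Wq - (parAB G m).Wq| ≤ 10 * (parAB G m).Wq / m := by
  have h : 0 < m := by linarith
  have h' : 0 < m - 2 := by linarith
  have e : (parAB G (m - 2)).Wq - (parAB G m).Wq =
      11 / (10 * m) * (2 / (m - 2)) + G.m0 / (10 * m ^ 2) * ((4 * m - 4) / (m - 2) ^ 2) := by
    simp only [parAB]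
    field_simp
    ring
  have e' : 10 * (parAB G m).Wq / m =
      11 / (10 * m) * (10 / m) + G.m0 / (10 * m ^ 2) * (10 / m) := by
    simp only [parAB]
    ring
  have h4 : 0 ≤ 4 * m - 4 := by linarith
  rw [e, e', abs_of_nonneg (by positivity)]
  have h1 : 2 / (m - 2) ≤ 10 / m := by
    rw [div_le_div_iff₀ h' h]; linarith
  have h2 : (4 * m - 4) / (m - 2) ^ 2 ≤ 10 / m := by
    rw [div_le_div_iff₀ (by positivity) h]; nlinarith
  gcongr
theorem mov_rate (h0 : 0 ≤ G.m0) (hm : 10 ≤ m) :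
    m ^ 2 * ((parAB G (m - 2)).Wq - (parAB G m).Wq) - 4 * m * (parAB G (m - 2)).Wq ≤ -(11 / 5) := by
  have h : 0 < m := by linarith
  have h' : 0 < m - 2 := by linarith
  have e : m ^ 2 * ((parAB G (m - 2)).Wq - (parAB G m).Wq) - 4 * m * (parAB G (m - 2)).Wq =
      -(11 / 5) - 22 / (5 * (m - 2)) - G.m0 * 4 / (10 * (m - 2) ^ 2) := by
    simp only [parAB]
    field_simp
    ring
  rw [e]
  have h1 : 0 ≤ 22 / (5 * (m - 2)) := by positivity
  have h2 : 0 ≤ G.m0 * 4 / (10 * (m - 2) ^ 2) := by positivity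
  linarith
theorem mov_W_ge1 (h0 : 0 ≤ G.m0) (hm : 0 < m) : 11 / (10 * m) ≤ (parAB G m).Wq := by
  simp only [parAB]
  have : 0 ≤ G.m0 / (10 * m ^ 2) := by positivity
  linarith
theorem mov_W_ge2 (hm : 0 < m) : G.m0 / (10 * m ^ 2) ≤ (parAB G m).Wq := by
  simp only [parAB]
  have : 0 ≤ 11 / (10 * m) := by positivity
  linarith
theorem mov_W_le (hm : 0 < m) (h : m ≤ G.m0) : (parAB G m).Wq ≤ 6 / 5 * G.m0 / m ^ 2 := by
  simp only [parAB]
  have e : 6 / 5 * G.m0 / m ^ 2 = 11 / (10 * m) * (G.m0 / m) + G.m0 / (10 * m ^ 2) := by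
    field_simp
    ring
  rw [e]
  have h1 : 1 ≤ G.m0 / m := by rw [le_div_iff₀ hm]; linarith
  have h2 : 0 ≤ 11 / (10 * m) := by positivity
  nlinarith

/-- the normalisers only decrease -/
theorem mov_a (ht : 1 ≤ G.t) :
    (0 ≤ (parAB G (m - 2)).a1 ∧ (parAB G (m - 2)).a1 ≤ (parAB G m).a1) ∧
    (0 ≤ (parAB G (m - 2)).a2 ∧ (parAB G (m - 2)).a2 ≤ (parAB G m).a2) ∧
    (0 ≤ (parAB G (m - 2)).a3 ∧ (parAB G (m - 2)).a3 ≤ (parAB G m).a3) ∧
    (0 ≤ (parAB G (m - 2)).a3L ∧ (parAB G (m - 2)).a3L ≤ (parAB G m).a3L) ∧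
    (0 ≤ (parAB G (m - 2)).a4 ∧ (parAB G (m - 2)).a4 ≤ (parAB G m).a4) ∧
    (0 ≤ (parAB G (m - 2)).a5 ∧ (parAB G (m - 2)).a5 ≤ (parAB G m).a5) ∧
    (0 ≤ (parAB G (m - 2)).a6 ∧ (parAB G (m - 2)).a6 ≤ (parAB G m).a6) := by
  have ht0 : 0 < G.t := by linarith
  have key : ∀ x y : ℝ, 0 ≤ y → y ≤ x →
      0 ≤ (if G.t ^ (2 * eal) < m - 2 then x else y) ∧
      (if G.t ^ (2 * eal) < m - 2 then x else y) ≤ (if G.t ^ (2 * eal) < m then x else y) := by
    intro x y h1 h2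
    split_ifs with h3 h4
    · exact ⟨h1.trans h2, le_rfl⟩
    · exact absurd (h3.trans (by linarith)) h4
    · exact ⟨h1, h2⟩
    · exact ⟨h1, le_rfl⟩
  have key2 : ∀ a b : ℕ, a ≤ b → 0 ≤ 1 / G.t ^ b ∧ 1 / G.t ^ b ≤ 1 / G.t ^ a := fun a b h =>
    ⟨by positivity, one_div_le_one_div_of_le (by positivity) (pow_le_pow_right₀ ht h)⟩
  have k1 := key2 (2 * ehA) (2 * ehB) (by decide)
  have k2 := key2 (4 * ekA) (4 * ekB) (by decide)
  have k3 := key2 (4 * euA) (4 * euB) (by decide)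
  have k4 : 0 ≤ 100 / G.n ^ 2 := by positivity
  exact ⟨⟨(key2 _ _ le_rfl).1, le_rfl⟩, key _ _ k1.1 k1.2, ⟨k4, le_rfl⟩, key _ _ le_rfl k4,
    key _ _ k2.1 k2.2, key _ _ k3.1 k3.2, ⟨(key2 _ _ le_rfl).1, le_rfl⟩⟩

end Mov

/-- monomial comparison using a lower bound `t^lo ≤ s` -/
theorem mono_lo {t s : ℝ} (ht : 1 ≤ t) {lo : ℕ} (hs : t ^ lo ≤ s) {a α b β : ℕ} (h1 : α ≤ β)
    (h2 : a ≤ b + lo * (β - α)) : t ^ a * s ^ α ≤ t ^ b * s ^ β := by
  have ht0 : 0 ≤ t := by linarith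
  have hs0 : 0 ≤ s := (pow_nonneg ht0 _).trans hs
  obtain ⟨k, rfl⟩ := Nat.exists_eq_add_of_le h1
  rw [Nat.add_sub_cancel_left] at h2
  calc t ^ a * s ^ α ≤ t ^ (b + lo * k) * s ^ α :=
        mul_le_mul_of_nonneg_right (pow_le_pow_right₀ ht h2) (pow_nonneg hs0 _)
    _ = t ^ b * (s ^ α * (t ^ lo) ^ k) := by rw [pow_add, pow_mul]; ring
    _ ≤ t ^ b * (s ^ α * s ^ k) := by gcongr
    _ = _ := by rw [pow_add]

/-- monomial comparison using an upper bound `s ≤ t^hi` -/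
theorem mono_hi {t s : ℝ} (ht : 1 ≤ t) (hs0 : 0 ≤ s) {hi : ℕ} (hs : s ≤ t ^ hi) {a α b β : ℕ}
    (h1 : β ≤ α) (h2 : a + hi * (α - β) ≤ b) : t ^ a * s ^ α ≤ t ^ b * s ^ β := by
  have ht0 : 0 ≤ t := by linarith
  obtain ⟨k, rfl⟩ := Nat.exists_eq_add_of_le h1
  rw [Nat.add_sub_cancel_left] at h2
  calc t ^ a * s ^ (β + k) = t ^ a * s ^ k * s ^ β := by rw [pow_add]; ring
    _ ≤ t ^ a * (t ^ hi) ^ k * s ^ β := by gcongr
    _ = t ^ (a + hi * k) * s ^ β := by rw [pow_add, pow_mul]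
    _ ≤ _ := mul_le_mul_of_nonneg_right (pow_le_pow_right₀ ht h2) (pow_nonneg hs0 _)

end Crest.Agent.R62
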