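import Crest.Agent.R62.InitAlg
import Crest.Agent.R62.InitNum
import Crest.Agent.R62.RegMov

/-!
# R62-Init: the initial state is good

`a0 = comb 1 ls la (-σ)`, `b0 = comb 1 (-la) (-ls) σ` (`M0_eq`); `comb_mul`, `comb_trace`, `comb_diag` give,
with `m0 = q n`, `D = κy - σ`: `τ₁ a0 = m0 D + 1 - ls`, `τ₁ b0 = -m0 D + 1 + la`, `τ₂ a0 = m0 r + 1 - ls²`,
`τ₂ b0 = m0 r + 1 - la²`, `WW a0 a0 = n A3 + 1 - ls³`, `WW b0 b0 = -n A3 + 1 + la³`,
`WW a0 b0 = -n T3 + 1 + ls² la`, `WW b0 a0 = n T3 + 1 - la² ls`, `τ₄ ≤ 1 + m0 C⁴`; all diagonal entries and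
all `rr` are equal, so `Del = τ₁²/m0`, `rho univ c x = (τ₂ x - c m0)²/m0`.
`g0 = m0 - τ₂ a0 ∈ [m0 ε - 1, 2 m0 ε + C²]`, `E = g0 m0/τ₂ a0 ∈ [g0, 2 g0]`, `g(m0) = g0`, `c m0 = τ₂ a0`.
At `m = m0 > 3 t^(2 eal)`: `par = parAB`, `ell = t^er0 ≥ |τ₁|` (`mov_ell_hi`), `Wq = 1.2/m0`, the cubic
terms vanish, `Q4 ≤ 0.385 m0` (`Q4_M0`, `|δ| ≤ (1+C)/m0`), the other terms are `O(1/t)`:
`1.2 · 2 · 0.385 + O(1/t) ≤ 0.95`.
NEVER let `simp`/`norm_num`/`decide` evaluate a numeral to these powers.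
-/

set_option autoImplicit false
open Matrix Finset

namespace Crest.Agent.R62

section InitAux
variable {V H : Type} [Fintype V] [DecidableEq V] [Fintype H] [DecidableEq H] {q : ℕ}
  (Γ : HE V H q)

theorem Init_diag (hq : 0 < q) [Nonempty H] (x0 x1 x2 x3 : ℝ) (k : H) :
    Γ.comb x0 x1 x2 x3 k k = (Γ.comb x0 x1 x2 x3).trace / Fintype.card H := by
  rw [Γ.comb_diag hq, Γ.comb_trace hq]

theorem Init_Del (hq : 0 < q) [Nonempty H] (x0 x1 x2 x3 : ℝ) :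
    Del (Γ.comb x0 x1 x2 x3) = tau1 (Γ.comb x0 x1 x2 x3) ^ 2 / Fintype.card H := by
  have h2 : (Fintype.card H : ℝ) ≠ 0 := by exact_mod_cast Fintype.card_ne_zero
  simp only [Del, Init_diag Γ hq, tau1, sum_const, card_univ, nsmul_eq_mul]
  field_simp

theorem Init_rho (hq : 0 < q) [Nonempty H] (x0 x1 x2 x3 c : ℝ) :
    rho univ c (Γ.comb x0 x1 x2 x3) =
      (tau2 (Γ.comb x0 x1 x2 x3) - c * Fintype.card H) ^ 2 / Fintype.card H := by
  have h2 : (Fintype.card H : ℝ) ≠ 0 := by exact_mod_cast Fintype.card_ne_zero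
  simp only [rho, rr, tau2, Γ.comb_mul hq, Init_diag Γ hq, sum_const, card_univ, nsmul_eq_mul]
  field_simp

theorem Init_t4 (hq : 2 ≤ q) [Nonempty H] {x1 x2 x3 C : ℝ} (h1 : |x1| ≤ C) (h2 : |x2| ≤ C)
    (h3 : |x3| ≤ C) : tau4 (Γ.comb 1 x1 x2 x3) ≤ 1 + Fintype.card H * C ^ 4 := by
  have hq0 : 0 < q := by omega
  have hq' : (2 : ℝ) ≤ q := by exact_mod_cast hq
  have hH : (Fintype.card H : ℝ) = q * Fintype.card V := by exact_mod_cast Γ.card_H
  have hn : (0 : ℝ) ≤ Fintype.card V := Nat.cast_nonneg _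
  have key : ∀ x : ℝ, |x| ≤ C → 0 ≤ x * x * x * x ∧ x * x * x * x ≤ C ^ 4 := fun x hx => by
    have e : x * x * x * x = |x| ^ 4 := by rw [Even.pow_abs (by decide)]; ring
    rw [e]
    exact ⟨by positivity, pow_le_pow_left₀ (abs_nonneg _) hx _⟩
  obtain ⟨a1, a2⟩ := key x1 h1
  obtain ⟨b1, b2⟩ := key x2 h2
  obtain ⟨c1, c2⟩ := key x3 h3
  simp only [tau4, Γ.comb_mul hq0, Γ.comb_trace hq0]
  have hd : (0 : ℝ) ≤ Fintype.card H - Fintype.card V := by rw [hH]; nlinarith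
  have e1 := mul_le_mul_of_nonneg_right a2 hn
  have e2 := mul_le_mul_of_nonneg_right b2 hn
  have e3 := mul_le_mul_of_nonneg_right c2 hd
  linarith

end InitAux

theorem Init_pp0 {x : ℝ} (h : x ≤ 0) : pp x = 0 := by
  rw [pp, max_eq_right h]; ring

theorem Init_pow4 {x d C : ℝ} (hx : |x| ≤ C) (hd0 : 0 ≤ d) (hd : d ≤ 1) (hC : 1 ≤ C) :
    (|x| + d) ^ 4 ≤ x ^ 4 + 15 * C ^ 3 * d := by
  rw [← Even.pow_abs (by decide : Even 4) x]
  have h0 := abs_nonneg x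
  generalize |x| = y at *
  have hC2 : C ≤ C ^ 2 := by nlinarith
  have hC3 : C ^ 2 ≤ C ^ 3 := by nlinarith
  have h3 : y ^ 3 ≤ C ^ 3 := pow_le_pow_left₀ h0 hx _
  have h2 : y ^ 2 * d ≤ C ^ 3 := by
    have : y ^ 2 ≤ C ^ 2 := pow_le_pow_left₀ h0 hx _
    nlinarith [sq_nonneg y]
  have hd2 : d ^ 2 ≤ 1 := pow_le_one₀ hd0 hd
  have hd3 : d ^ 3 ≤ 1 := pow_le_one₀ hd0 hd
  have h1 : y * d ^ 2 ≤ C ^ 3 := by nlinarith [sq_nonneg d]
  have e : (y + d) ^ 4 = y ^ 4 + (4 * y ^ 3 + 6 * (y ^ 2 * d) + 4 * (y * d ^ 2) + d ^ 3) * d := by ring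
  have : (4 * y ^ 3 + 6 * (y ^ 2 * d) + 4 * (y * d ^ 2) + d ^ 3) * d ≤ 15 * C ^ 3 * d :=
    mul_le_mul_of_nonneg_right (by linarith) hd0
  linarith

/-- the bracket in `Q4_M0` -/
theorem Init_Q4 {q D κ κy l M t C X : ℝ} (hq : 2 ≤ q) (hC : 1 ≤ C) (hX : X = q * (1 + C) ^ 4)
    (ht : 10 ^ 5 * X ≤ t) (hM : t ≤ M) (hl : |l| ≤ C) (hD : |D| ≤ 4 * C / t) (h1 : |κ| ≤ C)
    (h2 : |κy| ≤ C) (h3 : (q - 1) * κy ^ 4 + q * κ ^ 4 ≤ 0.38) :
    (|D| + |(1 - l) / M|) ^ 4 + (q - 1) * (|κy| + |(1 - l) / M|) ^ 4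
      + q * (|κ| + |(1 - l) / M|) ^ 4 + M * ((1 - l) / M) ^ 4 ≤ 0.385 := by
  have hB : (1 + C) ≤ (1 + C) ^ 4 := le_self_pow₀ (by linarith) (by decide)
  have hB0 : 0 ≤ (1 + C) ^ 4 := by positivity
  have hBX : 2 * (1 + C) ^ 4 ≤ X := by rw [hX]; exact mul_le_mul_of_nonneg_right hq hB0
  have ht0 : 0 < t := by linarith
  have hM0 : 0 < M := by linarith
  have hl' : |1 - l| ≤ 1 + C := (abs_sub _ _).trans (by rw [abs_one]; linarith)
  have hd : |(1 - l) / M| ≤ (1 + C) / t := by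
    rw [abs_div, abs_of_pos hM0]
    exact div_le_div₀ (by linarith) hl' ht0 hM
  have hlast : M * ((1 - l) / M) ^ 4 ≤ (1 + C) ^ 4 / t := by
    have e : M * ((1 - l) / M) ^ 4 = |1 - l| ^ 4 / M ^ 3 := by
      rw [Even.pow_abs (by decide)]; field_simp
    rw [e]
    exact div_le_div₀ hB0 (pow_le_pow_left₀ (abs_nonneg _) hl' _) ht0
      (hM.trans (le_self_pow₀ (by linarith) (by decide)))
  have hd0 := abs_nonneg ((1 - l) / M)
  generalize |(1 - l) / M| = d at *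
  have s1 : (1 + C) / t ≤ 0.0001 := by rw [div_le_iff₀ ht0]; linarith
  have s2 : 4 * C / t ≤ 0.0001 := by rw [div_le_iff₀ ht0]; linarith
  have s3 : (1 + C) ^ 4 / t ≤ 0.0001 := by rw [div_le_iff₀ ht0]; linarith
  have s4 : q * (C ^ 3 * d) ≤ 0.00001 := by
    have u1 : C ^ 3 * (1 + C) ≤ (1 + C) ^ 4 := by
      have : C ^ 3 ≤ (1 + C) ^ 3 := pow_le_pow_left₀ (by linarith) (by linarith) _
      calc C ^ 3 * (1 + C) ≤ (1 + C) ^ 3 * (1 + C) := mul_le_mul_of_nonneg_right this (by linarith)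
        _ = _ := by ring
    calc q * (C ^ 3 * d) ≤ q * (C ^ 3 * ((1 + C) / t)) := by gcongr
      _ = q * (C ^ 3 * (1 + C)) / t := by ring
      _ ≤ X / t := by rw [hX]; gcongr
      _ ≤ 0.00001 := by rw [div_le_iff₀ ht0]; linarith
  have p1 : (|D| + d) ^ 4 ≤ |D| + d :=
    pow_le_of_le_one (by positivity) (by linarith) (by decide)
  have p2 := mul_le_mul_of_nonneg_left (Init_pow4 h2 hd0 (by linarith) hC) (by linarith : 0 ≤ q - 1)
  have p3 := mul_le_mul_of_nonneg_left (Init_pow4 h1 hd0 (by linarith) hC) (by linarith : 0 ≤ q)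
  have p4 : 0 ≤ C ^ 3 * d := by positivity
  linarith

theorem Init_cube {x y C : ℝ} (hx : |x| ≤ C) (hy : |y| ≤ C) : |x * x * y| ≤ C ^ 3 := by
  rw [abs_mul, abs_mul]
  have h0 := abs_nonneg x
  calc |x| * |x| * |y| ≤ C * C * C := by
        have := h0.trans hx
        gcongr
    _ = C ^ 3 := by ring

theorem init (q : ℕ) (hq : 2 ≤ q) : ∃ t0 : ℝ, ∀ {V H : Type} [Fintype V] [DecidableEq V]
    [Fintype H] [DecidableEq H] (Γ : HE V H q) (t σ : ℝ), t0 ≤ t → t ^ eD ≤ Fintype.card V →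
    (Fintype.card V : ℝ) ≤ 2 * t ^ eD → 0 < σ → 1 / t ^ ek ≤ epsv q σ → epsv q σ ≤ 2 / t ^ ek →
    σ < 1 ∧ 1 < yv q σ ∧ yv q σ + σ * q < 2 * Real.sqrt q ∧
    GoodG q (globOf t (Fintype.card V) (q * Fintype.card V) (Γ.M0 1 σ (yv q σ))
      (Γ.M0 (-1) σ (yv q σ))) ∧
    St.val (globOf t (Fintype.card V) (q * Fintype.card V) (Γ.M0 1 σ (yv q σ)) (Γ.M0 (-1) σ (yv q σ)))
      (⟨id, Γ.M0 1 σ (yv q σ), Γ.M0 (-1) σ (yv q σ)⟩ : St H ℝ) ≤ 0.95 := by
  obtain ⟨ε0, C, hε0, hC, hN⟩ := initNum q hq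
  refine ⟨max (2 / ε0) (10 ^ 5 * (q * (1 + C) ^ 4)), ?_⟩
  intro V H _ _ _ _ Γ t σ ht hn1 hn2 hσ he1 he2
  rw [max_le_iff] at ht
  obtain ⟨ht1, ht2⟩ := ht
  have hq0 : 0 < q := by omega
  have hq' : (2 : ℝ) ≤ q := by exact_mod_cast hq
  -- constants
  obtain ⟨X, hX⟩ : ∃ X : ℝ, X = q * (1 + C) ^ 4 := ⟨_, rfl⟩
  rw [← hX] at ht2
  have eB : (1 + C) ^ 4 = 1 + 4 * C + 6 * C ^ 2 + 4 * C ^ 3 + C ^ 4 := by ring
  have c2 : 0 ≤ C ^ 2 := by positivity
  have c3 : 0 ≤ C ^ 3 := by positivity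
  have c4 : 0 ≤ C ^ 4 := by positivity
  have hq0' : (0 : ℝ) ≤ q := by linarith
  have x0 : 2 * (1 + C) ^ 4 ≤ X := by
    rw [hX]; exact mul_le_mul_of_nonneg_right hq' (by positivity)
  have x1 : (q : ℝ) * 1 ≤ X := by rw [hX]; exact mul_le_mul_of_nonneg_left (by linarith) hq0'
  have x2 : q * C ≤ X := by rw [hX]; exact mul_le_mul_of_nonneg_left (by linarith) hq0'
  have x4 : q * C ^ 4 ≤ X := by rw [hX]; exact mul_le_mul_of_nonneg_left (by linarith) hq0'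
  have ht0 : 1 ≤ t := by linarith
  have htp : 0 < t := by linarith
  -- powers of `t`
  have pw : ∀ {a b : ℕ}, a ≤ b → t ^ a ≤ t ^ b := fun h => pow_le_pow_right₀ ht0 h
  have pt : ∀ {b : ℕ}, 1 ≤ b → t ≤ t ^ b := fun h => (pow_one t).symm.trans_le (pw h)
  have hk : t ≤ t ^ ek := pt (by decide)
  have hDt : t ≤ t ^ eD := pt (by decide)
  have hE1 : t ≤ t ^ eE := pt (by decide)
  have hDE : t ^ eD = t ^ eE * t ^ ek := by
    rw [← pow_add]; exact congrArg _ (by decide)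
  have hu1 : 1 ≤ t ^ (er0 - 1) := one_le_pow₀ ht0
  have hDu : t ^ eD = t ^ (er0 - 1) * t ^ ek * t ^ ek := by
    rw [← pow_add, ← pow_add]; exact congrArg _ (by decide)
  have hru : t ^ er0 = t ^ (er0 - 1) * t := by
    rw [← pow_succ]; exact congrArg _ (by decide)
  have hrD : (t ^ er0) ^ 2 * t ≤ t ^ eD := by
    rw [← pow_mul, ← pow_succ]; exact pw (by decide)
  have hal : t ^ (2 * eal) ≤ t ^ eD := pw (by decide)
  have hga : t ^ (2 * ega) ≤ t ^ eD := pw (by decide)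
  have hkA : t ^ eD * t * t ≤ t ^ (4 * ekA) := by
    rw [← pow_succ, ← pow_succ]; exact pw (by decide)
  have hhA : t ≤ t ^ (2 * ehA) := pt (by decide)
  have huA : t ≤ t ^ (4 * euA) := pt (by decide)
  have hde : 1 ≤ t ^ (2 * ede) := one_le_pow₀ ht0
  have hkp : 0 < t ^ ek := by linarith
  rw [div_le_iff₀ hkp] at he1
  rw [le_div_iff₀ hkp] at he2
  have hε : 0 < epsv q σ := by
    by_contra h
    have := mul_nonpos_of_nonpos_of_nonneg (not_lt.1 h) hkp.le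
    linarith
  have hεt : epsv q σ * t ≤ 2 := (mul_le_mul_of_nonneg_left hk hε.le).trans he2
  have hεle : epsv q σ ≤ ε0 := by
    rw [div_le_iff₀ hε0] at ht1
    by_contra h
    have := mul_lt_mul_of_pos_right (not_le.1 h) htp
    linarith
  obtain ⟨hσ1, hy1, hy2, hls, hla, hD, hr1, hr2, hA3, hκ, hκy, hQ⟩ := hN σ hσ hε hεle
  refine ⟨hσ1, hy1, hy2, ?_⟩
  have hH : (Fintype.card H : ℝ) = q * Fintype.card V := by exact_mod_cast Γ.card_H
  have hea : Γ.M0 1 σ (yv q σ) = Γ.comb 1 (lsv q σ) (lav q σ) (-σ) := by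
    rw [Γ.M0_eq hq0]; congr 1 <;> (try simp only [lsv, lav, kapv]) <;> ring
  have heb : Γ.M0 (-1) σ (yv q σ) = Γ.comb 1 (-lav q σ) (-lsv q σ) σ := by
    rw [Γ.M0_eq hq0]; congr 1 <;> (try simp only [lsv, lav, kapv]) <;> ring
  have hQa := Γ.Q4_M0 (Or.inl rfl) σ (yv q σ) (kapv q σ) ((1 - lsv q σ) / Fintype.card H) rfl
    (by simp only [lsv]; ring) hq0
  have hQb := Γ.Q4_M0 (Or.inr rfl) σ (yv q σ) (kapv q σ) ((1 - -lav q σ) / Fintype.card H) rfl
    (by simp only [lav]; ring) hq0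
  rw [hea] at hQa
  rw [heb] at hQb
  rw [hea, heb, ← hH]
  obtain ⟨n, hn⟩ : ∃ n : ℝ, n = Fintype.card V := ⟨_, rfl⟩
  obtain ⟨M, hM⟩ : ∃ M : ℝ, M = Fintype.card H := ⟨_, rfl⟩
  have hMn : M = q * n := by rw [hM, hn, hH]
  rw [← hn] at hn1 hn2
  have hn0 : 0 ≤ n := by linarith
  have hM1 : 2 * t ^ eD ≤ M := by
    rw [hMn]; exact mul_le_mul hq' hn1 (by linarith) hq0'
  have hM2 : M ≤ 2 * q * t ^ eD := by
    have := mul_le_mul_of_nonneg_left hn2 hq0'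
    rw [hMn]; linarith
  have hMp : 0 < M := by linarith
  haveI : Nonempty H := by
    rw [← Fintype.card_pos_iff]
    rw [hM] at hMp
    exact_mod_cast hMp
  have hq1 : (q : ℝ) ≠ 0 := by positivity
  -- traces
  have t1a : tau1 (Γ.comb 1 (lsv q σ) (lav q σ) (-σ)) =
      M * (kapv q σ * yv q σ - σ) + 1 - lsv q σ := by
    rw [tau1, Γ.comb_trace hq0, ← hn, ← hM, hMn]; simp only [lsv, lav]; ring
  have t1b : tau1 (Γ.comb 1 (-lav q σ) (-lsv q σ) σ) =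
      -(M * (kapv q σ * yv q σ - σ)) + 1 + lav q σ := by
    rw [tau1, Γ.comb_trace hq0, ← hn, ← hM, hMn]; simp only [lsv, lav]; ring
  have t2a : tau2 (Γ.comb 1 (lsv q σ) (lav q σ) (-σ)) = M * rv q σ + 1 - lsv q σ ^ 2 := by
    rw [tau2, Γ.comb_mul hq0, Γ.comb_trace hq0, ← hn, ← hM, hMn, rv]; field_simp; ring
  have t2b : tau2 (Γ.comb 1 (-lav q σ) (-lsv q σ) σ) = M * rv q σ + 1 - lav q σ ^ 2 := by
    rw [tau2, Γ.comb_mul hq0, Γ.comb_trace hq0, ← hn, ← hM, hMn, rv]; field_simp; ring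
  have waa : WW (Γ.comb 1 (lsv q σ) (lav q σ) (-σ)) (Γ.comb 1 (lsv q σ) (lav q σ) (-σ)) =
      n * A3v q σ + 1 - lsv q σ * lsv q σ * lsv q σ := by
    rw [WW, Γ.comb_mul hq0, Γ.comb_mul hq0, Γ.comb_trace hq0, ← hn, ← hM, hMn, A3v]; ring
  have wbb : WW (Γ.comb 1 (-lav q σ) (-lsv q σ) σ) (Γ.comb 1 (-lav q σ) (-lsv q σ) σ) =
      -(n * A3v q σ) + 1 + lav q σ * lav q σ * lav q σ := by
    rw [WW, Γ.comb_mul hq0, Γ.comb_mul hq0, Γ.comb_trace hq0, ← hn, ← hM, hMn, A3v]; ring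
  have wab : WW (Γ.comb 1 (lsv q σ) (lav q σ) (-σ)) (Γ.comb 1 (-lav q σ) (-lsv q σ) σ) =
      -(n * T3v q σ) + 1 + lsv q σ * lsv q σ * lav q σ := by
    rw [WW, Γ.comb_mul hq0, Γ.comb_mul hq0, Γ.comb_trace hq0, ← hn, ← hM, hMn, T3v]; ring
  have wba : WW (Γ.comb 1 (-lav q σ) (-lsv q σ) σ) (Γ.comb 1 (lsv q σ) (lav q σ) (-σ)) =
      n * T3v q σ + 1 - lav q σ * lav q σ * lsv q σ := by
    rw [WW, Γ.comb_mul hq0, Γ.comb_mul hq0, Γ.comb_trace hq0, ← hn, ← hM, hMn, T3v]; ring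
  have hσC : |σ| ≤ C := by rw [abs_of_pos hσ]; linarith
  have t4a := Init_t4 Γ hq hls hla (x3 := -σ) (by rwa [abs_neg])
  have t4b := Init_t4 Γ hq (x1 := -lav q σ) (x2 := -lsv q σ) (by rwa [abs_neg])
    (by rwa [abs_neg]) hσC
  have dla := Init_Del Γ hq0 1 (lsv q σ) (lav q σ) (-σ)
  have dlb := Init_Del Γ hq0 1 (-lav q σ) (-lsv q σ) σ
  have rha := Init_rho Γ hq0 1 (lsv q σ) (lav q σ) (-σ)
  have rhb := Init_rho Γ hq0 1 (-lav q σ) (-lsv q σ) σ
  have hA3b : |A3v q σ| ≤ C ^ 3 + q := by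
    have u1 := abs_le.1 (Init_cube hls hls)
    have u2 := abs_le.1 (Init_cube hla hla)
    have u3 : 0 ≤ σ ^ 3 := by positivity
    have u4 : σ ^ 3 ≤ 1 := pow_le_one₀ hσ.le hσ1.le
    have u5 : 0 ≤ ((q : ℝ) - 1) * σ ^ 3 := mul_nonneg (by linarith) u3
    have u6 : ((q : ℝ) - 1) * σ ^ 3 ≤ (q - 1) * 1 := mul_le_mul_of_nonneg_left u4 (by linarith)
    rw [A3v, abs_le]
    constructor <;> linarith
  have k1 := abs_le.1 (Init_cube hls hls)
  have k2 := abs_le.1 (Init_cube hla hla)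
  have k3 := abs_le.1 (Init_cube hls hla)
  have k4 := abs_le.1 (Init_cube hla hls)
  have s1 : lsv q σ ^ 2 ≤ C ^ 2 := sq_le_sq' (abs_le.1 hls).1 (abs_le.1 hls).2
  have s2 : lav q σ ^ 2 ≤ C ^ 2 := sq_le_sq' (abs_le.1 hla).1 (abs_le.1 hla).2
  have s3 := sq_nonneg (lsv q σ)
  have s4 := sq_nonneg (lav q σ)
  rw [← hM] at hQa hQb t4a t4b dla dlb rha rhb
  rw [← hM, ← hn]
  generalize Γ.comb 1 (lsv q σ) (lav q σ) (-σ) = a at *
  generalize Γ.comb 1 (-lav q σ) (-lsv q σ) σ = b at *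
  generalize lsv q σ = ls at *
  generalize lav q σ = la at *
  generalize A3v q σ = A3 at *
  generalize T3v q σ = T3 at *
  generalize rv q σ = r at *
  generalize epsv q σ = ε at *
  generalize kapv q σ * yv q σ = κy at *
  generalize kapv q σ = κ at *
  -- the size of `M ε` and `M ε²`
  have hTE : 0 < t ^ eE := by linarith
  have m1 : 2 * t ^ eE ≤ M * ε := by
    calc 2 * t ^ eE ≤ 2 * t ^ eE * (ε * t ^ ek) := le_mul_of_one_le_right (by linarith) he1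
      _ = 2 * t ^ eD * ε := by rw [hDE]; ring
      _ ≤ _ := mul_le_mul_of_nonneg_right hM1 hε.le
  have m2 : M * ε ≤ 4 * q * t ^ eE := by
    calc M * ε ≤ 2 * q * t ^ eD * ε := mul_le_mul_of_nonneg_right hM2 hε.le
      _ = 2 * q * t ^ eE * (ε * t ^ ek) := by rw [hDE]; ring
      _ ≤ 2 * q * t ^ eE * 2 := mul_le_mul_of_nonneg_left he2 (by positivity)
      _ = _ := by ring
  have m3 : M * ε ^ 2 ≤ 8 * q * t ^ (er0 - 1) := by
    calc M * ε ^ 2 ≤ 2 * q * t ^ eD * ε ^ 2 := mul_le_mul_of_nonneg_right hM2 (sq_nonneg _)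
      _ = 2 * q * t ^ (er0 - 1) * (ε * t ^ ek) ^ 2 := by rw [hDu]; ring
      _ ≤ 2 * q * t ^ (er0 - 1) * 2 ^ 2 :=
          mul_le_mul_of_nonneg_left (pow_le_pow_left₀ (by linarith) he2 _) (by positivity)
      _ = _ := by ring
  have m4 : |M * (κy - σ)| + 1 + C ≤ t ^ er0 := by
    rw [abs_mul, abs_of_pos hMp, hru]
    have u1 := mul_le_mul_of_nonneg_left hD hMp.le
    have u2 := mul_le_mul_of_nonneg_left m3 (by linarith : 0 ≤ C)
    have u3 : (8 * (q * C) + 1 + C) * t ^ (er0 - 1) ≤ t * t ^ (er0 - 1) :=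
      mul_le_mul_of_nonneg_right (by linarith) (by linarith)
    have u4 : (1 + C) * 1 ≤ (1 + C) * t ^ (er0 - 1) := mul_le_mul_of_nonneg_left hu1 (by linarith)
    linarith
  have ta : |tau1 a| ≤ t ^ er0 := by
    have := abs_le.1 hls
    have := le_abs_self (M * (κy - σ))
    have := neg_abs_le (M * (κy - σ))
    rw [t1a, abs_le]; constructor <;> linarith
  have tb : |tau1 b| ≤ t ^ er0 := by
    have := abs_le.1 hla
    have := le_abs_self (M * (κy - σ))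
    have := neg_abs_le (M * (κy - σ))
    rw [t1b, abs_le]; constructor <;> linarith
  have r1 := mul_le_mul_of_nonneg_left hr1 hMp.le
  have r2 := mul_le_mul_of_nonneg_left hr2 hMp.le
  have g1 : t ^ eE ≤ M - tau2 a := by rw [t2a]; linarith
  have g2 : M - tau2 a ≤ 2 * (M * ε) + C ^ 2 := by rw [t2a]; linarith
  have hε8 : M * ε ≤ M * (1 / 8) := by
    refine mul_le_mul_of_nonneg_left ?_ hMp.le
    by_contra h
    have := mul_lt_mul_of_pos_right (not_le.1 h) htp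
    linarith
  have g3 : M / 2 ≤ tau2 a := by linarith
  have g4 : 0 < tau2 a := by linarith
  have hE : ∀ E : ℝ, E = (M - tau2 a) * M / tau2 a → t ^ eE ≤ E ∧ E ≤ t ^ (eE + 1) := by
    rintro E rfl
    constructor
    · rw [le_div_iff₀ g4]
      exact mul_le_mul g1 (by linarith) g4.le (by linarith)
    · rw [div_le_iff₀ g4, pow_succ]
      have u1 : C ^ 2 * 1 ≤ C ^ 2 * t ^ eE := mul_le_mul_of_nonneg_left (by linarith) c2
      have u2 : (16 * q + 2 * C ^ 2) * t ^ eE ≤ t * t ^ eE :=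
        mul_le_mul_of_nonneg_right (by linarith) hTE.le
      calc (M - tau2 a) * M = (2 * (M - tau2 a)) * (M / 2) := by ring
        _ ≤ (t ^ eE * t) * tau2 a := mul_le_mul (by linarith) g3 (by linarith) (by positivity)
  have hnA : |n * A3| + 1 + C ^ 3 + n ≤ t ^ (eD + 1) := by
    rw [abs_mul, abs_of_nonneg hn0, pow_succ t eD]
    have u1 : n * |A3| ≤ (2 * t ^ eD) * (C ^ 3 + q) :=
      mul_le_mul hn2 hA3b (abs_nonneg _) (by linarith)
    have u2 : (1 + C ^ 3) * 1 ≤ (1 + C ^ 3) * t ^ eD := mul_le_mul_of_nonneg_left (by linarith) (by linarith)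
    have u3 : (3 + 3 * C ^ 3 + 2 * q) * t ^ eD ≤ t * t ^ eD :=
      mul_le_mul_of_nonneg_right (by linarith) (by linarith)
    linarith
  have hnT : 1.3 * n ≤ n * A3 - |n * T3| := by
    rw [abs_mul, abs_of_nonneg hn0]
    have := mul_le_mul_of_nonneg_left hA3 hn0
    linarith
  have hGood : GoodG q (globOf t n M a b) := by
    have v1 := le_abs_self (n * A3)
    have v2 := neg_abs_le (n * A3)
    have v3 := le_abs_self (n * T3)
    have v4 := neg_abs_le (n * T3)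
    refine ⟨hn1, hn2, hMn, (hE _ rfl).1, (hE _ rfl).2, ?_, ?_, abs_nonneg _, abs_nonneg _, ?_, ?_⟩
    · change |WW a a| + n ≤ t ^ (eD + 1)
      have : |WW a a| ≤ |n * A3| + 1 + C ^ 3 := by rw [waa, abs_le]; constructor <;> linarith
      linarith
    · change |WW b b| + n ≤ t ^ (eD + 1)
      have : |WW b b| ≤ |n * A3| + 1 + C ^ 3 := by rw [wbb, abs_le]; constructor <;> linarith
      linarith
    · change 6 / 5 * n ≤ WW a a - |WW a b|
      have : |WW a b| ≤ |n * T3| + 1 + C ^ 3 := by rw [wab, abs_le]; constructor <;> linarith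
      rw [waa]
      linarith
    · change 6 / 5 * n ≤ -WW b b - |WW b a|
      have : |WW b a| ≤ |n * T3| + 1 + C ^ 3 := by rw [wba, abs_le]; constructor <;> linarith
      rw [wbb]
      linarith
  refine ⟨hGood, ?_⟩
  have hTD : 0 < t ^ eD := by linarith
  have hgaM : t ^ (2 * ega) < M := by linarith
  have halM : t ^ (2 * eal) < M := by linarith
  have hpar : par (globOf t n M a b) M = parAB (globOf t n M a b) M := by
    rw [par]; exact if_pos hgaM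
  have hval : St.val (globOf t n M a b) (⟨id, a, b⟩ : St H ℝ) =
      pot (parAB (globOf t n M a b) M) univ a b := by
    rw [St.val, free_id, card_univ, ← hM, hpar]
  rw [hval]
  have pell : (parAB (globOf t n M a b) M).ell = t ^ er0 :=
    mov_ell_hi (globOf t n M a b) ht0 (by change 2 * t ^ (2 * eal) ≤ M; linarith)
  have pm : (parAB (globOf t n M a b) M).m = M := rfl
  have pg : (parAB (globOf t n M a b) M).g = M - tau2 a := by
    change (M - tau2 a) * M / tau2 a * M / ((M - tau2 a) * M / tau2 a + M) = _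
    have : (M - tau2 a) * M / tau2 a + M = M ^ 2 / tau2 a := by field_simp; ring
    rw [this]; field_simp
  have pc : (parAB (globOf t n M a b) M).c * M = tau2 a := by
    change M / ((M - tau2 a) * M / tau2 a + M) * M = _
    have : (M - tau2 a) * M / tau2 a + M = M ^ 2 / tau2 a := by field_simp; ring
    rw [this]; field_simp
  have pW : (parAB (globOf t n M a b) M).Wq = 6 / 5 / M := by
    change 11 / (10 * M) + M / (10 * M ^ 2) = _
    field_simp; ring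
  have pa2 : (parAB (globOf t n M a b) M).a2 = 1 / t ^ (2 * ehA) := if_pos halM
  have pa4 : (parAB (globOf t n M a b) M).a4 = 1 / t ^ (4 * ekA) := if_pos halM
  have pa5 : (parAB (globOf t n M a b) M).a5 = 1 / t ^ (4 * euA) := if_pos halM
  have pa6 : (parAB (globOf t n M a b) M).a6 = 1 / t ^ (2 * ede) := rfl
  have pa7 : (parAB (globOf t n M a b) M).a7 = 0 := rfl
  have pca : (parAB (globOf t n M a b) M).c3a = WW a a := rfl
  have pcb : (parAB (globOf t n M a b) M).c3b = WW b b := rfl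
  have pta : (parAB (globOf t n M a b) M).t0a = |WW a b| := rfl
  have ptb : (parAB (globOf t n M a b) M).t0b = |WW b a| := rfl
  generalize parAB (globOf t n M a b) M = P at *
  have z0 : pp (0 : ℝ) = 0 := Init_pp0 le_rfl
  have z1 : tau2 a - M + (M - tau2 a) = 0 := by ring
  have z2 : tau2 b - M + (M - tau2 a) = tau2 b - tau2 a := by ring
  simp only [pot, half, pell, pm, pg, pW, pa2, pa4, pa5, pa6, pa7, pca, pcb, pta, ptb, sub_self, z0,
    z1, z2, rha, rhb, pc, dla, dlb, Init_pp0 (sub_nonpos.2 ta), Init_pp0 (sub_nonpos.2 tb)]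
  have hDt' : |κy - σ| ≤ 4 * C / t := by
    refine hD.trans ?_
    rw [le_div_iff₀ htp]
    have u1 : ε ≤ 2 := (le_mul_of_one_le_right hε.le ht0).trans hεt
    have u2 : ε * (ε * t) ≤ 2 * 2 := mul_le_mul u1 hεt (by positivity) (by norm_num)
    have u3 := mul_le_mul_of_nonneg_left u2 (by linarith : 0 ≤ C)
    linarith
  have qa := Init_Q4 hq' hC hX ht2 (by linarith : t ≤ M) hls hDt' hκ hκy hQ
  have qb := Init_Q4 (l := -la) hq' hC hX ht2 (by linarith : t ≤ M) (by rwa [abs_neg]) hDt' hκ hκy hQ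
  have f0 : 6 / 5 / M * (Q4 a + Q4 b) ≤ 0.924 := by
    have u1 := hQa.trans (mul_le_mul_of_nonneg_left qa hMp.le)
    have u2 := hQb.trans (mul_le_mul_of_nonneg_left qb hMp.le)
    rw [div_mul_eq_mul_div, div_le_iff₀ hMp]
    linarith
  have hit : 1 / t ≤ 0.001 := by rw [div_le_iff₀ htp]; linarith
  have hCt : C ^ 4 / t ≤ 0.001 := by rw [div_le_iff₀ htp]; linarith
  have f4 : ∀ y : ℝ, y ≤ 1 + M * C ^ 4 → 1 / t ^ (4 * ekA) * y ≤ 1 / t := fun y hy => by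
    have u0 : 0 < t ^ (4 * ekA) := by positivity
    rw [one_div_mul_eq_div, div_le_div_iff₀ u0 htp]
    have u1 := mul_le_mul_of_nonneg_right hM2 c4
    have u2 : (1 + 2 * (q * C ^ 4)) * t ^ eD ≤ t * t ^ eD :=
      mul_le_mul_of_nonneg_right (by linarith) hTD.le
    have u3 : y ≤ t ^ eD * t := by linarith
    have u4 := mul_le_mul_of_nonneg_right u3 htp.le
    linarith
  have f6 : ∀ y : ℝ, |y| ≤ t ^ er0 → 1 / t ^ (2 * ede) * (y ^ 2 / M) ≤ 1 / t := fun y hy => by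
    have u1 : y ^ 2 ≤ (t ^ er0) ^ 2 := sq_le_sq' (abs_le.1 hy).1 (abs_le.1 hy).2
    have u2 : y ^ 2 / M ≤ 1 / t := by
      rw [div_le_div_iff₀ hMp htp]
      have := mul_le_mul_of_nonneg_right u1 htp.le
      linarith
    have u3 : 1 / t ^ (2 * ede) ≤ 1 := (div_le_one (by linarith)).2 hde
    calc _ ≤ 1 * (y ^ 2 / M) := mul_le_mul_of_nonneg_right u3 (by positivity)
      _ ≤ _ := by linarith
  have hdiff : (tau2 b - tau2 a) ^ 2 ≤ C ^ 4 := by
    have : (tau2 b - tau2 a) ^ 2 ≤ (C ^ 2) ^ 2 := by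
      rw [t2a, t2b]; exact sq_le_sq' (by linarith) (by linarith)
    linarith
  have f2 : ∀ T y : ℝ, t ≤ T → 0 ≤ y → y ≤ C ^ 4 → 1 / T * y ≤ C ^ 4 / t := fun T y h1 h2 h3 => by
    rw [one_div_mul_eq_div]
    exact div_le_div₀ c4 h3 htp h1
  have f2a := f2 _ _ hhA (sq_nonneg _) hdiff
  have f2b := f2 _ ((tau2 b - tau2 a) ^ 2 / M) huA (by positivity)
    ((div_le_self (sq_nonneg _) (by linarith)).trans hdiff)
  have f4a := f4 _ t4a
  have f4b := f4 _ t4b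
  have f6a := f6 _ ta
  have f6b := f6 _ tb
  simp only [mul_zero, zero_mul, zero_add, add_zero, ne_eq, OfNat.ofNat_ne_zero, not_false_eq_true,
    zero_pow, zero_div]
  linarith

end Crest.Agent.R62
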