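import Crest.Agent.R62.Graph

/-!
# R62-InitAlg: the algebra of the initial matrices

`S0 k l = [vert k = vert l]`, `S1 k l = [vert l = mate (vert k)]`, `J = 1`: `S0² = q S0`, `S0 S1 = S1 S0 = q S1`,
`S1² = q S0`, `S0 J = S1 J = q J`, `J² = m0 J`, `m0 = |H| = q |V|`.  The four matrices `J/m0`,
`(S0+S1)/(2q) - J/m0`, `(S0-S1)/(2q)`, `1 - S0/q` are orthogonal idempotents.
`Q4_M0`: in each row there is one diagonal entry, `q - 1` entries at the same vertex, `q` entries at the mate,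
all other entries are `δ`.
-/

set_option autoImplicit false
open Matrix Finset

namespace Crest.Agent.R62

variable {V H : Type} [Fintype V] [DecidableEq V] [Fintype H] [DecidableEq H] {q : ℕ}

namespace HE
variable (Γ : HE V H q)

noncomputable def comb (x0 x1 x2 x3 : ℝ) : Matrix H H ℝ := Matrix.of fun k l =>
  x0 / Fintype.card H
    + x1 * (((if Γ.vert k = Γ.vert l then 1 else 0) + (if Γ.vert l = Γ.mate (Γ.vert k) then 1 else 0))
        / (2 * q) - 1 / Fintype.card H)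
    + x2 * (((if Γ.vert k = Γ.vert l then 1 else 0) - (if Γ.vert l = Γ.mate (Γ.vert k) then 1 else 0))
        / (2 * q))
    + x3 * ((if k = l then 1 else 0) - (if Γ.vert k = Γ.vert l then 1 else 0) / q)

omit [Fintype V] [DecidableEq H] in
theorem InitAlg_sum {K : Type*} [Field K] (u : V) (g : V → K) :
    ∑ j, (if u = Γ.vert j then (1 : K) else 0) * g (Γ.vert j) = q * g u := by
  have h : ∀ j, (if u = Γ.vert j then (1 : K) else 0) * g (Γ.vert j) =
      if Γ.vert j = u then g u else 0 := by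
    intro j
    by_cases h : Γ.vert j = u
    · simp [h]
    · simp [h, Ne.symm h]
  simp only [h]
  rw [← Finset.sum_filter, Finset.sum_const, Γ.fib, nsmul_eq_mul]

omit [Fintype V] [DecidableEq H] in
theorem InitAlg_sum1 {K : Type*} [Field K] (u : V) :
    ∑ j, (if u = Γ.vert j then (1 : K) else 0) = q := by
  simpa only [mul_one] using Γ.InitAlg_sum u (fun _ => (1 : K))

omit [Fintype V] [DecidableEq H] in
theorem InitAlg_sum2 {K : Type*} [Field K] (u : V) :
    ∑ j, (if Γ.vert j = u then (1 : K) else 0) = q := by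
  simpa only [eq_comm] using Γ.InitAlg_sum1 (K := K) u

omit [Fintype V] [DecidableEq H] in
theorem InitAlg_mate (u v : V) : u = Γ.mate v ↔ v = Γ.mate u := by
  constructor <;> rintro rfl <;> rw [Γ.mate_mate]

noncomputable def InitAlg_S0 : Matrix H H ℝ :=
  Matrix.of fun k l => if Γ.vert k = Γ.vert l then 1 else 0
noncomputable def InitAlg_S1 : Matrix H H ℝ :=
  Matrix.of fun k l => if Γ.vert l = Γ.mate (Γ.vert k) then 1 else 0
def InitAlg_J (H : Type) : Matrix H H ℝ := Matrix.of fun _ _ => 1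

omit [Fintype V] [DecidableEq H] in
theorem InitAlg_00 : Γ.InitAlg_S0 * Γ.InitAlg_S0 = (q : ℝ) • Γ.InitAlg_S0 := by
  ext k l
  exact Γ.InitAlg_sum (Γ.vert k) (fun v => if v = Γ.vert l then (1 : ℝ) else 0)

omit [Fintype V] [DecidableEq H] in
theorem InitAlg_01 : Γ.InitAlg_S0 * Γ.InitAlg_S1 = (q : ℝ) • Γ.InitAlg_S1 := by
  ext k l
  exact Γ.InitAlg_sum (Γ.vert k) (fun v => if Γ.vert l = Γ.mate v then (1 : ℝ) else 0)

omit [Fintype V] [DecidableEq H] in
theorem InitAlg_10 : Γ.InitAlg_S1 * Γ.InitAlg_S0 = (q : ℝ) • Γ.InitAlg_S1 := by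
  ext k l
  have := Γ.InitAlg_sum (Γ.mate (Γ.vert k)) (fun v => if v = Γ.vert l then (1 : ℝ) else 0)
  simp only [eq_comm (a := Γ.mate (Γ.vert k))] at this
  exact this

omit [Fintype V] [DecidableEq H] in
theorem InitAlg_11 : Γ.InitAlg_S1 * Γ.InitAlg_S1 = (q : ℝ) • Γ.InitAlg_S0 := by
  ext k l
  have := Γ.InitAlg_sum (Γ.mate (Γ.vert k)) (fun v => if Γ.vert l = Γ.mate v then (1 : ℝ) else 0)
  simp only [eq_comm (a := Γ.mate (Γ.vert k)), Γ.mate_mate, eq_comm (b := Γ.vert k)] at this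
  exact this

omit [Fintype V] [DecidableEq H] in
theorem InitAlg_0J : Γ.InitAlg_S0 * InitAlg_J H = (q : ℝ) • InitAlg_J H := by
  ext k l
  exact Γ.InitAlg_sum (Γ.vert k) (fun _ => (1 : ℝ))

omit [Fintype V] [DecidableEq H] in
theorem InitAlg_1J : Γ.InitAlg_S1 * InitAlg_J H = (q : ℝ) • InitAlg_J H := by
  ext k l
  simpa [Matrix.mul_apply, InitAlg_S1, InitAlg_J, -Finset.sum_boole] using
    Γ.InitAlg_sum2 (K := ℝ) (Γ.mate (Γ.vert k))

omit [Fintype V] [DecidableEq H] in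
theorem InitAlg_J0 : InitAlg_J H * Γ.InitAlg_S0 = (q : ℝ) • InitAlg_J H := by
  ext k l
  simpa [Matrix.mul_apply, InitAlg_S0, InitAlg_J, -Finset.sum_boole] using
    Γ.InitAlg_sum2 (K := ℝ) (Γ.vert l)

omit [Fintype V] [DecidableEq H] in
theorem InitAlg_J1 : InitAlg_J H * Γ.InitAlg_S1 = (q : ℝ) • InitAlg_J H := by
  ext k l
  have := Γ.InitAlg_sum2 (K := ℝ) (Γ.mate (Γ.vert l))
  simp only [← Γ.InitAlg_mate (Γ.vert l)] at this
  simpa [Matrix.mul_apply, InitAlg_S1, InitAlg_J, -Finset.sum_boole] using this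

omit [DecidableEq H] in
theorem InitAlg_JJ : InitAlg_J H * InitAlg_J H = (Fintype.card H : ℝ) • InitAlg_J H := by
  ext k l
  simp [Matrix.mul_apply, InitAlg_J]

omit [Fintype V] in
theorem InitAlg_comb (x0 x1 x2 x3 : ℝ) : Γ.comb x0 x1 x2 x3 =
    x3 • (1 : Matrix H H ℝ) + ((x1 + x2) / (2 * q) - x3 / q) • Γ.InitAlg_S0
      + ((x1 - x2) / (2 * q)) • Γ.InitAlg_S1 + ((x0 - x1) / Fintype.card H) • InitAlg_J H := by
  ext k l
  simp only [comb, InitAlg_S0, InitAlg_S1, InitAlg_J, Matrix.of_apply, Matrix.add_apply,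
    Matrix.smul_apply, smul_eq_mul, Matrix.one_apply]
  ring

theorem comb_mul (hq : 0 < q) (x0 x1 x2 x3 y0 y1 y2 y3 : ℝ) :
    Γ.comb x0 x1 x2 x3 * Γ.comb y0 y1 y2 y3 = Γ.comb (x0 * y0) (x1 * y1) (x2 * y2) (x3 * y3) := by
  rcases isEmpty_or_nonempty H with hH | hH
  · exact Subsingleton.elim _ _
  have h1 : (q : ℝ) ≠ 0 := by exact_mod_cast hq.ne'
  have h2 : (Fintype.card H : ℝ) ≠ 0 := by exact_mod_cast Fintype.card_ne_zero
  simp only [InitAlg_comb, add_mul, mul_add, smul_mul_assoc, mul_smul_comm, one_mul, mul_one,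
    InitAlg_00, InitAlg_01, InitAlg_10, InitAlg_11, InitAlg_0J, InitAlg_1J, InitAlg_J0,
    InitAlg_J1, InitAlg_JJ]
  match_scalars <;> field_simp <;> ring

theorem comb_diag (hq : 0 < q) (x0 x1 x2 x3 : ℝ) (k : H) :
    Γ.comb x0 x1 x2 x3 k k = (x0 + x1 * (Fintype.card V / 2 - 1) + x2 * (Fintype.card V / 2)
      + x3 * (Fintype.card H - Fintype.card V)) / Fintype.card H := by
  have h1 : (q : ℝ) ≠ 0 := by exact_mod_cast hq.ne'
  have hH : Nonempty H := ⟨k⟩
  have h2 : (Fintype.card H : ℝ) ≠ 0 := by exact_mod_cast Fintype.card_ne_zero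
  have h3 : (Fintype.card H : ℝ) = q * Fintype.card V := by exact_mod_cast Γ.card_H
  have h4 : (Fintype.card V : ℝ) ≠ 0 := fun h => h2 (by rw [h3, h, mul_zero])
  simp only [comb, Matrix.of_apply, if_true, if_neg (Γ.mate_ne _).symm]
  rw [h3]
  field_simp
  ring

theorem comb_trace (hq : 0 < q) [Nonempty H] (x0 x1 x2 x3 : ℝ) :
    (Γ.comb x0 x1 x2 x3).trace = x0 + x1 * (Fintype.card V / 2 - 1) + x2 * (Fintype.card V / 2)
      + x3 * (Fintype.card H - Fintype.card V) := by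
  have h2 : (Fintype.card H : ℝ) ≠ 0 := by exact_mod_cast Fintype.card_ne_zero
  simp only [Matrix.trace, Matrix.diag, Γ.comb_diag hq, Finset.sum_const, Finset.card_univ,
    nsmul_eq_mul]
  field_simp

theorem M0_eq (hq : 0 < q) (s σ y : ℝ) :
    Γ.M0 s σ y = Γ.comb 1
      (s * (-σ + (1 - σ ^ 2) / (y ^ 2 - 1) * y * q) + (1 - σ ^ 2) / (y ^ 2 - 1) * q)
      (s * (-σ + (1 - σ ^ 2) / (y ^ 2 - 1) * y * q) - (1 - σ ^ 2) / (y ^ 2 - 1) * q) (-(s * σ)) := by
  have h1 : (q : ℝ) ≠ 0 := by exact_mod_cast hq.ne'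
  ext k l
  simp only [M0, comb, Matrix.of_apply]
  generalize (1 - σ ^ 2) / (y ^ 2 - 1) = κ
  generalize (if k = l then (1 : ℝ) else 0) = a
  generalize (if Γ.vert k = Γ.vert l then (1 : ℝ) else 0) = b
  generalize (if Γ.vert l = Γ.mate (Γ.vert k) then (1 : ℝ) else 0) = c
  simp only [div_eq_mul_inv _ (Fintype.card H : ℝ)]
  generalize (Fintype.card H : ℝ)⁻¹ = d
  field_simp
  ring

theorem M0_RS {K : Type*} [Field K] [CharZero K] (s σ y : K) : RS (Γ.M0 s σ y) := by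
  constructor
  · ext k l
    simp only [M0, Matrix.transpose_apply, Matrix.of_apply, eq_comm (a := l),
      eq_comm (a := Γ.vert l) (b := Γ.vert k), Γ.InitAlg_mate (Γ.vert k)]
  · intro k
    have hH : Nonempty H := ⟨k⟩
    have h2 : (Fintype.card H : K) ≠ 0 := by exact_mod_cast Fintype.card_ne_zero
    simp only [M0, Matrix.of_apply, Finset.sum_add_distrib, ← Finset.mul_sum, Γ.InitAlg_sum1,
      Γ.InitAlg_sum2, Finset.sum_ite_eq, Finset.mem_univ, if_true, Finset.sum_const,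
      Finset.card_univ, nsmul_eq_mul]
    rw [mul_div_cancel₀ _ h2]
    ring

theorem Q4_M0 {s : ℝ} (hs : s = 1 ∨ s = -1) (σ y κ δ : ℝ) (hκ : κ = (1 - σ ^ 2) / (y ^ 2 - 1))
    (hδ : δ = (1 - (s * (-σ + κ * y * q) + κ * q)) / Fintype.card H) (hq : 0 < q) :
    Q4 (Γ.M0 s σ y) ≤ Fintype.card H * ((|κ * y - σ| + |δ|) ^ 4 + (q - 1) * (|κ * y| + |δ|) ^ 4
      + q * (|κ| + |δ|) ^ 4 + Fintype.card H * δ ^ 4) := by
  have hs1 : |s| = 1 := by rcases hs with rfl | rfl <;> simp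
  have key : ∀ x : ℝ, (x + δ) ^ 4 ≤ (|x| + |δ|) ^ 4 := fun x => by
    rw [← Even.pow_abs (by decide : Even 4) (x + δ)]
    exact pow_le_pow_left₀ (abs_nonneg _) (abs_add_le _ _) _
  have hA : 0 ≤ δ ^ 4 := by positivity
  have pt : ∀ k l, Γ.M0 s σ y k l ^ 4 ≤
      ((|κ * y - σ| + |δ|) ^ 4 - (|κ * y| + |δ|) ^ 4) * (if k = l then 1 else 0)
        + (|κ * y| + |δ|) ^ 4 * (if Γ.vert k = Γ.vert l then 1 else 0)
        + (|κ| + |δ|) ^ 4 * (if Γ.vert l = Γ.mate (Γ.vert k) then 1 else 0) + δ ^ 4 := by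
    intro k l
    simp only [M0, Matrix.of_apply, ← hκ, ← hδ]
    by_cases h1 : k = l
    · subst h1
      simp only [if_true, if_neg (Γ.mate_ne _).symm, mul_one, mul_zero, add_zero]
      have := key (s * (-σ + κ * y))
      rw [abs_mul, hs1, one_mul, neg_add_eq_sub] at this
      rw [neg_add_eq_sub]
      linarith
    by_cases h2 : Γ.vert k = Γ.vert l
    · have h3 : ¬ Γ.vert l = Γ.mate (Γ.vert k) := by rw [h2]; exact (Γ.mate_ne _).symm
      simp only [if_neg h1, if_pos h2, if_neg h3, mul_one, mul_zero, add_zero, zero_add]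
      have := key (s * (κ * y))
      rw [abs_mul, hs1, one_mul] at this
      linarith
    by_cases h3 : Γ.vert l = Γ.mate (Γ.vert k)
    · simp only [if_neg h1, if_neg h2, if_pos h3, mul_one, mul_zero, add_zero, zero_add]
      linarith [key κ]
    · simp only [if_neg h1, if_neg h2, if_neg h3, mul_zero, add_zero, zero_add, le_refl]
  unfold Q4
  refine (Finset.sum_le_sum fun k _ => Finset.sum_le_sum fun l _ => pt k l).trans (le_of_eq ?_)
  simp only [Finset.sum_add_distrib, ← Finset.mul_sum, Γ.InitAlg_sum1,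
    Γ.InitAlg_sum2, Finset.sum_ite_eq, Finset.mem_univ, if_true, Finset.sum_const,
    Finset.card_univ, nsmul_eq_mul]
  ring

end HE

end Crest.Agent.R62
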