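import Crest.Agent.R62.Bas2

/-!
# R62-L1: drift and moments of the increment of `tau1`

Notation: `M = C.a`, `m = s²`, `w = u²`, `B = bt²`, `f = M i j`, `g = M i i`, `h = M j j`, `d = dd M i j`,
`f_p = (M^p) i j`, `g_p`, `h_p` the diagonal entries, `r = rr M`, `y = r - 1`, `x = r - c`, `k = (1-f)/d`,
`‖X‖ = (∑ i j, X i j ²)^(1/2)`.  Tools: `Bas1`, `Bas2` (`E_eq`, `TP`, `T1`, `TF`, `TU`, `TUabs`, `E_one`,
`cs2`, `F_fgh`, `Sm.*`).  The constant `C0` is existential: be generous.  Useful: `1 ≤ de`, `dl ≤ de`,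
`de² ≤ bt ≤ s`, `1 ≤ u`, `w ≤ s`, `tt ≤ s`, `rt ≤ 2 s`, `lam ≤ bt`, `1 ≤ K`, `K² ≤ sS`.

`eps1 = 2 f₂ k + (g y_j + h y_i)/d`.  Polynomial part `X0 = 2 f₂ + g y_j + h y_i`.
* `E(2 f₂) = 2m - 2 lam ∑ φ f₂ - ∑ β 2f₂` (`E_eq`; `∑ φ f₂ = χa WW a a + χb WW a b` by symmetry; `TP` with
  `|f₂| ≤ √r_i √r_j`, `μ = 1`, `∑ ω r ≤ ∑ ω² ≤ 9m`).
* `E(g y_j)`: `TF` with `‖g y_j‖ ≤ dl · 2s`, `∑∑ g y_j = τ₁ (τ₂ - m)`.
* remainder: `|eps1 - X0| ≤ 3 (|f|+|gh|)(2|f₂| + |g y_j| + |h y_i|)` on good pairs, `TUabs`, `cs2`, `F_fgh`,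
  `‖f₂‖ ≤ K²`.
* `V1`: `eps1² ≤ C (f₂² + g² y_j² + h² y_i²)`.  `V14`: `eps1⁴ ≤ C (f₂⁴ + g⁴ y_j⁴ + h⁴ y_i⁴)`,
  `f₂⁴ ≤ r_i² r_j²`, `∑ g⁴ ≤ dl⁴`, `∑ y⁴ ≤ ∑ ω⁴ ≤ 9w² · 9m`.
-/

set_option autoImplicit false
open Matrix Finset

namespace Crest.Agent.R62

section
variable {ι : Type} [Fintype ι] [DecidableEq ι]

omit [DecidableEq ι] in
theorem L1_WW (x : Matrix ι ι ℝ) {y : Matrix ι ι ℝ} (hy : y.IsSymm) :
    WW x y = ∑ i, ∑ j, y i j * (x * x) i j := by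
  rw [WW, Matrix.trace]
  refine Finset.sum_congr rfl fun k _ => ?_
  rw [Matrix.diag, Matrix.mul_apply]
  exact Finset.sum_congr rfl fun l _ => by rw [hy.apply k l, mul_comm]

theorem L1_f2 {x : Matrix ι ι ℝ} (hx : x.IsSymm) (i j : ι) : (x * x) i j ^ 2 ≤ rr x i * rr x j := by
  refine (mul_sq_le x x i j).trans (le_of_eq ?_)
  rw [rr_eq hx, rr_eq hx]
  simp only [hx.apply j]

omit [DecidableEq ι] in
theorem L1_split (x : Matrix ι ι ℝ) (i j : ι) :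
    eps1 x i j = 2 * (x * x) i j * ((1 - x i j) / dd x i j) +
      (x i i * (rr x j - 1) + x j j * (rr x i - 1)) * (1 / dd x i j) := by
  unfold eps1
  ring

theorem L1_abs {x : Matrix ι ι ℝ} {i j : ι} (h : Sm x i j) :
    |eps1 x i j| ≤ 3 * (|(x * x) i j| + |x i i * (rr x j - 1)| + |x j j * (rr x i - 1)|) := by
  rw [L1_split]
  have d0 : 0 ≤ 1 / dd x i j := (one_div_pos.2 h.dd_pos).le
  refine (abs_add_le _ _).trans ?_
  rw [abs_mul, abs_mul, abs_mul (_ + _), abs_of_nonneg h.k_pos, abs_of_nonneg d0, abs_two]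
  have a1 := abs_add_le (x i i * (rr x j - 1)) (x j j * (rr x i - 1))
  have a2 := mul_le_mul_of_nonneg_left h.k_le (abs_nonneg ((x * x) i j))
  have a3 := mul_le_mul a1 h.inv_le d0 (by positivity)
  have a4 := abs_nonneg ((x * x) i j)
  have a5 := abs_nonneg (x i i * (rr x j - 1))
  have a6 := abs_nonneg (x j j * (rr x i - 1))
  nlinarith

theorem L1_rem {x : Matrix ι ι ℝ} {i j : ι} (h : Sm x i j) :
    |eps1 x i j - (2 * (x * x) i j + x i i * (rr x j - 1) + x j j * (rr x i - 1))| ≤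
      3 * (2 * (|(|x i j| + |x i i * x j j|)| * |(x * x) i j|)
        + |(|x i j| + |x i i * x j j|)| * |x i i * (rr x j - 1)|
        + |(|x i j| + |x i i * x j j|)| * |x j j * (rr x i - 1)|) := by
  have e : eps1 x i j - (2 * (x * x) i j + x i i * (rr x j - 1) + x j j * (rr x i - 1)) =
      2 * (x * x) i j * ((1 - x i j) / dd x i j - 1) +
      (x i i * (rr x j - 1) + x j j * (rr x i - 1)) * (1 / dd x i j - 1) := by
    rw [L1_split]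
    ring
  have A0 : 0 ≤ |x i j| + |x i i * x j j| := by positivity
  rw [e, abs_of_nonneg A0]
  refine (abs_add_le _ _).trans ?_
  rw [abs_mul, abs_mul, abs_mul (_ + _), abs_two]
  have a1 := abs_add_le (x i i * (rr x j - 1)) (x j j * (rr x i - 1))
  have a2 := mul_le_mul_of_nonneg_left h.k_sub (abs_nonneg ((x * x) i j))
  have a3 := mul_le_mul a1 h.inv_sub (abs_nonneg _) (by positivity)
  have a4 := mul_nonneg A0 (abs_nonneg ((x * x) i j))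
  nlinarith

theorem L1_gy (C : Ctx ι) :
    ∑ i, ∑ j, (C.a i i * (rr C.a j - 1)) ^ 2 ≤ (C.dl * (2 * C.s)) ^ 2 := by
  simp only [mul_pow]
  rw [← Finset.sum_mul_sum]
  refine mul_le_mul C.ha.dl ((C.sum_y_sq C.let_a).trans (le_of_eq (by ring)))
    (Finset.sum_nonneg fun _ _ => sq_nonneg _) (sq_nonneg _)

theorem L1_hy (C : Ctx ι) :
    ∑ i, ∑ j, (C.a j j * (rr C.a i - 1)) ^ 2 ≤ (C.dl * (2 * C.s)) ^ 2 := by
  rw [Finset.sum_comm]
  exact L1_gy C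

theorem L1_pow3 {a b c : ℝ} (ha : 0 ≤ a) (hb : 0 ≤ b) (hc : 0 ≤ c) (n : ℕ) :
    (a + b + c) ^ (n + 1) ≤ 3 ^ n * (a ^ (n + 1) + b ^ (n + 1) + c ^ (n + 1)) := by
  have := pow_sum_le_card_mul_sum_pow (s := (univ : Finset (Fin 3))) (f := ![a, b, c])
    (fun i _ => by fin_cases i <;> simp [ha, hb, hc]) n
  simpa [Fin.sum_univ_three] using this

theorem L1_gy4 (C : Ctx ι) :
    ∑ i, ∑ j, (C.a i i * (rr C.a j - 1)) ^ 4 ≤ 81 * (C.de ^ 4 * C.w ^ 2 * C.s ^ 2) := by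
  simp only [mul_pow]
  rw [← Finset.sum_mul_sum]
  have h1 : ∑ i, C.a i i ^ 4 ≤ C.de ^ 4 := by
    have a1 : Del C.a ≤ C.de ^ 2 := C.ha.dl.trans (pow_le_pow_left₀ C.ok.dl0 C.ok.dle 2)
    calc ∑ i, C.a i i ^ 4 = ∑ i, (C.a i i ^ 2) ^ 2 := Finset.sum_congr rfl fun _ _ => by ring
      _ ≤ Del C.a ^ 2 := Finset.sum_sq_le_sq_sum_of_nonneg fun _ _ => sq_nonneg _
      _ ≤ (C.de ^ 2) ^ 2 := pow_le_pow_left₀ (Finset.sum_nonneg fun _ _ => sq_nonneg _) a1 2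
      _ = _ := by ring
  have h2 : ∑ j, (rr C.a j - 1) ^ 4 ≤ 81 * (C.w ^ 2 * C.s ^ 2) := by
    have a1 : ∀ j, (rr C.a j - 1) ^ 4 ≤ 9 * C.w ^ 2 * C.ω j ^ 2 := fun j => by
      have b1 : (rr C.a j - 1) ^ 2 ≤ C.ω j ^ 2 := by
        rw [← sq_abs]
        exact pow_le_pow_left₀ (abs_nonneg _) (C.dev_one_le_om C.let_a j) 2
      have b2 : C.ω j ^ 2 ≤ (3 * C.w) ^ 2 :=
        pow_le_pow_left₀ (zero_le_one.trans (C.one_le_om j)) (C.om_le j) 2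
      calc (rr C.a j - 1) ^ 4 = (rr C.a j - 1) ^ 2 * (rr C.a j - 1) ^ 2 := by ring
        _ ≤ (3 * C.w) ^ 2 * C.ω j ^ 2 := mul_le_mul (b1.trans b2) b1 (sq_nonneg _) (sq_nonneg _)
        _ = _ := by ring
    refine (Finset.sum_le_sum fun j _ => a1 j).trans ?_
    rw [← Finset.mul_sum]
    nlinarith [mul_le_mul_of_nonneg_left C.sum_om2 (sq_nonneg C.w)]
  refine (mul_le_mul h1 h2 (Finset.sum_nonneg fun _ _ => by positivity) (by positivity)).trans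
    (le_of_eq (by ring))

end

theorem L1 : ∃ C0 : ℝ, 0 ≤ C0 ∧ ∀ {ι : Type} [Fintype ι] [DecidableEq ι] (C : Ctx ι),
    |C.E (eps1 C.a) - 2 * tau1 C.a * (tau2 C.a - C.s ^ 2)
      + 2 * C.lam * (C.χa * WW C.a C.a + C.χb * WW C.a C.b)| ≤ C0 * C.err1 := by
  refine ⟨100, by norm_num, fun {ι} _ _ C => ?_⟩
  have hs := C.ha.rs.1
  have s0 := C.ok.s0
  have dl0 := C.ok.dl0
  have bt1 := C.ok.bt1
  have hdl : C.dl ≤ C.bt := by nlinarith [C.ok.dle, C.ok.de1, C.ok.deb]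
  -- the `f₂` term
  have h1 : ∑ i, ∑ j, (C.a * C.a) i j = C.s ^ 2 := by
    simp only [rowsum_mul C.ha.rs.2 C.ha.rs.2, C.Bas1_one]
  have h2 : ∑ i, ∑ j, C.φ i j * (C.a * C.a) i j = C.χa * WW C.a C.a + C.χb * WW C.a C.b := by
    rw [L1_WW _ hs, L1_WW _ C.hb.rs.1]
    simp only [Ctx.φ, Matrix.add_apply, Matrix.smul_apply, smul_eq_mul, add_mul, mul_assoc,
      Finset.sum_add_distrib, Finset.mul_sum]
  have h3 : |∑ i, ∑ j, C.β i j * (C.a * C.a) i j| ≤ 9 * C.bt ^ 2 * C.s ^ 2 := by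
    have a1 := C.TP (X := fun i j => (C.a * C.a) i j) (u := fun i => √(rr C.a i))
      (v := fun i => √(rr C.a i)) (fun i j => by
        rw [← Real.sqrt_mul (rr_nonneg hs i)]
        exact Real.abs_le_sqrt (L1_f2 hs i j)) one_pos
    simp only [Real.sq_sqrt (rr_nonneg hs _)] at a1
    have a2 : ∑ i, C.ω i * rr C.a i ≤ 9 * C.s ^ 2 := by
      refine le_trans (Finset.sum_le_sum fun i _ => ?_) C.sum_om2
      rw [sq]
      exact mul_le_mul_of_nonneg_left (C.rr_le_om C.let_a i) (zero_le_one.trans (C.one_le_om i))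
    nlinarith [mul_le_mul_of_nonneg_left a2 (sq_nonneg C.bt)]
  have h4 := C.E_eq fun i j => (C.a * C.a) i j
  rw [h1, h2] at h4
  -- the `g y` terms
  have h5 := C.TF (by positivity) (L1_gy C)
  have h6 : ∑ i, ∑ j, C.a i i * (rr C.a j - 1) = tau1 C.a * (tau2 C.a - C.s ^ 2) := by
    rw [← Finset.sum_mul_sum, Finset.sum_sub_distrib, C.Bas1_one]
    rfl
  rw [h6] at h5
  have h7 := C.E_swap fun i j => C.a i i * (rr C.a j - 1)
  -- the remainder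
  have h8 := C.TUabs (fun i j g => L1_rem (C.let_a.sm g)) fun i j => by positivity
  simp only [Finset.sum_add_distrib, ← Finset.mul_sum] at h8
  rw [C.E_sub, C.E_add, C.E_add, C.E_mul, h7, h4] at h8
  have F0 : 0 ≤ C.tt + C.dl ^ 2 := by linarith [C.ok.tt0, sq_nonneg C.dl]
  have F1 : ∑ i, ∑ j, (|C.a i j| + |C.a i i * C.a j j|) ^ 2 ≤ (2 * C.s) ^ 2 :=
    (C.F_fgh C.let_a).trans (pow_le_pow_left₀ F0 C.tt_add_le 2)
  have c1 := Ctx.Bas2_cs2 _ (fun i j => (C.a * C.a) i j) (by positivity) (sq_nonneg C.K) F1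
    ((C.F2 C.let_a C.let_a).trans (le_of_eq (by ring)))
  have c2 := Ctx.Bas2_cs2 _ _ (by positivity) (by positivity) F1 (L1_gy C)
  have c3 := Ctx.Bas2_cs2 _ _ (by positivity) (by positivity) F1 (L1_hy C)
  have p1 : C.s ^ 2 ≤ C.bt ^ 2 * C.s ^ 2 := le_mul_of_one_le_left (sq_nonneg _) (one_le_pow₀ bt1)
  have p2 : C.bt * C.dl * C.s ^ 2 ≤ C.bt ^ 2 * C.s ^ 2 := by
    rw [sq C.bt]
    gcongr
  have p3 : C.dl * C.s ^ 2 ≤ C.bt ^ 2 * C.s ^ 2 := by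
    gcongr
    nlinarith
  have p4 : 0 ≤ C.K ^ 2 * C.s := by positivity
  have p5 := sq_nonneg C.s
  obtain ⟨b1, b2⟩ := abs_le.1 h3
  obtain ⟨b3, b4⟩ := abs_le.1 h5
  obtain ⟨b5, b6⟩ := abs_le.1 h8
  unfold Num.err1
  rw [abs_le]
  constructor <;> linarith

theorem V1 : ∃ C0 : ℝ, 0 ≤ C0 ∧ ∀ {ι : Type} [Fintype ι] [DecidableEq ι] (C : Ctx ι),
    C.E (fun i j => eps1 C.a i j ^ 2) ≤ C0 * C.var1 := by
  refine ⟨324, by norm_num, fun {ι} _ _ C => ?_⟩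
  have h1 := C.TU (X := fun i j => eps1 C.a i j ^ 2) (Y := fun i j => 27 * ((C.a * C.a) i j ^ 2 +
    (C.a i i * (rr C.a j - 1)) ^ 2 + (C.a j j * (rr C.a i - 1)) ^ 2)) (fun i j g => by
      have a1 := pow_le_pow_left₀ (abs_nonneg _) (L1_abs (C.let_a.sm g)) 2
      have a2 := L1_pow3 (abs_nonneg ((C.a * C.a) i j)) (abs_nonneg (C.a i i * (rr C.a j - 1)))
        (abs_nonneg (C.a j j * (rr C.a i - 1))) 1
      simp only [Nat.reduceAdd, sq_abs, mul_pow (3 : ℝ)] at a1 a2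
      linarith) fun i j => by positivity
  refine h1.trans ?_
  have h2 : ∑ i, ∑ j, 27 * ((C.a * C.a) i j ^ 2 +
      (C.a i i * (rr C.a j - 1)) ^ 2 + (C.a j j * (rr C.a i - 1)) ^ 2) ≤ 216 * C.var1 := by
    simp only [Finset.sum_add_distrib, ← Finset.mul_sum]
    have a1 : 0 ≤ C.K ^ 4 := by positivity
    unfold Num.var1
    linarith [C.F2 C.let_a C.let_a, L1_gy C, L1_hy C]
  have h3 : 0 ≤ C.var1 := by unfold Num.var1; positivity
  refine (mul_le_mul C.ok.pm2 h2 (Finset.sum_nonneg fun _ _ => Finset.sum_nonneg fun _ _ => by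
    positivity) (by norm_num)).trans (le_of_eq (by ring))

theorem V14 : ∃ C0 : ℝ, 0 ≤ C0 ∧ ∀ {ι : Type} [Fintype ι] [DecidableEq ι] (C : Ctx ι),
    C.E (fun i j => eps1 C.a i j ^ 4) ≤ C0 * C.var14 := by
  refine ⟨3 / 2 * (2187 * 162), by norm_num, fun {ι} _ _ C => ?_⟩
  have hs := C.ha.rs.1
  have e4 : ∀ t : ℝ, |t| ^ 4 = t ^ 4 := fun t => Even.pow_abs (by norm_num) t
  have h1 := C.TU (X := fun i j => eps1 C.a i j ^ 4) (Y := fun i j => 2187 * ((C.a * C.a) i j ^ 4 +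
    (C.a i i * (rr C.a j - 1)) ^ 4 + (C.a j j * (rr C.a i - 1)) ^ 4)) (fun i j g => by
      have a1 := pow_le_pow_left₀ (abs_nonneg _) (L1_abs (C.let_a.sm g)) 4
      have a2 := L1_pow3 (abs_nonneg ((C.a * C.a) i j)) (abs_nonneg (C.a i i * (rr C.a j - 1)))
        (abs_nonneg (C.a j j * (rr C.a i - 1))) 3
      simp only [Nat.reduceAdd, e4, mul_pow (3 : ℝ)] at a1 a2
      linarith) fun i j => by positivity
  refine h1.trans ?_
  have h0 : ∑ i, ∑ j, (C.a * C.a) i j ^ 4 ≤ 81 * C.s ^ 4 := by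
    have a1 : ∀ i, rr C.a i ^ 2 ≤ C.ω i ^ 2 := fun i =>
      pow_le_pow_left₀ (rr_nonneg hs i) (C.rr_le_om C.let_a i) 2
    calc _ ≤ ∑ i, ∑ j, C.ω i ^ 2 * C.ω j ^ 2 :=
          Finset.sum_le_sum fun i _ => Finset.sum_le_sum fun j _ => by
            have a2 := pow_le_pow_left₀ (sq_nonneg _) (L1_f2 hs i j) 2
            rw [← pow_mul, mul_pow] at a2
            exact a2.trans (mul_le_mul (a1 i) (a1 j) (sq_nonneg _) (sq_nonneg _))
      _ ≤ 9 * C.s ^ 2 * (9 * C.s ^ 2) := by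
          rw [← Finset.sum_mul_sum]
          exact mul_le_mul C.sum_om2 C.sum_om2 (Finset.sum_nonneg fun _ _ => sq_nonneg _)
            (by positivity)
      _ = _ := by ring
  have h2 : ∑ i, ∑ j, 2187 * ((C.a * C.a) i j ^ 4 +
      (C.a i i * (rr C.a j - 1)) ^ 4 + (C.a j j * (rr C.a i - 1)) ^ 4) ≤ 2187 * 162 * C.var14 := by
    simp only [Finset.sum_add_distrib, ← Finset.mul_sum]
    rw [Finset.sum_comm (f := fun i j => (C.a j j * (rr C.a i - 1)) ^ 4)]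
    have a1 : 0 ≤ C.s ^ 4 := by positivity
    unfold Num.var14
    linarith [L1_gy4 C]
  refine (mul_le_mul C.ok.pm2 h2 (Finset.sum_nonneg fun _ _ => Finset.sum_nonneg fun _ _ => by
    positivity) (by norm_num)).trans (le_of_eq (by ring))

end Crest.Agent.R62
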