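import Crest.Agent.R62.L2a_FB

/-!
# R62-L2a: the main term of the drift of `tau2`

Notation: `M = C.a`, `m = s²`, `w = u²`, `B = bt²`, `f = M i j`, `g = M i i`, `h = M j j`, `d = dd M i j`,
`f_p = (M^p) i j`, `g_p`, `h_p` the diagonal entries, `r = rr M`, `y = r - 1`, `x = r - c`, `k = (1-f)/d`,
`‖X‖ = (∑ i j, X i j ²)^(1/2)`.  Tools: `Bas1`, `Bas2` (`E_eq`, `TP`, `T1`, `TF`, `TU`, `TUabs`, `E_one`,
`cs2`, `F_fgh`, `Sm.*`).  The constant `C0` is existential: be generous.  Useful: `1 ≤ de`, `dl ≤ de`,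
`de² ≤ bt ≤ s`, `1 ≤ u`, `w ≤ s`, `tt ≤ s`, `rt ≤ 2 s`, `lam ≤ bt`, `1 ≤ K`, `K² ≤ sS`.

`2 y_i y_j / d - 2(1-c)² = [2 y_i y_j - 2(1-c)²] + 4 f + [2 y_i y_j (1/d - 1 - 2f) + 4 f (y_i y_j - 1)]`.
* `y = x - (1-c)`, so `y_i y_j - (1-c)² = -(1-c)(x_i + x_j) + x_i x_j`; plain sum over all pairs
  `= (τ₂-m)² - m²(1-c)²`.  One-index terms: `E_one`, `E_swap`, `|∑ x| ≤ w s`,
  `∑ ω|x| ≤ w s + ∑ (ω-1)|x| ≤ w s + 2w² ≤ 3 w s`.  `x_i x_j`: `TF` with `F = w²`.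
* `4f`: `∑∑ f = m`, `TF` with `F = tt`.
* last bracket (`TUabs`, `Sm.inv_sub2`): `∑|y_i||y_j| f² ≤ ∑_i y_i² r_i ≤ 2 τ₂ + 2 ∑ r³ ≤ 2 tt² + 6 w rt²`,
  `∑ |y_i y_j g h| = (∑|y||D|)² ≤ 4 m dl²`, `|y_i y_j - 1| ≤ r_i + r_j + r_i r_j` and
  `∑ |f| (r_i + r_j + r_i r_j) ≤ tt (2 s rt + rt²) ≤ 4 tt s rt`.
-/

set_option autoImplicit false
open Matrix Finset

namespace Crest.Agent.R62

theorem L2a_err {N : Num} (h : N.OK) {p : ℝ} (hp : 0 ≤ p) :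
    N.bt ^ 2 * N.w * N.s ≤ N.err2 p ∧ N.bt * N.s * N.w ^ 2 ≤ N.err2 p ∧
    N.bt * N.s * N.K ^ 3 ≤ N.err2 p ∧ N.bt * N.s * N.tt ≤ N.err2 p ∧
    N.bt * N.s * (N.dl * N.K * N.rt) ≤ N.err2 p ∧ p ≤ N.err2 p ∧ N.K ^ 4 ≤ N.err2 p ∧
    N.dl ^ 2 * N.s ^ 2 ≤ N.err2 p ∧ N.w * N.rt ^ 2 ≤ N.err2 p ∧ N.tt * N.s * N.rt ≤ N.err2 p ∧
    N.K ^ 4 + N.dl ^ 2 * N.s ^ 2 ≤ N.err2 p := by
  have h1 := h.s0
  have h2 : 0 ≤ N.bt := le_trans zero_le_one h.bt1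
  have h3 : 0 ≤ N.K := le_trans zero_le_one h.K1
  have h4 := h.tt0
  have h5 := h.rt0
  have h6 := h.dl0
  have h7 : 0 ≤ N.w := sq_nonneg _
  have a1 : 0 ≤ N.bt ^ 2 * N.w * N.s := by positivity
  have a2 : 0 ≤ N.bt * N.s * N.w ^ 2 := by positivity
  have a3 : 0 ≤ N.bt * N.s * N.K ^ 3 := by positivity
  have a4 : 0 ≤ N.bt * N.s * N.tt := by positivity
  have a5 : 0 ≤ N.bt * N.s * (N.dl * N.K * N.rt) := by positivity
  have a6 : 0 ≤ N.K ^ 4 := by positivity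
  have a7 : 0 ≤ N.dl ^ 2 * N.s ^ 2 := by positivity
  have a8 : 0 ≤ N.w * N.rt ^ 2 := by positivity
  have a9 : 0 ≤ N.tt * N.s * N.rt := by positivity
  have e : N.err2 p = N.bt ^ 2 * N.w * N.s + (N.bt * N.s * N.w ^ 2 + N.bt * N.s * N.K ^ 3
      + N.bt * N.s * N.tt + N.bt * N.s * (N.dl * N.K * N.rt)) + p + N.K ^ 4 + N.dl ^ 2 * N.s ^ 2
      + N.w * N.rt ^ 2 + N.tt * N.s * N.rt := by unfold Num.err2; ring
  rw [e]
  refine ⟨?_, ?_, ?_, ?_, ?_, ?_, ?_, ?_, ?_, ?_, ?_⟩ <;> linarith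

namespace Ctx
variable {ι : Type} [Fintype ι] [DecidableEq ι] (C : Ctx ι)

theorem L2a_one : |C.E (fun i _ => rr C.a i - C.c) - C.s ^ 2 * ∑ i, (rr C.a i - C.c)| ≤
    7 * (C.bt ^ 2 * C.w * C.s) := by
  have h1 := C.E_one fun i => rr C.a i - C.c
  have h2 := C.sum_abs_dev C.let_a
  have h3 : |∑ i, (rr C.a i - C.c)| ≤ C.w * C.s := (abs_sum_le_sum_abs _ _).trans h2
  have h4 : ∑ i, C.ω i * |rr C.a i - C.c| ≤ ∑ i, |rr C.a i - C.c| + ∑ i, (C.ω i - 1) ^ 2 := by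
    rw [← sum_add_distrib]
    refine sum_le_sum fun i _ => ?_
    have h5 := C.dev_le_om C.let_a i
    have h6 := C.one_le_om i
    nlinarith
  have h5 := C.sum_xi_sq
  have h6 : C.w ^ 2 ≤ C.w * C.s := by rw [sq]; exact mul_le_mul_of_nonneg_left C.w_le_s C.w0
  have h7 : ∑ i, C.ω i * |rr C.a i - C.c| ≤ 5 * (C.w * C.s) := by linarith
  have h8 : C.lam ≤ C.bt ^ 2 := C.ok.lamb.trans (by nlinarith [C.ok.bt1])
  have h9 : C.lam * |∑ i, (rr C.a i - C.c)| ≤ C.bt ^ 2 * (C.w * C.s) :=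
    mul_le_mul h8 h3 (abs_nonneg _) (sq_nonneg _)
  have h10 := mul_le_mul_of_nonneg_left h7 (sq_nonneg C.bt)
  nlinarith

theorem L2a_cube : ∑ i, (rr C.a i - 1) ^ 2 * rr C.a i ≤ C.tt ^ 2 + 3 * (C.w * C.rt ^ 2) := by
  have h1 : ∑ i, (rr C.a i - 1) ^ 2 * rr C.a i ≤ ∑ i, rr C.a i + 3 * C.w * ∑ i, rr C.a i ^ 2 := by
    rw [mul_sum, ← sum_add_distrib]
    refine sum_le_sum fun i _ => ?_
    have h2 := rr_nonneg C.let_a.symm i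
    have h3 := (C.rr_le_om C.let_a i).trans (C.om_le i)
    have h4 := mul_le_mul_of_nonneg_right h3 (sq_nonneg (rr C.a i))
    nlinarith [sq_nonneg (rr C.a i)]
  have h2 := C.ha.t2
  rw [tau2_eq] at h2
  have h3 := mul_le_mul_of_nonneg_left C.ha.r2 (mul_nonneg (by norm_num : (0 : ℝ) ≤ 3) C.w0)
  nlinarith

theorem L2a_sb1 : SB (fun i j => |rr C.a i - 1| * |rr C.a j - 1| * C.a i j ^ 2)
    (C.tt ^ 2 + 3 * (C.w * C.rt ^ 2)) := by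
  have hs := C.let_a.symm
  have h1 : ∑ i, ∑ j, (rr C.a i - 1) ^ 2 * C.a i j ^ 2 = ∑ i, (rr C.a i - 1) ^ 2 * rr C.a i := by
    simp only [← mul_sum, ← rr_eq hs]
  have h2 : ∑ i, ∑ j, (rr C.a j - 1) ^ 2 * C.a i j ^ 2 = ∑ i, (rr C.a i - 1) ^ 2 * rr C.a i := by
    rw [sum_comm, ← h1]
    exact sum_congr rfl fun i _ => sum_congr rfl fun j _ => by rw [hs.apply i j]
  have h3 := C.L2a_cube
  have h4 : ∑ i, ∑ j, |(|rr C.a i - 1| * |rr C.a j - 1| * C.a i j ^ 2)| ≤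
      (∑ i, ∑ j, (rr C.a i - 1) ^ 2 * C.a i j ^ 2
        + ∑ i, ∑ j, (rr C.a j - 1) ^ 2 * C.a i j ^ 2) / 2 := by
    simp only [← sum_add_distrib, sum_div]
    refine sum_le_sum fun i _ => sum_le_sum fun j _ => ?_
    rw [abs_of_nonneg (by positivity), ← sq_abs (rr C.a i - 1), ← sq_abs (rr C.a j - 1)]
    nlinarith [mul_nonneg (sq_nonneg (C.a i j)) (sq_nonneg (|rr C.a i - 1| - |rr C.a j - 1|))]
  unfold SB
  linarith

theorem L2a_rem : |C.E (fun i j => 2 * ((rr C.a i - 1) * (rr C.a j - 1))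
      * (1 / dd C.a i j - 1 - 2 * C.a i j) + 4 * C.a i j * ((rr C.a i - 1) * (rr C.a j - 1) - 1))|
    ≤ 3 / 2 * (8 * (C.tt ^ 2 + 3 * (C.w * C.rt ^ 2)) + 8 * (2 * C.s * C.dl * (2 * C.s * C.dl))
      + 4 * (C.tt * (C.rt * C.s + C.rt * C.s + C.rt * C.rt))) := by
  have ha := C.let_a
  have h1 := ha.vb_y.sum_mul ha.vb_diag
  have h2 := (SB.prod h1 h1).abs
  have h3 := ha.fb.abs.sb_mul (((C.fb_fst ha.vb_rr).add (C.fb_snd ha.vb_rr)).add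
    (ha.vb_rr.prod ha.vb_rr))
  refine C.sb_E (((C.L2a_sb1.const_mul (by norm_num)).add (h2.const_mul (by norm_num))).add
    (h3.const_mul (by norm_num))) fun i j hg => ?_
  have h4 := (ha.sm hg).inv_sub2
  have h5 := rr_nonneg ha.symm i
  have h6 := rr_nonneg ha.symm j
  have h7 : |(rr C.a i - 1) * (rr C.a j - 1) - 1| ≤ rr C.a i + rr C.a j + rr C.a i * rr C.a j := by
    have := mul_nonneg h5 h6
    rw [abs_le]; constructor <;> nlinarith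
  refine (abs_add_le _ _).trans ?_
  have e : |(rr C.a i - 1) * C.a i i * ((rr C.a j - 1) * C.a j j)| =
      |rr C.a i - 1| * |rr C.a j - 1| * |C.a i i * C.a j j| := by
    simp only [abs_mul]; ring
  rw [e, abs_mul, abs_mul, abs_mul, abs_mul, abs_mul, abs_two, abs_of_pos (by norm_num : (0 : ℝ) < 4)]
  have h8 := mul_le_mul_of_nonneg_left h4
    (mul_nonneg (abs_nonneg (rr C.a i - 1)) (abs_nonneg (rr C.a j - 1)))
  have h9 := mul_le_mul_of_nonneg_left h7 (abs_nonneg (C.a i j))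
  nlinarith

end Ctx

theorem L2a : ∃ C0 : ℝ, 0 ≤ C0 ∧ ∀ {ι : Type} [Fintype ι] [DecidableEq ι] (C : Ctx ι),
    |C.E (fun i j => 2 * ((rr C.a i - 1) * (rr C.a j - 1) / dd C.a i j) - 2 * (1 - C.c) ^ 2)
      - (2 * (tau2 C.a - C.s ^ 2) ^ 2 - 2 * C.s ^ 4 * (1 - C.c) ^ 2 + 4 * C.s ^ 2)| ≤ C0 * C.err2 0 := by
  refine ⟨200, by norm_num, fun {ι} _ _ C => ?_⟩
  have ha := C.let_a
  have e1 : C.E (fun i j => 2 * ((rr C.a i - 1) * (rr C.a j - 1) / dd C.a i j) - 2 * (1 - C.c) ^ 2) =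
      2 * C.E (fun i j => (rr C.a i - C.c) * (rr C.a j - C.c))
        - 2 * (1 - C.c) * C.E (fun i _ => rr C.a i - C.c)
        - 2 * (1 - C.c) * C.E (fun _ j => rr C.a j - C.c) + 4 * C.E (fun i j => C.a i j)
        + C.E (fun i j => 2 * ((rr C.a i - 1) * (rr C.a j - 1))
          * (1 / dd C.a i j - 1 - 2 * C.a i j)
          + 4 * C.a i j * ((rr C.a i - 1) * (rr C.a j - 1) - 1)) := by
    rw [← C.E_mul, ← C.E_mul, ← C.E_mul, ← C.E_mul, ← C.E_sub, ← C.E_sub, ← C.E_add, ← C.E_add]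
    exact C.E_congr fun i j _ => by ring
  have e2 : C.E (fun _ j => rr C.a j - C.c) = C.E (fun i _ => rr C.a i - C.c) :=
    C.E_swap fun i _ => rr C.a i - C.c
  have e3 : ∑ i, (rr C.a i - C.c) = tau2 C.a - C.c * C.s ^ 2 := by
    rw [sum_sub_distrib, tau2_eq, C.card]; simp [mul_comm]
  have h1 := C.fb_TF (ha.vb_dev.prod ha.vb_dev)
  rw [← sum_mul_sum, e3] at h1
  have h2 := C.L2a_one
  rw [e3] at h2
  have h3 := C.fb_TF ha.fb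
  rw [ha.sum_sum] at h3
  have h4 := C.L2a_rem
  obtain ⟨a1, a2, -, a4, -, -, -, a7, a8, a9, -⟩ := L2a_err C.ok (le_refl 0)
  rw [e1, e2]
  have c0 : 0 ≤ 1 - C.c := sub_nonneg.2 C.ok.c1
  have c1 : 1 - C.c ≤ 1 := by linarith [C.ok.c0]
  have h5 : |(1 - C.c) * (C.E (fun i _ => rr C.a i - C.c) - C.s ^ 2 * (tau2 C.a - C.c * C.s ^ 2))| ≤
      7 * (C.bt ^ 2 * C.w * C.s) := by
    rw [abs_mul, abs_of_nonneg c0]
    exact (mul_le_of_le_one_left (abs_nonneg _) c1).trans h2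
  have h6 : C.tt ^ 2 ≤ C.bt * C.s * C.tt := by
    have := C.ok.tt0
    have := C.ok.tts
    have : C.s ≤ C.bt * C.s := le_mul_of_one_le_left C.ok.s0 C.ok.bt1
    nlinarith
  have h7 : C.tt * (C.rt * C.rt) ≤ 2 * (C.tt * C.s * C.rt) := by
    have := mul_le_mul_of_nonneg_left C.ok.rts (mul_nonneg C.ok.tt0 C.ok.rt0)
    nlinarith
  generalize C.E (fun i j => 2 * ((rr C.a i - 1) * (rr C.a j - 1))
    * (1 / dd C.a i j - 1 - 2 * C.a i j) + 4 * C.a i j * ((rr C.a i - 1) * (rr C.a j - 1) - 1)) = R at *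
  generalize C.E (fun i j => (rr C.a i - C.c) * (rr C.a j - C.c)) = E1 at *
  generalize C.E (fun i _ => rr C.a i - C.c) = E2 at *
  generalize C.E (fun i j => C.a i j) = E3 at *
  rw [abs_le] at h1 h3 h4 h5 ⊢
  constructor <;> linarith [h1.1, h1.2, h3.1, h3.2, h4.1, h4.2, h5.1, h5.2]

end Crest.Agent.R62
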