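import Crest.Agent.R62.L2a

/-!
# R62-L2b: the remaining terms of `NN2`, second moment of `NN2/d`

Notation: `M = C.a`, `m = s²`, `w = u²`, `B = bt²`, `f = M i j`, `g = M i i`, `h = M j j`, `d = dd M i j`,
`f_p = (M^p) i j`, `g_p`, `h_p` the diagonal entries, `r = rr M`, `y = r - 1`, `x = r - c`, `k = (1-f)/d`,
`‖X‖ = (∑ i j, X i j ²)^(1/2)`.  Tools: `Bas1`, `Bas2` (`E_eq`, `TP`, `T1`, `TF`, `TU`, `TUabs`, `E_one`,
`cs2`, `F_fgh`, `Sm.*`).  The constant `C0` is existential: be generous.  Useful: `1 ≤ de`, `dl ≤ de`,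
`de² ≤ bt ≤ s`, `1 ≤ u`, `w ≤ s`, `tt ≤ s`, `rt ≤ 2 s`, `lam ≤ bt`, `1 ≤ K`, `K² ≤ sS`.

`(NN2 - y_i y_j)/d = 2 (f₃ - f) k + (g h₃ + g₃ h)/d - f₂²/d - 2 g h/d`.
* `f₃ - f`: plain sum `0`, `TF` with `‖f₃ - f‖ ≤ K³ + tt` (`opL`, `F2`); remainder `|k-1| ≤ 2(|f|+|gh|)`, `cs2`.
* `g h₃`: plain sum `τ₁ τ₃` (`τ₃ = WW a a`), `‖g h₃‖ ≤ dl K rt` because `h₃² ≤ r_j gam a a j ≤ K² r_j²`.
* `f₂²/d`: `≤ C K⁴`; `g h / d`: `≤ C (∑|D|)² ≤ C m dl²`.
* `V2N`: `(NN2/d)² ≤ C (y_i² y_j² + f₃² + f² + g² h₃² + g₃² h² + f₂⁴ + g² h²)`, `f₂⁴ ≤ r_i² r_j²`.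
-/

set_option autoImplicit false
open Matrix Finset

namespace Crest.Agent.R62

namespace Ctx
variable {ι : Type} [Fintype ι] [DecidableEq ι] (C : Ctx ι)

theorem L2b_f3 : FB (fun i j => (C.a * C.a * C.a) i j - C.a i j) (C.K * C.K ^ 2 + C.tt) :=
  (C.let_a.fbR (C.let_a.fb2 C.let_a)).sub C.let_a.fb

theorem L2b_gh3 : FB (fun i j => C.a i i * (C.a * C.a * C.a) j j) (C.dl * (C.K * C.rt)) :=
  C.let_a.vb_diag.prod C.let_a.vb_diag3

theorem L2b_rem : |C.E (fun i j =>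
      4 * (((C.a * C.a * C.a) i j - C.a i j) * ((1 - C.a i j) / dd C.a i j - 1))
      + 2 * ((C.a i i * (C.a * C.a * C.a) j j + C.a j j * (C.a * C.a * C.a) i i)
        * (1 / dd C.a i j - 1))
      - 2 * ((C.a * C.a) i j ^ 2 * (1 / dd C.a i j)) - 4 * (C.a i i * C.a j j * (1 / dd C.a i j)))|
    ≤ 3 / 2 * (8 * ((C.K * C.K ^ 2 + C.tt) * (C.tt + C.dl ^ 2))
      + 6 * ((C.dl * (C.K * C.rt) + C.dl * (C.K * C.rt)) * (C.tt + C.dl ^ 2))
      + 3 * (C.K ^ 2) ^ 2 + 5 * (C.s * C.dl * (C.s * C.dl))) := by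
  have ha := C.let_a
  have h1 := C.L2b_f3.abs.sb_mul ha.fb_fgh
  have h2 := (C.L2b_gh3.add C.L2b_gh3.swap).abs.sb_mul ha.fb_fgh
  have h3 := (ha.fb2 ha).sb_sq
  have h4 := (SB.prod (C.sum_abs_diag ha) (C.sum_abs_diag ha)).abs
  refine C.sb_E ((((h1.const_mul (by norm_num)).add (h2.const_mul (by norm_num))).add
    (h3.const_mul (by norm_num))).add (h4.const_mul (by norm_num))) fun i j hg => ?_
  have hs := ha.sm hg
  have k1 := mul_le_mul_of_nonneg_left hs.k_sub (abs_nonneg ((C.a * C.a * C.a) i j - C.a i j))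
  have k2 := mul_le_mul_of_nonneg_left hs.inv_sub
    (abs_nonneg (C.a i i * (C.a * C.a * C.a) j j + C.a j j * (C.a * C.a * C.a) i i))
  have k0 : 0 ≤ 1 / dd C.a i j := (one_div_pos.2 hs.dd_pos).le
  have k3 := mul_le_mul_of_nonneg_left hs.inv_le (sq_nonneg ((C.a * C.a) i j))
  have k3' := mul_nonneg (sq_nonneg ((C.a * C.a) i j)) k0
  have k4 := mul_le_mul_of_nonneg_left hs.inv_le (abs_nonneg (C.a i i * C.a j j))
  rw [← abs_mul] at k1 k2
  rw [← abs_of_nonneg k0, ← abs_mul] at k4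
  have k5 := abs_nonneg (C.a i i * C.a j j)
  have k6 := sq_nonneg ((C.a * C.a) i j)
  rw [abs_le] at k1 k2 k4 ⊢
  constructor <;> linarith [k1.1, k1.2, k2.1, k2.2, k4.1, k4.2]

end Ctx

theorem L2b : ∃ C0 : ℝ, 0 ≤ C0 ∧ ∀ {ι : Type} [Fintype ι] [DecidableEq ι] (C : Ctx ι),
    |C.E (fun i j => 2 * ((NN2 C.a i j - (rr C.a i - 1) * (rr C.a j - 1)) / dd C.a i j))|
      ≤ C0 * C.err2 (|tau1 C.a| * |WW C.a C.a|) := by
  refine ⟨200, by norm_num, fun {ι} _ _ C => ?_⟩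
  have ha := C.let_a
  have e1 : C.E (fun i j => 2 * ((NN2 C.a i j - (rr C.a i - 1) * (rr C.a j - 1)) / dd C.a i j)) =
      4 * C.E (fun i j => (C.a * C.a * C.a) i j - C.a i j)
        + 2 * C.E (fun i j => C.a i i * (C.a * C.a * C.a) j j)
        + 2 * C.E (fun i j => C.a j j * (C.a * C.a * C.a) i i)
        + C.E (fun i j =>
      4 * (((C.a * C.a * C.a) i j - C.a i j) * ((1 - C.a i j) / dd C.a i j - 1))
      + 2 * ((C.a i i * (C.a * C.a * C.a) j j + C.a j j * (C.a * C.a * C.a) i i)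
        * (1 / dd C.a i j - 1))
      - 2 * ((C.a * C.a) i j ^ 2 * (1 / dd C.a i j))
      - 4 * (C.a i i * C.a j j * (1 / dd C.a i j))) := by
    rw [← C.E_mul, ← C.E_mul, ← C.E_mul, ← C.E_add, ← C.E_add, ← C.E_add]
    exact C.E_congr fun i j _ => by unfold NN2; ring
  have e2 : C.E (fun i j => C.a j j * (C.a * C.a * C.a) i i) =
      C.E (fun i j => C.a i i * (C.a * C.a * C.a) j j) :=
    C.E_swap fun i j => C.a i i * (C.a * C.a * C.a) j j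
  have h1 := C.fb_TF C.L2b_f3
  simp only [sum_sub_distrib] at h1
  rw [ha.sum_sum, ha.sum_sum_mul3 ha ha, sub_self, sub_zero] at h1
  have h2 := C.fb_TF C.L2b_gh3
  rw [← sum_mul_sum] at h2
  change |_ - tau1 C.a * WW C.a C.a| ≤ _ at h2
  have h3 := C.L2b_rem
  obtain ⟨-, -, a3, a4, a5, a6, a7, a8, -⟩ :=
    L2a_err C.ok (mul_nonneg (abs_nonneg (tau1 C.a)) (abs_nonneg (WW C.a C.a)))
  have h4 : |tau1 C.a * WW C.a C.a| ≤ C.err2 (|tau1 C.a| * |WW C.a C.a|) := by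
    rw [abs_mul]; exact a6
  have h5 : C.tt + C.dl ^ 2 ≤ 2 * (C.bt * C.s) := by
    have : C.s ≤ C.bt * C.s := le_mul_of_one_le_left C.ok.s0 C.ok.bt1
    linarith [C.tt_add_le]
  have h6 := mul_le_mul_of_nonneg_left h5 C.L2b_f3.1
  have h7 := mul_le_mul_of_nonneg_left h5 C.L2b_gh3.1
  rw [e1, e2]
  generalize C.E (fun i j =>
      4 * (((C.a * C.a * C.a) i j - C.a i j) * ((1 - C.a i j) / dd C.a i j - 1))
      + 2 * ((C.a i i * (C.a * C.a * C.a) j j + C.a j j * (C.a * C.a * C.a) i i)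
        * (1 / dd C.a i j - 1))
      - 2 * ((C.a * C.a) i j ^ 2 * (1 / dd C.a i j))
      - 4 * (C.a i i * C.a j j * (1 / dd C.a i j))) = R at *
  generalize C.E (fun i j => (C.a * C.a * C.a) i j - C.a i j) = E1 at *
  generalize C.E (fun i j => C.a i i * (C.a * C.a * C.a) j j) = E2 at *
  generalize C.err2 (|tau1 C.a| * |WW C.a C.a|) = er at *
  have h8 : 0 ≤ er := (abs_nonneg _).trans h4
  rw [abs_le] at h1 h2 h3 h4 ⊢
  constructor <;> linarith [h1.1, h1.2, h3.1, h3.2, h4.1, h4.2, h2.1, h2.2]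

theorem V2N : ∃ C0 : ℝ, 0 ≤ C0 ∧ ∀ {ι : Type} [Fintype ι] [DecidableEq ι] (C : Ctx ι),
    C.E (fun i j => (NN2 C.a i j / dd C.a i j) ^ 2) ≤ C0 * C.var2 := by
  refine ⟨3 / 2 * 40 ^ 2 * 3, by norm_num, fun {ι} _ _ C => ?_⟩
  have ha := C.let_a
  have h1 := ((((((ha.vb_y.prod ha.vb_y).abs.add (C.L2b_f3.abs.const_mul (r := 4) (by norm_num))).add
    C.L2b_gh3.abs).add C.L2b_gh3.swap.abs).add (ha.vb_rr.prod ha.vb_rr)).add
    ((ha.vb_diag.prod ha.vb_diag).abs.const_mul (r := 2) (by norm_num))).const_mul (r := 2)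
    (by norm_num)
  have s1 := C.s1
  have K0 := C.K0
  have b1 : C.s ≤ C.s ^ 2 := by nlinarith
  have b2 : C.rt * C.rt ≤ 2 * C.s * (2 * C.s) :=
    mul_le_mul C.ok.rts C.ok.rts C.ok.rt0 (by linarith)
  have b3 : C.dl * C.dl ≤ C.s := by
    have := mul_le_mul C.ok.dle C.ok.dle C.ok.dl0 C.de0
    linarith [C.ok.deb, C.bt_le_s, sq C.de]
  have b4 : C.dl * (C.K * C.rt) ≤ C.de * (C.K * (2 * C.s)) :=
    mul_le_mul C.ok.dle (mul_le_mul_of_nonneg_left C.ok.rts K0) (mul_nonneg K0 C.ok.rt0) C.de0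
  have b5 : 0 ≤ C.K ^ 3 := by positivity
  have b6 : 0 ≤ C.de * C.K * C.s := mul_nonneg (mul_nonneg C.de0 K0) C.ok.s0
  have h2 := h1.le (G := 40 * (C.s ^ 2 + C.K ^ 3 + C.de * C.K * C.s)) (by
    linarith [C.ok.tts])
  have h3 := C.fb_E (X := fun i j => NN2 C.a i j / dd C.a i j) h2 fun i j hg => by
    have hs := ha.sm hg
    have k0 : 0 ≤ 1 / dd C.a i j := (one_div_pos.2 hs.dd_pos).le
    have k1 : |1 - C.a i j| ≤ 2 := by
      have := hs.1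
      rw [abs_le] at this ⊢
      constructor <;> linarith [this.1, this.2]
    have k2 := mul_le_mul_of_nonneg_left k1 (abs_nonneg ((C.a * C.a * C.a) i j - C.a i j))
    rw [← abs_mul] at k2
    have k3 := ha.sq2 ha i j
    have k4 := sq_nonneg ((C.a * C.a) i j)
    have k5 : |NN2 C.a i j| ≤ |(rr C.a i - 1) * (rr C.a j - 1)|
        + 4 * |(C.a * C.a * C.a) i j - C.a i j| + |C.a i i * (C.a * C.a * C.a) j j|
        + |C.a j j * (C.a * C.a * C.a) i i| + rr C.a i * rr C.a j + 2 * |C.a i i * C.a j j| := by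
      have t1 := abs_le.1 (le_refl |(rr C.a i - 1) * (rr C.a j - 1)|)
      have t2 := abs_le.1 (le_refl |C.a i i * (C.a * C.a * C.a) j j|)
      have t3 := abs_le.1 (le_refl |C.a j j * (C.a * C.a * C.a) i i|)
      have t4 := abs_le.1 (le_refl |C.a i i * C.a j j|)
      unfold NN2
      rw [abs_le] at k2 ⊢
      constructor <;> linarith [t1.1, t1.2, t2.1, t2.2, t3.1, t3.2, t4.1, t4.2, k2.1, k2.2]
    rw [div_eq_mul_one_div, abs_mul, abs_of_nonneg k0, mul_comm]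
    exact mul_le_mul (hs.inv_le.trans (by norm_num)) k5 (abs_nonneg _) (by norm_num)
  refine h3.trans ?_
  unfold Num.var2
  have b7 : 0 ≤ C.de ^ 4 * C.w ^ 2 * C.s ^ 2 := by have := C.de0; positivity
  nlinarith [sq_nonneg (C.s ^ 2 - C.K ^ 3), sq_nonneg (C.s ^ 2 - C.de * C.K * C.s),
    sq_nonneg (C.K ^ 3 - C.de * C.K * C.s)]

end Crest.Agent.R62
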