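import Crest.Agent.R62.Defs

/-!
# R62-Upd: algebra of the update

Notation `f = M i j`, `g = M i i`, `h = M j j`, `d = dd M i j`, `X = !![0,1;1,0]`, `E = Em i j`.
* `del_comm`: unfold, `ring`.
* `upd_RSU`: for `k ∈ U \ {i,j}`: `∑_l upd k l = ∑_{l ≠ i,j} (M k l + kap1 k M l i + kap2 k M l j)
  = 1 - M k i - M k j + kap1 k (1 - g - f) + kap2 k (1 - f - h)` and
  `kap1 (1-g-f) + kap2 (1-f-h) = M k i + M k j` (`field_simp; ring`).
* Z-form: `KK * (X - br M) = 1 = (X - br M) * KK`; `(M E K Eᵀ M) k l = del M i j k l` (M symmetric);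
  rows `i`,`j` of `M + Zm` vanish (`Eᵀ(M + Zm) = (1 + (G - X) K) Eᵀ M = 0`), and for `k ∉ {i,j}` row `k`
  of `Zm` is row `k` of `M E K Eᵀ M`.  Hence `upd = (M + Zm) * Pm` and `Pm * (M + Zm) = M + Zm`, so traces
  of products of `upd`'s are traces of products of `(M + Zm)`'s (cyclicity).
  `tr(Zm x * w) = tr(KK x * Eᵀ x w (cE - EX))`, with `Eᵀ w (c E - E X) = br (w*c) - br w * X`.
* `tau1_upd`, `tau2_upd`: expand with `trace_Zm`, `trace_Zm2`, then `Matrix.trace_fin_two`,
  `Matrix.mul_apply`, `Fin.sum_univ_two`, symmetry of the powers of `M`, `field_simp; ring`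
  (identities checked numerically in exact arithmetic).
-/

set_option autoImplicit false
open Matrix Finset

namespace Crest.Agent.R62

variable {K : Type*} [Field K] {ι : Type*} [Fintype ι] [DecidableEq ι]

/-- the two coordinate vectors -/
def Em (i j : ι) : Matrix ι (Fin 2) K := Matrix.of fun k t => if k = ![i, j] t then 1 else 0

/-- `V_M = M E - E X` -/
def Vm (M : Matrix ι ι K) (i j : ι) : Matrix ι (Fin 2) K :=
  M * (Em i j : Matrix ι (Fin 2) K) - (Em i j : Matrix ι (Fin 2) K) * (!![0, 1; 1, 0] : Matrix (Fin 2) (Fin 2) K)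

/-- `Z_M = V_M K_M Eᵀ M` -/
def Zm (M : Matrix ι ι K) (i j : ι) : Matrix ι ι K := 
  Vm M i j * KK M i j * (Em i j : Matrix ι (Fin 2) K)ᵀ * M

/-- projection killing `i, j` -/
def Pm (i j : ι) : Matrix ι ι K := Matrix.diagonal fun k => if k = i ∨ k = j then 0 else 1

theorem Upd_EmT_mul {κ : Type*} (i j : ι) (A : Matrix ι κ K) (t : Fin 2) (l : κ) :
    ((Em i j : Matrix ι (Fin 2) K)ᵀ * A) t l = A (![i, j] t) l := by
  simp [Matrix.mul_apply, Em]

theorem Upd_mul_Em {κ : Type*} (i j : ι) (A : Matrix κ ι K) (k : κ) (t : Fin 2) :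
    (A * (Em i j : Matrix ι (Fin 2) K)) k t = A k (![i, j] t) := by
  simp [Matrix.mul_apply, Em]

theorem Upd_br (w : Matrix ι ι K) (i j : ι) :
    (Em i j : Matrix ι (Fin 2) K)ᵀ * w * (Em i j : Matrix ι (Fin 2) K) = br w i j := by
  ext s t
  rw [Upd_mul_Em, Upd_EmT_mul]
  fin_cases s <;> fin_cases t <;> rfl

theorem Upd_Zm_apply (M : Matrix ι ι K) (i j k l : ι) :
    Zm M i j k l = ((M k i - if k = j then 1 else 0) * (M j j * M i l + (1 - M i j) * M j l)
      + (M k j - if k = i then 1 else 0) * ((1 - M i j) * M i l + M i i * M j l)) / dd M i j := by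
  rw [Zm, Matrix.mul_assoc, Matrix.mul_assoc, Matrix.mul_apply, Fin.sum_univ_two, Matrix.mul_apply,
    Matrix.mul_apply, Fin.sum_univ_two, Fin.sum_univ_two]
  simp only [Upd_EmT_mul, Vm, Matrix.sub_apply, Upd_mul_Em]
  simp [Matrix.mul_apply, Em, KK, Fin.sum_univ_two]
  ring

theorem Upd_row_i {M : Matrix ι ι K} {i j : ι} (hij : i ≠ j) (hd : dd M i j ≠ 0)
    (l : ι) : (M + Zm M i j) i l = 0 := by
  rw [Matrix.add_apply, Upd_Zm_apply, if_neg hij, if_pos rfl]
  field_simp
  unfold dd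
  ring

theorem Upd_row_j {M : Matrix ι ι K} (hM : M.IsSymm) {i j : ι} (hij : i ≠ j) (hd : dd M i j ≠ 0)
    (l : ι) : (M + Zm M i j) j l = 0 := by
  rw [Matrix.add_apply, Upd_Zm_apply, if_neg hij.symm, if_pos rfl, hM.apply i j]
  field_simp
  unfold dd
  ring

theorem Upd_row {M : Matrix ι ι K} (hM : M.IsSymm) {i j k : ι} (hi : k ≠ i) (hj : k ≠ j)
    (l : ι) : (M + Zm M i j) k l = M k l + del M i j k l := by
  rw [Matrix.add_apply, Upd_Zm_apply, if_neg hi, if_neg hj, hM.apply l i, hM.apply l j]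
  unfold del kap1 kap2
  ring

theorem Upd_FF (x w c : Matrix ι ι K) (i j : ι) : FF x w c i j =
    !![(x j j * ((w * c) i i - w i j) + (1 - x i j) * ((w * c) j i - w j j)) / dd x i j,
       (x j j * ((w * c) i j - w i i) + (1 - x i j) * ((w * c) j j - w j i)) / dd x i j;
       ((1 - x i j) * ((w * c) i i - w i j) + x i i * ((w * c) j i - w j j)) / dd x i j,
       ((1 - x i j) * ((w * c) i j - w i i) + x i i * ((w * c) j j - w j i)) / dd x i j] := by
  unfold FF KK br
  generalize w * c = u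
  ext s t
  fin_cases s <;> fin_cases t <;> simp [Matrix.mul_apply, Fin.sum_univ_two] <;> ring

omit [DecidableEq ι] in
theorem Upd_symm2 {M : Matrix ι ι K} (hM : M.IsSymm) : (M * M).IsSymm := by
  unfold Matrix.IsSymm at *
  rw [Matrix.transpose_mul, hM]

omit [DecidableEq ι] in
theorem Upd_symm3 {M : Matrix ι ι K} (hM : M.IsSymm) : (M * M * M).IsSymm := by
  unfold Matrix.IsSymm at *
  simp only [Matrix.transpose_mul, hM, Matrix.mul_assoc]

omit [DecidableEq ι] in
theorem Upd_symm4 {M : Matrix ι ι K} (hM : M.IsSymm) : (M * M * M * M).IsSymm := by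
  unfold Matrix.IsSymm at *
  simp only [Matrix.transpose_mul, hM, Matrix.mul_assoc]

omit [DecidableEq ι] in
theorem Upd_symm5 {M : Matrix ι ι K} (hM : M.IsSymm) : (M * M * M * M * M).IsSymm := by
  unfold Matrix.IsSymm at *
  simp only [Matrix.transpose_mul, hM, Matrix.mul_assoc]

theorem Upd_sum_sdiff {i j : ι} (hij : i ≠ j) (F : ι → K) :
    ∑ l, (if l = i ∨ l = j then 0 else F l) = ∑ l, F l - F i - F j := by
  have : ∀ l, (if l = i ∨ l = j then 0 else F l) =
      F l - (if l = i then F i else 0) - (if l = j then F j else 0) := fun l => by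
    by_cases h1 : l = i
    · subst h1; simp [hij]
    · by_cases h2 : l = j
      · subst h2; simp [h1]
      · simp [h1, h2]
  simp [this, Finset.sum_sub_distrib]

theorem del_comm (M : Matrix ι ι K) (i j k l : ι) : del M i j k l = del M i j l k := by
  unfold del kap1 kap2
  ring

theorem upd_symm {M : Matrix ι ι K} (hM : M.IsSymm) (i j : ι) : (upd M i j).IsSymm := by
  refine Matrix.IsSymm.ext fun k l => ?_
  simp only [upd, Matrix.of_apply]
  rw [hM.apply k l, del_comm M i j l k]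
  exact if_congr (by tauto) rfl rfl

theorem upd_RSU {U : Finset ι} {M : Matrix ι ι K} (hM : RSU U M) {i j : ι} (hi : i ∈ U) (hj : j ∈ U)
    (hij : i ≠ j) (hd : dd M i j ≠ 0) : RSU (U \ {i, j}) (upd M i j) := by
  obtain ⟨h1, h2, h3⟩ := hM
  refine ⟨upd_symm h1 i j, fun k l hk => ?_, fun k hk => ?_⟩
  · simp only [upd, Matrix.of_apply]
    split_ifs with h
    · rfl
    · have hk' : k ∉ U := fun hU => hk (Finset.mem_sdiff.2 ⟨hU, by
        simp only [Finset.mem_insert, Finset.mem_singleton]; tauto⟩)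
      simp [del, kap1, kap2, h2 k _ hk']
  · obtain ⟨hU, hk⟩ := Finset.mem_sdiff.1 hk
    simp only [Finset.mem_insert, Finset.mem_singleton, not_or] at hk
    simp only [upd, Matrix.of_apply, hk.1, hk.2, false_or]
    rw [Upd_sum_sdiff hij]
    have c1 : ∑ l, M l i = 1 := by
      rw [← h3 i hi]
      exact Finset.sum_congr rfl fun l _ => h1.apply i l
    have c2 : ∑ l, M l j = 1 := by
      rw [← h3 j hj]
      exact Finset.sum_congr rfl fun l _ => h1.apply j l
    simp only [del, Finset.sum_add_distrib, ← Finset.mul_sum, c1, c2, h3 k hU, h1.apply i j]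
    unfold kap1 kap2
    field_simp
    unfold dd
    ring

theorem Em_Vm (w c : Matrix ι ι K) {i j : ι} (hij : i ≠ j) :
    (Em i j : Matrix ι (Fin 2) K)ᵀ * w * Vm c i j = br (w * c) i j - br w i j * !![0, 1; 1, 0] := by
  rw [Vm, Matrix.mul_sub, ← Upd_br, ← Upd_br]
  simp only [Matrix.mul_assoc]

theorem Upd_FF_eq (x w c : Matrix ι ι K) {i j : ι} (hij : i ≠ j) :
    FF x w c i j = KK x i j * ((Em i j : Matrix ι (Fin 2) K)ᵀ * w * Vm c i j) := by
  rw [Em_Vm w c hij, FF]

theorem upd_eq {M : Matrix ι ι K} (hM : M.IsSymm) {i j : ι} (hij : i ≠ j) (hd : dd M i j ≠ 0) :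
    upd M i j = (M + Zm M i j) * Pm i j := by
  ext k l
  rw [Pm, Matrix.mul_diagonal]
  simp only [upd, Matrix.of_apply]
  by_cases h1 : k = i
  · subst h1
    rw [Upd_row_i hij hd, if_pos (Or.inl rfl), zero_mul]
  · by_cases h2 : k = j
    · subst h2
      rw [Upd_row_j hM hij hd, if_pos (Or.inr (Or.inl rfl)), zero_mul]
    · rw [Upd_row hM h1 h2]
      simp only [h1, h2, false_or]
      split_ifs <;> simp

theorem Pm_mul {M : Matrix ι ι K} (hM : M.IsSymm) {i j : ι} (hij : i ≠ j) (hd : dd M i j ≠ 0) :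
    Pm i j * (M + Zm M i j) = M + Zm M i j := by
  ext k l
  rw [Pm, Matrix.diagonal_mul]
  split_ifs with h
  · rcases h with rfl | rfl
    · rw [Upd_row_i hij hd, zero_mul]
    · rw [Upd_row_j hM hij hd, zero_mul]
  · rw [one_mul]

/-- one `Z` -/
theorem trace_Zm (x w : Matrix ι ι K) {i j : ι} (hij : i ≠ j) :
    (Zm x i j * w).trace = (FF x (x * w) x i j).trace := by
  rw [Upd_FF_eq _ _ _ hij, Zm]
  simp only [Matrix.mul_assoc]
  rw [Matrix.trace_mul_comm]
  simp only [Matrix.mul_assoc]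

/-- two `Z`'s -/
theorem trace_Zm2 (x y v w : Matrix ι ι K) {i j : ι} (hij : i ≠ j) :
    (Zm x i j * v * Zm y i j * w).trace = (FF x (x * v) y i j * FF y (y * w) x i j).trace := by
  rw [Upd_FF_eq _ _ _ hij, Upd_FF_eq _ _ _ hij, Zm, Zm]
  simp only [Matrix.mul_assoc]
  rw [Matrix.trace_mul_comm]
  simp only [Matrix.mul_assoc]

/-- three `Z`'s -/
theorem trace_Zm3 (x y z u v w : Matrix ι ι K) {i j : ι} (hij : i ≠ j) :
    (Zm x i j * u * Zm y i j * v * Zm z i j * w).trace =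
      (FF x (x * u) y i j * FF y (y * v) z i j * FF z (z * w) x i j).trace := by
  rw [Upd_FF_eq _ _ _ hij, Upd_FF_eq _ _ _ hij, Upd_FF_eq _ _ _ hij, Zm, Zm, Zm]
  simp only [Matrix.mul_assoc]
  rw [Matrix.trace_mul_comm]
  simp only [Matrix.mul_assoc]

theorem tau1_upd {M : Matrix ι ι K} (hM : M.IsSymm) {i j : ι} (hij : i ≠ j) (hd : dd M i j ≠ 0) :
    tau1 (upd M i j) - tau1 M = eps1 M i j := by
  have h1 := trace_Zm M 1 hij
  rw [Matrix.mul_one, Matrix.mul_one, Upd_FF, Matrix.trace_fin_two_of] at h1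
  rw [tau1, tau1, upd_eq hM hij hd, Matrix.trace_mul_comm, Pm_mul hM hij hd, Matrix.trace_add, h1,
    eps1, rr, rr, (Upd_symm2 hM).apply i j, hM.apply i j]
  field_simp
  unfold dd
  ring

theorem tau2_upd {M : Matrix ι ι K} (hM : M.IsSymm) {i j : ι} (hij : i ≠ j) (hd : dd M i j ≠ 0) :
    tau2 (upd M i j) - tau2 M = 2 * (NN2 M i j / dd M i j - 1) + eps1 M i j ^ 2 := by
  have h1 := trace_Zm M M hij
  have h2 := trace_Zm2 M M 1 1 hij
  simp only [Matrix.mul_one] at h2
  have h3 : tau2 (upd M i j) = tau2 M + 2 * (Zm M i j * M).trace + (Zm M i j * Zm M i j).trace := by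
    rw [tau2, upd_eq hM hij hd, Matrix.mul_assoc, ← Matrix.mul_assoc (Pm i j), Pm_mul hM hij hd,
      ← Matrix.mul_assoc, Matrix.trace_mul_comm, ← Matrix.mul_assoc, Pm_mul hM hij hd]
    simp only [Matrix.add_mul, Matrix.mul_add, Matrix.trace_add, tau2]
    rw [Matrix.trace_mul_comm M (Zm M i j)]
    ring
  rw [h3, h1, h2, Upd_FF, Upd_FF, Matrix.mul_fin_two, Matrix.trace_fin_two_of,
    Matrix.trace_fin_two_of, eps1, NN2, rr, rr, (Upd_symm2 hM).apply i j, (Upd_symm3 hM).apply i j,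
    hM.apply i j]
  field_simp
  unfold dd
  ring

end Crest.Agent.R62
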