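import Crest.Agent.R62.L1
import Crest.Agent.R62.L2a
import Crest.Agent.R62.L2b
import Crest.Agent.R62.Upd

/-!
# R62-L2: drift and variance of `tau2` (assembly)

Notation: `M = C.a`, `m = s²`, `w = u²`, `B = bt²`, `f = M i j`, `g = M i i`, `h = M j j`, `d = dd M i j`,
`f_p = (M^p) i j`, `g_p`, `h_p` the diagonal entries, `r = rr M`, `y = r - 1`, `x = r - c`, `k = (1-f)/d`,
`‖X‖ = (∑ i j, X i j ²)^(1/2)`.  Tools: `Bas1`, `Bas2` (`E_eq`, `TP`, `T1`, `TF`, `TU`, `TUabs`, `E_one`,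
`cs2`, `F_fgh`, `Sm.*`).  The constant `C0` is existential: be generous.  Useful: `1 ≤ de`, `dl ≤ de`,
`de² ≤ bt ≤ s`, `1 ≤ u`, `w ≤ s`, `tt ≤ s`, `rt ≤ 2 s`, `lam ≤ bt`, `1 ≤ K`, `K² ≤ sS`.

On good pairs `tau2 (upd) - tau2 + 2 = 2 NN2/d + eps1²` (`tau2_upd`).  `L2 = L2a + L2b + V1`
(`0 ≤ E(eps1²) ≤ C var1`, `var1 ≤ err2 p`, `err2 0 ≤ err2 p` for `p ≥ 0`); `V2` from `V2N`, `V14`
(`var14 ≤ var2`).
-/

set_option autoImplicit false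
open Matrix Finset

namespace Crest.Agent.R62

theorem L2 : ∃ C0 : ℝ, 0 ≤ C0 ∧ ∀ {ι : Type} [Fintype ι] [DecidableEq ι] (C : Ctx ι),
    |C.E (fun i j => tau2 (upd C.a i j) - tau2 C.a + 2 - 2 * (1 - C.c) ^ 2)
      - (2 * (tau2 C.a - C.s ^ 2) ^ 2 - 2 * C.s ^ 4 * (1 - C.c) ^ 2 + 4 * C.s ^ 2)|
      ≤ C0 * C.err2 (|tau1 C.a| * |WW C.a C.a|) := by
  obtain ⟨A, hA, h1⟩ := L2a
  obtain ⟨B, hB, h2⟩ := L2b
  obtain ⟨D, hD, h3⟩ := V1
  refine ⟨A + B + D, by positivity, fun {ι} _ _ C => ?_⟩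
  have ha := C.let_a
  have e1 : C.E (fun i j => tau2 (upd C.a i j) - tau2 C.a + 2 - 2 * (1 - C.c) ^ 2) =
      C.E (fun i j => 2 * ((rr C.a i - 1) * (rr C.a j - 1) / dd C.a i j) - 2 * (1 - C.c) ^ 2)
      + C.E (fun i j => 2 * ((NN2 C.a i j - (rr C.a i - 1) * (rr C.a j - 1)) / dd C.a i j))
      + C.E (fun i j => eps1 C.a i j ^ 2) := by
    rw [← C.E_add, ← C.E_add]
    exact C.E_congr fun i j hg => by
      rw [tau2_upd ha.symm hg.1 (ha.sm hg).dd_pos.ne']; ring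
  have hp := mul_nonneg (abs_nonneg (tau1 C.a)) (abs_nonneg (WW C.a C.a))
  have k1 : C.err2 0 ≤ C.err2 (|tau1 C.a| * |WW C.a C.a|) := by
    unfold Num.err2; linarith
  have k2 : C.var1 ≤ C.err2 (|tau1 C.a| * |WW C.a C.a|) := (L2a_err C.ok hp).2.2.2.2.2.2.2.2.2.2
  have k3 : 0 ≤ C.E (fun i j => eps1 C.a i j ^ 2) := by
    have := C.E_mono (X := fun _ _ => 0) (Y := fun i j => eps1 C.a i j ^ 2) fun _ _ _ => sq_nonneg _
    rwa [C.E_const, zero_mul] at this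
  have g1 := (h1 C).trans (mul_le_mul_of_nonneg_left k1 hA)
  have g2 := h2 C
  have g3 := (h3 C).trans (mul_le_mul_of_nonneg_left k2 hD)
  rw [e1]
  rw [abs_le] at g1 g2 ⊢
  constructor <;> linarith [g1.1, g1.2, g2.1, g2.2]

theorem V2 : ∃ C0 : ℝ, 0 ≤ C0 ∧ ∀ {ι : Type} [Fintype ι] [DecidableEq ι] (C : Ctx ι),
    C.E (fun i j => (tau2 (upd C.a i j) - tau2 C.a + 2) ^ 2) ≤ C0 * C.var2 := by
  obtain ⟨A, hA, h1⟩ := V2N
  obtain ⟨B, hB, h2⟩ := V14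
  refine ⟨8 * A + 2 * B, by positivity, fun {ι} _ _ C => ?_⟩
  have ha := C.let_a
  have e1 : C.E (fun i j => (tau2 (upd C.a i j) - tau2 C.a + 2) ^ 2) ≤
      8 * C.E (fun i j => (NN2 C.a i j / dd C.a i j) ^ 2) + 2 * C.E (fun i j => eps1 C.a i j ^ 4) := by
    rw [← C.E_mul, ← C.E_mul, ← C.E_add]
    exact C.E_mono fun i j hg => by
      rw [tau2_upd ha.symm hg.1 (ha.sm hg).dd_pos.ne']
      nlinarith [sq_nonneg (2 * (NN2 C.a i j / dd C.a i j) - eps1 C.a i j ^ 2)]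
  have k1 : C.var14 ≤ C.var2 := by
    unfold Num.var14 Num.var2
    have : 0 ≤ C.K ^ 6 := by positivity
    have : 0 ≤ C.de ^ 2 * C.K ^ 2 * C.s ^ 2 := by positivity
    linarith
  have g2 := (h2 C).trans (mul_le_mul_of_nonneg_left k1 hB)
  linarith [h1 C]

end Crest.Agent.R62
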