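import Crest.Agent.R62.Bas2

/-!
# R62: a small calculus for Frobenius and `ℓ¹` norms of functions of two indices (helper20)
-/

set_option autoImplicit false
set_option linter.unusedSectionVars false
open Matrix Finset

namespace Crest.Agent.R62

variable {ι : Type} [Fintype ι] [DecidableEq ι]

/-- Frobenius bound -/
def FB (X : ι → ι → ℝ) (F : ℝ) : Prop := 0 ≤ F ∧ ∑ i, ∑ j, X i j ^ 2 ≤ F ^ 2

/-- `ℓ¹` bound -/
def SB (X : ι → ι → ℝ) (A : ℝ) : Prop := ∑ i, ∑ j, |X i j| ≤ A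

/-- `ℓ²` bound for vectors -/
def VB (u : ι → ℝ) (A : ℝ) : Prop := 0 ≤ A ∧ ∑ i, u i ^ 2 ≤ A ^ 2

theorem abs_le_of_sq_le_sq₀ {a b : ℝ} (hb : 0 ≤ b) (h : a ^ 2 ≤ b ^ 2) : |a| ≤ b :=
  abs_le.2 (abs_le_of_sq_le_sq' h hb)

section
variable {X Y : ι → ι → ℝ} {F G A B : ℝ} {u v : ι → ℝ}

theorem FB.le (h : FB X F) (hF : F ≤ G) : FB X G :=
  ⟨h.1.trans hF, h.2.trans (pow_le_pow_left₀ h.1 hF 2)⟩

theorem FB.mono (h : FB Y F) (hXY : ∀ i j, |X i j| ≤ |Y i j|) : FB X F :=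
  ⟨h.1, le_trans (sum_le_sum fun i _ => sum_le_sum fun j _ => sq_le_sq.2 (hXY i j)) h.2⟩

theorem FB.mono' (h : FB Y F) (hXY : ∀ i j, |X i j| ≤ Y i j) : FB X F :=
  h.mono fun i j => (hXY i j).trans (le_abs_self _)

theorem FB.abs (h : FB X F) : FB (fun i j => |X i j|) F := h.mono fun _ _ => by rw [abs_abs]

theorem FB.swap (h : FB X F) : FB (fun i j => X j i) F := ⟨h.1, by rw [sum_comm]; exact h.2⟩

theorem FB.sb_mul (h : FB X F) (h' : FB Y G) : SB (fun i j => X i j * Y i j) (F * G) := by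
  have h1 : ∑ i, ∑ j, |X i j * Y i j| = ∑ p : ι × ι, |X p.1 p.2| * |Y p.1 p.2| := by
    rw [Fintype.sum_prod_type]; simp only [abs_mul]
  have h2 := sum_mul_sq_le_sq_mul_sq univ (fun p : ι × ι => |X p.1 p.2|) fun p => |Y p.1 p.2|
  simp only [sq_abs] at h2
  rw [Fintype.sum_prod_type (f := fun p : ι × ι => X p.1 p.2 ^ 2),
    Fintype.sum_prod_type (f := fun p : ι × ι => Y p.1 p.2 ^ 2)] at h2
  unfold SB
  rw [h1]
  refine (abs_le_of_sq_le_sq' ?_ (mul_nonneg h.1 h'.1)).2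
  rw [mul_pow]
  exact h2.trans (mul_le_mul h.2 h'.2 (by positivity) (by positivity))

theorem FB.add (h : FB X F) (h' : FB Y G) : FB (fun i j => X i j + Y i j) (F + G) := by
  refine ⟨add_nonneg h.1 h'.1, ?_⟩
  have h1 := h.sb_mul h'
  have h2 : ∑ i, ∑ j, (X i j + Y i j) ^ 2 ≤
      ∑ i, ∑ j, X i j ^ 2 + ∑ i, ∑ j, Y i j ^ 2 + 2 * ∑ i, ∑ j, |X i j * Y i j| := by
    simp only [mul_sum, ← sum_add_distrib]
    refine sum_le_sum fun i _ => sum_le_sum fun j _ => ?_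
    have := le_abs_self (X i j * Y i j)
    nlinarith
  unfold SB at h1
  nlinarith [h.2, h'.2]

theorem FB.neg (h : FB X F) : FB (fun i j => -X i j) F := h.mono fun _ _ => by rw [abs_neg]

theorem FB.sub (h : FB X F) (h' : FB Y G) : FB (fun i j => X i j - Y i j) (F + G) :=
  (h.add h'.neg).mono fun _ _ => by rw [sub_eq_add_neg]

theorem FB.const_mul (h : FB X F) {r : ℝ} (hr : 0 ≤ r) : FB (fun i j => r * X i j) (r * F) := by
  refine ⟨mul_nonneg hr h.1, ?_⟩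
  simp only [mul_pow, ← mul_sum]
  exact mul_le_mul_of_nonneg_left h.2 (by positivity)

theorem VB.prod (hu : VB u A) (hv : VB v B) : FB (fun i j => u i * v j) (A * B) := by
  refine ⟨mul_nonneg hu.1 hv.1, ?_⟩
  simp only [mul_pow, ← mul_sum, ← sum_mul]
  exact mul_le_mul hu.2 hv.2 (by positivity) (by positivity)

theorem VB.le (h : VB u A) (hA : A ≤ B) : VB u B :=
  ⟨h.1.trans hA, h.2.trans (pow_le_pow_left₀ h.1 hA 2)⟩

theorem VB.mono (h : VB v A) (huv : ∀ i, |u i| ≤ |v i|) : VB u A :=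
  ⟨h.1, le_trans (sum_le_sum fun i _ => sq_le_sq.2 (huv i)) h.2⟩

theorem VB.mono' (h : VB v A) (huv : ∀ i, |u i| ≤ v i) : VB u A :=
  h.mono fun i => (huv i).trans (le_abs_self _)

theorem VB.const_mul (h : VB u A) {r : ℝ} (hr : 0 ≤ r) : VB (fun i => r * u i) (r * A) := by
  refine ⟨mul_nonneg hr h.1, ?_⟩
  simp only [mul_pow, ← mul_sum]
  exact mul_le_mul_of_nonneg_left h.2 (by positivity)

theorem VB.sum_mul (hu : VB u A) (hv : VB v B) : ∑ i, |u i * v i| ≤ A * B := by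
  have h2 := sum_mul_sq_le_sq_mul_sq univ (fun i => |u i|) fun i => |v i|
  simp only [sq_abs] at h2
  simp only [abs_mul]
  refine (abs_le_of_sq_le_sq' ?_ (mul_nonneg hu.1 hv.1)).2
  rw [mul_pow]
  exact h2.trans (mul_le_mul hu.2 hv.2 (by positivity) (by positivity))

theorem FB.diag (h : FB X F) : VB (fun i => X i i) F :=
  ⟨h.1, le_trans (sum_le_sum fun i _ =>
    single_le_sum (f := fun j => X i j ^ 2) (fun _ _ => sq_nonneg _) (mem_univ i)) h.2⟩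

theorem SB.le (h : SB X A) (hA : A ≤ B) : SB X B := le_trans h hA

theorem SB.mono (h : SB Y A) (hXY : ∀ i j, |X i j| ≤ |Y i j|) : SB X A :=
  le_trans (sum_le_sum fun i _ => sum_le_sum fun j _ => hXY i j) h

theorem SB.abs (h : SB X A) : SB (fun i j => |X i j|) A := h.mono fun _ _ => by rw [abs_abs]

theorem SB.swap (h : SB X A) : SB (fun i j => X j i) A := by
  unfold SB; rw [sum_comm]; exact h

theorem SB.add (h : SB X A) (h' : SB Y B) : SB (fun i j => X i j + Y i j) (A + B) := by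
  unfold SB at *
  refine le_trans ?_ (add_le_add h h')
  simp only [← sum_add_distrib]
  exact sum_le_sum fun i _ => sum_le_sum fun j _ => abs_add_le _ _

theorem SB.const_mul (h : SB X A) {r : ℝ} (hr : 0 ≤ r) : SB (fun i j => r * X i j) (r * A) := by
  unfold SB at *
  simp only [abs_mul, abs_of_nonneg hr, ← mul_sum]
  exact mul_le_mul_of_nonneg_left h hr

theorem SB.prod (hu : ∑ i, |u i| ≤ A) (hv : ∑ i, |v i| ≤ B) :
    SB (fun i j => u i * v j) (A * B) := by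
  unfold SB
  simp only [abs_mul, ← mul_sum, ← sum_mul]
  exact mul_le_mul hu hv (by positivity) (le_trans (by positivity) hu)

theorem SB.abs_sum (h : SB X A) : |∑ i, ∑ j, X i j| ≤ A :=
  le_trans ((abs_sum_le_sum_abs _ _).trans (sum_le_sum fun _ _ => abs_sum_le_sum_abs _ _)) h

theorem FB.sb_sq (h : FB X F) : SB (fun i j => X i j ^ 2) (F ^ 2) := by
  unfold SB; simp only [abs_pow, sq_abs]; exact h.2

end

namespace Ctx
variable (C : Ctx ι) {X Y : ι → ι → ℝ} {F A : ℝ} {u : ι → ℝ} {x y : Matrix ι ι ℝ}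

theorem vb_one : VB (fun _ : ι => (1 : ℝ)) C.s :=
  ⟨C.ok.s0, by simp [C.card]⟩

theorem fb_fst (h : VB u A) : FB (fun i _ => u i) (A * C.s) :=
  (h.prod C.vb_one).mono fun _ _ => by rw [mul_one]

theorem fb_snd (h : VB u A) : FB (fun _ j => u j) (A * C.s) := (C.fb_fst h).swap

theorem vb_sum (h : VB u A) : ∑ i, |u i| ≤ A * C.s := by
  simpa using h.sum_mul C.vb_one

theorem fb_TF (h : FB X F) : |C.E X - ∑ i, ∑ j, X i j| ≤ 2 * C.bt * C.s * F := C.TF h.1 h.2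

theorem sb_E (h : SB Y A) (hXY : ∀ i j, Good C.a C.b i j → |X i j| ≤ Y i j) :
    |C.E X| ≤ 3 / 2 * A :=
  (C.TUabs (Y := fun i j => |Y i j|) (fun i j hg => (hXY i j hg).trans (le_abs_self _))
    fun _ _ => abs_nonneg _).trans (mul_le_mul_of_nonneg_left h (by norm_num))

theorem fb_E (h : FB Y F) (hXY : ∀ i j, Good C.a C.b i j → |X i j| ≤ Y i j) :
    C.E (fun i j => X i j ^ 2) ≤ 3 / 2 * F ^ 2 :=
  (le_abs_self _).trans (C.sb_E h.sb_sq fun i j hg => by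
    rw [abs_pow]; exact pow_le_pow_left₀ (abs_nonneg _) (hXY i j hg) 2)

theorem K0 : 0 ≤ C.K := le_trans zero_le_one C.ok.K1
theorem w0 : 0 ≤ C.w := le_trans zero_le_one C.one_le_w
theorem bt0 : 0 ≤ C.bt := le_trans zero_le_one C.ok.bt1
theorem de0 : 0 ≤ C.de := le_trans zero_le_one C.ok.de1
theorem s1 : 1 ≤ C.s := C.ok.bt1.trans C.bt_le_s

variable {C}

theorem Let.fb (hx : C.Let x) : FB (fun i j => x i j) C.tt := ⟨C.ok.tt0, C.sum_sq_le hx⟩
theorem Let.fb2 (hx : C.Let x) (hy : C.Let y) : FB (fun i j => (x * y) i j) (C.K ^ 2) :=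
  ⟨sq_nonneg _, by rw [← pow_mul]; exact C.F2 hx hy⟩
theorem Let.fbL (hx : C.Let x) {M : Matrix ι ι ℝ} (h : FB (fun i j => M i j) F) :
    FB (fun i j => (x * M) i j) (C.K * F) :=
  ⟨mul_nonneg C.K0 h.1, (C.opL hx M).trans (by
    rw [mul_pow]; exact mul_le_mul_of_nonneg_left h.2 (sq_nonneg _))⟩
theorem Let.fbR (hx : C.Let x) {M : Matrix ι ι ℝ} (h : FB (fun i j => M i j) F) :
    FB (fun i j => (M * x) i j) (C.K * F) :=
  ⟨mul_nonneg C.K0 h.1, (C.opR hx M).trans (by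
    rw [mul_pow]; exact mul_le_mul_of_nonneg_left h.2 (sq_nonneg _))⟩
theorem Let.vb_diag (hx : C.Let x) : VB (fun i => x i i) C.dl := ⟨C.ok.dl0, hx.bnd.dl⟩
theorem Let.vb_rr (hx : C.Let x) : VB (rr x) C.rt := ⟨C.ok.rt0, hx.bnd.r2⟩
theorem Let.vb_y (hx : C.Let x) : VB (fun i => rr x i - 1) (2 * C.s) :=
  ⟨by have := C.ok.s0; positivity, (C.sum_y_sq hx).trans (by ring_nf; rfl)⟩
theorem Let.vb_dev (hx : C.Let x) : VB (fun i => rr x i - C.c) C.w := ⟨C.w0, hx.bnd.rho⟩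
theorem vb_om : VB C.ω (3 * C.s) :=
  ⟨by have := C.ok.s0; positivity, C.sum_om2.trans (by ring_nf; rfl)⟩
theorem Let.fb_fgh (hx : C.Let x) :
    FB (fun i j => |x i j| + |x i i * x j j|) (C.tt + C.dl ^ 2) :=
  ⟨add_nonneg C.ok.tt0 (sq_nonneg _), C.F_fgh hx⟩

theorem Let.sq2 {p q : Matrix ι ι ℝ} (hp : C.Let p) (hq : C.Let q) (i j : ι) :
    (p * q) i j ^ 2 ≤ rr p i * rr q j := by
  have h := mul_sq_le p q i j
  rw [← rr_eq hp.symm] at h
  rwa [show ∑ l, q l j ^ 2 = rr q j by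
    rw [rr_eq hq.symm]; exact sum_congr rfl fun l _ => by rw [hq.symm.apply l j]] at h

theorem Let.sq3 {p q r : Matrix ι ι ℝ} (hp : C.Let p) (hq : C.Let q) (hr : C.Let r) (i j : ι) :
    (p * q * r) i j ^ 2 ≤ C.K ^ 2 * (rr p i * rr r j) := by
  have h := mul_sq_le p (q * r) i j
  rw [← rr_eq hp.symm, ← Matrix.mul_assoc] at h
  have h2 := mul_le_mul_of_nonneg_left (C.gam_le hq hr j) (rr_nonneg hp.symm i)
  unfold gam at h2
  linarith

theorem Let.diag3 (hx : C.Let x) (i : ι) : |(x * x * x) i i| ≤ C.K * rr x i :=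
  abs_le_of_sq_le_sq₀ (mul_nonneg C.K0 (rr_nonneg hx.symm i)) ((hx.sq3 hx hx i i).trans (by
    rw [mul_pow, sq (rr x i)]))

theorem Let.vb_diag3 (hx : C.Let x) : VB (fun i => (x * x * x) i i) (C.K * C.rt) :=
  (hx.vb_rr.const_mul C.K0).mono' hx.diag3

theorem Let.sum_sum_mul3 {p q r : Matrix ι ι ℝ} (hp : C.Let p) (hq : C.Let q) (hr : C.Let r) :
    ∑ i, ∑ j, (p * q * r) i j = C.s ^ 2 := by
  simp [rowsum_mul (rowsum_mul hp.bnd.rs.2 hq.bnd.rs.2) hr.bnd.rs.2, C.card]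

theorem Let.sum_sum (hx : C.Let x) : ∑ i, ∑ j, x i j = C.s ^ 2 := by
  simp [hx.bnd.rs.2, C.card]

end Ctx

end Crest.Agent.R62
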