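import Crest.Agent.R62.L3s

/-!
# R62-L3d: double- and triple-`Z` terms of the cubic traces

Notation: `M = C.a`, `m = s²`, `w = u²`, `B = bt²`, `f = M i j`, `g = M i i`, `h = M j j`, `d = dd M i j`,
`f_p = (M^p) i j`, `g_p`, `h_p` the diagonal entries, `r = rr M`, `y = r - 1`, `x = r - c`, `k = (1-f)/d`,
`‖X‖ = (∑ i j, X i j ²)^(1/2)`.  Tools: `Bas1`, `Bas2` (`E_eq`, `TP`, `T1`, `TF`, `TU`, `TUabs`, `E_one`,
`cs2`, `F_fgh`, `Sm.*`).  The constant `C0` is existential: be generous.  Useful: `1 ≤ de`, `dl ≤ de`,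
`de² ≤ bt ≤ s`, `1 ≤ u`, `w ≤ s`, `tt ≤ s`, `rt ≤ 2 s`, `lam ≤ bt`, `1 ≤ K`, `K² ≤ sS`.

`tr(F G) = F₀₀G₀₀ + F₀₁G₁₀ + F₁₀G₀₁ + F₁₁G₁₁`.  With `F = FF x p c`, `G = FF x' (q r) c'` the bounds `FF1`,
`FF2` give on good pairs
`|tr(FG) - (pc)_jj (qrc')_ii - (pc)_ii (qrc')_jj| ≤ C de K (zeta omb² + zeta2 omb)`; sum with `cs2`,
`F_zeta`, `F_omb2`, `F_zeta2`, `F_omb`.  The rank-one main terms: plain sum `2 tr(pc) tr(qrc')`, `TF` with
`F = 3s · 3 K s`.  Second moment: `|tr(FG)| ≤ C de² K omb²`.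
Triple product: each of the 8 terms of `tr(F F' F'')` contains a diagonal entry of one factor (a closed
walk of length 3 on 2 states), so `|tr| ≤ C de² omb² (zeta2 + zeta omb) ≤ C de² K (zeta2 omb + zeta omb²)`
as `omb ≤ 6w ≤ 6K`; also `|tr| ≤ C de³ omb³ ≤ C de³ K omb²`.
-/

set_option autoImplicit false
open Matrix Finset

namespace Crest.Agent.R62

theorem L3d_mul2 {a b A B : ℝ} (ha : |a| ≤ A) (hb : |b| ≤ B) : |a * b| ≤ A * B := by
  rw [abs_mul]; exact mul_le_mul ha hb (abs_nonneg _) ((abs_nonneg _).trans ha)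

theorem L3d_mul3 {a b c A B D : ℝ} (ha : |a| ≤ A) (hb : |b| ≤ B) (hc : |c| ≤ D) :
    |a * b * c| ≤ A * B * D := L3d_mul2 (L3d_mul2 ha hb) hc

theorem L3d_tr2 (F G : Matrix (Fin 2) (Fin 2) ℝ) :
    (F * G).trace = F 0 0 * G 0 0 + F 0 1 * G 1 0 + F 1 0 * G 0 1 + F 1 1 * G 1 1 := by
  simp only [Matrix.trace_fin_two, Matrix.mul_apply, Fin.sum_univ_two]; ring

theorem L3d_tr3 {F G H : Matrix (Fin 2) (Fin 2) ℝ} {D E : ℝ} (f0 : |F 0 0| ≤ D) (f1 : |F 1 1| ≤ D)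
    (g0 : |G 0 0| ≤ D) (g1 : |G 1 1| ≤ D) (h0 : |H 0 0| ≤ D) (h1 : |H 1 1| ≤ D)
    (f : ∀ s t, |F s t| ≤ E) (g : ∀ s t, |G s t| ≤ E) (h : ∀ s t, |H s t| ≤ E) :
    |(F * G * H).trace| ≤ 8 * (D * E ^ 2) := by
  have t1 := abs_le.1 (L3d_mul3 f0 (g 0 0) (h 0 0))
  have t2 := abs_le.1 (L3d_mul3 f0 (g 0 1) (h 1 0))
  have t3 := abs_le.1 (L3d_mul3 (f 0 1) (g 1 0) h0)
  have t4 := abs_le.1 (L3d_mul3 (f 0 1) g1 (h 1 0))
  have t5 := abs_le.1 (L3d_mul3 (f 1 0) g0 (h 0 1))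
  have t6 := abs_le.1 (L3d_mul3 (f 1 0) (g 0 1) h1)
  have t7 := abs_le.1 (L3d_mul3 f1 (g 1 0) (h 0 1))
  have t8 := abs_le.1 (L3d_mul3 f1 (g 1 1) (h 1 1))
  simp only [Matrix.trace_fin_two, Matrix.mul_apply, Fin.sum_univ_two]
  rw [abs_le]
  constructor <;> linarith [t1.1, t1.2, t2.1, t2.2, t3.1, t3.2, t4.1, t4.2, t5.1, t5.2, t6.1, t6.2,
    t7.1, t7.2, t8.1, t8.2]

namespace Ctx
variable {ι : Type} [Fintype ι] [DecidableEq ι] (C : Ctx ι)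

theorem L3d_E1 {X : ι → ι → ℝ} {A : ℝ} (hA : 0 ≤ A) (h : ∀ i j, Good C.a C.b i j →
    |X i j| ≤ A * (C.de ^ 2 * C.K * (C.zeta2 i j * C.omb i j + C.zeta i j * C.omb i j ^ 2))) :
    |C.E X| ≤ 400 * A * C.err3 := by
  have de1 := C.ok.de1
  have K0 := C.K0
  have s0 := C.ok.s0
  have h1 := (((C.fb_zeta2.sb_mul C.fb_omb).add (C.fb_zeta.sb_mul C.fb_omb2)).const_mul
    (r := C.de ^ 2 * C.K) (by positivity)).const_mul hA
  refine (C.sb_E h1 h).trans ?_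
  obtain ⟨-, -, a3, a4⟩ := L3s_err C.ok
  have b1 : C.de ^ 3 ≤ C.de ^ 4 := pow_le_pow_right₀ de1 (by norm_num)
  have b2 := mul_le_mul_of_nonneg_right b1
    (show 0 ≤ C.K * C.s ^ 2 * (C.s + C.w ^ 2) by positivity)
  have b0 : 0 ≤ C.de ^ 2 * C.K ^ 3 * C.s ^ 2 := by positivity
  have b3 : 3 / 2 * (C.de ^ 2 * C.K * (4 * C.K ^ 2 * (6 * C.s ^ 2)
      + 6 * C.de * C.s * (30 * C.s * (C.s + C.w ^ 2)))) ≤ 400 * C.err3 := by linarith
  linarith [mul_le_mul_of_nonneg_left b3 hA]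

theorem L3d_E2 {X : ι → ι → ℝ} {A : ℝ} (hA : 0 ≤ A) (h : ∀ i j, Good C.a C.b i j →
    |X i j| ≤ A * (C.de ^ 3 * C.K * C.omb i j ^ 2)) :
    C.E (fun i j => X i j ^ 2) ≤ 2700 * A ^ 2 * C.var3 := by
  have de0 := C.de0
  have K0 := C.K0
  have s0 := C.ok.s0
  have h1 := (C.fb_omb2.const_mul (r := C.de ^ 3 * C.K) (by positivity)).const_mul hA
  refine (C.fb_E h1 h).trans ?_
  have b1 : (C.s + C.w ^ 2) ^ 2 ≤ 2 * (C.s ^ 2 + C.w ^ 4) := by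
    nlinarith [sq_nonneg (C.s - C.w ^ 2)]
  have b2 := mul_le_mul_of_nonneg_left b1 (show 0 ≤ C.de ^ 6 * C.K ^ 2 * C.s ^ 2 by positivity)
  have b0 : 0 ≤ C.de ^ 6 * C.K ^ 8 := by positivity
  have b3 : 3 / 2 * (C.de ^ 3 * C.K * (30 * C.s * (C.s + C.w ^ 2))) ^ 2 ≤ 2700 * C.var3 := by
    unfold Num.var3; linarith
  rw [mul_pow A]
  linarith [mul_le_mul_of_nonneg_left b3 (sq_nonneg A)]

end Ctx

theorem L3d : ∃ C0 : ℝ, 0 ≤ C0 ∧ ∀ {ι : Type} [Fintype ι] [DecidableEq ι] (C : Ctx ι),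
    ∀ {x p c x' q r c' : Matrix ι ι ℝ}, C.Let x → C.Let p → C.Let c → C.Let x' → C.Let q →
    C.Let r → C.Let c' →
    |C.E (fun i j => (FF x p c i j * FF x' (q * r) c' i j).trace)
        - 2 * (p * c).trace * (q * r * c').trace| ≤ C0 * C.err3 ∧
      C.E (fun i j => (FF x p c i j * FF x' (q * r) c' i j).trace ^ 2) ≤ C0 * C.var3 := by
  refine ⟨2700 * 1600 ^ 2, by norm_num, fun {ι} _ _ C x p c x' q r c' hx hp hc hx' hq hr hc' => ?_⟩
  have de1 := C.ok.de1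
  have K1 := C.ok.K1
  have K0 := C.K0
  have de0 := C.de0
  constructor
  · have g1 := (hq.vb_d3 hr hc').prod (hp.vb_d2 hc)
    have h1 := C.fb_TF (g1.add g1.swap)
    have e1 : ∑ i, ∑ j, ((q * r * c') i i * (p * c) j j + (q * r * c') j j * (p * c) i i) =
        2 * (p * c).trace * (q * r * c').trace := by
      simp only [sum_add_distrib, ← mul_sum, ← sum_mul, Matrix.trace, Matrix.diag]
      ring
    rw [e1] at h1
    have h2 := C.L3d_E1 (X := fun i j => (FF x p c i j * FF x' (q * r) c' i j).trace -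
        ((q * r * c') i i * (p * c) j j + (q * r * c') j j * (p * c) i i)) (A := 1640)
        (by norm_num) fun i j hg => by
      obtain ⟨f1, f2, f3, f4, -⟩ := Ctx.FF1 hx hp hc hg
      obtain ⟨g1, g2, g3⟩ := Ctx.FF2 hx' hq hr hc' hg
      have t1 := abs_le.1 (L3d_mul2 f3 (g3 0 0))
      have t2 := abs_le.1 (L3d_mul2 f4 (g3 1 1))
      have t3 := abs_le.1 (L3d_mul2 f1 (g3 1 0))
      have t4 := abs_le.1 (L3d_mul2 f2 (g3 0 1))
      have t5 := abs_le.1 (L3d_mul2 (hp.abs2 hc (i := i) (j := j) (Or.inr rfl) (Or.inr rfl)) g2)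
      have t6 := abs_le.1 (L3d_mul2 (hp.abs2 hc (i := i) (j := j) (Or.inl rfl) (Or.inl rfl)) g1)
      have o0 : 0 ≤ C.omb i j := by linarith [C.two_le_omb i j]
      have z0 := C.zeta_nonneg i j
      have z20 := C.zeta2_nonneg i j
      have u1 : 0 ≤ C.zeta2 i j * C.omb i j := by positivity
      have u2 : 0 ≤ C.zeta i j * C.omb i j ^ 2 := by positivity
      have d1 : C.de ≤ C.de ^ 2 := by nlinarith
      have d2 : C.de * C.K ≤ C.de ^ 2 * C.K := mul_le_mul_of_nonneg_right d1 K0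
      have d3 : C.K ≤ C.de * C.K := le_mul_of_one_le_left K0 de1
      have v1 := mul_le_mul_of_nonneg_right d2 u1
      have v2 := mul_le_mul_of_nonneg_right d2 u2
      have v3 := mul_le_mul_of_nonneg_right (K1.trans d3) u1
      have v4 := mul_le_mul_of_nonneg_right d3 u2
      rw [L3d_tr2, abs_le]
      constructor <;> linarith [t1.1, t1.2, t2.1, t2.2, t3.1, t3.2, t4.1, t4.2, t5.1, t5.2, t6.1,
        t6.2]
    rw [C.E_sub] at h2
    obtain ⟨a1, a2, -, -⟩ := L3s_err C.ok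
    have b8 : 0 ≤ C.bt * C.s * C.K ^ 4 := mul_nonneg (mul_nonneg C.bt0 C.ok.s0) (by positivity)
    rw [abs_le] at h1 h2 ⊢
    constructor <;> linarith [h1.1, h1.2, h2.1, h2.2]
  · refine C.L3d_E2 (by norm_num) fun i j hg => ?_
    obtain ⟨-, -, -, -, f⟩ := Ctx.FF1 hx hp hc hg
    obtain ⟨-, -, g⟩ := Ctx.FF2 hx' hq hr hc' hg
    have t1 := abs_le.1 (L3d_mul2 (f 0 0) (g 0 0))
    have t2 := abs_le.1 (L3d_mul2 (f 0 1) (g 1 0))
    have t3 := abs_le.1 (L3d_mul2 (f 1 0) (g 0 1))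
    have t4 := abs_le.1 (L3d_mul2 (f 1 1) (g 1 1))
    have d1 : C.de ^ 2 ≤ C.de ^ 3 := pow_le_pow_right₀ de1 (by norm_num)
    have v1 := mul_le_mul_of_nonneg_right d1 (show 0 ≤ C.K * C.omb i j ^ 2 by positivity)
    rw [L3d_tr2, abs_le]
    constructor <;> linarith [t1.1, t1.2, t2.1, t2.2, t3.1, t3.2, t4.1, t4.2]

theorem L3t : ∃ C0 : ℝ, 0 ≤ C0 ∧ ∀ {ι : Type} [Fintype ι] [DecidableEq ι] (C : Ctx ι), C.w ≤ C.K →
    ∀ {x p c x' p' c' x'' p'' c'' : Matrix ι ι ℝ}, C.Let x → C.Let p → C.Let c → C.Let x' →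
    C.Let p' → C.Let c' → C.Let x'' → C.Let p'' → C.Let c'' →
    |C.E (fun i j => (FF x p c i j * FF x' p' c' i j * FF x'' p'' c'' i j).trace)| ≤ C0 * C.err3 ∧
      C.E (fun i j => (FF x p c i j * FF x' p' c' i j * FF x'' p'' c'' i j).trace ^ 2)
        ≤ C0 * C.var3 := by
  refine ⟨2700 * 384000 ^ 2, by norm_num,
    fun {ι} _ _ C hw x p c x' p' c' x'' p'' c'' hx hp hc hx' hp' hc' hx'' hp'' hc'' => ?_⟩
  have de0 := C.de0
  have ho : ∀ i j, C.omb i j ≤ 6 * C.K := fun i j => by linarith [C.omb_le i j]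
  constructor
  · have h1 := C.L3d_E1 (A := 384000) (X := fun i j =>
        (FF x p c i j * FF x' p' c' i j * FF x'' p'' c'' i j).trace) (by norm_num) fun i j hg => by
      obtain ⟨-, -, f0, f1, f⟩ := Ctx.FF1 hx hp hc hg
      obtain ⟨-, -, g0, g1, g⟩ := Ctx.FF1 hx' hp' hc' hg
      obtain ⟨-, -, h0, h1, h⟩ := Ctx.FF1 hx'' hp'' hc'' hg
      refine (L3d_tr3 f0 f1 g0 g1 h0 h1 f g h).trans ?_
      have o0 : 0 ≤ C.omb i j := by linarith [C.two_le_omb i j]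
      have z0 := C.zeta_nonneg i j
      have z20 := C.zeta2_nonneg i j
      have v := mul_le_mul_of_nonneg_right (ho i j) (show 0 ≤ C.de ^ 2 *
        (C.zeta2 i j * C.omb i j + C.zeta i j * C.omb i j ^ 2) by positivity)
      linarith
    have b : 0 ≤ C.err3 := le_trans (mul_nonneg (mul_nonneg C.bt0 C.ok.s0) (by positivity))
      (L3s_err C.ok).1
    linarith
  · refine C.L3d_E2 (by norm_num) fun i j hg => ?_
    obtain ⟨-, -, -, -, f⟩ := Ctx.FF1 hx hp hc hg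
    obtain ⟨-, -, -, -, g⟩ := Ctx.FF1 hx' hp' hc' hg
    obtain ⟨-, -, -, -, h⟩ := Ctx.FF1 hx'' hp'' hc'' hg
    refine (L3d_tr3 (f 0 0) (f 1 1) (g 0 0) (g 1 1) (h 0 0) (h 1 1) f g h).trans ?_
    have v := mul_le_mul_of_nonneg_right (ho i j) (show 0 ≤ C.de ^ 3 * C.omb i j ^ 2 by positivity)
    linarith

end Crest.Agent.R62
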