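import Crest.Agent.R62.L3s
import Crest.Agent.R62.L3d
import Crest.Agent.R62.IdW

/-!
# R62-L3: drift and variance of `tr(a a y)` (assembly)

Notation: `M = C.a`, `m = s²`, `w = u²`, `B = bt²`, `f = M i j`, `g = M i i`, `h = M j j`, `d = dd M i j`,
`f_p = (M^p) i j`, `g_p`, `h_p` the diagonal entries, `r = rr M`, `y = r - 1`, `x = r - c`, `k = (1-f)/d`,
`‖X‖ = (∑ i j, X i j ²)^(1/2)`.  Tools: `Bas1`, `Bas2` (`E_eq`, `TP`, `T1`, `TF`, `TU`, `TUabs`, `E_one`,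
`cs2`, `F_fgh`, `Sm.*`).  The constant `C0` is existential: be generous.  Useful: `1 ≤ de`, `dl ≤ de`,
`de² ≤ bt ≤ s`, `1 ≤ u`, `w ≤ s`, `tt ≤ s`, `rt ≤ 2 s`, `lam ≤ bt`, `1 ≤ K`, `K² ≤ sS`.

`WW_upd` on good pairs (`E_congr`), then `L3s` three times, `L3d` three times, `L3t`; all cyclic words
have trace `WW a y`; `(∑_{7 terms})² ≤ 7 ∑ (·)²`.
-/

set_option autoImplicit false
open Matrix Finset

namespace Crest.Agent.R62

theorem L3_sq7 (a b c d e f g : ℝ) : (a + b + c + d + e + f + g) ^ 2 ≤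
    7 * (a ^ 2 + b ^ 2 + c ^ 2 + d ^ 2 + e ^ 2 + f ^ 2 + g ^ 2) := by
  have h := sq_sum_le_card_mul_sum_sq (s := (univ : Finset (Fin 7))) (f := ![a, b, c, d, e, f, g])
  simpa [Fin.sum_univ_succ, add_assoc] using h

theorem L3 : ∃ C0 : ℝ, 0 ≤ C0 ∧ ∀ {ι : Type} [Fintype ι] [DecidableEq ι] (C : Ctx ι), C.w ≤ C.K →
    ∀ {y : Matrix ι ι ℝ}, C.Let y →
    |C.E (fun i j => WW (upd C.a i j) (upd y i j) - WW C.a y)
        + WW C.a y * (6 * C.s ^ 2 - 2 * tau2 C.a - 4 * (C.a * y).trace)| ≤ C0 * C.err3 ∧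
      C.E (fun i j => (WW (upd C.a i j) (upd y i j) - WW C.a y) ^ 2) ≤ C0 * C.var3 := by
  obtain ⟨A, hA, h1⟩ := L3s
  obtain ⟨B, hB, h2⟩ := L3d
  obtain ⟨D, hD, h3⟩ := L3t
  refine ⟨7 * (3 * A + 3 * B + D), by positivity, fun {ι} _ _ C hw y hy => ?_⟩
  have ha := C.let_a
  obtain ⟨p1, q1⟩ := h1 C ha ha ha hy ha
  obtain ⟨p2, q2⟩ := h1 C ha ha hy ha ha
  obtain ⟨p3, q3⟩ := h1 C hy hy ha ha hy
  obtain ⟨p4, q4⟩ := h2 C ha ha ha ha ha hy ha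
  obtain ⟨p5, q5⟩ := h2 C ha ha hy hy hy ha ha
  obtain ⟨p6, q6⟩ := h2 C hy hy ha ha ha ha hy
  obtain ⟨p7, q7⟩ := h3 C hw ha ha ha ha ha hy hy hy ha
  have hu := fun i j (hg : Good C.a C.b i j) =>
    WW_upd ha.symm hy.symm hg.1 (ha.sm hg).dd_pos.ne' (hy.sm hg).dd_pos.ne'
  constructor
  · rw [C.E_congr hu, C.E_add, C.E_add, C.E_add, C.E_add, C.E_add, C.E_add]
    have e0 : (C.a * C.a * y).trace = WW C.a y := rfl
    have e1 : (C.a * y * C.a).trace = WW C.a y := Matrix.trace_mul_cycle _ _ _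
    have e2 : (y * C.a * C.a).trace = WW C.a y := by
      rw [Matrix.trace_mul_cycle, Matrix.trace_mul_cycle]; rfl
    have e3 : (y * C.a).trace = (C.a * y).trace := Matrix.trace_mul_comm _ _
    have e4 : (C.a * C.a).trace = tau2 C.a := rfl
    rw [e0] at p1 p6
    rw [e1] at p2 p4
    rw [e2] at p3 p5
    rw [e3] at p6
    rw [e4] at p4
    have b : 0 ≤ C.err3 := le_trans (mul_nonneg (mul_nonneg C.bt0 C.ok.s0) (by positivity))
      (L3s_err C.ok).1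
    have b1 := mul_nonneg hA b
    have b2 := mul_nonneg hB b
    have b3 := mul_nonneg hD b
    rw [abs_le] at p1 p2 p3 p4 p5 p6 p7 ⊢
    constructor <;> linarith [p1.1, p1.2, p2.1, p2.2, p3.1, p3.2, p4.1, p4.2, p5.1, p5.2, p6.1,
      p6.2, p7.1, p7.2]
  · refine (C.E_mono fun i j hg => (congrArg (· ^ 2) (hu i j hg)).trans_le
      (L3_sq7 _ _ _ _ _ _ _)).trans ?_
    rw [C.E_mul, C.E_add, C.E_add, C.E_add, C.E_add, C.E_add, C.E_add]
    linarith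

end Crest.Agent.R62
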