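import Crest.Agent.R62.L2a_FB

/-!
# R62-L3e: entries of the 2×2 factors `FF`

Notation: `M = C.a`, `m = s²`, `w = u²`, `B = bt²`, `f = M i j`, `g = M i i`, `h = M j j`, `d = dd M i j`,
`f_p = (M^p) i j`, `g_p`, `h_p` the diagonal entries, `r = rr M`, `y = r - 1`, `x = r - c`, `k = (1-f)/d`,
`‖X‖ = (∑ i j, X i j ²)^(1/2)`.  Tools: `Bas1`, `Bas2` (`E_eq`, `TP`, `T1`, `TF`, `TU`, `TUabs`, `E_one`,
`cs2`, `F_fgh`, `Sm.*`).  The constant `C0` is existential: be generous.  Useful: `1 ≤ de`, `dl ≤ de`,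
`de² ≤ bt ≤ s`, `1 ≤ u`, `w ≤ s`, `tt ≤ s`, `rt ≤ 2 s`, `lam ≤ bt`, `1 ≤ K`, `K² ≤ sS`.

`FF x w c i j = K V`, `K = [[h/d, k],[k, g/d]]` (`g,h,d,k` of the letter `x`),
`V = [[(wc)_ii - w_ij, (wc)_ij - w_ii],[(wc)_ji - w_jj, (wc)_jj - w_ji]]`.  So
`F 0 1 = (h/d) V₀₁ + k V₁₁`, `F 1 0 = k V₀₀ + (g/d) V₁₀`, `F 0 0 = (h/d) V₀₀ + k V₁₀`, `F 1 1 = k V₀₁ + (g/d) V₁₁`.
Entry bounds: letters `|p i j| ≤ √r ≤ ω`, `|p i i| ≤ √r ≤ ω`, also `|p i j|, |p i i|, |p j j| ≤ zeta`;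
words of length 2 `≤ √(r r) ≤ omb` (off-diagonal ones `≤ zeta2`, use `(p c) j i = (c p) i j`);
words of length 3 `≤ √r · K √r ≤ K omb` (`mul_sq_le`, `gam_le`); `|k - 1| ≤ 2(|f|+|gh|) ≤ 2 zeta`
(`Sm.k_sub`, `Sm.prod_le`), `|g/d|, |h/d| ≤ 1.01 min(zeta, de)`, `2 ≤ omb`.
Frobenius norms by Minkowski or `(a+b+…)² ≤ n(a²+b²+…)`.
-/

set_option autoImplicit false
set_option linter.unusedSectionVars false
open Matrix Finset

namespace Crest.Agent.R62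

section Entries
variable {ι : Type} [Fintype ι] [DecidableEq ι] (x w c : Matrix ι ι ℝ) (i j : ι)

theorem L3e_00 : FF x w c i j 0 0 = x j j / dd x i j * ((w * c) i i - w i j)
    + (1 - x i j) / dd x i j * ((w * c) j i - w j j) := by
  simp [FF, KK, br, Matrix.mul_apply (M := (_ : Matrix (Fin 2) (Fin 2) ℝ)), Fin.sum_univ_two]; ring

theorem L3e_01 : FF x w c i j 0 1 = x j j / dd x i j * ((w * c) i j - w i i)
    + (1 - x i j) / dd x i j * ((w * c) j j - w j i) := by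
  simp [FF, KK, br, Matrix.mul_apply (M := (_ : Matrix (Fin 2) (Fin 2) ℝ)), Fin.sum_univ_two]; ring

theorem L3e_10 : FF x w c i j 1 0 = x i i / dd x i j * ((w * c) j i - w j j)
    + (1 - x i j) / dd x i j * ((w * c) i i - w i j) := by
  simp [FF, KK, br, Matrix.mul_apply (M := (_ : Matrix (Fin 2) (Fin 2) ℝ)), Fin.sum_univ_two]; ring

theorem L3e_11 : FF x w c i j 1 1 = x i i / dd x i j * ((w * c) j j - w j i)
    + (1 - x i j) / dd x i j * ((w * c) i j - w i i) := by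
  simp [FF, KK, br, Matrix.mul_apply (M := (_ : Matrix (Fin 2) (Fin 2) ℝ)), Fin.sum_univ_two]; ring

end Entries

theorem L3e_num2 {H k u v u' v' z o A B : ℝ} (hH : |H| ≤ 2 * z) (hk : |k| ≤ 2) (hu : |u| ≤ o)
    (hv : |v| ≤ o) (hu' : |u'| ≤ A) (hv' : |v'| ≤ B) :
    |H * (u - v) + k * (u' - v')| ≤ 4 * (z * o) + 2 * (A + B) := by
  have h1 : |u - v| ≤ o + o := (abs_sub _ _).trans (add_le_add hu hv)
  have h2 : |u' - v'| ≤ A + B := (abs_sub _ _).trans (add_le_add hu' hv')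
  have h3 := mul_le_mul hH h1 (abs_nonneg _) ((abs_nonneg _).trans hH)
  have h4 := mul_le_mul hk h2 (abs_nonneg _) (by norm_num)
  refine (abs_add_le _ _).trans ?_
  rw [abs_mul, abs_mul]
  linarith

theorem L3e_num1 {H k u v u' v' z o B : ℝ} (hH : |H| ≤ 2 * z) (hk : |k| ≤ 2) (hk1 : |k - 1| ≤ 2 * z)
    (hu : |u| ≤ o) (hv : |v| ≤ o) (hu' : |u'| ≤ o) (hv' : |v'| ≤ B) :
    |H * (u - v) + k * (u' - v') - u'| ≤ 6 * (z * o) + 2 * B := by
  have h1 := L3e_num2 hH hk hu hv (u' := 0) (A := 0) (by simp) hv'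
  have h2 := mul_le_mul hk1 hu' (abs_nonneg _) ((abs_nonneg _).trans hk1)
  rw [← abs_mul] at h2
  rw [abs_le] at h1 h2 ⊢
  constructor <;> linarith [h1.1, h1.2, h2.1, h2.2]

namespace Ctx
variable {ι : Type} [Fintype ι] [DecidableEq ι] (C : Ctx ι)

noncomputable def zeta (i j : ι) : ℝ :=
  |C.a i j| + |C.b i j| + |C.a i i| + |C.a j j| + |C.b i i| + |C.b j j|

noncomputable def zeta2 (i j : ι) : ℝ :=
  |(C.a * C.a) i j| + |(C.a * C.b) i j| + |(C.b * C.a) i j| + |(C.b * C.b) i j|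

noncomputable def omb (i j : ι) : ℝ := C.ω i + C.ω j

theorem fb_zeta : FB C.zeta (6 * C.de * C.s) := by
  have h := ((((C.let_a.fb.abs.add C.let_b.fb.abs).add (C.fb_fst C.let_a.vb_diag).abs).add
    (C.fb_snd C.let_a.vb_diag).abs).add (C.fb_fst C.let_b.vb_diag).abs).add
    (C.fb_snd C.let_b.vb_diag).abs
  refine h.le ?_
  have h1 : C.s ≤ C.de * C.s := le_mul_of_one_le_left C.ok.s0 C.ok.de1
  have h2 := mul_le_mul_of_nonneg_right C.ok.dle C.ok.s0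
  linarith [C.ok.tts]

theorem fb_zeta2 : FB C.zeta2 (4 * C.K ^ 2) :=
  (((((C.let_a.fb2 C.let_a).abs.add (C.let_a.fb2 C.let_b).abs).add (C.let_b.fb2 C.let_a).abs).add
    (C.let_b.fb2 C.let_b).abs)).le (by linarith)

theorem fb_omb : FB C.omb (6 * C.s ^ 2) :=
  ((C.fb_fst vb_om).add (C.fb_snd vb_om)).le (by linarith)

theorem vb_om2 : VB (fun i => C.ω i ^ 2) (15 / 2 * (C.s + C.w ^ 2)) := by
  have h0 := C.ok.s0
  refine ⟨by positivity, ?_⟩
  have h1 := C.sum_om4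
  have h2 : 0 ≤ C.s * C.w ^ 2 := by positivity
  simp only [← pow_mul]
  nlinarith [sq_nonneg C.s, sq_nonneg (C.w ^ 2)]

theorem fb_omb2 : FB (fun i j => C.omb i j ^ 2) (30 * C.s * (C.s + C.w ^ 2)) :=
  ((((C.fb_fst C.vb_om2).add (C.fb_snd C.vb_om2)).const_mul (r := 2) (by norm_num)).mono'
    fun i j => by
      rw [abs_of_nonneg (sq_nonneg _), omb]; nlinarith [sq_nonneg (C.ω i - C.ω j)]).le
    (by linarith)

theorem F_zeta : ∑ i, ∑ j, C.zeta i j ^ 2 ≤ (6 * C.de * C.s) ^ 2 := C.fb_zeta.2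
theorem F_zeta2 : ∑ i, ∑ j, C.zeta2 i j ^ 2 ≤ (4 * C.K ^ 2) ^ 2 := C.fb_zeta2.2
theorem F_omb : ∑ i, ∑ j, C.omb i j ^ 2 ≤ (6 * C.s ^ 2) ^ 2 := C.fb_omb.2
theorem F_omb2 : ∑ i, ∑ j, (C.omb i j ^ 2) ^ 2 ≤ (30 * C.s * (C.s + C.w ^ 2)) ^ 2 := C.fb_omb2.2
theorem omb_le (i j : ι) : C.omb i j ≤ 6 * C.w := by
  linarith [C.om_le i, C.om_le j, show C.omb i j = C.ω i + C.ω j from rfl]

theorem two_le_omb (i j : ι) : 2 ≤ C.omb i j := by
  linarith [C.one_le_om i, C.one_le_om j, show C.omb i j = C.ω i + C.ω j from rfl]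

theorem zeta_nonneg (i j : ι) : 0 ≤ C.zeta i j := by unfold zeta; positivity
theorem zeta2_nonneg (i j : ι) : 0 ≤ C.zeta2 i j := by unfold zeta2; positivity

variable {C} {x p q c : Matrix ι ι ℝ} {i j : ι}

theorem Let.le_zeta (hp : C.Let p) (i j : ι) : |p i j| + |p i i| + |p j j| ≤ C.zeta i j := by
  have h1 := abs_nonneg (C.a i j)
  have h2 := abs_nonneg (C.b i j)
  have h3 := abs_nonneg (C.a i i)
  have h4 := abs_nonneg (C.a j j)
  have h5 := abs_nonneg (C.b i i)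
  have h6 := abs_nonneg (C.b j j)
  unfold zeta
  rcases hp with rfl | rfl <;> linarith

theorem Let.zeta4 (hp : C.Let p) (i j : ι) : |p i j| ≤ C.zeta i j ∧ |p j i| ≤ C.zeta i j ∧
    |p i i| ≤ C.zeta i j ∧ |p j j| ≤ C.zeta i j := by
  have h := hp.le_zeta i j
  have h1 := abs_nonneg (p i j)
  have h3 := abs_nonneg (p i i)
  have h4 := abs_nonneg (p j j)
  rw [hp.symm.apply i j]
  refine ⟨?_, ?_, ?_, ?_⟩ <;> linarith

theorem Let.le_zeta2 (hp : C.Let p) (hc : C.Let c) (i j : ι) : |(p * c) i j| ≤ C.zeta2 i j := by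
  have h1 := abs_nonneg ((C.a * C.a) i j)
  have h2 := abs_nonneg ((C.a * C.b) i j)
  have h3 := abs_nonneg ((C.b * C.a) i j)
  have h4 := abs_nonneg ((C.b * C.b) i j)
  unfold zeta2
  rcases hp with rfl | rfl <;> rcases hc with rfl | rfl <;> linarith

theorem Let.le_zeta2' (hp : C.Let p) (hc : C.Let c) (i j : ι) : |(p * c) j i| ≤ C.zeta2 i j := by
  have e : (p * c) j i = (c * p) i j := by
    simp only [Matrix.mul_apply]
    exact sum_congr rfl fun l _ => by rw [hp.symm.apply j l, hc.symm.apply i l, mul_comm]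
  rw [e]; exact hc.le_zeta2 hp i j

/-- `k ∈ {i, j}` -/
theorem om_le_omb {k : ι} (hk : k = i ∨ k = j) : C.ω k ≤ C.omb i j := by
  have h1 := C.one_le_om i
  have h2 := C.one_le_om j
  unfold omb
  rcases hk with rfl | rfl <;> linarith

theorem Let.rr_mul_le (hp : C.Let p) (hc : C.Let c) {k l : ι} (hk : k = i ∨ k = j)
    (hl : l = i ∨ l = j) : rr p k * rr c l ≤ C.omb i j ^ 2 := by
  rw [sq]
  exact mul_le_mul ((C.rr_le_om hp k).trans (om_le_omb hk)) ((C.rr_le_om hc l).trans (om_le_omb hl))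
    (rr_nonneg hc.symm l) (by linarith [C.two_le_omb i j])

theorem Let.abs1 (hp : C.Let p) {k : ι} (l : ι) (hk : k = i ∨ k = j) : |p k l| ≤ C.omb i j := by
  have h1 := C.two_le_omb i j
  refine abs_le_of_sq_le_sq₀ (by linarith) ((sq_le_rr hp.symm k l).trans
    (((C.rr_le_om hp k).trans (om_le_omb hk)).trans (by nlinarith)))

theorem Let.abs2 (hp : C.Let p) (hc : C.Let c) {k l : ι} (hk : k = i ∨ k = j)
    (hl : l = i ∨ l = j) : |(p * c) k l| ≤ C.omb i j :=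
  abs_le_of_sq_le_sq₀ (by linarith [C.two_le_omb i j]) ((hp.sq2 hc k l).trans (hp.rr_mul_le hc hk hl))

theorem Let.abs3 (hp : C.Let p) (hq : C.Let q) (hc : C.Let c) {k l : ι} (hk : k = i ∨ k = j)
    (hl : l = i ∨ l = j) : |(p * q * c) k l| ≤ C.K * C.omb i j :=
  abs_le_of_sq_le_sq₀ (mul_nonneg C.K0 (by linarith [C.two_le_omb i j]))
    ((hp.sq3 hq hc k l).trans (by
      rw [mul_pow]; exact mul_le_mul_of_nonneg_left (hp.rr_mul_le hc hk hl) (sq_nonneg _)))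

theorem Let.coef (hx : C.Let x) (h : Good C.a C.b i j) :
    |x i i / dd x i j| ≤ 2 * C.zeta i j ∧ |x j j / dd x i j| ≤ 2 * C.zeta i j ∧
    |x i i / dd x i j| ≤ 2 * C.de ∧ |x j j / dd x i j| ≤ 2 * C.de ∧
    |(1 - x i j) / dd x i j| ≤ 2 ∧ |(1 - x i j) / dd x i j - 1| ≤ 2 * C.zeta i j := by
  have hs := hx.sm h
  have k0 : 0 ≤ 1 / dd x i j := (one_div_pos.2 hs.dd_pos).le
  have h1 : ∀ t B : ℝ, |t| ≤ B → |t / dd x i j| ≤ 2 * B := fun t B ht => by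
    rw [div_eq_mul_one_div, abs_mul, abs_of_nonneg k0, mul_comm]
    exact mul_le_mul (hs.inv_le.trans (by norm_num)) ht (abs_nonneg _) (by norm_num)
  refine ⟨h1 _ _ (hx.zeta4 i j).2.2.1, h1 _ _ (hx.zeta4 i j).2.2.2,
    h1 _ _ ((C.abs_diag_le hx i).trans C.ok.dle), h1 _ _ ((C.abs_diag_le hx j).trans C.ok.dle),
    by rw [abs_of_nonneg hs.k_pos]; exact hs.k_le.trans (by norm_num), ?_⟩
  linarith [hs.k_sub, hs.prod_le, hx.le_zeta i j]

/-- factors with a one-letter word -/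
theorem FF1 (hx : C.Let x) (hp : C.Let p) (hc : C.Let c) (h : Good C.a C.b i j) :
    |FF x p c i j 0 1 - (p * c) j j| ≤ 20 * C.zeta i j * C.omb i j ∧
    |FF x p c i j 1 0 - (p * c) i i| ≤ 20 * C.zeta i j * C.omb i j ∧
    |FF x p c i j 0 0| ≤ 20 * (C.zeta2 i j + C.zeta i j * C.omb i j) ∧
    |FF x p c i j 1 1| ≤ 20 * (C.zeta2 i j + C.zeta i j * C.omb i j) ∧
    ∀ s t, |FF x p c i j s t| ≤ 20 * C.de * C.omb i j := by
  obtain ⟨c1, c2, c3, c4, c5, c6⟩ := hx.coef h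
  obtain ⟨z1, z2, z3, z4⟩ := hp.zeta4 i j
  have I : i = i ∨ i = j := Or.inl rfl
  have J : j = i ∨ j = j := Or.inr rfl
  have o2 := C.two_le_omb i j
  have z0 := C.zeta_nonneg i j
  have z20 := C.zeta2_nonneg i j
  have e1 : C.zeta i j ≤ C.zeta i j * C.omb i j := le_mul_of_one_le_right z0 (by linarith)
  have e2 : C.omb i j ≤ C.de * C.omb i j := le_mul_of_one_le_left (by linarith) C.ok.de1
  refine ⟨?_, ?_, ?_, ?_, fun s t => ?_⟩
  · rw [L3e_01]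
    linarith [L3e_num1 c2 c5 c6 (hp.abs2 hc I J) (hp.abs1 i I) (hp.abs2 hc J J) z2]
  · rw [L3e_10]
    linarith [L3e_num1 c1 c5 c6 (hp.abs2 hc J I) (hp.abs1 j J) (hp.abs2 hc I I) z1]
  · rw [L3e_00]
    linarith [L3e_num2 c2 c5 (hp.abs2 hc I I) (hp.abs1 j I) (hp.le_zeta2' hc i j) z4]
  · rw [L3e_11]
    linarith [L3e_num2 c1 c5 (hp.abs2 hc J J) (hp.abs1 i J) (hp.le_zeta2 hc i j) z3]
  · fin_cases s <;> fin_cases t
    · show |FF x p c i j 0 0| ≤ _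
      rw [L3e_00]
      linarith [L3e_num2 c4 c5 (hp.abs2 hc I I) (hp.abs1 j I) (hp.abs2 hc J I) (hp.abs1 j J)]
    · show |FF x p c i j 0 1| ≤ _
      rw [L3e_01]
      linarith [L3e_num2 c4 c5 (hp.abs2 hc I J) (hp.abs1 i I) (hp.abs2 hc J J) (hp.abs1 i J)]
    · show |FF x p c i j 1 0| ≤ _
      rw [L3e_10]
      linarith [L3e_num2 c3 c5 (hp.abs2 hc J I) (hp.abs1 j J) (hp.abs2 hc I I) (hp.abs1 j I)]
    · show |FF x p c i j 1 1| ≤ _
      rw [L3e_11]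
      linarith [L3e_num2 c3 c5 (hp.abs2 hc J J) (hp.abs1 i J) (hp.abs2 hc I J) (hp.abs1 i I)]

/-- factors with a two-letter word -/
theorem FF2 (hx : C.Let x) (hp : C.Let p) (hq : C.Let q) (hc : C.Let c) (h : Good C.a C.b i j) :
    |FF x (p * q) c i j 0 1 - (p * q * c) j j| ≤ 20 * (C.zeta2 i j + C.K * C.zeta i j * C.omb i j) ∧
    |FF x (p * q) c i j 1 0 - (p * q * c) i i| ≤ 20 * (C.zeta2 i j + C.K * C.zeta i j * C.omb i j) ∧
    ∀ s t, |FF x (p * q) c i j s t| ≤ 20 * C.de * C.K * C.omb i j := by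
  obtain ⟨c1, c2, c3, c4, c5, c6⟩ := hx.coef h
  have I : i = i ∨ i = j := Or.inl rfl
  have J : j = i ∨ j = j := Or.inr rfl
  have o2 := C.two_le_omb i j
  have z0 := C.zeta_nonneg i j
  have z20 := C.zeta2_nonneg i j
  have e0 : C.omb i j ≤ C.K * C.omb i j := le_mul_of_one_le_left (by linarith) C.ok.K1
  have e1 : 0 ≤ C.zeta i j * (C.K * C.omb i j) := mul_nonneg z0 (by linarith)
  have e2 : C.K * C.omb i j ≤ C.de * (C.K * C.omb i j) :=
    le_mul_of_one_le_left (by linarith) C.ok.de1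
  have t2 : ∀ {k l : ι}, (k = i ∨ k = j) → (l = i ∨ l = j) → |(p * q) k l| ≤ C.K * C.omb i j :=
    fun hk hl => (hp.abs2 hq hk hl).trans e0
  refine ⟨?_, ?_, fun s t => ?_⟩
  · rw [L3e_01]
    linarith [L3e_num1 c2 c5 c6 (hp.abs3 hq hc I J) (t2 I I) (hp.abs3 hq hc J J)
      (hp.le_zeta2' hq i j)]
  · rw [L3e_10]
    linarith [L3e_num1 c1 c5 c6 (hp.abs3 hq hc J I) (t2 J J) (hp.abs3 hq hc I I)
      (hp.le_zeta2 hq i j)]
  · fin_cases s <;> fin_cases t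
    · show |FF x (p * q) c i j 0 0| ≤ _
      rw [L3e_00]
      linarith [L3e_num2 c4 c5 (hp.abs3 hq hc I I) (t2 I J) (hp.abs3 hq hc J I) (t2 J J)]
    · show |FF x (p * q) c i j 0 1| ≤ _
      rw [L3e_01]
      linarith [L3e_num2 c4 c5 (hp.abs3 hq hc I J) (t2 I I) (hp.abs3 hq hc J J) (t2 J I)]
    · show |FF x (p * q) c i j 1 0| ≤ _
      rw [L3e_10]
      linarith [L3e_num2 c3 c5 (hp.abs3 hq hc J I) (t2 J J) (hp.abs3 hq hc I I) (t2 I J)]
    · show |FF x (p * q) c i j 1 1| ≤ _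
      rw [L3e_11]
      linarith [L3e_num2 c3 c5 (hp.abs3 hq hc J J) (t2 J I) (hp.abs3 hq hc I J) (t2 I I)]

end Ctx

end Crest.Agent.R62
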