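import Crest.Agent.R62.L3e

/-!
# R62-L3s: single-`Z` terms of the cubic traces

Notation: `M = C.a`, `m = s²`, `w = u²`, `B = bt²`, `f = M i j`, `g = M i i`, `h = M j j`, `d = dd M i j`,
`f_p = (M^p) i j`, `g_p`, `h_p` the diagonal entries, `r = rr M`, `y = r - 1`, `x = r - c`, `k = (1-f)/d`,
`‖X‖ = (∑ i j, X i j ²)^(1/2)`.  Tools: `Bas1`, `Bas2` (`E_eq`, `TP`, `T1`, `TF`, `TU`, `TUabs`, `E_one`,
`cs2`, `F_fgh`, `Sm.*`).  The constant `C0` is existential: be generous.  Useful: `1 ≤ de`, `dl ≤ de`,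
`de² ≤ bt ≤ s`, `1 ≤ u`, `w ≤ s`, `tt ≤ s`, `rt ≤ 2 s`, `lam ≤ bt`, `1 ≤ K`, `K² ≤ sS`.

With `w = p q r`, `W = w c` (letters `p q r c x`):
`tr FF x w c = k [W_ij + W_ji - w_ii - w_jj] + (h (W_ii - w_ij) + g (W_jj - w_ji))/d`.
`P = W_ij + W_ji - w_ii - w_jj` has plain sum `2m - 2 m tr w` and `‖P‖ ≤ 2K⁴ + 2 s · 3 K s`
(`‖W‖ ≤ K⁴` by `opL`,`F2`; `w_ii² ≤ r · K² r ≤ K² ω²`).  `TF`; remainder `(k-1) P` by `cs2`, `F_fgh`.
`∑_{ij} |h||W_ii| ≤ s dl · K⁴` (`∑_i |W_ii| ≤ ‖pq‖‖rc‖ ≤ K⁴`), `∑ |h||w_ij| ≤ s dl K³`.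
Second moment: `‖P‖² + dl² (∑ W_ii² + …)`, `∑ W_ii² ≤ K⁸`.
-/

set_option autoImplicit false
open Matrix Finset

namespace Crest.Agent.R62

theorem L3s_err {N : Num} (h : N.OK) :
    N.bt * N.s * N.K ^ 4 ≤ N.err3 ∧ N.bt * N.s * (N.K * N.s ^ 2) ≤ N.err3 ∧
    N.de ^ 4 * N.K * N.s ^ 2 * (N.s + N.w ^ 2) ≤ N.err3 ∧ N.de ^ 2 * N.K ^ 3 * N.s ^ 2 ≤ N.err3 := by
  have h1 := h.s0
  have h2 : 0 ≤ N.bt := le_trans zero_le_one h.bt1
  have h3 : 0 ≤ N.K := le_trans zero_le_one h.K1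
  have a1 : 0 ≤ N.bt * N.s * N.K ^ 4 := by positivity
  have a2 : 0 ≤ N.bt * N.s * (N.K * N.s ^ 2) := by positivity
  have a3 : 0 ≤ N.de ^ 4 * N.K * N.s ^ 2 * (N.s + N.w ^ 2) := by positivity
  have a4 : 0 ≤ N.de ^ 2 * N.K ^ 3 * N.s ^ 2 := by positivity
  unfold Num.err3
  refine ⟨?_, ?_, ?_, ?_⟩ <;> linarith

namespace Ctx
variable {ι : Type} [Fintype ι] [DecidableEq ι] {C : Ctx ι} {x p q r c : Matrix ι ι ℝ}

theorem Let.vb_d2 (hp : C.Let p) (hq : C.Let q) : VB (fun i => (p * q) i i) (3 * C.s) :=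
  vb_om.mono' fun i => abs_le_of_sq_le_sq₀ (by linarith [C.one_le_om i]) ((hp.sq2 hq i i).trans (by
    rw [sq]
    exact mul_le_mul (C.rr_le_om hp i) (C.rr_le_om hq i) (rr_nonneg hq.symm i)
      (by linarith [C.one_le_om i])))

theorem Let.vb_d3 (hp : C.Let p) (hq : C.Let q) (hr : C.Let r) :
    VB (fun i => (p * q * r) i i) (C.K * (3 * C.s)) :=
  (vb_om.const_mul C.K0).mono' fun i =>
    abs_le_of_sq_le_sq₀ (mul_nonneg C.K0 (by linarith [C.one_le_om i])) ((hp.sq3 hq hr i i).trans (by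
      rw [mul_pow, sq (C.ω i)]
      exact mul_le_mul_of_nonneg_left (mul_le_mul (C.rr_le_om hp i) (C.rr_le_om hr i)
        (rr_nonneg hr.symm i) (by linarith [C.one_le_om i])) (sq_nonneg _)))

theorem Let.sum_d4 (hp : C.Let p) (hq : C.Let q) (hr : C.Let r) (hc : C.Let c) :
    ∑ i, |(p * q * r * c) i i| ≤ C.K ^ 2 * C.K ^ 2 := by
  refine le_trans (sum_le_sum fun i _ => ?_) ((hp.fb2 hq).sb_mul (hr.fb2 hc).swap)
  rw [Matrix.mul_assoc (p * q), Matrix.mul_apply]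
  exact abs_sum_le_sum_abs _ _

theorem L3s_P (hp : C.Let p) (hq : C.Let q) (hr : C.Let r) (hc : C.Let c) :
    FB (fun i j => (p * q * r * c) i j + (p * q * r * c) j i - (p * q * r) i i - (p * q * r) j j)
      (2 * C.K ^ 4 + 6 * (C.K * C.s ^ 2)) := by
  have h1 := hc.fbR (hr.fbR (hp.fb2 hq))
  exact (((h1.add h1.swap).sub (C.fb_fst (hp.vb_d3 hq hr))).sub (C.fb_snd (hp.vb_d3 hq hr))).le
    (le_of_eq (by ring))

theorem L3s_trace (x w c : Matrix ι ι ℝ) (i j : ι) : (FF x w c i j).trace =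
    (1 - x i j) / dd x i j * ((w * c) i j + (w * c) j i - w i i - w j j)
      + 1 / dd x i j * (x j j * (w * c) i i - x j j * w i j + x i i * (w * c) j j - x i i * w j i) := by
  rw [Matrix.trace_fin_two, L3e_00, L3e_11]; ring

theorem L3s_abs4 {d a b c e : ℝ} (h0 : 0 ≤ d) (h1 : d ≤ 2) :
    |d * (a - b + c - e)| ≤ 2 * (|a| + |b| + |c| + |e|) := by
  rw [abs_mul, abs_of_nonneg h0]
  refine mul_le_mul h1 ?_ (abs_nonneg _) (by norm_num)
  have t1 := abs_le.1 (le_refl |a|)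
  have t2 := abs_le.1 (le_refl |b|)
  have t3 := abs_le.1 (le_refl |c|)
  have t4 := abs_le.1 (le_refl |e|)
  rw [abs_le]
  constructor <;> linarith [t1.1, t1.2, t2.1, t2.2, t3.1, t3.2, t4.1, t4.2]

end Ctx

theorem L3s : ∃ C0 : ℝ, 0 ≤ C0 ∧ ∀ {ι : Type} [Fintype ι] [DecidableEq ι] (C : Ctx ι),
    ∀ {x p q r c : Matrix ι ι ℝ}, C.Let x → C.Let p → C.Let q → C.Let r → C.Let c →
    |C.E (fun i j => (FF x (p * q * r) c i j).trace) + 2 * C.s ^ 2 * (p * q * r).trace|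
        ≤ C0 * C.err3 ∧
      C.E (fun i j => (FF x (p * q * r) c i j).trace ^ 2) ≤ C0 * C.var3 := by
  refine ⟨2000, by norm_num, fun {ι} _ _ C x p q r c hx hp hq hr hc => ?_⟩
  have hP := Ctx.L3s_P hp hq hr hc
  have hw := hr.fbR (hp.fb2 hq)
  have hW := hc.fbR hw
  have s1 := C.s1
  have K1 := C.ok.K1
  have de1 := C.ok.de1
  have dl0 := C.ok.dl0
  have dle := C.ok.dle
  have k3 : C.K * C.K ^ 2 ≤ C.K ^ 4 := by nlinarith [pow_nonneg C.K0 3]
  have k4 : 0 ≤ C.K ^ 4 := by positivity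
  have k5 : 0 ≤ C.K * C.s ^ 2 := by positivity
  constructor
  · have h1 := C.fb_TF hP
    have e1 : ∑ i, ∑ j, ((p * q * r * c) i j + (p * q * r * c) j i - (p * q * r) i i
        - (p * q * r) j j) = 2 * C.s ^ 2 - 2 * C.s ^ 2 * (p * q * r).trace := by
      have e2 : ∑ i, ∑ j, (p * q * r * c) i j = C.s ^ 2 := by
        simp [rowsum_mul (rowsum_mul (rowsum_mul hp.bnd.rs.2 hq.bnd.rs.2) hr.bnd.rs.2) hc.bnd.rs.2,
          C.card]
      have e3 : ∑ i, ∑ j, (p * q * r * c) j i = C.s ^ 2 := by rw [sum_comm]; exact e2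
      simp only [sum_sub_distrib, sum_add_distrib, e2, e3, sum_const, card_univ, nsmul_eq_mul,
        ← mul_sum, ← C.card, Matrix.trace, Matrix.diag]
      ring
    rw [e1] at h1
    have g1 := (SB.prod (hp.sum_d4 hq hr hc) (C.sum_abs_diag hx)).abs
    have g2 := ((C.fb_snd hx.vb_diag).sb_mul hw).abs
    have h2 := C.sb_E (X := fun i j => (FF x (p * q * r) c i j).trace -
        ((p * q * r * c) i j + (p * q * r * c) j i - (p * q * r) i i - (p * q * r) j j))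
      (((hx.fb_fgh.sb_mul hP.abs).const_mul (r := 2) (by norm_num)).add
        ((((g1.add g2).add g1.swap).add g2.swap).const_mul (r := 2) (by norm_num))) fun i j hg => by
        have hs := hx.sm hg
        have t1 := mul_le_mul_of_nonneg_right hs.k_sub (abs_nonneg
          ((p * q * r * c) i j + (p * q * r * c) j i - (p * q * r) i i - (p * q * r) j j))
        rw [← abs_mul] at t1
        have t2 := Ctx.L3s_abs4 (a := (p * q * r * c) i i * x j j) (b := x j j * (p * q * r) i j)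
          (c := (p * q * r * c) j j * x i i) (e := x i i * (p * q * r) j i)
          (one_div_pos.2 hs.dd_pos).le (hs.inv_le.trans (by norm_num))
        rw [Ctx.L3s_trace]
        rw [abs_le] at t1 t2 ⊢
        constructor <;> linarith [t1.1, t1.2, t2.1, t2.2]
    rw [C.E_sub] at h2
    obtain ⟨a1, a2, -, -⟩ := L3s_err C.ok
    have b0 : C.s ≤ C.bt * C.s := le_mul_of_one_le_left C.ok.s0 C.ok.bt1
    have b1 : C.tt + C.dl ^ 2 ≤ 2 * (C.bt * C.s) := by linarith [C.tt_add_le]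
    have b2 := mul_le_mul_of_nonneg_right b1 hP.1
    have b3 : C.dl * C.s ≤ C.bt * C.s := mul_le_mul_of_nonneg_right
      (dle.trans (le_trans (by nlinarith) C.ok.deb)) C.ok.s0
    have b4 := mul_le_mul_of_nonneg_right b3 k4
    have b5 := mul_le_mul_of_nonneg_left k3 (mul_nonneg dl0 C.ok.s0)
    have b6 : C.s ^ 2 ≤ C.K * C.s ^ 2 := le_mul_of_one_le_left (sq_nonneg _) K1
    have b7 : C.K * C.s ^ 2 ≤ C.bt * C.s * (C.K * C.s ^ 2) :=
      le_mul_of_one_le_left k5 (s1.trans b0)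
    have b8 : 0 ≤ C.bt * C.s * C.K ^ 4 := mul_nonneg (mul_nonneg C.bt0 C.ok.s0) k4
    rw [abs_le] at h1 h2 ⊢
    constructor <;> linarith [h1.1, h1.2, h2.1, h2.2, sq_nonneg C.s]
  · have g1 := (hW.diag.prod hx.vb_diag).abs
    have g2 := hw.abs.const_mul dl0
    have h1 := ((hP.abs.const_mul (r := 2) (by norm_num)).add
      ((((g1.add g2).add g1.swap).add g2.swap).const_mul (r := 2) (by norm_num))).le
      (G := 20 * (C.de * (C.K ^ 4 + C.K * C.s ^ 2))) (by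
        have b1 := mul_le_mul_of_nonneg_right dle k4
        have b2 := mul_le_mul_of_nonneg_left k3 dl0
        have b3 := mul_le_mul_of_nonneg_right de1 k4
        have b4 := mul_le_mul_of_nonneg_right de1 k5
        linarith)
    refine (C.fb_E h1 fun i j hg => ?_).trans ?_
    · have hs := hx.sm hg
      have t1 := mul_le_mul_of_nonneg_right (hx.coef hg).2.2.2.2.1 (abs_nonneg
        ((p * q * r * c) i j + (p * q * r * c) j i - (p * q * r) i i - (p * q * r) j j))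
      rw [← abs_mul] at t1
      have t2 := Ctx.L3s_abs4 (a := (p * q * r * c) i i * x j j) (b := x j j * (p * q * r) i j)
        (c := (p * q * r * c) j j * x i i) (e := x i i * (p * q * r) j i)
        (one_div_pos.2 hs.dd_pos).le (hs.inv_le.trans (by norm_num))
      have t3 := mul_le_mul_of_nonneg_right (C.abs_diag_le hx j) (abs_nonneg ((p * q * r) i j))
      have t4 := mul_le_mul_of_nonneg_right (C.abs_diag_le hx i) (abs_nonneg ((p * q * r) j i))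
      rw [← abs_mul] at t3 t4
      rw [Ctx.L3s_trace]
      rw [abs_le] at t1 t2 ⊢
      constructor <;> linarith [t1.1, t1.2, t2.1, t2.2]
    · unfold Num.var3
      have b1 : C.de ^ 2 ≤ C.de ^ 6 := pow_le_pow_right₀ de1 (by norm_num)
      have b2 : (C.K ^ 4 + C.K * C.s ^ 2) ^ 2 ≤
          2 * (C.K ^ 8 + C.K ^ 2 * C.s ^ 2 * (C.s ^ 2 + C.w ^ 4)) := by
        have : 0 ≤ C.K ^ 2 * C.s ^ 2 * C.w ^ 4 := by positivity
        nlinarith [sq_nonneg (C.K ^ 4 - C.K * C.s ^ 2)]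
      have b3 := mul_le_mul b1 b2 (sq_nonneg _) (by positivity)
      have b4 : 0 ≤ C.de ^ 6 * (C.K ^ 8 + C.K ^ 2 * C.s ^ 2 * (C.s ^ 2 + C.w ^ 4)) := by positivity
      rw [mul_pow, mul_pow]
      linarith

end Crest.Agent.R62
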