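import Crest.Agent.R62.H25e

/-!
# R62-L4a: upper bound for the mean of `NN4/d`

Notation: `M = C.a`, `m = s²`, `w = u²`, `B = bt²`, `f = M i j`, `g = M i i`, `h = M j j`, `d = dd M i j`,
`f_p = (M^p) i j`, `g_p`, `h_p` the diagonal entries, `r = rr M`, `y = r - 1`, `x = r - c`, `k = (1-f)/d`,
`‖X‖ = (∑ i j, X i j ²)^(1/2)`.  Tools: `Bas1`, `Bas2` (`E_eq`, `TP`, `T1`, `TF`, `TU`, `TUabs`, `E_one`,
`cs2`, `F_fgh`, `Sm.*`).  The constant `C0` is existential: be generous.  Useful: `1 ≤ de`, `dl ≤ de`,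
`de² ≤ bt ≤ s`, `1 ≤ u`, `w ≤ s`, `tt ≤ s`, `rt ≤ 2 s`, `lam ≤ bt`, `1 ≤ K`, `K² ≤ sS`.

Term by term (all divided by `d > 0`; drop `-r_i r_j` and `-f₃²`).
* `g₄ y_j`: plain sum `τ₄ (τ₂ - m) ≤ 0`; `TF` and remainder (`Sm.inv_sub`, `cs2`, `F_fgh`) with
  `‖g₄ y_j‖ ≤ K² rt · 2s ≤ 4 K² s²` (`g₄ = gam a a i ≤ K² r_i`).
* `g₃ h₃`: plain sum `τ₃²`, `‖g₃ h₃‖ = ∑ g₃² ≤ K² rt²`.
* `2 f₅ k`: `E_eq`: plain sum `m`; tilt `|∑ φ f₅| ≤ 2K⁶` (`tr(y a⁵) = ⟨y a, a⁴⟩ ≤ K² K⁴`); `TP` with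
  `f₅² ≤ gam_i · K² gam_j`, i.e. `u_i = √gam_i`, `v_j = K √gam_j`, `μ = K`, `∑ ω gam ≤ sS² ≤ 36 K⁴`
  (as `w ≤ K`); remainder `‖f₅‖ ≤ K⁵`.
* `g h₅`, `g h₃` absolutely: `∑|g| ≤ s dl`, `∑|h₅| ≤ K⁵` (`|h₅| ≤ K gam`), `∑ |h₃| ≤ tt K²`.
* `|f₂ f₄| : K⁶`, `|f f₃| : s K³`, `f₂² : K⁴`.
-/

set_option autoImplicit false
open Matrix Finset

namespace Crest.Agent.R62

section Pow
variable {ι : Type} [Fintype ι] [DecidableEq ι] (C : Ctx ι)

theorem L4a_f3_sq (i j : ι) :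
    (C.a * C.a * C.a) i j ^ 2 ≤ C.K ^ 2 * (rr C.a i * rr C.a j) := by
  have hM := C.let_a.symm
  have h := mul_sq_le C.a (C.a * C.a) i j
  rw [← Matrix.mul_assoc, ← rr_eq hM] at h
  refine h.trans ?_
  rw [mul_left_comm]
  exact mul_le_mul_of_nonneg_left (C.gam_le C.let_a C.let_a j) (rr_nonneg hM i)

theorem L4a_g3_abs (i : ι) : |(C.a * C.a * C.a) i i| ≤ C.K * rr C.a i :=
  abs_le_of_sq_le_sq' ((L4a_f3_sq C i i).trans (le_of_eq (by ring)))
    (mul_nonneg C.h_K0 (rr_nonneg C.let_a.symm i)) |> abs_le.2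

theorem L4a_g3 : ∑ i, (C.a * C.a * C.a) i i ^ 2 ≤ (C.K * (2 * C.s)) ^ 2 := by
  refine (Finset.sum_le_sum fun i _ => L4a_f3_sq C i i).trans ?_
  simp only [← Finset.mul_sum, ← sq]
  rw [mul_pow]
  have := C.ok.rt0
  have := C.ok.rts
  exact mul_le_mul_of_nonneg_left (C.ha.r2.trans (by gcongr)) (sq_nonneg _)

theorem L4a_g4_eq (i : ι) : (C.a * C.a * C.a * C.a) i i = gam C.a C.a i := by
  have hM := C.let_a.symm
  rw [Matrix.mul_assoc (C.a * C.a), Matrix.mul_apply, gam]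
  exact Finset.sum_congr rfl fun l _ => by rw [h_mul_swap hM hM i l, sq]

theorem L4a_g4 : ∑ i, (C.a * C.a * C.a * C.a) i i ^ 2 ≤ (C.K ^ 2 * (2 * C.s)) ^ 2 := by
  simp only [L4a_g4_eq]
  refine (Finset.sum_le_sum fun i _ => pow_le_pow_left₀ (h_gam_nonneg _ _ _)
    (C.gam_le C.let_a C.let_a i) 2).trans ?_
  simp only [mul_pow (C.K ^ 2), ← Finset.mul_sum]
  have := C.ok.rt0
  have := C.ok.rts
  exact mul_le_mul_of_nonneg_left (C.ha.r2.trans (by gcongr)) (sq_nonneg _)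

theorem L4a_F2 : ∑ i, ∑ j, (C.a * C.a) i j ^ 2 ≤ (C.K ^ 2) ^ 2 :=
  (C.F2 C.let_a C.let_a).trans (le_of_eq (by ring))

theorem L4a_F3 : ∑ i, ∑ j, (C.a * C.a * C.a) i j ^ 2 ≤ (C.K ^ 3) ^ 2 :=
  (C.opR C.let_a _).trans ((mul_le_mul_of_nonneg_left (L4a_F2 C) (sq_nonneg _)).trans
    (le_of_eq (by ring)))

theorem L4a_F4 : ∑ i, ∑ j, (C.a * C.a * C.a * C.a) i j ^ 2 ≤ (C.K ^ 4) ^ 2 :=
  (C.opR C.let_a _).trans ((mul_le_mul_of_nonneg_left (L4a_F3 C) (sq_nonneg _)).trans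
    (le_of_eq (by ring)))

theorem L4a_F5 : ∑ i, ∑ j, (C.a * C.a * C.a * C.a * C.a) i j ^ 2 ≤ (C.K ^ 5) ^ 2 :=
  (C.opR C.let_a _).trans ((mul_le_mul_of_nonneg_left (L4a_F4 C) (sq_nonneg _)).trans
    (le_of_eq (by ring)))

theorem L4a_f5_abs (i j : ι) :
    |(C.a * C.a * C.a * C.a * C.a) i j| ≤ √(gam C.a C.a i) * (C.K * √(gam C.a C.a j)) := by
  have hM := C.let_a.symm
  have hK := C.h_K0
  refine abs_le.2 (abs_le_of_sq_le_sq' ?_ (by positivity))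
  have h := mul_sq_le (C.a * C.a) (C.a * (C.a * C.a)) i j
  have e : C.a * C.a * (C.a * (C.a * C.a)) = C.a * C.a * C.a * C.a * C.a := by
    simp only [Matrix.mul_assoc]
  rw [e, h_gam_row hM hM] at h
  rw [mul_pow, mul_pow, Real.sq_sqrt (h_gam_nonneg _ _ _), Real.sq_sqrt (h_gam_nonneg _ _ _)]
  exact h.trans (mul_le_mul_of_nonneg_left (C.op C.let_a fun l => (C.a * C.a) l j)
    (h_gam_nonneg _ _ _))

theorem L4a_five (hw : C.w ≤ C.K) :
    C.E (fun i j => (1 - C.a i j) / dd C.a i j * (C.a * C.a * C.a * C.a * C.a) i j) ≤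
      50 * C.err4 := by
  obtain ⟨e1, e2, e3, e4, e5, e6, e7⟩ := C.h_err4
  have hM := C.let_a.symm
  have hK := C.h_K0
  have hK1 := C.ok.K1
  have hs := C.h_s1
  have hde := C.ok.de1
  have h1 := (abs_le.1 (C.h_rem (c := 2) (by norm_num) (by positivity)
    (fun i j h => (C.h_sm h).k_sub) (L4a_F5 C))).2
  have h1' := mul_le_mul_of_nonneg_right C.tt_add_le (by positivity : 0 ≤ C.K ^ 5)
  have h1'' : C.s * C.K ^ 5 ≤ C.de * C.s * C.K ^ 5 := by
    rw [mul_assoc]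
    exact le_mul_of_one_le_left (by positivity) hde
  have h2 := C.E_eq (C.a * C.a * C.a * C.a * C.a)
  have h3 : ∑ i, ∑ j, (C.a * C.a * C.a * C.a * C.a) i j ≤ C.s ^ 4 := by
    have r := C.ha.rs.2
    simp only [rowsum_mul (rowsum_mul (rowsum_mul (rowsum_mul r r) r) r) r, C.h_card]
    gcongr
    norm_num
  have h4 := C.h_tilt (X := C.a * C.a * C.a * C.a * C.a) (T := C.K ^ 2 * C.K ^ 4) fun y hy => by
    have f1 : ∑ i, ∑ j, y i j * (C.a * C.a * C.a * C.a * C.a) i j =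
        ∑ i, ∑ l, (y * C.a) i l * (C.a * C.a * C.a * C.a) i l := by
      refine Finset.sum_congr rfl fun i _ => ?_
      simp only [Matrix.mul_apply (N := C.a) (M := C.a * C.a * C.a * C.a),
        Matrix.mul_apply (M := y), Finset.mul_sum, Finset.sum_mul]
      rw [Finset.sum_comm]
      exact Finset.sum_congr rfl fun l _ => Finset.sum_congr rfl fun j _ => by
        rw [hM.apply l j]
        ring
    rw [f1]
    refine (h_abs_sum2 _).trans ?_
    simp only [abs_mul]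
    exact h_cs2 (y * C.a) (C.a * C.a * C.a * C.a) (by positivity) (by positivity)
      ((C.F2 hy C.let_a).trans (le_of_eq (by ring))) (L4a_F4 C)
  have h4' : C.lam * (C.K ^ 2 * C.K ^ 4) ≤ C.bt * (C.K ^ 2 * C.K ^ 4) :=
    mul_le_mul_of_nonneg_right C.ok.lamb (by positivity)
  have h5 := C.TP (L4a_f5_abs C) (one_pos.trans_le hK1)
  have h5' : ∑ i, C.ω i * gam C.a C.a i ≤ 36 * C.K ^ 4 := by
    refine (C.sum_om_gam C.let_a C.let_a).trans ?_
    have f1 : C.sS ≤ 6 * C.K ^ 2 := by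
      have := mul_le_mul_of_nonneg_left hw hK
      have e : C.w = C.u ^ 2 := rfl
      rw [e] at this
      unfold Num.sS
      linarith
    have := pow_le_pow_left₀ C.h_sS0 f1 2
    linarith
  have h6 : (∑ j, C.ω j * (C.K * √(gam C.a C.a j)) ^ 2) / C.K =
      C.K * ∑ j, C.ω j * gam C.a C.a j := by
    simp only [mul_pow, Real.sq_sqrt (h_gam_nonneg _ _ _), mul_left_comm _ (C.K ^ 2),
      ← Finset.mul_sum]
    field_simp
  simp only [h6, Real.sq_sqrt (h_gam_nonneg _ _ _)] at h5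
  have h7 := mul_le_mul_of_nonneg_left h5' (by positivity : 0 ≤ C.bt ^ 2 * C.K)
  have h8 : 0 ≤ C.s ^ 4 := by positivity
  linarith [(abs_le.1 h4).1, (abs_le.1 h5).1]

end Pow

theorem L4a : ∃ C0 : ℝ, 0 ≤ C0 ∧ ∀ {ι : Type} [Fintype ι] [DecidableEq ι] (C : Ctx ι), C.w ≤ C.K →
    C.E (fun i j => NN4 C.a i j / dd C.a i j) ≤ WW C.a C.a ^ 2 + C0 * C.err4 := by
  refine ⟨300, by norm_num, fun {ι} _ _ C hw => ?_⟩
  obtain ⟨e1, e2, e3, e4, e5, e6, e7⟩ := C.h_err4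
  have hM := C.let_a.symm
  have hK := C.h_K0
  have hK1 := C.ok.K1
  have hs := C.h_s1
  have hde := C.ok.de1
  have hdl := C.ok.dl0
  have hdle := C.ok.dle
  have hb := C.ok.bt1
  have h0 : C.E (fun i j => NN4 C.a i j / dd C.a i j) ≤
      C.E (fun i j => 1 / dd C.a i j * ((C.a * C.a * C.a * C.a) i i * (rr C.a j - 1))) +
      C.E (fun i j => 1 / dd C.a i j * ((C.a * C.a * C.a * C.a) j j * (rr C.a i - 1))) +
      C.E (fun i j => 1 / dd C.a i j * ((C.a * C.a * C.a) i i * (C.a * C.a * C.a) j j)) +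
      2 * C.E (fun i j => (1 - C.a i j) / dd C.a i j * (C.a * C.a * C.a * C.a * C.a) i j) +
      C.E (fun i j => 1 / dd C.a i j *
        (C.a i i * ((C.a * C.a * C.a * C.a * C.a) j j - (C.a * C.a * C.a) j j))) +
      C.E (fun i j => 1 / dd C.a i j *
        (C.a j j * ((C.a * C.a * C.a * C.a * C.a) i i - (C.a * C.a * C.a) i i))) -
      2 * C.E (fun i j => 1 / dd C.a i j * ((C.a * C.a) i j * (C.a * C.a * C.a * C.a) i j)) +
      2 * C.E (fun i j => 1 / dd C.a i j * (C.a i j * (C.a * C.a * C.a) i j)) +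
      C.E (fun i j => 1 / dd C.a i j * ((C.a * C.a) i j * (C.a * C.a) i j)) := by
    simp only [← C.E_mul, ← C.E_add, ← C.E_sub]
    refine C.E_mono fun i j h => ?_
    have f1 : 0 ≤ 1 / dd C.a i j * (rr C.a i * rr C.a j + (C.a * C.a * C.a) i j ^ 2) := by
      have := (C.h_sm h).dd_pos
      have := rr_nonneg hM i
      have := rr_nonneg hM j
      positivity
    refine le_of_eq_of_le (b := _ - 1 / dd C.a i j *
      (rr C.a i * rr C.a j + (C.a * C.a * C.a) i j ^ 2)) ?_ (sub_le_self _ f1)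
    unfold NN4
    ring
  have t0 : (∑ i, (C.a * C.a * C.a * C.a) i i) * ∑ j, (rr C.a j - 1) ≤ 0 := by
    refine mul_nonpos_of_nonneg_of_nonpos (tau4_nonneg hM) ?_
    rw [Finset.sum_sub_distrib, ← tau2_eq, C.h_card]
    exact sub_nonpos.2 (C.tau2_le_m C.let_a)
  have t1 := (abs_le.1 (C.h_TFd (by positivity) (h_frob_prod (L4a_g4 C) C.h_y_sq))).2
  have t2 := (abs_le.1 (C.h_TFd (by positivity) (h_frob_prod' (L4a_g4 C) C.h_y_sq))).2
  have t3 := (abs_le.1 (C.h_TFd (by positivity) (h_frob_prod (L4a_g3 C) (L4a_g3 C)))).2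
  rw [h_prod] at t1 t3
  rw [h_prod'] at t2
  have t3' : ∑ i, (C.a * C.a * C.a) i i = WW C.a C.a := rfl
  rw [t3'] at t3
  have t4 := L4a_five C hw
  have t5 : (∑ i, |C.a i i|) * ∑ j, |(C.a * C.a * C.a * C.a * C.a) j j - (C.a * C.a * C.a) j j| ≤
      2 * C.err4 := by
    have f1 : ∑ j, |(C.a * C.a * C.a * C.a * C.a) j j - (C.a * C.a * C.a) j j| ≤
        C.K * C.K ^ 4 + C.K * C.s ^ 2 := by
      refine (Finset.sum_le_sum fun j _ => (abs_sub _ _).trans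
        (add_le_add (L4a_f5_abs C j j) (L4a_g3_abs C j))).trans ?_
      simp only [mul_left_comm _ C.K, Real.mul_self_sqrt (h_gam_nonneg _ _ _),
        Finset.sum_add_distrib, ← Finset.mul_sum, ← tau2_eq]
      exact add_le_add (mul_le_mul_of_nonneg_left (C.sum_gam C.let_a C.let_a) hK)
        (mul_le_mul_of_nonneg_left (C.tau2_le_m C.let_a) hK)
    have f2 := mul_le_mul ((C.sum_abs_diag C.let_a).trans (by gcongr : C.s * C.dl ≤ C.s * C.de)) f1
      (Finset.sum_nonneg fun _ _ => abs_nonneg _) (by positivity)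
    have f3 : C.de * C.K * C.s ^ 3 ≤ C.bt * C.K ^ 2 * C.s ^ 3 := by
      have := C.h_de_bt
      gcongr
      exact le_self_pow₀ hK1 two_ne_zero
    linarith
  have t6 := (abs_le.1 (C.h_absd (X := fun i j =>
    C.a i i * ((C.a * C.a * C.a * C.a * C.a) j j - (C.a * C.a * C.a) j j)) (A := 2 * C.err4) (by
      simp only [abs_mul]
      rw [h_prod]
      exact t5))).2
  have t7 := (abs_le.1 (C.h_absd (X := fun i j =>
    C.a j j * ((C.a * C.a * C.a * C.a * C.a) i i - (C.a * C.a * C.a) i i)) (A := 2 * C.err4) (by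
      simp only [abs_mul]
      rw [h_prod']
      exact t5))).2
  have t8 := (abs_le.1 (C.h_absd (X := fun i j => (C.a * C.a) i j * (C.a * C.a * C.a * C.a) i j) (by
    simp only [abs_mul]
    exact h_cs2 (C.a * C.a) (C.a * C.a * C.a * C.a) (by positivity) (by positivity) (L4a_F2 C)
      (L4a_F4 C)))).1
  have t9 := (abs_le.1 (C.h_absd (X := fun i j => C.a i j * (C.a * C.a * C.a) i j) (by
    simp only [abs_mul]
    exact h_cs2 C.a (C.a * C.a * C.a) C.ok.tt0 (by positivity) (C.sum_sq_le C.let_a)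
      (L4a_F3 C)))).2
  have t10 := (abs_le.1 (C.h_absd (X := fun i j => (C.a * C.a) i j * (C.a * C.a) i j) (by
    simp only [abs_mul]
    exact h_cs2 (C.a * C.a) (C.a * C.a) (by positivity) (by positivity) (L4a_F2 C)
      (L4a_F2 C)))).2
  have u1 : C.K ^ 6 ≤ C.bt * C.K ^ 6 := le_mul_of_one_le_left (by positivity) hb
  have u2 : C.tt * C.K ^ 3 ≤ C.s ^ 2 * C.K ^ 3 :=
    mul_le_mul_of_nonneg_right (C.ok.tts.trans (le_self_pow₀ hs two_ne_zero)) (by positivity)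
  have u3 : C.K ^ 4 ≤ C.bt * C.s * C.K ^ 4 :=
    le_mul_of_one_le_left (by positivity) (one_le_mul_of_one_le_of_one_le hb hs)
  have u4 : 0 ≤ C.s ^ 4 := by positivity
  linarith

end Crest.Agent.R62
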