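import Crest.Agent.R62.L1
import Crest.Agent.R62.L2b
import Crest.Agent.R62.L4a
import Crest.Agent.R62.IdW

/-!
# R62-L4: drift of `tau4`

Notation: `M = C.a`, `m = s²`, `w = u²`, `B = bt²`, `f = M i j`, `g = M i i`, `h = M j j`, `d = dd M i j`,
`f_p = (M^p) i j`, `g_p`, `h_p` the diagonal entries, `r = rr M`, `y = r - 1`, `x = r - c`, `k = (1-f)/d`,
`‖X‖ = (∑ i j, X i j ²)^(1/2)`.  Tools: `Bas1`, `Bas2` (`E_eq`, `TP`, `T1`, `TF`, `TU`, `TUabs`, `E_one`,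
`cs2`, `F_fgh`, `Sm.*`).  The constant `C0` is existential: be generous.  Useful: `1 ≤ de`, `dl ≤ de`,
`de² ≤ bt ≤ s`, `1 ≤ u`, `w ≤ s`, `tt ≤ s`, `rt ≤ 2 s`, `lam ≤ bt`, `1 ≤ K`, `K² ≤ sS`.

`V3N`: `(NN3/d)² ≤ C (g₃² y_j² + h₃² y_i² + f₄² + g² h₄² + g² r_j² + … + f₂² f₃² + f₂² f²)` with
`∑ g₃² ≤ K² rt²`, `∑ f₄² ≤ K⁸`, `∑ h₄² ≤ K⁸`, `f₂² f₃² ≤ r_i r_j · K² r_i r_j`, `f² ≤ 1`.
`L4`: `tau4_upd`; `E|ε₁ ε₃| ≤ √(V1 · V3N)` (`E_mul_sq_le`), `E ε₂² ≤ 2 V2N + 2Z`,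
`E ε₁²|ε₂| ≤ (E ε₁⁴ + E ε₂²)/2`, `V14`.  `(K² + dl s)(K s² + de K⁴) ≤ C err4`, `var2 ≤ C err4`
(use `de² ≤ bt ≤ s`, `w ≤ K`).
-/

set_option autoImplicit false
open Matrix Finset

namespace Crest.Agent.R62

theorem L4_sq9 (a b c d e f g h i : ℝ) : (a + b + c + d + e + f + g + h + i) ^ 2 ≤
    9 * (a ^ 2 + b ^ 2 + c ^ 2 + d ^ 2 + e ^ 2 + f ^ 2 + g ^ 2 + h ^ 2 + i ^ 2) := by
  have := sq_sum_le_card_mul_sum_sq (s := (univ : Finset (Fin 9))) (f := ![a, b, c, d, e, f, g, h, i])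
  simpa [Fin.sum_univ_succ, add_assoc] using this

theorem L4_pt {ι : Type} [Fintype ι] [DecidableEq ι] (C : Ctx ι) {i j : ι} (hsm : Sm C.a i j) :
    (NN3 C.a i j / dd C.a i j) ^ 2 ≤ 100 * (((C.a * C.a * C.a) i i * (rr C.a j - 1)) ^ 2 +
      ((C.a * C.a * C.a) j j * (rr C.a i - 1)) ^ 2 + (C.a * C.a * C.a * C.a) i j ^ 2 +
      (C.a i i * (C.a * C.a * C.a * C.a) j j) ^ 2 + (C.a i i * rr C.a j) ^ 2 +
      (C.a j j * (C.a * C.a * C.a * C.a) i i) ^ 2 + (C.a j j * rr C.a i) ^ 2 +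
      C.K ^ 2 * (rr C.a i * rr C.a j) ^ 2 + (C.a * C.a) i j ^ 2) := by
  have hM := C.let_a.symm
  have h1 := L4_sq9 ((C.a * C.a * C.a) i i * (rr C.a j - 1)) ((C.a * C.a * C.a) j j * (rr C.a i - 1))
    (2 * (C.a * C.a * C.a * C.a) i j * (1 - C.a i j)) (C.a i i * (C.a * C.a * C.a * C.a) j j)
    (-(C.a i i * rr C.a j)) (C.a j j * (C.a * C.a * C.a * C.a) i i) (-(C.a j j * rr C.a i))
    (-(2 * (C.a * C.a) i j * (C.a * C.a * C.a) i j)) (2 * (C.a * C.a) i j * C.a i j)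
  have e : NN3 C.a i j = (C.a * C.a * C.a) i i * (rr C.a j - 1) +
      (C.a * C.a * C.a) j j * (rr C.a i - 1) + 2 * (C.a * C.a * C.a * C.a) i j * (1 - C.a i j) +
      C.a i i * (C.a * C.a * C.a * C.a) j j + -(C.a i i * rr C.a j) +
      C.a j j * (C.a * C.a * C.a * C.a) i i + -(C.a j j * rr C.a i) +
      -(2 * (C.a * C.a) i j * (C.a * C.a * C.a) i j) + 2 * (C.a * C.a) i j * C.a i j := by
    unfold NN3
    ring
  rw [← e] at h1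
  have h2 : (NN3 C.a i j / dd C.a i j) ^ 2 ≤ 2 * NN3 C.a i j ^ 2 := by
    rw [div_eq_mul_one_div, mul_pow, mul_comm]
    refine mul_le_mul_of_nonneg_right ?_ (sq_nonneg _)
    have f3 := hsm.inv_le
    have f4 := one_div_pos.2 hsm.dd_pos
    exact (pow_le_pow_left₀ f4.le f3 2).trans (by norm_num)
  have hf := abs_le.1 hsm.1
  have h3 : (1 - C.a i j) ^ 2 ≤ 1.001 ^ 2 := pow_le_pow_left₀ (by linarith) (by linarith) 2
  have h3' := mul_le_mul_of_nonneg_left h3 (sq_nonneg ((C.a * C.a * C.a * C.a) i j))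
  have h4 : C.a i j ^ 2 ≤ 1 := by
    rw [← sq_abs]
    exact pow_le_one₀ (abs_nonneg _) (by linarith [hsm.1])
  have h4' := mul_le_mul_of_nonneg_left h4 (sq_nonneg ((C.a * C.a) i j))
  have h5 := mul_le_mul (h_f2_sq hM i j) (L4a_f3_sq C i j) (sq_nonneg _)
    (mul_nonneg (rr_nonneg hM i) (rr_nonneg hM j))
  have p1 := sq_nonneg ((C.a * C.a * C.a) i i * (rr C.a j - 1))
  have p2 := sq_nonneg ((C.a * C.a * C.a) j j * (rr C.a i - 1))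
  have p3 := sq_nonneg ((C.a * C.a * C.a * C.a) i j)
  have p4 := sq_nonneg (C.a i i * (C.a * C.a * C.a * C.a) j j)
  have p5 := sq_nonneg (C.a i i * rr C.a j)
  have p6 := sq_nonneg (C.a j j * (C.a * C.a * C.a * C.a) i i)
  have p7 := sq_nonneg (C.a j j * rr C.a i)
  have p8 : 0 ≤ C.K ^ 2 * (rr C.a i * rr C.a j) ^ 2 := by positivity
  have p9 := sq_nonneg ((C.a * C.a) i j)
  linarith

theorem V3N : ∃ C0 : ℝ, 0 ≤ C0 ∧ ∀ {ι : Type} [Fintype ι] [DecidableEq ι] (C : Ctx ι),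
    C.E (fun i j => (NN3 C.a i j / dd C.a i j) ^ 2) ≤ C0 * (C.K * C.s ^ 2 + C.de * C.K ^ 4) ^ 2 := by
  refine ⟨10000, by norm_num, fun {ι} _ _ C => ?_⟩
  have hM := C.let_a.symm
  have hK := C.ok.K1
  have hs := C.h_s1
  have hde := C.ok.de1
  have hdl := C.ok.dl0
  have hdle := C.ok.dle
  have hD : ∑ k, C.a k k ^ 2 ≤ C.de ^ 2 := C.h_D_sq.trans (by gcongr)
  have hr : ∑ k, rr C.a k ^ 2 ≤ (2 * C.s) ^ 2 := by
    have := C.ok.rt0
    have := C.ok.rts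
    exact C.ha.r2.trans (by gcongr)
  have hg4 : ∑ i, (C.a * C.a * C.a * C.a) i i ^ 2 ≤ (C.K ^ 4) ^ 2 :=
    le_trans (Finset.sum_le_sum fun i _ => Finset.single_le_sum
      (f := fun j => (C.a * C.a * C.a * C.a) i j ^ 2) (fun _ _ => sq_nonneg _) (mem_univ i))
      (L4a_F4 C)
  refine (C.TU (fun i j h => L4_pt C (C.h_sm h)) fun i j => by positivity).trans ?_
  simp only [Finset.sum_add_distrib, ← Finset.mul_sum]
  have s1 := h_frob_prod (L4a_g3 C) C.h_y_sq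
  have s2 := h_frob_prod' (L4a_g3 C) C.h_y_sq
  have s3 := L4a_F4 C
  have s4 := h_frob_prod hD hg4
  have s5 := h_frob_prod hD hr
  have s6 := h_frob_prod' hD hg4
  have s7 := h_frob_prod' hD hr
  have s8 := mul_le_mul_of_nonneg_left (h_frob_prod hr hr) (sq_nonneg C.K)
  have s9 := L4a_F2 C
  have u1 : C.K ^ 8 ≤ C.de ^ 2 * C.K ^ 8 := le_mul_of_one_le_left (by positivity) (one_le_pow₀ hde)
  have u2 : C.K ^ 4 ≤ C.K ^ 8 := pow_le_pow_right₀ hK (by norm_num)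
  have u3 : C.de ^ 2 * C.s ^ 2 ≤ C.K ^ 2 * C.s ^ 4 := by
    calc C.de ^ 2 * C.s ^ 2 ≤ C.s ^ 2 * C.s ^ 2 := by
          gcongr
          exact C.h_de_bt.trans C.bt_le_s
      _ = 1 * C.s ^ 4 := by ring
      _ ≤ _ := by
          gcongr
          exact one_le_pow₀ hK
  have u4 : 0 ≤ C.K * C.s ^ 2 * (C.de * C.K ^ 4) := by positivity
  have u5 : 0 ≤ C.K ^ 2 * C.s ^ 4 := by positivity
  have u6 : 0 ≤ C.de ^ 2 * C.K ^ 8 := by positivity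
  refine (mul_le_mul C.ok.pm2 (b := 3 / 2) (d := 6000 * (C.K ^ 2 * C.s ^ 4 + C.de ^ 2 * C.K ^ 8))
    (by linarith) (by positivity) (by norm_num)).trans (by linarith)

theorem L4 : ∃ C0 : ℝ, 0 ≤ C0 ∧ ∀ {ι : Type} [Fintype ι] [DecidableEq ι] (C : Ctx ι), C.w ≤ C.K →
    C.E (fun i j => tau4 (upd C.a i j) - tau4 C.a) ≤ 4 * WW C.a C.a ^ 2 + C0 * C.err4 := by
  obtain ⟨Ca, hCa, Ha⟩ := L4a
  obtain ⟨C1, hC1, H1⟩ := V1
  obtain ⟨C3, hC3, H3⟩ := V3N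
  obtain ⟨C2, hC2, H2⟩ := V2N
  obtain ⟨C4, hC4, H4⟩ := V14
  refine ⟨4 * Ca + 16 * (C1 + C3) + 4 * (8 * C2 + 3) + 6 * C4, by positivity,
    fun {ι} _ _ C hw => ?_⟩
  obtain ⟨e1, e2, e3, e4, e5, e6, e7⟩ := C.h_err4
  have hM := C.let_a.symm
  have hK := C.ok.K1
  have hs := C.h_s1
  have hde := C.ok.de1
  have hdl := C.ok.dl0
  have hdle := C.ok.dle
  have hb := C.ok.bt1
  have hw0 := C.h_w0
  have hdb := C.h_de_bt
  have hdb2 := C.ok.deb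
  have hbs := C.bt_le_s
  have he0 : 0 ≤ C.err4 := le_trans (by positivity) e7
  have h0 : C.E (fun i j => tau4 (upd C.a i j) - tau4 C.a) ≤
      4 * C.E (fun i j => NN4 C.a i j / dd C.a i j) +
      4 * C.E (fun i j => eps1 C.a i j * (NN3 C.a i j / dd C.a i j)) +
      8 * C.E (fun i j => (NN2 C.a i j / dd C.a i j) ^ 2) + C.E (fun _ _ => 8) +
      3 * C.E (fun i j => eps1 C.a i j ^ 4) := by
    simp only [← C.E_mul, ← C.E_add]
    refine C.E_mono fun i j h => ?_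
    rw [tau4_upd hM h.1 (C.h_sm h).dd_pos.ne']
    have f1 := sq_nonneg (eps1 C.a i j ^ 2 - (NN2 C.a i j / dd C.a i j - 1))
    have f2 := sq_nonneg (NN2 C.a i j / dd C.a i j + 1)
    linarith
  rw [C.E_const] at h0
  have hZ : C.Z ≤ 3 / 2 * C.s ^ 4 :=
    C.Z_le.trans (mul_le_mul_of_nonneg_right C.ok.pm2 (by positivity))
  have u1 : C.de ^ 4 * C.w ^ 2 * C.s ^ 2 ≤ C.err4 := by
    refine le_trans ?_ e1
    calc C.de ^ 4 * C.w ^ 2 * C.s ^ 2 = C.de ^ 2 * C.w ^ 2 * (C.de ^ 2 * C.s ^ 2) := by ring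
      _ ≤ C.bt * C.K ^ 2 * (C.s * C.s ^ 2) := by
          gcongr
          exact hdb2.trans hbs
      _ = _ := by ring
  have u2 : C.var2 ≤ 4 * C.err4 := by
    have f1 : C.K ^ 6 ≤ C.bt * C.K ^ 6 := le_mul_of_one_le_left (by positivity) hb
    have f2 : C.de ^ 2 * C.K ^ 2 * C.s ^ 2 ≤ C.bt * C.K ^ 2 * C.s ^ 3 := by
      gcongr
      norm_num
    unfold Num.var2
    linarith
  have u3 : C.var14 ≤ 2 * C.err4 := by
    unfold Num.var14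
    linarith
  have u4 : (C.K ^ 2 + C.de * C.s) * (C.K * C.s ^ 2 + C.de * C.K ^ 4) ≤ 4 * C.err4 := by
    have f1 : C.de * C.K ^ 6 ≤ C.bt * C.K ^ 6 := by gcongr
    have f2 : C.de * C.K * C.s ^ 3 ≤ C.bt * C.K ^ 2 * C.s ^ 3 := by
      gcongr
      exact le_self_pow₀ hK two_ne_zero
    have f3 : C.de ^ 2 * C.s * C.K ^ 4 ≤ C.bt * C.s * C.K ^ 4 := by gcongr
    linarith
  have u5 : C.var1 ≤ (C.K ^ 2 + C.de * C.s) ^ 2 := by
    have f1 : C.dl ^ 2 * C.s ^ 2 ≤ C.de ^ 2 * C.s ^ 2 := by gcongr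
    have f2 : 0 ≤ C.K ^ 2 * (C.de * C.s) := by positivity
    unfold Num.var1
    linarith
  have h1 : C.E (fun i j => eps1 C.a i j * (NN3 C.a i j / dd C.a i j)) ≤ (C1 + C3) * (4 * C.err4) := by
    refine le_trans (abs_le_of_sq_le_sq' ((C.E_mul_sq_le _ _).trans ?_) (by positivity)).2
      (mul_le_mul_of_nonneg_left u4 (by positivity))
    have f0 : 0 ≤ C.E (fun i j => (NN3 C.a i j / dd C.a i j) ^ 2) := by
      have := C.E_mono (X := fun _ _ => 0) (Y := fun i j => (NN3 C.a i j / dd C.a i j) ^ 2)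
        fun i j _ => sq_nonneg _
      rwa [C.E_const, zero_mul] at this
    calc _ ≤ (C1 * (C.K ^ 2 + C.de * C.s) ^ 2) * (C3 * (C.K * C.s ^ 2 + C.de * C.K ^ 4) ^ 2) :=
          mul_le_mul ((H1 C).trans (mul_le_mul_of_nonneg_left u5 hC1)) (H3 C) f0 (by positivity)
      _ = (C1 * C3) * ((C.K ^ 2 + C.de * C.s) * (C.K * C.s ^ 2 + C.de * C.K ^ 4)) ^ 2 := by ring
      _ ≤ (C1 + C3) ^ 2 * ((C.K ^ 2 + C.de * C.s) * (C.K * C.s ^ 2 + C.de * C.K ^ 4)) ^ 2 := by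
          refine mul_le_mul_of_nonneg_right ?_ (sq_nonneg _)
          have := mul_nonneg hC1 hC3
          linarith [sq_nonneg C1, sq_nonneg C3]
      _ = _ := by ring
  have h2 := (H2 C).trans (mul_le_mul_of_nonneg_left u2 hC2)
  have h3 := (H4 C).trans (mul_le_mul_of_nonneg_left u3 hC4)
  have h4 := Ha C hw
  linarith

end Crest.Agent.R62
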