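import Crest.Agent.R62.H25e

/-!
# R62-L5b: row norms, first order terms (b), (c)

Notation: `M = C.a`, `m = s²`, `w = u²`, `B = bt²`, `f = M i j`, `g = M i i`, `h = M j j`, `d = dd M i j`,
`f_p = (M^p) i j`, `g_p`, `h_p` the diagonal entries, `r = rr M`, `y = r - 1`, `x = r - c`, `k = (1-f)/d`,
`‖X‖ = (∑ i j, X i j ²)^(1/2)`.  Tools: `Bas1`, `Bas2` (`E_eq`, `TP`, `T1`, `TF`, `TU`, `TUabs`, `E_one`,
`cs2`, `F_fgh`, `Sm.*`).  The constant `C0` is existential: be generous.  Useful: `1 ≤ de`, `dl ≤ de`,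
`de² ≤ bt ≤ s`, `1 ≤ u`, `w ≤ s`, `tt ≤ s`, `rt ≤ 2 s`, `lam ≤ bt`, `1 ≤ K`, `K² ≤ sS`.

`κ₁ = k M_kj + (h/d) M_ki`, `κ₂ = k M_ki + (g/d) M_kj`.  Put `z_j = ∑_k x_k M_kj²`, `z̄_j = ∑_k |x_k| M_kj²`,
`Y = M * diagonal x * M`.  Facts: `∑ z = ∑ x r`, `∑ z̄² ≤ 9 w⁴` (`schurH`), `∑ z̄ ≤ w rt`,
`∑ ω z̄ ≤ w rt + 12 w³`, `‖Y‖ ≤ ∑_k |x_k| r_k ≤ w rt`.
(b) `∑_k x_k κ₁² y_i = k² y_i z_j + 2k(h/d) y_i Y_ij + (h/d)² y_i z_i` (and symmetrically, `E_swap`).
Main term `y_i z_j = x_i z_j - (1-c) z_j`: `TF` (`F = 3w³`) and `E_one`; plain sum `(τ₂ - m) ∑ x r`.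
Remainder `|k² - 1| ≤ 5(|f| + |gh|)`, `|y_i| ≤ |x_i| + 1`: `cs2` for the `x` part,
`∑_j z̄_j ∑_i |f| ≤ w rt · 2 s u` (`row_abs`), `∑_j z̄_j |h| ∑_i |g| ≤ 3w² dl · s dl`.
`∑|h y_i Y_ij| ≤ (dl 2s)(w rt)`, `∑ h² |y_i| z̄_i ≤ dl² 2s 3w²`.
(c) `∑_k x_k κ₁κ₂ = (k² + gh/d²) Y_ij + (k/d)(g z_j + h z_i)`; `∑|f₂||Y| ≤ K² w rt`, `∑|f₂||g| z̄_j ≤ K² dl 3w²`.
-/

set_option autoImplicit false
open Matrix Finset

namespace Crest.Agent.R62

section
variable {ι : Type} [Fintype ι] [DecidableEq ι] {x : Matrix ι ι ℝ} {i j : ι}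

theorem L5b_k2 (hsm : Sm x i j) :
    |((1 - x i j) / dd x i j) ^ 2 - 1| ≤ 5 * (|x i j| + |x i i * x j j|) := by
  have f1 := hsm.k_sub
  have f2 := hsm.k_le
  have f3 := hsm.k_pos
  have e : ((1 - x i j) / dd x i j) ^ 2 - 1 =
      ((1 - x i j) / dd x i j + 1) * ((1 - x i j) / dd x i j - 1) := by ring
  rw [e, abs_mul, abs_of_nonneg (by linarith)]
  have f4 : 0 ≤ |x i j| + |x i i * x j j| := by positivity
  nlinarith [abs_nonneg ((1 - x i j) / dd x i j - 1)]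

theorem L5b_q (hsm : Sm x i j) : |2 * ((1 - x i j) / dd x i j) * (1 / dd x i j)| ≤ 3 := by
  have f1 := hsm.k_le
  have f2 := hsm.k_pos
  have f3 := hsm.inv_le
  have f4 := one_div_pos.2 hsm.dd_pos
  rw [abs_of_nonneg (by positivity)]
  nlinarith

theorem L5b_i2 (hsm : Sm x i j) : |(1 / dd x i j) ^ 2| ≤ 2 := by
  have f3 := hsm.inv_le
  have f4 := one_div_pos.2 hsm.dd_pos
  rw [abs_of_nonneg (by positivity)]
  nlinarith

end

set_option maxHeartbeats 800000 in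
theorem L5b_half {ι : Type} [Fintype ι] [DecidableEq ι] (C : Ctx ι) :
    |C.E (fun i j => ∑ k, (rr C.a k - C.c) * (kap1 C.a i j k ^ 2 * (rr C.a i - 1)))
      - (tau2 C.a - C.s ^ 2) * ∑ k, (rr C.a k - C.c) * rr C.a k| ≤ 300 * C.err5 := by
  obtain ⟨e1, e2, e3, e4, e5, e6, e7, e8⟩ := C.h_err5
  obtain ⟨g1, g2, g3, g4, g5, g6, g7, g8, g9, g10, g11, g12, g13, g14, g15⟩ := C.h_err5'
  have hM := C.let_a.symm
  have hdl := C.ok.dl0
  have hrt := C.ok.rt0
  have hrts := C.ok.rts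
  have hdle := C.ok.dle
  have hw := C.h_w0
  have hw1 := C.one_le_w
  have hs := C.ok.s0
  have hu := C.h_u0
  have hde := C.ok.de1
  have hb := C.ok.bt1
  have hwu : C.w = C.u ^ 2 := rfl
  have hbb : C.bt ≤ C.bt ^ 2 := le_self_pow₀ hb two_ne_zero
  have hdd : C.de ≤ C.de ^ 2 := le_self_pow₀ hde two_ne_zero
  set x : ι → ℝ := fun k => rr C.a k - C.c with hx
  set z : ι → ℝ := fun j => ∑ k, x k * C.a k j ^ 2 with hz
  set Y : ι → ι → ℝ := fun i j => ∑ k, x k * (C.a k i * C.a k j) with hY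
  have h0 : C.E (fun i j => ∑ k, (rr C.a k - C.c) * (kap1 C.a i j k ^ 2 * (rr C.a i - 1))) =
      C.E (fun i j => ((1 - C.a i j) / dd C.a i j) ^ 2 * (x i * z j)) -
        (1 - C.c) * (C.E (fun i j => (((1 - C.a i j) / dd C.a i j) ^ 2 - 1) * z j) +
          C.E (fun _ j => z j)) +
        C.E (fun i j => (2 * ((1 - C.a i j) / dd C.a i j) * (1 / dd C.a i j)) *
          (C.a j j * (rr C.a i - 1) * Y i j)) +
        C.E (fun i j => (1 / dd C.a i j) ^ 2 * ((rr C.a i - 1) * z i * C.a j j ^ 2)) := by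
    rw [← C.E_add, ← C.E_mul, ← C.E_sub, ← C.E_add, ← C.E_add]
    refine C.E_congr fun i j _ => ?_
    have : ∑ k, (rr C.a k - C.c) * (kap1 C.a i j k ^ 2 * (rr C.a i - 1)) =
        ((1 - C.a i j) / dd C.a i j) ^ 2 * (rr C.a i - 1) * z j +
        (2 * ((1 - C.a i j) / dd C.a i j) * (1 / dd C.a i j)) * (C.a j j * (rr C.a i - 1)) * Y i j +
        (1 / dd C.a i j) ^ 2 * (rr C.a i - 1) * C.a j j ^ 2 * z i := by
      simp only [hz, hY, hx, Finset.mul_sum, ← Finset.sum_add_distrib]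
      refine Finset.sum_congr rfl fun k _ => ?_
      simp only [kap1]
      ring
    rw [this]
    simp only [hx]
    ring
  have hk2 : ∀ i j, Good C.a C.b i j →
      |((1 - C.a i j) / dd C.a i j) ^ 2 - 1| ≤ 5 * (|C.a i j| + |C.a i i * C.a j j|) := by
    exact fun i j h => L5b_k2 (C.h_sm h)
  have hz2 : ∑ j, z j ^ 2 ≤ (3 * C.w * C.w) ^ 2 := C.h_schur x C.h_x_sq
  have hzb : ∀ j, |z j| ≤ ∑ k, |x k| * C.a k j ^ 2 := fun j =>
    (h_abs_sum_mul _ _).trans (by simp only [abs_pow, sq_abs, le_refl])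
  have hz1 : ∑ j, |z j| ≤ C.w * (2 * C.s) := by
    refine (Finset.sum_le_sum fun j _ => hzb j).trans ?_
    rw [C.h_sum_zbar]
    exact (C.h_v_r x hw C.h_x_sq).trans (by gcongr)
  have hF := h_frob_prod C.h_x_sq hz2
  have h1 := C.h_rem (c := 5) (by norm_num) (by positivity) hk2 hF
  have h1' := mul_le_mul_of_nonneg_right C.tt_add_le
    (by positivity : 0 ≤ C.w * (3 * C.w * C.w))
  have h2 := C.TF (by positivity) hF
  rw [h_prod] at h2
  have h3 : |C.E (fun i j => (((1 - C.a i j) / dd C.a i j) ^ 2 - 1) * z j)| ≤ 60 * C.err5 := by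
    refine (C.TUabs (Y := fun i j => 5 * (|z j| * |C.a j i| + |C.a i i| * (|C.a j j| * |z j|)))
      (fun i j h => ?_) fun i j => by positivity).trans ?_
    · rw [abs_mul, hM.apply i j]
      have := mul_le_mul_of_nonneg_right (hk2 i j h) (abs_nonneg (z j))
      rw [abs_mul] at this
      linarith
    · simp only [← Finset.mul_sum (a := (5 : ℝ)), Finset.sum_add_distrib]
      rw [h_prod, Finset.sum_comm]
      have f1 : ∑ j, ∑ i, |z j| * |C.a j i| ≤ C.w * (2 * C.s) * (2 * C.s * C.u) := by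
        calc _ ≤ ∑ j, |z j| * (2 * C.s * C.u) := Finset.sum_le_sum fun j _ => by
              rw [← Finset.mul_sum]
              exact mul_le_mul_of_nonneg_left (C.row_abs C.let_a j) (abs_nonneg _)
          _ ≤ _ := by
              rw [← Finset.sum_mul]
              gcongr
      have f2 : (∑ i, |C.a i i|) * ∑ j, |C.a j j| * |z j| ≤
          (C.s * C.de) * (C.de * (3 * C.w * C.w)) :=
        mul_le_mul ((C.sum_abs_diag C.let_a).trans (by gcongr))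
          ((h_cs1 _ _ hdl (by positivity) C.h_D_sq hz2).trans (by gcongr))
          (Finset.sum_nonneg fun _ _ => by positivity) (by positivity)
      have f3 : C.w * (2 * C.s) * (2 * C.s * C.u) = 4 * (C.u ^ 3 * C.s ^ 2) := by
        rw [hwu]
        ring
      linarith
  have h4 : |C.E (fun _ j => z j) - C.s ^ 2 * ∑ j, z j| ≤ 20 * C.err5 := by
    rw [C.E_swap fun i _ => z i]
    refine (C.E_one z).trans ?_
    have f1 : C.lam * |∑ j, z j| ≤ C.bt ^ 2 * (C.w * (2 * C.s)) :=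
      mul_le_mul (C.ok.lamb.trans hbb) ((Finset.abs_sum_le_sum_abs _ _).trans hz1)
        (abs_nonneg _) (by positivity)
    have f2 : ∑ i, C.ω i * |z i| ≤ C.w * (2 * C.s) + 6 * C.w ^ 2 * C.w := by
      refine le_trans (Finset.sum_le_sum fun j _ => mul_le_mul_of_nonneg_left (hzb j)
        (zero_le_one.trans (C.one_le_om j))) ((C.h_om_zbar x hw C.h_x_sq).trans ?_)
      gcongr
    have f3 := mul_le_mul_of_nonneg_left f2 (sq_nonneg C.bt)
    linarith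
  have h5 := C.h_abs (q := fun i j => 2 * ((1 - C.a i j) / dd C.a i j) * (1 / dd C.a i j))
    (X := fun i j => C.a j j * (rr C.a i - 1) * Y i j) (c := 3)
    (A := C.de * (2 * C.s) * (C.w * (2 * C.s))) (by norm_num) (fun i j h => L5b_q (C.h_sm h)) (by
      simp only [abs_mul _ (Y _ _)]
      exact (h_cs2 (fun i j => C.a j j * (rr C.a i - 1)) Y (by positivity) (by positivity)
        (h_frob_prod' C.h_D_sq C.h_y_sq) (C.h_Y x hw C.h_x_sq)).trans (by gcongr))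
  have h5' : C.de * (C.w * C.s ^ 2) ≤ C.de ^ 2 * (C.w * C.s ^ 2) := by
    gcongr
  have h6 := C.h_abs (q := fun i j => (1 / dd C.a i j) ^ 2)
    (X := fun i j => (rr C.a i - 1) * z i * C.a j j ^ 2) (c := 2)
    (A := (2 * C.s) * (3 * C.w * C.w) * C.de ^ 2) (by norm_num) (fun i j h => L5b_i2 (C.h_sm h)) (by
      simp only [abs_mul, abs_pow, sq_abs]
      rw [h_prod]
      exact mul_le_mul (h_cs1 _ _ (by positivity) (by positivity) C.h_y_sq hz2)
        (C.h_D_sq.trans (by gcongr)) (Finset.sum_nonneg fun _ _ => sq_nonneg _) (by positivity))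
  have h7 : ∑ j, z j = ∑ k, (rr C.a k - C.c) * rr C.a k := C.h_sum_zbar x
  have h8 : ∑ i, x i = tau2 C.a - C.c * C.s ^ 2 := by
    simp only [hx, Finset.sum_sub_distrib, tau2_eq, C.card, Finset.sum_const, Finset.card_univ,
      nsmul_eq_mul]
    ring
  rw [h8, h7] at h2
  rw [h7] at h4
  have hc0 : 0 ≤ 1 - C.c := sub_nonneg.2 C.ok.c1
  have hc1 : 1 - C.c ≤ 1 := by linarith [C.ok.c0]
  have h9 : |(1 - C.c) * (C.E (fun i j => (((1 - C.a i j) / dd C.a i j) ^ 2 - 1) * z j) +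
      (C.E (fun _ j => z j) - C.s ^ 2 * ∑ k, (rr C.a k - C.c) * rr C.a k))| ≤ 80 * C.err5 := by
    rw [abs_mul, abs_of_nonneg hc0]
    refine (mul_le_of_le_one_left (abs_nonneg _) hc1).trans ((abs_add_le _ _).trans ?_)
    linarith
  rw [h0]
  rw [abs_le] at h1 h2 h5 h6 h9 ⊢
  constructor <;> linarith [h1.1, h1.2, h2.1, h2.2, h5.1, h5.2, h6.1, h6.2, h9.1, h9.2]

theorem L5b : ∃ C0 : ℝ, 0 ≤ C0 ∧ ∀ {ι : Type} [Fintype ι] [DecidableEq ι] (C : Ctx ι),
    |C.E (fun i j => ∑ k, (rr C.a k - C.c) *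
        (kap1 C.a i j k ^ 2 * (rr C.a i - 1) + kap2 C.a i j k ^ 2 * (rr C.a j - 1)))
      - 2 * (tau2 C.a - C.s ^ 2) * ∑ k, (rr C.a k - C.c) * rr C.a k| ≤ C0 * C.err5 := by
  refine ⟨600, by norm_num, fun {ι} _ _ C => ?_⟩
  have hM := C.let_a.symm
  have h := L5b_half C
  have h0 : C.E (fun i j => ∑ k, (rr C.a k - C.c) *
      (kap1 C.a i j k ^ 2 * (rr C.a i - 1) + kap2 C.a i j k ^ 2 * (rr C.a j - 1))) =
      C.E (fun i j => ∑ k, (rr C.a k - C.c) * (kap1 C.a i j k ^ 2 * (rr C.a i - 1))) +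
      C.E (fun i j => ∑ k, (rr C.a k - C.c) * (kap1 C.a j i k ^ 2 * (rr C.a j - 1))) := by
    rw [← C.E_add]
    refine C.E_congr fun i j _ => ?_
    simp only [h_kap_swap hM i j, mul_add, Finset.sum_add_distrib]
  rw [h0, C.E_swap fun i j => ∑ k, (rr C.a k - C.c) * (kap1 C.a i j k ^ 2 * (rr C.a i - 1))]
  rw [abs_le] at h ⊢
  constructor <;> linarith [h.1, h.2]

theorem L5c : ∃ C0 : ℝ, 0 ≤ C0 ∧ ∀ {ι : Type} [Fintype ι] [DecidableEq ι] (C : Ctx ι),
    |C.E (fun i j => ∑ k, (rr C.a k - C.c) *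
        (2 * kap1 C.a i j k * kap2 C.a i j k * (C.a * C.a) i j))| ≤ C0 * C.err5 := by
  refine ⟨100, by norm_num, fun {ι} _ _ C => ?_⟩
  obtain ⟨e1, e2, e3, e4, e5, e6, e7, e8⟩ := C.h_err5
  obtain ⟨g1, g2, g3, g4, g5, g6, g7, g8, g9, g10, g11, g12, g13, g14, g15⟩ := C.h_err5'
  have hM := C.let_a.symm
  have hdl := C.ok.dl0
  have hrt := C.ok.rt0
  have hrts := C.ok.rts
  have hdle := C.ok.dle
  have hw := C.h_w0
  have hs := C.ok.s0
  have hS := C.h_sS0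
  have hKS := C.sS_ge
  have hws := C.w_le_s
  have hde := C.h_de0
  set x : ι → ℝ := fun k => rr C.a k - C.c with hx
  set z : ι → ℝ := fun j => ∑ k, x k * C.a k j ^ 2 with hz
  set Y : ι → ι → ℝ := fun i j => ∑ k, x k * (C.a k i * C.a k j) with hY
  have h0 : C.E (fun i j => ∑ k, (rr C.a k - C.c) *
      (2 * kap1 C.a i j k * kap2 C.a i j k * (C.a * C.a) i j)) =
      C.E (fun i j => (2 * (((1 - C.a i j) / dd C.a i j) ^ 2 +
        C.a i i * C.a j j * (1 / dd C.a i j) ^ 2)) * ((C.a * C.a) i j * Y i j)) +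
      C.E (fun i j => (2 * ((1 - C.a i j) / dd C.a i j) * (1 / dd C.a i j)) *
        ((C.a * C.a) i j * (C.a i i * z j))) +
      C.E (fun i j => (2 * ((1 - C.a i j) / dd C.a i j) * (1 / dd C.a i j)) *
        ((C.a * C.a) i j * (C.a j j * z i))) := by
    rw [← C.E_add, ← C.E_add]
    refine C.E_congr fun i j _ => ?_
    simp only [hz, hY, hx, Finset.mul_sum, ← Finset.sum_add_distrib]
    refine Finset.sum_congr rfl fun k _ => ?_
    simp only [kap1, kap2]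
    ring
  have hq : ∀ i j, Good C.a C.b i j →
      |2 * ((1 - C.a i j) / dd C.a i j) * (1 / dd C.a i j)| ≤ 3 := fun i j h => L5b_q (C.h_sm h)
  have hF2 : ∑ i, ∑ j, (C.a * C.a) i j ^ 2 ≤ C.sS ^ 2 :=
    (C.F2 C.let_a C.let_a).trans (by
      calc C.K ^ 4 = (C.K ^ 2) ^ 2 := by ring
        _ ≤ _ := by gcongr)
  have hz2 : ∑ j, z j ^ 2 ≤ (3 * C.w * C.w) ^ 2 := C.h_schur x C.h_x_sq
  have h1 := C.h_abs (q := fun i j => 2 * (((1 - C.a i j) / dd C.a i j) ^ 2 +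
      C.a i i * C.a j j * (1 / dd C.a i j) ^ 2)) (X := fun i j => (C.a * C.a) i j * Y i j) (c := 3)
    (A := C.sS * (C.w * (2 * C.s))) (by norm_num) (fun i j h => by
      have hsm := C.h_sm h
      have f1 := hsm.k_le
      have f2 := hsm.k_pos
      have f3 := hsm.inv_le
      have f4 := one_div_pos.2 hsm.dd_pos
      have f5 : ((1 - C.a i j) / dd C.a i j) ^ 2 ≤ 1.005 ^ 2 := by gcongr
      have f6 : (1 / dd C.a i j) ^ 2 ≤ 1.0031 ^ 2 := by gcongr
      have f7 := mul_le_mul hsm.2 f6 (sq_nonneg _) (by norm_num)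
      rw [abs_mul, abs_of_pos two_pos]
      have f8 := abs_add_le (((1 - C.a i j) / dd C.a i j) ^ 2)
        (C.a i i * C.a j j * (1 / dd C.a i j) ^ 2)
      rw [abs_mul _ ((1 / dd C.a i j) ^ 2), abs_of_nonneg (sq_nonneg (1 / dd C.a i j)),
        abs_of_nonneg (sq_nonneg ((1 - C.a i j) / dd C.a i j))] at f8
      linarith) (by
      simp only [abs_mul]
      exact (h_cs2 (C.a * C.a) Y hS (by positivity) hF2 (C.h_Y x hw C.h_x_sq)).trans (by gcongr))
  have h2 := C.h_abs (X := fun i j => (C.a * C.a) i j * (C.a i i * z j))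
    (A := C.sS * (C.de * (3 * C.w * C.s))) (by norm_num) hq (by
      simp only [abs_mul ((C.a * C.a) _ _)]
      exact (h_cs2 (C.a * C.a) (fun i j => C.a i i * z j) hS (by positivity) hF2
        (h_frob_prod C.h_D_sq hz2)).trans (by gcongr))
  have h3 := C.h_abs (X := fun i j => (C.a * C.a) i j * (C.a j j * z i))
    (A := C.sS * (C.de * (3 * C.w * C.s))) (by norm_num) hq (by
      simp only [abs_mul ((C.a * C.a) _ _)]
      exact (h_cs2 (C.a * C.a) (fun i j => C.a j j * z i) hS (by positivity) hF2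
        (h_frob_prod' C.h_D_sq hz2)).trans (by gcongr))
  rw [h0]
  rw [abs_le] at h1 h2 h3 ⊢
  constructor <;> linarith [h1.1, h1.2, h2.1, h2.2, h3.1, h3.2]

end Crest.Agent.R62
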