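import Crest.Agent.R62.H25e

/-!
# R62-L5d: row norms, second order term

Notation: `M = C.a`, `m = s²`, `w = u²`, `B = bt²`, `f = M i j`, `g = M i i`, `h = M j j`, `d = dd M i j`,
`f_p = (M^p) i j`, `g_p`, `h_p` the diagonal entries, `r = rr M`, `y = r - 1`, `x = r - c`, `k = (1-f)/d`,
`‖X‖ = (∑ i j, X i j ²)^(1/2)`.  Tools: `Bas1`, `Bas2` (`E_eq`, `TP`, `T1`, `TF`, `TU`, `TUabs`, `E_one`,
`cs2`, `F_fgh`, `Sm.*`).  The constant `C0` is existential: be generous.  Useful: `1 ≤ de`, `dl ≤ de`,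
`de² ≤ bt ≤ s`, `1 ≤ u`, `w ≤ s`, `tt ≤ s`, `rt ≤ 2 s`, `lam ≤ bt`, `1 ≤ K`, `K² ≤ sS`.

Use `(a+b)² ≤ (1+ε) a² + (1+1/ε) b²` with `ε = 0.007` (four times; `k⁴ ≤ 1.005⁴`, `2·1.007⁴·1.005⁴ ≤ 2.1`).
`drr - dc = (κ₁² y_i + κ₂² y_j) + rest`, `rest = 2κ₁(MM)_ki + 2κ₂(MM)_kj + 2κ₁κ₂f₂ - dc`.
`κ₁² ≤ (1+ε) k² M_kj² + C h² M_ki²`, so
`(κ₁² y_i + κ₂² y_j)² ≤ (1+ε)³ k⁴ (M_kj²|y_i| + M_ki²|y_j|)² + C (h⁴ M_ki⁴ y_i² + g⁴ M_kj⁴ y_j²)`.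
Sums over `i j k`: `∑ M_kj⁴ y_i² = Q4 ∑ y²` (twice, the main term, via `TU`);
cross term `∑_k (∑_i |y_i| M_ki²)² ≤ 2·9w⁴ + 2 rt²` (`|y| ≤ |x| + 1`, `schurH`);
`∑ h⁴ M_ki⁴ y_i² ≤ dl⁴ ∑ ω⁴`; `∑ (κ₁ (MM)_ki)² ≤ C (∑ r gam)(1 + dl²) ≤ C de² sS²`
(`M_ki² ≤ r_k`); `κ₁²κ₂² ≤ C (M_ki² M_kj² + h² M_ki⁴ + g² M_kj⁴)` (use `|gh| ≤ 1`), `f₂² ≤ r_i r_j`:
`∑_k (∑_i r_i M_ki²)² ≤ 18 w⁴ + 2rt²`, `∑ h² r_j r_i³ ≤ 3 w dl² ∑ ω³`; `m · Z · dc² ≤ C m`.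
-/

set_option autoImplicit false
open Matrix Finset

namespace Crest.Agent.R62

theorem L5d_sq (a b : ℝ) : (a + b) ^ 2 ≤ 1.007 * a ^ 2 + 144 * b ^ 2 := by
  nlinarith [sq_nonneg (7 * a - 1000 * b), sq_nonneg b]

theorem L5d_kap {k t h a b : ℝ} (hk0 : 0 ≤ k) (hk : k ≤ 1.005) (ht0 : 0 ≤ t) (ht : t ≤ 1.0031) :
    (k * b + t * (h * a)) ^ 2 ≤ 1.0171 * b ^ 2 + 145 * (h ^ 2 * a ^ 2) := by
  have h1 := L5d_sq (k * b) (t * (h * a))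
  have h2 : k ^ 2 ≤ 1.005 ^ 2 := by gcongr
  have h3 : t ^ 2 ≤ 1.0031 ^ 2 := by gcongr
  have h4 := mul_le_mul_of_nonneg_right h2 (sq_nonneg b)
  have h5 := mul_le_mul_of_nonneg_right h3 (by positivity : 0 ≤ h ^ 2 * a ^ 2)
  have h6 : 0 ≤ h ^ 2 * a ^ 2 := by positivity
  nlinarith [sq_nonneg b]

theorem L5d_P {κ₁ κ₂ g h a b yi yj : ℝ} (h1 : κ₁ ^ 2 ≤ 1.0171 * b ^ 2 + 145 * (h ^ 2 * a ^ 2))
    (h2 : κ₂ ^ 2 ≤ 1.0171 * a ^ 2 + 145 * (g ^ 2 * b ^ 2)) :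
    (κ₁ ^ 2 * yi + κ₂ ^ 2 * yj) ^ 2 ≤
      1.042 * (yi ^ 2 * b ^ 4 + yj ^ 2 * a ^ 4 + 2 * ((|yi| * a ^ 2) * (|yj| * b ^ 2))) +
        10 ^ 7 * (yi ^ 2 * a ^ 4 * h ^ 4 + yj ^ 2 * b ^ 4 * g ^ 4) := by
  set U := b ^ 2 * |yi| + a ^ 2 * |yj| with hU
  set V := h ^ 2 * a ^ 2 * |yi| + g ^ 2 * b ^ 2 * |yj| with hV
  have f1 : |κ₁ ^ 2 * yi + κ₂ ^ 2 * yj| ≤ 1.0171 * U + 145 * V := by
    refine (abs_add_le _ _).trans ?_
    rw [abs_mul, abs_mul, abs_of_nonneg (sq_nonneg κ₁), abs_of_nonneg (sq_nonneg κ₂)]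
    have g1 := mul_le_mul_of_nonneg_right h1 (abs_nonneg yi)
    have g2 := mul_le_mul_of_nonneg_right h2 (abs_nonneg yj)
    rw [hU, hV]
    linarith
  have f2 : (κ₁ ^ 2 * yi + κ₂ ^ 2 * yj) ^ 2 ≤ (1.0171 * U + 145 * V) ^ 2 := by
    rw [← sq_abs]
    gcongr
  have f3 := L5d_sq (1.0171 * U) (145 * V)
  have f4 : U ^ 2 = yi ^ 2 * b ^ 4 + yj ^ 2 * a ^ 4 + 2 * ((|yi| * a ^ 2) * (|yj| * b ^ 2)) := by
    rw [hU, ← sq_abs yi, ← sq_abs yj]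
    ring
  have f5 : V ^ 2 ≤ 2 * (yi ^ 2 * a ^ 4 * h ^ 4 + yj ^ 2 * b ^ 4 * g ^ 4) := by
    rw [hV, ← sq_abs yi, ← sq_abs yj]
    nlinarith [sq_nonneg (h ^ 2 * a ^ 2 * |yi| - g ^ 2 * b ^ 2 * |yj|)]
  rw [← f4]
  have f6 := sq_nonneg U
  have f7 := sq_nonneg V
  rw [mul_pow, mul_pow] at f3
  linarith

theorem L5d_R {κ₁ κ₂ g h a b p q f₂ ri rj dc : ℝ}
    (h1 : κ₁ ^ 2 ≤ 1.0171 * b ^ 2 + 145 * (h ^ 2 * a ^ 2))
    (h2 : κ₂ ^ 2 ≤ 1.0171 * a ^ 2 + 145 * (g ^ 2 * b ^ 2)) (hgh : |g * h| ≤ 1 / 1000)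
    (hf : f₂ ^ 2 ≤ ri * rj) :
    (2 * (κ₁ * p + κ₂ * q) + 2 * κ₁ * κ₂ * f₂ - dc) ^ 2 ≤
      10 ^ 6 * (b ^ 2 * p ^ 2 + a ^ 2 * p ^ 2 * h ^ 2 + (a ^ 2 * q ^ 2 + b ^ 2 * q ^ 2 * g ^ 2) +
        (ri * a ^ 2) * (rj * b ^ 2) + ri * a ^ 4 * (h ^ 2 * rj) + rj * b ^ 4 * (g ^ 2 * ri) + dc ^ 2) := by
  have f0 : (2 * (κ₁ * p + κ₂ * q) + 2 * κ₁ * κ₂ * f₂ - dc) ^ 2 ≤
      16 * (κ₁ ^ 2 * p ^ 2) + 16 * (κ₂ ^ 2 * q ^ 2) + 16 * (κ₁ ^ 2 * κ₂ ^ 2 * f₂ ^ 2) + 4 * dc ^ 2 := by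
    nlinarith [sq_nonneg (2 * κ₁ * p - 2 * κ₂ * q), sq_nonneg (2 * κ₁ * p - 2 * κ₁ * κ₂ * f₂),
      sq_nonneg (2 * κ₁ * p + dc), sq_nonneg (2 * κ₂ * q - 2 * κ₁ * κ₂ * f₂),
      sq_nonneg (2 * κ₂ * q + dc), sq_nonneg (2 * κ₁ * κ₂ * f₂ + dc)]
  have h1' : κ₁ ^ 2 ≤ 145 * (b ^ 2 + h ^ 2 * a ^ 2) := by linarith [sq_nonneg b]
  have h2' : κ₂ ^ 2 ≤ 145 * (a ^ 2 + g ^ 2 * b ^ 2) := by linarith [sq_nonneg a]
  have f1 := mul_le_mul_of_nonneg_right h1' (sq_nonneg p)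
  have f2 := mul_le_mul_of_nonneg_right h2' (sq_nonneg q)
  have hr : 0 ≤ ri * rj := (sq_nonneg _).trans hf
  have f3 : κ₁ ^ 2 * κ₂ ^ 2 ≤ 145 ^ 2 * (2 * (a ^ 2 * b ^ 2) + a ^ 4 * h ^ 2 + b ^ 4 * g ^ 2) := by
    have g1 := mul_le_mul h1' h2' (sq_nonneg _) (by positivity)
    have g2 : (g * h) ^ 2 ≤ 1 := by
      rw [← sq_abs]
      exact pow_le_one₀ (abs_nonneg _) (by linarith)
    have g3 := mul_le_mul_of_nonneg_right g2 (by positivity : 0 ≤ a ^ 2 * b ^ 2)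
    linarith
  have f4 := mul_le_mul f3 hf (sq_nonneg _) (by positivity)
  have p1 : 0 ≤ b ^ 2 * p ^ 2 := by positivity
  have p2 : 0 ≤ a ^ 2 * p ^ 2 * h ^ 2 := by positivity
  have p3 : 0 ≤ a ^ 2 * q ^ 2 := by positivity
  have p4 : 0 ≤ b ^ 2 * q ^ 2 * g ^ 2 := by positivity
  have p5 : 0 ≤ a ^ 2 * b ^ 2 * (ri * rj) := by positivity
  have p6 : 0 ≤ a ^ 4 * h ^ 2 * (ri * rj) := by positivity
  have p7 : 0 ≤ b ^ 4 * g ^ 2 * (ri * rj) := by positivity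
  have p8 := sq_nonneg dc
  linarith

/-- half of the error terms -/
noncomputable def L5d_H {ι : Type} [Fintype ι] [DecidableEq ι] (M : Matrix ι ι ℝ) (dc : ℝ)
    (i j k : ι) : ℝ :=
  (|rr M i - 1| * M k i ^ 2) * (|rr M j - 1| * M k j ^ 2) + (rr M i - 1) ^ 2 * M k i ^ 4 * M j j ^ 4
    + (M * M) k i ^ 2 * M k j ^ 2 + M k i ^ 2 * (M * M) k i ^ 2 * M j j ^ 2
    + (rr M i * M k i ^ 2) * (rr M j * M k j ^ 2) + rr M i * M k i ^ 4 * (M j j ^ 2 * rr M j) + dc ^ 2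

theorem L5d_H_nonneg {ι : Type} [Fintype ι] [DecidableEq ι] {M : Matrix ι ι ℝ} (hM : M.IsSymm)
    (dc : ℝ) (i j k : ι) : 0 ≤ L5d_H M dc i j k := by
  have := rr_nonneg hM i
  have := rr_nonneg hM j
  unfold L5d_H
  positivity

theorem L5d_pt {ι : Type} [Fintype ι] [DecidableEq ι] {M : Matrix ι ι ℝ} (hM : M.IsSymm) {i j : ι}
    (hsm : Sm M i j) (dc : ℝ) (k : ι) :
    (drr M i j k - dc) ^ 2 ≤ (1.05 * ((rr M i - 1) ^ 2 * M k j ^ 4) + 10 ^ 9 * L5d_H M dc i j k) +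
      (1.05 * ((rr M j - 1) ^ 2 * M k i ^ 4) + 10 ^ 9 * L5d_H M dc j i k) := by
  have ht := (one_div_pos.2 hsm.dd_pos).le
  have h1 : kap1 M i j k ^ 2 ≤ 1.0171 * M k j ^ 2 + 145 * (M j j ^ 2 * M k i ^ 2) := by
    convert L5d_kap (h := M j j) (a := M k i) (b := M k j) hsm.k_pos hsm.k_le ht hsm.inv_le using 2
    unfold kap1
    ring
  have h2 : kap2 M i j k ^ 2 ≤ 1.0171 * M k i ^ 2 + 145 * (M i i ^ 2 * M k j ^ 2) := by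
    convert L5d_kap (h := M i i) (a := M k j) (b := M k i) hsm.k_pos hsm.k_le ht hsm.inv_le using 2
    unfold kap2
    ring
  have h3 := L5d_P (yi := rr M i - 1) (yj := rr M j - 1) h1 h2
  have h4 := L5d_R (p := (M * M) k i) (q := (M * M) k j) (dc := dc) h1 h2 hsm.2 (h_f2_sq hM i j)
  have h5 := L5d_sq (kap1 M i j k ^ 2 * (rr M i - 1) + kap2 M i j k ^ 2 * (rr M j - 1))
    (2 * (kap1 M i j k * (M * M) k i + kap2 M i j k * (M * M) k j) +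
      2 * kap1 M i j k * kap2 M i j k * (M * M) i j - dc)
  have e : drr M i j k - dc = kap1 M i j k ^ 2 * (rr M i - 1) + kap2 M i j k ^ 2 * (rr M j - 1) +
      (2 * (kap1 M i j k * (M * M) k i + kap2 M i j k * (M * M) k j) +
        2 * kap1 M i j k * kap2 M i j k * (M * M) i j - dc) := by
    unfold drr
    ring
  rw [e]
  have ri := rr_nonneg hM i
  have rj := rr_nonneg hM j
  have p1 : 0 ≤ (|rr M i - 1| * M k i ^ 2) * (|rr M j - 1| * M k j ^ 2) := by positivity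
  have p2 : 0 ≤ (rr M i - 1) ^ 2 * M k i ^ 4 * M j j ^ 4 := by positivity
  have p2' : 0 ≤ (rr M j - 1) ^ 2 * M k j ^ 4 * M i i ^ 4 := by positivity
  have p3 : 0 ≤ (M * M) k i ^ 2 * M k j ^ 2 := by positivity
  have p3' : 0 ≤ (M * M) k j ^ 2 * M k i ^ 2 := by positivity
  have p4 : 0 ≤ M k i ^ 2 * (M * M) k i ^ 2 * M j j ^ 2 := by positivity
  have p4' : 0 ≤ M k j ^ 2 * (M * M) k j ^ 2 * M i i ^ 2 := by positivity
  have p5 : 0 ≤ (rr M i * M k i ^ 2) * (rr M j * M k j ^ 2) := by positivity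
  have p6 : 0 ≤ rr M i * M k i ^ 4 * (M j j ^ 2 * rr M j) := by positivity
  have p6' : 0 ≤ rr M j * M k j ^ 4 * (M i i ^ 2 * rr M i) := by positivity
  have p7 := sq_nonneg dc
  have p8 : 0 ≤ (rr M i - 1) ^ 2 * M k j ^ 4 := by positivity
  have p8' : 0 ≤ (rr M j - 1) ^ 2 * M k i ^ 4 := by positivity
  unfold L5d_H
  linarith

theorem L5d_sum3 {ι : Type} [Fintype ι] (X : ι → ι → ι → ℝ) :
    ∑ i, ∑ j, ∑ k, X i j k = ∑ k, ∑ i, ∑ j, X i j k := by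
  have : ∀ i, ∑ j, ∑ k, X i j k = ∑ k, ∑ j, X i j k := fun i => Finset.sum_comm
  simp only [this]
  exact Finset.sum_comm

theorem L5d_sumH {ι : Type} [Fintype ι] [DecidableEq ι] (C : Ctx ι) {dc : ℝ}
    (hdc : |dc| ≤ 2 / C.s ^ 2) : ∑ i, ∑ j, ∑ k, L5d_H C.a dc i j k ≤ 300 * C.err5 := by
  obtain ⟨e1, e2, e3, e4, e5, e6, e7, e8⟩ := C.h_err5
  obtain ⟨g1, g2, g3, g4, g5, g6, g7, g8, g9, g10, g11, g12, g13, g14, g15⟩ := C.h_err5'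
  have hM := C.let_a.symm
  have hdl := C.ok.dl0
  have hdle := C.ok.dle
  have hw := C.h_w0
  have hs := C.h_s1
  have hde := C.ok.de1
  have hr := rr_nonneg hM
  have hω : ∀ i, 0 ≤ C.ω i := fun i => zero_le_one.trans (C.one_le_om i)
  have hcross : ∀ v : ι → ℝ, (∀ i, 0 ≤ v i) → (∀ i, v i ≤ |rr C.a i - C.c| + 1) →
      ∑ i, ∑ j, ∑ k, (v i * C.a k i ^ 2) * (v j * C.a k j ^ 2) ≤ 26 * C.err5 := by
    intro v h0 hv
    rw [L5d_sum3]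
    simp only [h_prod, ← sq]
    have := C.h_cross v h0 hv
    linarith
  have s1 := hcross (fun i => |rr C.a i - 1|) (fun _ => abs_nonneg _) fun i => by
    have := abs_sub_le (rr C.a i) C.c 1
    rw [abs_sub_comm C.c 1, abs_of_nonneg (sub_nonneg.2 C.ok.c1)] at this
    linarith [C.ok.c0]
  have s5 := hcross (rr C.a) hr fun i => by
    have := le_abs_self (rr C.a i - C.c)
    linarith [C.ok.c1]
  have s2 : ∑ i, ∑ j, ∑ k, (rr C.a i - 1) ^ 2 * C.a k i ^ 4 * C.a j j ^ 4 ≤ 81 * C.err5 := by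
    simp only [← Finset.sum_mul]
    simp only [← Finset.mul_sum]
    rw [← Finset.sum_mul]
    have f1 : ∑ i, (rr C.a i - 1) ^ 2 * ∑ k, C.a k i ^ 4 ≤ 27 * (C.s ^ 2 + 2 * C.w ^ 4) := by
      refine le_trans (Finset.sum_le_sum fun i _ => ?_) C.sum_om4
      calc _ ≤ C.ω i ^ 2 * C.ω i ^ 2 := by
            refine mul_le_mul ?_ ((h_sum4 hM i).trans ?_)
              (Finset.sum_nonneg fun _ _ => by positivity) (sq_nonneg _)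
            · rw [← sq_abs]
              exact pow_le_pow_left₀ (abs_nonneg _) (C.dev_one_le_om C.let_a i) 2
            · exact pow_le_pow_left₀ (hr i) (C.rr_le_om C.let_a i) 2
        _ = _ := by ring
    have f2 : ∑ j, C.a j j ^ 4 ≤ C.de ^ 4 := by
      calc ∑ j, C.a j j ^ 4 ≤ ∑ j, C.dl ^ 2 * C.a j j ^ 2 := Finset.sum_le_sum fun j _ => by
            have : C.a j j ^ 2 ≤ C.dl ^ 2 := by
              rw [← sq_abs]
              exact pow_le_pow_left₀ (abs_nonneg _) (C.abs_diag_le C.let_a j) 2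
            calc C.a j j ^ 4 = C.a j j ^ 2 * C.a j j ^ 2 := by ring
              _ ≤ _ := by gcongr
        _ ≤ C.de ^ 2 * C.de ^ 2 := by
            rw [← Finset.mul_sum]
            exact mul_le_mul (by gcongr) (C.h_D_sq.trans (by gcongr))
              (Finset.sum_nonneg fun _ _ => sq_nonneg _) (sq_nonneg _)
        _ = _ := by ring
    have := mul_le_mul f1 f2 (Finset.sum_nonneg fun _ _ => by positivity) (by positivity)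
    linarith
  have s3 : ∑ i, ∑ j, ∑ k, (C.a * C.a) k i ^ 2 * C.a k j ^ 2 ≤ C.err5 := by
    rw [L5d_sum3]
    simp only [h_prod, h_gam_row hM hM, ← rr_eq hM, mul_comm (gam _ _ _)]
    exact (C.h_r_gam C.let_a C.let_a).trans g12
  have s4 : ∑ i, ∑ j, ∑ k, C.a k i ^ 2 * (C.a * C.a) k i ^ 2 * C.a j j ^ 2 ≤ C.err5 := by
    simp only [← Finset.sum_mul]
    rw [h_prod]
    have f1 : ∑ i, ∑ k, C.a k i ^ 2 * (C.a * C.a) k i ^ 2 ≤ C.sS ^ 2 := by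
      refine le_trans ?_ (C.h_r_gam C.let_a C.let_a)
      rw [Finset.sum_comm]
      refine Finset.sum_le_sum fun k _ => ?_
      rw [← h_gam_row hM hM, Finset.mul_sum]
      exact Finset.sum_le_sum fun i _ => mul_le_mul_of_nonneg_right (sq_le_rr hM k i) (sq_nonneg _)
    have := mul_le_mul f1 (C.h_D_sq.trans (by gcongr : C.dl ^ 2 ≤ C.de ^ 2))
      (Finset.sum_nonneg fun _ _ => sq_nonneg _) (sq_nonneg _)
    linarith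
  have s6 : ∑ i, ∑ j, ∑ k, rr C.a i * C.a k i ^ 4 * (C.a j j ^ 2 * rr C.a j) ≤ 81 * C.err5 := by
    simp only [← Finset.sum_mul]
    rw [h_prod]
    have f1 : ∑ i, ∑ k, rr C.a i * C.a k i ^ 4 ≤ 9 * (C.s ^ 2 + 2 * C.w ^ 3) := by
      refine le_trans (Finset.sum_le_sum fun i _ => ?_) C.sum_om3
      rw [← Finset.mul_sum]
      calc _ ≤ C.ω i * C.ω i ^ 2 := mul_le_mul (C.rr_le_om C.let_a i) ((h_sum4 hM i).trans
              (pow_le_pow_left₀ (hr i) (C.rr_le_om C.let_a i) 2))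
              (Finset.sum_nonneg fun _ _ => by positivity) (hω i)
        _ = _ := by ring
    have f2 : ∑ j, C.a j j ^ 2 * rr C.a j ≤ C.de ^ 2 * (3 * C.w) := by
      calc _ ≤ ∑ j, C.a j j ^ 2 * (3 * C.w) := Finset.sum_le_sum fun j _ =>
            mul_le_mul_of_nonneg_left ((C.rr_le_om C.let_a j).trans (C.om_le j)) (sq_nonneg _)
        _ ≤ _ := by
            rw [← Finset.sum_mul]
            exact mul_le_mul_of_nonneg_right (C.h_D_sq.trans (by gcongr)) (by positivity)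
    have f3 := mul_le_mul f1 f2 (Finset.sum_nonneg fun j _ => mul_nonneg (sq_nonneg _) (hr j))
      (by positivity)
    have f4 : C.de ^ 2 * C.w ^ 4 ≤ C.de ^ 4 * C.w ^ 4 := by
      gcongr
      norm_num
    linarith
  have s7 : ∑ _i : ι, ∑ _j : ι, ∑ _k : ι, dc ^ 2 ≤ 4 * C.err5 := by
    simp only [Finset.sum_const, Finset.card_univ, nsmul_eq_mul, ← C.card]
    have f1 : dc ^ 2 ≤ (2 / C.s ^ 2) ^ 2 := by
      rw [← sq_abs]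
      gcongr
    calc _ ≤ C.s ^ 2 * (C.s ^ 2 * (C.s ^ 2 * (2 / C.s ^ 2) ^ 2)) := by gcongr
      _ = 4 * C.s ^ 2 := by
          field_simp
          ring
      _ ≤ _ := by linarith
  simp only [L5d_H, Finset.sum_add_distrib]
  linarith

theorem L5d : ∃ C0 : ℝ, 0 ≤ C0 ∧ ∀ {ι : Type} [Fintype ι] [DecidableEq ι] (C : Ctx ι), ∀ dc : ℝ, |dc| ≤ 2 / C.s ^ 2 →
    C.E (fun i j => ∑ k, (drr C.a i j k - dc) ^ 2)
      ≤ 2.1 * C.pm * Q4 C.a * ∑ k, (rr C.a k - 1) ^ 2 + C0 * C.err5 := by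
  refine ⟨900 * 10 ^ 9, by norm_num, fun {ι} _ _ C dc hdc => ?_⟩
  have hM := C.let_a.symm
  have hH := L5d_sumH C hdc
  set Y : ι → ι → ℝ := fun i j =>
    ∑ k, (1.05 * ((rr C.a i - 1) ^ 2 * C.a k j ^ 4) + 10 ^ 9 * L5d_H C.a dc i j k) with hY
  have hY0 : ∀ i j, 0 ≤ Y i j := fun i j => Finset.sum_nonneg fun k _ => by
    have := L5d_H_nonneg hM dc i j k
    positivity
  have h1 := C.TU (X := fun i j => ∑ k, (drr C.a i j k - dc) ^ 2) (Y := fun i j => Y i j + Y j i)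
    (fun i j h => by
      simp only [hY, ← Finset.sum_add_distrib]
      exact Finset.sum_le_sum fun k _ => L5d_pt hM (C.h_sm h) dc k)
    fun i j => add_nonneg (hY0 i j) (hY0 j i)
  have h2 : ∑ i, ∑ j, (Y i j + Y j i) = 2 * ∑ i, ∑ j, Y i j := by
    simp only [Finset.sum_add_distrib]
    rw [Finset.sum_comm (f := fun i j => Y j i)]
    ring
  have h3 : ∑ i, ∑ j, Y i j = 1.05 * (Q4 C.a * ∑ k, (rr C.a k - 1) ^ 2) +
      10 ^ 9 * ∑ i, ∑ j, ∑ k, L5d_H C.a dc i j k := by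
    simp only [hY, Finset.sum_add_distrib, ← Finset.mul_sum, ← Finset.sum_mul]
    rw [mul_comm (Q4 C.a), Q4, Finset.sum_comm]
  rw [h2, h3] at h1
  have h4 : C.pm * ∑ i, ∑ j, ∑ k, L5d_H C.a dc i j k ≤ 3 / 2 * (300 * C.err5) :=
    mul_le_mul C.ok.pm2 hH (Finset.sum_nonneg fun i _ => Finset.sum_nonneg fun j _ =>
      Finset.sum_nonneg fun k _ => L5d_H_nonneg hM dc i j k) (by norm_num)
  linarith

end Crest.Agent.R62
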