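import Crest.Agent.R62.L5a
import Crest.Agent.R62.L5b
import Crest.Agent.R62.L5d
import Crest.Agent.R62.IdR

/-!
# R62-L5: drift of `rho` (boundary terms and assembly)

Notation: `M = C.a`, `m = s²`, `w = u²`, `B = bt²`, `f = M i j`, `g = M i i`, `h = M j j`, `d = dd M i j`,
`f_p = (M^p) i j`, `g_p`, `h_p` the diagonal entries, `r = rr M`, `y = r - 1`, `x = r - c`, `k = (1-f)/d`,
`‖X‖ = (∑ i j, X i j ²)^(1/2)`.  Tools: `Bas1`, `Bas2` (`E_eq`, `TP`, `T1`, `TF`, `TU`, `TUabs`, `E_one`,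
`cs2`, `F_fgh`, `Sm.*`).  The constant `C0` is existential: be generous.  Useful: `1 ≤ de`, `dl ≤ de`,
`de² ≤ bt ≤ s`, `1 ≤ u`, `w ≤ s`, `tt ≤ s`, `rt ≤ 2 s`, `lam ≤ bt`, `1 ≤ K`, `K² ≤ sS`.

`L5e`: by `kap1_i`, `kap2_i`: `|drr i| ≤ C[(|f|+|gh|) ω_i + |g||f₂| + g² ω_j]` on good pairs; sums:
`∑|x_i| ω_i |f| ≤ 3 w s · 2 s u` (`row_abs`, `∑|x| ω ≤ w · 3s`), `∑ |x_i| ω_i |g| ∑|h| ≤ 3w² dl · s dl`,
`|f₂| ≤ √r_i √r_j`, `∑|x||D|√r ≤ w dl 2u`, `∑ √r ≤ ∑ ω ≤ 3m`, `∑|x| g² ∑ ω ≤ w dl² 3m`; `|x_i||dc|` sums to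
`≤ 2 w s`.  The `j` terms are symmetric (`E_swap`, `drr M j i k = drr M i j k`).
`L5r`: `E_one` with `u = x²`.
`L5`: `rho_upd` with `δ_k = drr k - (c' - c)`:
`ρ' ≤ ρ - x_i² - x_j² + 2∑_k x_k δ_k + 2|x_i δ_i| + 2|x_j δ_j| + ∑_k δ_k²`;
`E(2∑ x δ) = 2(a + b + c) - 2 Z (c'-c) ∑ x` and `∑ x r = ρ + c ∑ x`, `|∑ x| ≤ w s`.
-/

set_option autoImplicit false
open Matrix Finset

namespace Crest.Agent.R62

theorem L5_pt {κ₁ κ₂ e g ri rj f₂ ωi ωj : ℝ} (h1 : |κ₁| ≤ 2 * e) (he : e ≤ 1 / 500)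
    (h2 : |κ₂| ≤ 2 * |g|) (hri0 : 0 ≤ ri) (hri : ri ≤ ωi) (hyi : |ri - 1| ≤ ωi)
    (hyj : |rj - 1| ≤ ωj) :
    |2 * (κ₁ * ri + κ₂ * f₂) + κ₁ ^ 2 * (ri - 1) + κ₂ ^ 2 * (rj - 1) + 2 * κ₁ * κ₂ * f₂| ≤
      6 * (e * ωi) + 8 * (|g| * |f₂|) + 4 * (g ^ 2 * ωj) := by
  have he0 : 0 ≤ e := by linarith [abs_nonneg κ₁]
  have hk1 : |κ₁| ≤ 1 := by linarith
  have t1 : |κ₁ * ri| ≤ 2 * e * ωi := by
    rw [abs_mul, abs_of_nonneg hri0]
    exact mul_le_mul h1 hri hri0 (by positivity)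
  have t2 : |κ₂ * f₂| ≤ 2 * |g| * |f₂| := by
    rw [abs_mul]
    exact mul_le_mul_of_nonneg_right h2 (abs_nonneg _)
  have t3 : |κ₁ ^ 2 * (ri - 1)| ≤ 2 * e * ωi := by
    rw [abs_mul, abs_pow, sq]
    exact mul_le_mul ((mul_le_of_le_one_left (abs_nonneg _) hk1).trans h1) hyi (abs_nonneg _)
      (by positivity)
  have t4 : |κ₂ ^ 2 * (rj - 1)| ≤ (2 * |g|) ^ 2 * ωj := by
    rw [abs_mul, abs_pow]
    exact mul_le_mul (pow_le_pow_left₀ (abs_nonneg _) h2 2) hyj (abs_nonneg _) (by positivity)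
  have t5 : |κ₁ * (κ₂ * f₂)| ≤ 2 * |g| * |f₂| := by
    rw [abs_mul]
    exact (mul_le_of_le_one_left (abs_nonneg _) hk1).trans t2
  rw [mul_pow, sq_abs] at t4
  rw [abs_le] at t1 t2 t3 t4 t5 ⊢
  constructor <;> linarith [t1.1, t1.2, t2.1, t2.2, t3.1, t3.2, t4.1, t4.2, t5.1, t5.2]

theorem L5_kap {ι : Type} [Fintype ι] [DecidableEq ι] {M : Matrix ι ι ℝ} {i j : ι} (h : Sm M i j) :
    |kap1 M i j i| ≤ 2 * (|M i j| + |M i i * M j j|) ∧ |kap2 M i j i| ≤ 2 * |M i i| := by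
  have h1 := h.inv_le
  have h2 := one_div_pos.2 h.dd_pos
  rw [kap1_i, kap2_i, div_eq_mul_one_div, div_eq_mul_one_div (M i i), abs_mul _ (1 / dd M i j),
    abs_mul _ (1 / dd M i j), abs_of_pos h2]
  constructor
  · have f1 : |M i i * M j j + M i j - M i j ^ 2| ≤ 1.001 * (|M i j| + |M i i * M j j|) := by
      have g1 := abs_sub (M i i * M j j + M i j) (M i j ^ 2)
      have g2 := abs_add_le (M i i * M j j) (M i j)
      rw [abs_pow, sq |M i j|] at g1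
      have g3 := mul_le_mul_of_nonneg_right h.1 (abs_nonneg (M i j))
      have g4 := abs_nonneg (M i i * M j j)
      linarith
    have f2 : 0 ≤ |M i j| + |M i i * M j j| := by positivity
    have := mul_le_mul f1 h1 h2.le (by positivity)
    linarith
  · have := mul_le_mul_of_nonneg_left h1 (abs_nonneg (M i i))
    linarith [abs_nonneg (M i i)]

theorem L5e_half {ι : Type} [Fintype ι] [DecidableEq ι] (C : Ctx ι) {dc : ℝ}
    (hdc : |dc| ≤ 2 / C.s ^ 2) :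
    C.E (fun i j => |rr C.a i - C.c| * |drr C.a i j i - dc|) ≤ 200 * C.err5 := by
  obtain ⟨e1, e2, e3, e4, e5, e6, e7, e8⟩ := C.h_err5
  obtain ⟨g1, g2, g3, g4, g5, g6, g7, g8, g9, g10, g11, g12, g13, g14, g15⟩ := C.h_err5'
  have hM := C.let_a.symm
  have hdl := C.ok.dl0
  have hdle := C.ok.dle
  have hw := C.h_w0
  have hs := C.h_s1
  have hu := C.h_u0
  have hde := C.ok.de1
  have hS := C.h_sS0
  have hKS := C.sS_ge
  have hwu : C.w = C.u ^ 2 := rfl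
  have hω : ∀ i, 0 ≤ C.ω i := fun i => zero_le_one.trans (C.one_le_om i)
  set x : ι → ℝ := fun k => rr C.a k - C.c with hx
  refine (le_abs_self _).trans ((C.TUabs (Y := fun i j => 6 * (|x i| * |C.ω i| * |C.a i j|) +
    6 * (|x i| * |C.a i i| * C.ω i * |C.a j j|) + 8 * (|x i * C.a i i * 1| * |(C.a * C.a) i j|) +
    4 * (|x i| * C.a i i ^ 2 * C.ω j) + |x i| * |dc|) (fun i j h => ?_)
    fun i j => by have := hω i; have := hω j; positivity).trans ?_)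
  · have hsm := C.h_sm h
    obtain ⟨k1, k2⟩ := L5_kap hsm
    have f1 := L5_pt (f₂ := (C.a * C.a) i j) k1 (by linarith [hsm.1, hsm.2]) k2 (rr_nonneg hM i)
      (C.rr_le_om C.let_a i) (C.dev_one_le_om C.let_a i) (C.dev_one_le_om C.let_a j)
    have f2 : |drr C.a i j i - dc| ≤ 6 * ((|C.a i j| + |C.a i i * C.a j j|) * C.ω i) +
        8 * (|C.a i i| * |(C.a * C.a) i j|) + 4 * (C.a i i ^ 2 * C.ω j) + |dc| :=
      (abs_sub _ _).trans (add_le_add f1 le_rfl)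
    rw [abs_of_nonneg (by positivity), abs_of_nonneg (hω i), mul_one, abs_mul (x i)]
    have f3 := mul_le_mul_of_nonneg_left f2 (abs_nonneg (x i))
    rw [abs_mul (C.a i i)] at f3
    linarith
  · have s1 : ∑ i, ∑ j, |x i| * |C.ω i| * |C.a i j| ≤ 6 * C.err5 := by
      have f1 : ∑ i, |x i| * |C.ω i| ≤ C.w * (3 * C.s) :=
        h_cs1 x C.ω hw (by positivity) C.h_x_sq (by have := C.sum_om2; linarith)
      calc _ ≤ ∑ i, |x i| * |C.ω i| * (2 * C.s * C.u) := Finset.sum_le_sum fun i _ => by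
            rw [← Finset.mul_sum]
            exact mul_le_mul_of_nonneg_left (C.row_abs C.let_a i) (by positivity)
        _ ≤ C.w * (3 * C.s) * (2 * C.s * C.u) := by
            rw [← Finset.sum_mul]
            gcongr
        _ = 6 * (C.u ^ 3 * C.s ^ 2) := by
            rw [hwu]
            ring
        _ ≤ _ := by linarith
    have s2 : ∑ i, ∑ j, |x i| * |C.a i i| * C.ω i * |C.a j j| ≤ 3 * C.err5 := by
      rw [h_prod]
      have f1 : ∑ i, |x i| * |C.a i i| * C.ω i ≤ C.w * C.de * (3 * C.w) := by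
        calc _ ≤ ∑ i, |x i| * |C.a i i| * (3 * C.w) := Finset.sum_le_sum fun i _ =>
              mul_le_mul_of_nonneg_left (C.om_le i) (by positivity)
          _ ≤ _ := by
              rw [← Finset.sum_mul]
              exact mul_le_mul_of_nonneg_right ((h_cs1 _ _ hw hdl C.h_x_sq C.h_D_sq).trans
                (by gcongr)) (by positivity)
      have := mul_le_mul f1 ((C.sum_abs_diag C.let_a).trans (by gcongr : C.s * C.dl ≤ C.s * C.de))
        (Finset.sum_nonneg fun _ _ => abs_nonneg _) (by positivity)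
      linarith
    have s3 : ∑ i, ∑ j, |x i * C.a i i * 1| * |(C.a * C.a) i j| ≤ C.err5 := by
      have f1 : ∑ i, (x i * C.a i i) ^ 2 ≤ (C.w * C.de) ^ 2 := by
        calc _ ≤ ∑ i, x i ^ 2 * C.de ^ 2 := Finset.sum_le_sum fun i _ => by
              rw [mul_pow, ← sq_abs (C.a i i)]
              have := (C.abs_diag_le C.let_a i).trans hdle
              gcongr
          _ ≤ _ := by
              rw [← Finset.sum_mul, mul_pow]
              exact mul_le_mul_of_nonneg_right C.h_x_sq (sq_nonneg _)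
      have f2 : ∑ _j : ι, (1 : ℝ) ^ 2 ≤ C.s ^ 2 := by simp [C.card]
      have f3 : ∑ i, ∑ j, (C.a * C.a) i j ^ 2 ≤ C.sS ^ 2 :=
        (C.F2 C.let_a C.let_a).trans (by
          calc C.K ^ 4 = (C.K ^ 2) ^ 2 := by ring
            _ ≤ _ := by gcongr)
      have := h_cs2 (fun i _ => x i * C.a i i * 1) (C.a * C.a) (by positivity) hS
        (h_frob_prod (u := fun i => x i * C.a i i) (v := fun _ => 1) f1 f2) f3
      linarith
    have s4 : ∑ i, ∑ j, |x i| * C.a i i ^ 2 * C.ω j ≤ 9 * C.err5 := by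
      rw [h_prod]
      have f1 : ∑ i, |x i| * C.a i i ^ 2 ≤ 3 * C.w * C.de ^ 2 := by
        calc _ ≤ ∑ i, 3 * C.w * C.a i i ^ 2 := Finset.sum_le_sum fun i _ =>
              mul_le_mul_of_nonneg_right (by
                have := C.dev_le_om C.let_a i
                have := C.om_le i
                simp only [hx]
                linarith) (sq_nonneg _)
          _ ≤ _ := by
              rw [← Finset.mul_sum]
              exact mul_le_mul_of_nonneg_left (C.h_D_sq.trans (by gcongr)) (by positivity)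
      have := mul_le_mul f1 C.sum_om (Finset.sum_nonneg fun i _ => hω i) (by positivity)
      linarith
    have s5 : ∑ i, ∑ _j : ι, |x i| * |dc| ≤ 2 * C.err5 := by
      simp only [Finset.sum_const, Finset.card_univ, nsmul_eq_mul, ← C.card, ← Finset.mul_sum,
        ← Finset.sum_mul]
      calc _ ≤ C.s ^ 2 * (C.w * C.s * (2 / C.s ^ 2)) := by
            gcongr
            exact C.sum_abs_dev C.let_a
        _ = 2 * (C.w * C.s) := by field_simp
        _ ≤ _ := by linarith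
    simp only [Finset.sum_add_distrib, ← Finset.mul_sum (a := (6 : ℝ)),
      ← Finset.mul_sum (a := (8 : ℝ)), ← Finset.mul_sum (a := (4 : ℝ))]
    linarith

theorem L5e : ∃ C0 : ℝ, 0 ≤ C0 ∧ ∀ {ι : Type} [Fintype ι] [DecidableEq ι] (C : Ctx ι), ∀ dc : ℝ, |dc| ≤ 2 / C.s ^ 2 →
    C.E (fun i j => |rr C.a i - C.c| * |drr C.a i j i - dc| + |rr C.a j - C.c| * |drr C.a i j j - dc|)
      ≤ C0 * C.err5 := by
  refine ⟨400, by norm_num, fun {ι} _ _ C dc hdc => ?_⟩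
  have h := L5e_half C hdc
  have h1 : C.E (fun i j => |rr C.a j - C.c| * |drr C.a i j j - dc|) =
      C.E (fun i j => |rr C.a i - C.c| * |drr C.a i j i - dc|) := by
    rw [← C.E_swap fun i j => |rr C.a i - C.c| * |drr C.a i j i - dc|]
    simp only [h_drr_swap C.let_a.symm]
  rw [C.E_add, h1]
  linarith

theorem L5r : ∃ C0 : ℝ, 0 ≤ C0 ∧ ∀ {ι : Type} [Fintype ι] [DecidableEq ι] (C : Ctx ι),
    2 * C.s ^ 2 * rho univ C.c C.a - C0 * C.err5 ≤
      C.E (fun i j => (rr C.a i - C.c) ^ 2 + (rr C.a j - C.c) ^ 2) := by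
  refine ⟨10, by norm_num, fun {ι} _ _ C => ?_⟩
  obtain ⟨g1, g2, g3, g4, g5, g6, g7, g8, g9, g10, g11, g12, g13, g14, g15⟩ := C.h_err5'
  have hw := C.h_w0
  have h0 : 0 ≤ rho univ C.c C.a := Finset.sum_nonneg fun _ _ => sq_nonneg _
  have f1 := (abs_le.1 (C.E_one fun i => (rr C.a i - C.c) ^ 2)).1
  have f2 : ∑ i, (rr C.a i - C.c) ^ 2 = rho univ C.c C.a := rfl
  have f3 : ∑ i, C.ω i * |(rr C.a i - C.c) ^ 2| ≤ 3 * C.w * C.w ^ 2 := by
    refine le_trans (Finset.sum_le_sum fun i _ =>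
      mul_le_mul_of_nonneg_right (C.om_le i) (abs_nonneg _)) ?_
    simp only [← Finset.mul_sum, abs_pow, sq_abs]
    exact mul_le_mul_of_nonneg_left C.h_x_sq (by positivity)
  rw [f2, abs_of_nonneg h0] at f1
  have f4 : C.lam * rho univ C.c C.a ≤ C.bt * C.w ^ 2 :=
    mul_le_mul C.ok.lamb C.ha.rho h0 C.h_bt0
  have f5 := mul_le_mul_of_nonneg_left f3 (sq_nonneg C.bt)
  rw [C.E_add, C.E_swap fun i _ => (rr C.a i - C.c) ^ 2]
  linarith

theorem L5 : ∃ C0 : ℝ, 0 ≤ C0 ∧ ∀ {ι : Type} [Fintype ι] [DecidableEq ι] (C : Ctx ι), ∀ c' ζ : ℝ, |c' - C.c| ≤ 2 / C.s ^ 2 →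
    |2 * C.c * (tau2 C.a - C.s ^ 2) - C.Z * (c' - C.c)| ≤ ζ →
    C.E (fun i j => rho (univ \ {i, j}) c' (upd C.a i j) - rho univ C.c C.a)
      ≤ -2 * C.s ^ 2 * rho univ C.c C.a + 4 * (tau2 C.a - C.s ^ 2) * rho univ C.c C.a
        + 2.1 * C.pm * Q4 C.a * ∑ k, (rr C.a k - 1) ^ 2 + 2 * C.w * C.s * ζ + C0 * C.err5 := by
  obtain ⟨Ca, hCa, Ha⟩ := L5a
  obtain ⟨Cb, hCb, Hb⟩ := L5b
  obtain ⟨Cc, hCc, Hc⟩ := L5c
  obtain ⟨Cd, hCd, Hd⟩ := L5d
  obtain ⟨Ce, hCe, He⟩ := L5e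
  obtain ⟨Cr, hCr, Hr⟩ := L5r
  refine ⟨2 * (Ca + Cb + Cc) + Cd + 2 * Ce + Cr, by positivity,
    fun {ι} _ _ C c' ζ hdc hζ => ?_⟩
  have hM := C.let_a.symm
  have ha := (abs_le.1 (Ha C)).2
  have hb := (abs_le.1 (Hb C)).2
  have hc := (abs_le.1 (Hc C)).2
  have hd := Hd C _ hdc
  have he := He C _ hdc
  have hr := Hr C
  have h0 : C.E (fun i j => rho (univ \ {i, j}) c' (upd C.a i j) - rho univ C.c C.a) ≤
      2 * (C.E (fun i j => ∑ k, (rr C.a k - C.c) *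
          (2 * (kap1 C.a i j k * (C.a * C.a) k i + kap2 C.a i j k * (C.a * C.a) k j))) +
        C.E (fun i j => ∑ k, (rr C.a k - C.c) *
          (kap1 C.a i j k ^ 2 * (rr C.a i - 1) + kap2 C.a i j k ^ 2 * (rr C.a j - 1))) +
        C.E (fun i j => ∑ k, (rr C.a k - C.c) *
          (2 * kap1 C.a i j k * kap2 C.a i j k * (C.a * C.a) i j)) -
        C.E (fun _ _ => (c' - C.c) * ∑ k, (rr C.a k - C.c))) +
      C.E (fun i j => ∑ k, (drr C.a i j k - (c' - C.c)) ^ 2) -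
      C.E (fun i j => (rr C.a i - C.c) ^ 2 + (rr C.a j - C.c) ^ 2) +
      2 * C.E (fun i j => |rr C.a i - C.c| * |drr C.a i j i - (c' - C.c)| +
        |rr C.a j - C.c| * |drr C.a i j j - (c' - C.c)|) := by
    rw [← C.E_add, ← C.E_add, ← C.E_sub, ← C.E_mul, ← C.E_add, ← C.E_sub, ← C.E_mul, ← C.E_add]
    refine C.E_mono fun i j h => ?_
    rw [rho_upd hM h.1 (C.h_sm h).dd_pos.ne', Finset.sum_sdiff_eq_sub (Finset.subset_univ _),
      Finset.sum_pair h.1]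
    have f1 : ∑ k, (rr C.a k + drr C.a i j k - c') ^ 2 = rho univ C.c C.a +
        2 * (∑ k, (rr C.a k - C.c) *
          (2 * (kap1 C.a i j k * (C.a * C.a) k i + kap2 C.a i j k * (C.a * C.a) k j)) +
        ∑ k, (rr C.a k - C.c) *
          (kap1 C.a i j k ^ 2 * (rr C.a i - 1) + kap2 C.a i j k ^ 2 * (rr C.a j - 1)) +
        ∑ k, (rr C.a k - C.c) * (2 * kap1 C.a i j k * kap2 C.a i j k * (C.a * C.a) i j) -
        (c' - C.c) * ∑ k, (rr C.a k - C.c)) + ∑ k, (drr C.a i j k - (c' - C.c)) ^ 2 := by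
      simp only [rho, Finset.mul_sum, ← Finset.sum_add_distrib, ← Finset.sum_sub_distrib]
      refine Finset.sum_congr rfl fun k _ => ?_
      unfold drr
      ring
    have f2 : ∀ k, (rr C.a k - C.c) ^ 2 - 2 * (|rr C.a k - C.c| * |drr C.a i j k - (c' - C.c)|) ≤
        (rr C.a k + drr C.a i j k - c') ^ 2 := by
      intro k
      have g1 := neg_abs_le ((rr C.a k - C.c) * (drr C.a i j k - (c' - C.c)))
      rw [abs_mul] at g1
      have g2 := sq_nonneg (drr C.a i j k - (c' - C.c))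
      linarith
    rw [f1]
    linarith [f2 i, f2 j]
  rw [C.E_const] at h0
  have h1 : ∑ k, (rr C.a k - C.c) * rr C.a k = rho univ C.c C.a + C.c * ∑ k, (rr C.a k - C.c) := by
    simp only [rho, Finset.mul_sum, ← Finset.sum_add_distrib]
    exact Finset.sum_congr rfl fun k _ => by ring
  have h2 : |(∑ k, (rr C.a k - C.c)) * (2 * C.c * (tau2 C.a - C.s ^ 2) - C.Z * (c' - C.c))| ≤
      C.w * C.s * ζ := by
    rw [abs_mul]
    exact mul_le_mul ((Finset.abs_sum_le_sum_abs _ _).trans (C.sum_abs_dev C.let_a)) hζ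
      (abs_nonneg _) (mul_nonneg C.h_w0 C.ok.s0)
  have h3 := (abs_le.1 h2).2
  rw [h1] at hb
  linarith

end Crest.Agent.R62
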