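import Crest.Agent.R62.H25e

/-!
# R62-L5a: row norms, first order term (a)

Notation: `M = C.a`, `m = s²`, `w = u²`, `B = bt²`, `f = M i j`, `g = M i i`, `h = M j j`, `d = dd M i j`,
`f_p = (M^p) i j`, `g_p`, `h_p` the diagonal entries, `r = rr M`, `y = r - 1`, `x = r - c`, `k = (1-f)/d`,
`‖X‖ = (∑ i j, X i j ²)^(1/2)`.  Tools: `Bas1`, `Bas2` (`E_eq`, `TP`, `T1`, `TF`, `TU`, `TUabs`, `E_one`,
`cs2`, `F_fgh`, `Sm.*`).  The constant `C0` is existential: be generous.  Useful: `1 ≤ de`, `dl ≤ de`,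
`de² ≤ bt ≤ s`, `1 ≤ u`, `w ≤ s`, `tt ≤ s`, `rt ≤ 2 s`, `lam ≤ bt`, `1 ≤ K`, `K² ≤ sS`.

Let `A = M * diagonal x * (M * M)`, `A_ij = ∑_k M_ik x_k (MM)_kj`.  Then
`∑_k x_k 2(κ₁ (MM)_ki + κ₂ (MM)_kj) = 2k (A_ji + A_ij) + 2 (h A_ii + g A_jj)/d`.
* `E(A_ij)` by `E_eq`: plain sum `∑ x`, `|∑ x| ≤ w s`.  Tilt: for a letter `y`,
  `∑ y_ij A_ij = ∑_k x_k ⟨(y M) e_k, (M M) e_k⟩`, `⟨…⟩² ≤ K² r_k gam_k`, so `≤ w K sS`.
  Exclusion: `TP` with `μ = w`, `u_i² = ∑_k |x_k| M_ki²`, `v_j² = ∑_k |x_k| (MM)_kj²`;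
  with `ξ = ω - 1 ≥ |x|`: `∑ ω u² ≤ ∑|x| r + ∑_{k,i} ξ_i ξ_k M_ki² ≤ w rt + 12 w³`;
  `∑ ω v² ≤ ∑_{k,j} ω_j ξ_k (MM)_kj² ≤ C (w K sS + w⁴)`: if `ξ_j ≤ 1` use `ω_j ≤ 2`; if `ξ_j > 1 ≥ ξ_k` use
  `ω_j ξ_k ≤ 2 ξ_j`; both give `∑ ξ gam ≤ 2w (∑ gam²)^(1/2) ≤ 2 w K sS` (`gam² ≤ K² ω gam`); if both `> 1`
  use `(MM)_kj² ≤ r_k r_j ≤ 4 ξ_k ξ_j`, sum `≤ 8 (∑ ξ²)²`.
* `‖A‖ ≤ ∑_k |x_k| √(r_k gam_k) ≤ w sS` (`A = ∑_k x_k (M e_k)(MM e_k)ᵀ`), used for the remainder `(k-1) A`;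
  `∑_i |A_ii| ≤ w sS` as well, `∑|h| ≤ s dl`.
-/

set_option autoImplicit false
open Matrix Finset

namespace Crest.Agent.R62

theorem L5a_pt {a b f : ℝ} (ha : 0 ≤ a) (hb : 0 ≤ b) (hf0 : 0 ≤ f) (hf : f ≤ (1 + b) * (1 + a)) :
    (1 + a) * (b * f) ≤ 2 * (b * f) + 2 * (a * f) + 8 * (b ^ 2 * a ^ 2) := by
  have h1 : 0 ≤ b * f := by positivity
  have h2 : 0 ≤ a * f := by positivity
  have h3 : 0 ≤ b ^ 2 * a ^ 2 := by positivity
  by_cases h : a ≤ 1
  · nlinarith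
  by_cases h' : b ≤ 1
  · have := mul_le_mul_of_nonneg_right h' h2
    nlinarith
  push Not at h h'
  have h4 : f ≤ 4 * (b * a) := hf.trans (by nlinarith)
  have h5 : (1 + a) * (b * f) ≤ (2 * a) * (b * (4 * (b * a))) := by
    gcongr
    linarith
  nlinarith

theorem L5a_v {ι : Type} [Fintype ι] [DecidableEq ι] (C : Ctx ι) :
    ∑ j, C.ω j * ∑ k, |rr C.a k - C.c| * (C.a * C.a) k j ^ 2 ≤
      8 * (C.w * (C.K * C.sS)) + 128 * C.w ^ 4 := by
  have hM := C.let_a.symm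
  have hw := C.h_w0
  have hK := C.h_K0
  have hS := C.h_sS0
  have hξ : ∀ k, 0 ≤ C.ω k - 1 := fun k => sub_nonneg.2 (C.one_le_om k)
  have h1 : ∑ j, C.ω j * ∑ k, |rr C.a k - C.c| * (C.a * C.a) k j ^ 2 ≤
      ∑ j, ∑ k, (2 * ((C.ω k - 1) * (C.a * C.a) k j ^ 2) + 2 * ((C.ω j - 1) * (C.a * C.a) k j ^ 2)
        + 8 * ((C.ω k - 1) ^ 2 * (C.ω j - 1) ^ 2)) := by
    refine Finset.sum_le_sum fun j _ => ?_
    rw [Finset.mul_sum]
    refine Finset.sum_le_sum fun k _ => le_trans ?_ (L5a_pt (hξ j) (hξ k) (sq_nonneg _) ?_)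
    · rw [add_sub_cancel]
      have := C.one_le_om j
      gcongr
      exact C.dev_le_om C.let_a k
    · rw [add_sub_cancel, add_sub_cancel]
      exact (h_f2_sq hM k j).trans (mul_le_mul (C.rr_le_om C.let_a k) (C.rr_le_om C.let_a j)
        (rr_nonneg hM j) (zero_le_one.trans (C.one_le_om k)))
  have h2 : ∑ k, (C.ω k - 1) * gam C.a C.a k ≤ 2 * C.w * (C.K * C.sS) := by
    have := h_cs1 (fun k => C.ω k - 1) (gam C.a C.a) (A := 2 * C.w) (B := C.K * C.sS)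
      (by positivity) (by positivity) (by have := C.sum_xi_sq; linarith) (by
        rw [mul_pow]
        refine le_trans (Finset.sum_le_sum fun k _ => ?_) (le_trans (le_of_eq (Finset.mul_sum _ _ _).symm)
          (mul_le_mul_of_nonneg_left (C.h_r_gam C.let_a C.let_a) (sq_nonneg C.K)))
        rw [sq, ← mul_assoc]
        exact mul_le_mul_of_nonneg_right (C.gam_le C.let_a C.let_a k) (h_gam_nonneg _ _ _))
    simpa only [abs_of_nonneg (hξ _), abs_of_nonneg (h_gam_nonneg _ _ _)] using this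
  have h3 : ∑ j, ∑ k, (C.ω k - 1) * (C.a * C.a) k j ^ 2 = ∑ k, (C.ω k - 1) * gam C.a C.a k := by
    rw [Finset.sum_comm]
    simp only [← Finset.mul_sum, h_gam_row hM hM]
  have h4 : ∑ j, ∑ k, (C.ω j - 1) * (C.a * C.a) k j ^ 2 = ∑ k, (C.ω k - 1) * gam C.a C.a k := by
    simp only [← Finset.mul_sum, gam]
  have h5 : ∑ j, ∑ k, (C.ω k - 1) ^ 2 * (C.ω j - 1) ^ 2 ≤ (4 * C.w ^ 2) * (4 * C.w ^ 2) := by
    rw [h_prod']
    exact mul_le_mul C.sum_xi_sq C.sum_xi_sq (Finset.sum_nonneg fun _ _ => sq_nonneg _)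
      (by positivity)
  refine h1.trans ?_
  simp only [Finset.sum_add_distrib]
  simp only [← Finset.mul_sum (a := (2 : ℝ)), ← Finset.mul_sum (a := (8 : ℝ))]
  rw [h3, h4]
  linarith

theorem L5a : ∃ C0 : ℝ, 0 ≤ C0 ∧ ∀ {ι : Type} [Fintype ι] [DecidableEq ι] (C : Ctx ι),
    |C.E (fun i j => ∑ k, (rr C.a k - C.c) *
      (2 * (kap1 C.a i j k * (C.a * C.a) k i + kap2 C.a i j k * (C.a * C.a) k j)))|
      ≤ C0 * C.err5 := by
  refine ⟨1000, by norm_num, fun {ι} _ _ C => ?_⟩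
  obtain ⟨e1, e2, e3, e4, e5, e6, e7, e8⟩ := C.h_err5
  obtain ⟨g1, g2, g3, g4, g5, g6, g7, g8, g9, g10, g11, g12, g13, g14, g15⟩ := C.h_err5'
  have hM := C.let_a.symm
  have hdl := C.ok.dl0
  have hrt := C.ok.rt0
  have hw := C.h_w0
  have hw1 := C.one_le_w
  have hK := C.h_K0
  have hS := C.h_sS0
  have hs := C.ok.s0
  set x : ι → ℝ := fun k => rr C.a k - C.c with hx
  set A : ι → ι → ℝ := fun i j => ∑ k, x k * (C.a k i * (C.a * C.a) k j) with hA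
  have h0 : C.E (fun i j => ∑ k, (rr C.a k - C.c) *
      (2 * (kap1 C.a i j k * (C.a * C.a) k i + kap2 C.a i j k * (C.a * C.a) k j))) =
      2 * (C.E (fun i j => (1 - C.a j i) / dd C.a j i * A j i) +
        C.E (fun i j => (1 - C.a i j) / dd C.a i j * A i j) +
        (C.E (fun i j => 1 / dd C.a i j * (C.a j j * A i i)) +
          C.E (fun i j => 1 / dd C.a i j * (C.a i i * A j j)))) := by
    rw [← C.E_add, ← C.E_add, ← C.E_add, ← C.E_mul]
    refine C.E_congr fun i j _ => ?_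
    simp only [hA, hx, Finset.mul_sum, ← Finset.sum_add_distrib, h_dd_swap hM i j, hM.apply i j]
    refine Finset.sum_congr rfl fun k _ => ?_
    simp only [kap1, kap2]
    ring
  have h0' : C.E (fun i j => (1 - C.a j i) / dd C.a j i * A j i) =
      C.E (fun i j => (1 - C.a i j) / dd C.a i j * A i j) :=
    C.E_swap fun i j => (1 - C.a i j) / dd C.a i j * A i j
  have hn := C.h_sqrt_r_gam C.let_a C.let_a x hw C.h_x_sq
  have hn2 : ∀ k, (∑ i, C.a k i ^ 2) * ∑ j, (C.a * C.a) k j ^ 2 ≤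
      √(rr C.a k * gam C.a C.a k) ^ 2 := fun k => by
    rw [Real.sq_sqrt (mul_nonneg (rr_nonneg hM k) (h_gam_nonneg _ _ _)), ← rr_eq hM,
      h_gam_row hM hM]
  have hAF : ∑ i, ∑ j, A i j ^ 2 ≤ (C.w * C.sS) ^ 2 :=
    h_frob_sum x C.a (C.a * C.a) _ (fun _ => Real.sqrt_nonneg _) hn2 hn
  have h1 : |C.E (fun i j => (1 - C.a i j) / dd C.a i j * A i j) - C.E A| ≤
      3 / 2 * 2 * ((C.tt + C.dl ^ 2) * (C.w * C.sS)) :=
    C.h_rem (by norm_num) (by positivity) (fun i j h => (C.h_sm h).k_sub) hAF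
  have h1' := mul_le_mul_of_nonneg_right C.tt_add_le (mul_nonneg hw hS)
  have h2 : |∑ i, ∑ j, A i j| ≤ C.w * C.s := by
    have : ∑ i, ∑ j, A i j = ∑ k, x k := by
      simp only [hA]
      have : ∀ i, ∑ j, ∑ k, x k * (C.a k i * (C.a * C.a) k j) = ∑ k, x k * C.a k i := by
        intro i
        rw [Finset.sum_comm]
        refine Finset.sum_congr rfl fun k _ => ?_
        rw [← Finset.mul_sum, ← Finset.mul_sum, rowsum_mul C.ha.rs.2 C.ha.rs.2, mul_one]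
      simp only [this]
      rw [Finset.sum_comm]
      simp only [← Finset.mul_sum, C.ha.rs.2, mul_one]
    rw [this]
    exact (Finset.abs_sum_le_sum_abs _ _).trans (C.sum_abs_dev C.let_a)
  have h3 : |C.lam * ∑ i, ∑ j, C.φ i j * A i j| ≤ 2 * (C.lam * (C.K * (C.w * C.sS))) := by
    refine C.h_tilt fun y hy => ?_
    have f1 : ∑ i, ∑ j, y i j * A i j = ∑ k, x k * ∑ j, (C.a * y) k j * (C.a * C.a) k j := by
      simp only [hA, Matrix.mul_apply (M := C.a) (N := y), Finset.mul_sum, Finset.sum_mul]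
      rw [Finset.sum_comm]
      conv_rhs => rw [Finset.sum_comm]
      refine Finset.sum_congr rfl fun j _ => ?_
      rw [Finset.sum_comm]
      exact Finset.sum_congr rfl fun k _ => Finset.sum_congr rfl fun i _ => by ring
    rw [f1]
    refine (h_abs_sum_mul _ _).trans (le_trans (Finset.sum_le_sum fun k _ =>
      mul_le_mul_of_nonneg_left (c := C.K * √(rr C.a k * gam C.a C.a k)) ?_ (abs_nonneg _)) ?_)
    · refine (h_abs_sum_mul _ _).trans (h_inner_le _ _ (by positivity) ?_)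
      rw [mul_pow, Real.sq_sqrt (mul_nonneg (rr_nonneg hM k) (h_gam_nonneg _ _ _)),
        h_gam_row hM hy.symm, h_gam_row hM hM, ← mul_assoc]
      exact mul_le_mul_of_nonneg_right (C.gam_le hy C.let_a k) (h_gam_nonneg _ _ _)
    · simp only [mul_left_comm _ C.K]
      rw [← Finset.mul_sum]
      exact mul_le_mul_of_nonneg_left hn hK
  have h4 : |∑ i, ∑ j, C.β i j * A i j| ≤ 100 * C.err5 := by
    have f1 := C.TP (X := A) (u := fun i => √(∑ k, |x k| * C.a k i ^ 2))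
      (v := fun i => √(∑ k, |x k| * (C.a * C.a) k i ^ 2)) (fun i j => h_entry _ _ _)
      (one_pos.trans_le hw1)
    have f2 : ∀ i, √(∑ k, |x k| * C.a k i ^ 2) ^ 2 = ∑ k, |x k| * C.a k i ^ 2 := fun i =>
      Real.sq_sqrt (Finset.sum_nonneg fun _ _ => by positivity)
    have f2' : ∀ i, √(∑ k, |x k| * (C.a * C.a) k i ^ 2) ^ 2 = ∑ k, |x k| * (C.a * C.a) k i ^ 2 :=
      fun i => Real.sq_sqrt (Finset.sum_nonneg fun _ _ => by positivity)
    simp only [f2, f2'] at f1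
    have f3 := mul_le_mul_of_nonneg_left (C.h_om_zbar x hw C.h_x_sq) hw
    have f3' : C.w * (C.w * C.rt) ≤ C.w * (C.w * (2 * C.s)) := by
      have := C.ok.rts
      gcongr
    have f4 : (∑ j, C.ω j * ∑ k, |x k| * (C.a * C.a) k j ^ 2) / C.w ≤
        8 * (C.K * C.sS) + 128 * C.w ^ 3 := by
      rw [div_le_iff₀ (one_pos.trans_le hw1)]
      have := L5a_v C
      linarith
    have f5 := mul_le_mul_of_nonneg_left (add_le_add (f3.trans (le_of_eq_of_le (mul_add _ _ _)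
      (add_le_add f3' le_rfl))) f4) (sq_nonneg C.bt)
    linarith
  have h5 := C.E_eq A
  have hAd : ∑ i, |A i i| ≤ C.w * C.sS := by
    refine le_trans ?_ hn
    calc ∑ i, |A i i| ≤ ∑ i, ∑ k, |x k| * (|C.a k i| * |(C.a * C.a) k i|) :=
          Finset.sum_le_sum fun i _ => (h_abs_sum_mul _ _).trans (by simp only [abs_mul, le_refl])
      _ = ∑ k, |x k| * ∑ i, |C.a k i| * |(C.a * C.a) k i| := by
          rw [Finset.sum_comm]
          simp only [Finset.mul_sum]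
      _ ≤ _ := Finset.sum_le_sum fun k _ => mul_le_mul_of_nonneg_left
          (h_inner_le _ _ (Real.sqrt_nonneg _) (hn2 k)) (abs_nonneg _)
  have hprod : (∑ i, |C.a i i|) * ∑ i, |A i i| ≤ C.de * C.s * C.w * C.sS := by
    calc _ ≤ (C.s * C.dl) * (C.w * C.sS) := mul_le_mul (C.sum_abs_diag C.let_a) hAd
          (Finset.sum_nonneg fun _ _ => abs_nonneg _) (by positivity)
      _ = C.dl * C.s * C.w * C.sS := by ring
      _ ≤ _ := by gcongr; exact C.ok.dle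
  have h7 := C.h_absd (X := fun i j => C.a j j * A i i) (A := C.de * C.s * C.w * C.sS) (by
    simp only [abs_mul]
    rw [h_prod']
    exact hprod)
  have h8 := C.h_absd (X := fun i j => C.a i i * A j j) (A := C.de * C.s * C.w * C.sS) (by
    simp only [abs_mul]
    rw [h_prod]
    exact hprod)
  rw [h0, h0']
  rw [abs_le] at h1 h2 h3 h4 h7 h8 ⊢
  constructor <;> linarith [h1.1, h1.2, h2.1, h2.2, h3.1, h3.2, h4.1, h4.2, h7.1, h7.2, h8.1, h8.2]

end Crest.Agent.R62
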