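import Crest.Agent.R62.L6a
import Crest.Agent.R62.IdR

/-!
# R62-L6: drift of `Del`

Notation: `M = C.a`, `m = s²`, `w = u²`, `B = bt²`, `f = M i j`, `g = M i i`, `h = M j j`, `d = dd M i j`,
`f_p = (M^p) i j`, `g_p`, `h_p` the diagonal entries, `r = rr M`, `y = r - 1`, `x = r - c`, `k = (1-f)/d`,
`‖X‖ = (∑ i j, X i j ²)^(1/2)`.  Tools: `Bas1`, `Bas2` (`E_eq`, `TP`, `T1`, `TF`, `TU`, `TUabs`, `E_one`,
`cs2`, `F_fgh`, `Sm.*`).  The constant `C0` is existential: be generous.  Useful: `1 ≤ de`, `dl ≤ de`,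
`de² ≤ bt ≤ s`, `1 ≤ u`, `w ≤ s`, `tt ≤ s`, `rt ≤ 2 s`, `lam ≤ bt`, `1 ≤ K`, `K² ≤ sS`.

`Del_upd`: `Δ' - Δ = 2∑ D del + ∑ del² - (g² + h²)/d²`.
Second order: `del² ≤ 1.01 (h M_ki² + g M_kj²)²/d² + 101·4k² M_ki² M_kj²`,
`(…)² = h² M_ki⁴ + g² M_kj⁴ + 2 g h M_ki² M_kj²`, `|gh| ≤ 1`, `∑_{ijk} h² M_ki⁴ = Del · Q4`,
`∑ M_ki² M_kj² = ∑ r² ≤ rt²`, `2·1.01·1.0031² ≤ 2.1`.
Removal: `1/d² ≥ 1 - 7(|f|+|gh|)`; `E(g²) ≥ m Del - 2 lam dl² - 3 bt² w dl²` (`E_one`),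
`∑ g²|f| ≤ dl² 2 s u`, `∑ g² |g h| ≤ dl³ · s dl`.
-/

set_option autoImplicit false
open Matrix Finset

namespace Crest.Agent.R62

theorem L6_pt {f g h d a b : ℝ} (hd : 0 < d) (hi : 1 / d ≤ 1.0031) (hk0 : 0 ≤ (1 - f) / d)
    (hk : (1 - f) / d ≤ 1.005) (hgh : |g * h| ≤ 1 / 1000) :
    (((1 - f) * b + h * a) / d * a + ((1 - f) * a + g * b) / d * b) ^ 2 ≤
      1.05 * (a ^ 4 * h ^ 2 + b ^ 4 * g ^ 2) + 500 * (a ^ 2 * b ^ 2) := by
  have e : ((1 - f) * b + h * a) / d * a + ((1 - f) * a + g * b) / d * b =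
      1 / d * (h * a ^ 2 + g * b ^ 2) + 2 * ((1 - f) / d) * (a * b) := by ring
  rw [e]
  set P := h * a ^ 2 + g * b ^ 2 with hP
  set k := (1 - f) / d
  set t := 1 / d
  have ht : 0 ≤ t := by positivity
  have h1 : (t * P + 2 * k * (a * b)) ^ 2 ≤ 1.01 * (t * P) ^ 2 + 101 * (2 * k * (a * b)) ^ 2 := by
    nlinarith [sq_nonneg (t * P / 10 - 10 * (2 * k * (a * b)))]
  have h2 : t ^ 2 ≤ 1.0031 ^ 2 := by gcongr
  have h3 : k ^ 2 ≤ 1.005 ^ 2 := by gcongr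
  have hab : 0 ≤ a ^ 2 * b ^ 2 := by positivity
  have h4 : P ^ 2 ≤ a ^ 4 * h ^ 2 + b ^ 4 * g ^ 2 + 2 * (a ^ 2 * b ^ 2) := by
    have := mul_le_mul_of_nonneg_right ((le_abs_self _).trans hgh) hab
    rw [hP]
    nlinarith
  have h5 : (t * P) ^ 2 ≤ 1.0031 ^ 2 * (a ^ 4 * h ^ 2 + b ^ 4 * g ^ 2 + 2 * (a ^ 2 * b ^ 2)) := by
    rw [mul_pow]
    exact mul_le_mul h2 h4 (sq_nonneg _) (by positivity)
  have h6 : (2 * k * (a * b)) ^ 2 ≤ 4 * 1.005 ^ 2 * (a ^ 2 * b ^ 2) := by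
    have := mul_le_mul_of_nonneg_right h3 hab
    nlinarith
  have h7 : 0 ≤ a ^ 4 * h ^ 2 + b ^ 4 * g ^ 2 := by positivity
  nlinarith

theorem L6 : ∃ C0 : ℝ, 0 ≤ C0 ∧ ∀ {ι : Type} [Fintype ι] [DecidableEq ι] (C : Ctx ι),
    C.E (fun i j => Del (upd C.a i j) - Del C.a)
      ≤ -2 * C.s ^ 2 * Del C.a + 2.1 * C.pm * Q4 C.a * Del C.a + C0 * C.err6 |tau1 C.a| := by
  obtain ⟨C1, hC1, H1⟩ := L6a
  refine ⟨2 * C1 + 1000, by positivity, fun {ι} _ _ C => ?_⟩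
  obtain ⟨e1, e2, e3, e4, e5, e6, e7, e8⟩ := C.h_err6 (abs_nonneg (tau1 C.a))
  have hM := C.let_a.symm
  have hdl := C.ok.dl0
  have hw := C.one_le_w
  have hs := C.h_s1
  have hb := C.ok.bt1
  have h0 : C.E (fun i j => Del (upd C.a i j) - Del C.a) ≤
      2 * C.E (fun i j => ∑ k, C.a k k * del C.a i j k k) + C.E (fun i j => ∑ k, del C.a i j k k ^ 2)
        - (C.E (fun i _ => C.a i i ^ 2) + C.E (fun _ j => C.a j j ^ 2))
        + 7 * (C.E (fun i j => C.a i i ^ 2 * (|C.a i j| + |C.a i i * C.a j j|)) +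
          C.E (fun i j => C.a j j ^ 2 * (|C.a j i| + |C.a j j * C.a i i|))) := by
    rw [← C.E_mul, ← C.E_add, ← C.E_add, ← C.E_add, ← C.E_sub, ← C.E_mul, ← C.E_add]
    refine C.E_mono fun i j h => ?_
    have hsm := C.h_sm h
    rw [Del_upd hM h.1 hsm.dd_pos.ne', hM.apply i j, mul_comm (C.a j j) (C.a i i)]
    have f1 : ∑ k, (C.a k k + del C.a i j k k) ^ 2 =
        Del C.a + 2 * ∑ k, C.a k k * del C.a i j k k + ∑ k, del C.a i j k k ^ 2 := by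
      simp only [Del, Finset.mul_sum, ← Finset.sum_add_distrib]
      exact Finset.sum_congr rfl fun k _ => by ring
    have f2 := mul_le_mul_of_nonneg_left hsm.inv_sq_ge
      (by positivity : 0 ≤ C.a i i ^ 2 + C.a j j ^ 2)
    rw [mul_one_div] at f2
    rw [f1]
    linarith
  have h1 := (abs_le.1 (H1 C)).2
  have h2 : C.E (fun i j => ∑ k, del C.a i j k k ^ 2) ≤
      C.pm * (2.1 * (Q4 C.a * Del C.a) + 500 * C.rt ^ 2) := by
    refine (C.TU (Y := fun i j => ∑ k, (1.05 * (C.a k i ^ 4 * C.a j j ^ 2 + C.a k j ^ 4 * C.a i i ^ 2)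
      + 500 * (C.a k i ^ 2 * C.a k j ^ 2))) (fun i j h => Finset.sum_le_sum fun k _ => ?_)
      fun i j => Finset.sum_nonneg fun _ _ => by positivity).trans
      (mul_le_mul_of_nonneg_left ?_ (zero_le_one.trans C.ok.pm1))
    · have hsm := C.h_sm h
      exact L6_pt hsm.dd_pos hsm.inv_le hsm.k_pos hsm.k_le hsm.2
    · have f1 : ∑ i, ∑ j, ∑ k, C.a k i ^ 4 * C.a j j ^ 2 = Q4 C.a * Del C.a := by
        simp only [← Finset.sum_mul]
        rw [h_prod, Finset.sum_comm]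
        rfl
      have f2 : ∑ i, ∑ j, ∑ k, C.a k j ^ 4 * C.a i i ^ 2 = Q4 C.a * Del C.a := by
        rw [Finset.sum_comm, f1]
      have f3 : ∑ i, ∑ j, ∑ k, C.a k i ^ 2 * C.a k j ^ 2 = ∑ k, rr C.a k ^ 2 := by
        have : ∀ i, ∑ j, ∑ k, C.a k i ^ 2 * C.a k j ^ 2 = ∑ k, ∑ j, C.a k i ^ 2 * C.a k j ^ 2 :=
          fun i => Finset.sum_comm
        simp only [this]
        rw [Finset.sum_comm]
        refine Finset.sum_congr rfl fun k _ => ?_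
        rw [h_prod, ← rr_eq hM, sq]
      simp only [Finset.sum_add_distrib, ← Finset.mul_sum, mul_add] at f1 f2 f3 ⊢
      rw [f1, f2, f3]
      linarith [C.ha.r2]
  have hD0 : 0 ≤ Del C.a := Finset.sum_nonneg fun _ _ => sq_nonneg _
  have h3 : C.s ^ 2 * Del C.a - 5 * (C.bt * C.s * C.dl ^ 2 * C.w) ≤ C.E (fun i _ => C.a i i ^ 2) := by
    have f1 := (abs_le.1 (C.E_one fun i => C.a i i ^ 2)).1
    have f2 : ∑ i, C.a i i ^ 2 = Del C.a := rfl
    have f3 : ∑ i, C.ω i * |C.a i i ^ 2| ≤ 3 * C.w * C.dl ^ 2 := by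
      refine le_trans (Finset.sum_le_sum fun i _ =>
        mul_le_mul_of_nonneg_right (C.om_le i) (abs_nonneg _)) ?_
      simp only [← Finset.mul_sum, abs_pow, sq_abs]
      exact mul_le_mul_of_nonneg_left C.h_D_sq (by positivity)
    rw [f2, abs_of_nonneg hD0] at f1
    have f4 : C.lam * Del C.a ≤ C.bt * C.s * C.dl ^ 2 * C.w := by
      calc C.lam * Del C.a ≤ C.bt * C.dl ^ 2 := mul_le_mul C.ok.lamb C.ha.dl hD0 (by positivity)
        _ = C.bt * 1 * C.dl ^ 2 * 1 := by ring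
        _ ≤ _ := by gcongr
    have f5 : C.bt ^ 2 * ∑ i, C.ω i * |C.a i i ^ 2| ≤ 3 * (C.bt * C.s * C.dl ^ 2 * C.w) := by
      calc _ ≤ C.bt ^ 2 * (3 * C.w * C.dl ^ 2) := by gcongr
        _ = 3 * (C.bt * C.bt * C.dl ^ 2 * C.w) := by ring
        _ ≤ _ := by gcongr; exact C.bt_le_s
    linarith
  have h4 : C.E (fun _ j => C.a j j ^ 2) = C.E (fun i _ => C.a i i ^ 2) :=
    C.E_swap fun i _ => C.a i i ^ 2
  have h5 : C.E (fun i j => C.a i i ^ 2 * (|C.a i j| + |C.a i i * C.a j j|)) ≤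
      3 / 2 * (2 * (C.bt * C.s * C.dl ^ 2 * C.w) + C.dl ^ 4 * C.s) := by
    refine (le_abs_self _).trans ((C.TUabs (Y := fun i j => C.a i i ^ 2 * |C.a i j| +
      C.dl * (C.a i i ^ 2 * |C.a j j|)) (fun i j _ => ?_) fun i j => by positivity).trans ?_)
    · rw [abs_of_nonneg (by positivity), mul_add, abs_mul]
      have := mul_le_mul_of_nonneg_right (C.abs_diag_le C.let_a i)
        (by positivity : 0 ≤ C.a i i ^ 2 * |C.a j j|)
      linarith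
    · refine mul_le_mul_of_nonneg_left ?_ (by norm_num)
      simp only [Finset.sum_add_distrib, ← Finset.mul_sum, ← Finset.sum_mul]
      have hu := C.ok.u1
      refine add_le_add ?_ ?_
      · calc _ ≤ ∑ i, C.a i i ^ 2 * (2 * C.s * C.u) := Finset.sum_le_sum fun i _ =>
              mul_le_mul_of_nonneg_left (C.row_abs C.let_a i) (sq_nonneg _)
          _ ≤ C.dl ^ 2 * (2 * C.s * C.u) := by
              rw [← Finset.sum_mul]
              exact mul_le_mul_of_nonneg_right C.h_D_sq (by positivity)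
          _ = 2 * (1 * C.s * C.dl ^ 2 * C.u) := by ring
          _ ≤ _ := by
              have : C.u ≤ C.w := by
                show C.u ≤ C.u ^ 2
                nlinarith
              gcongr
      · calc _ ≤ C.dl * (C.dl ^ 2 * (C.s * C.dl)) := by
              gcongr
              · exact C.h_D_sq
              · exact C.sum_abs_diag C.let_a
          _ = _ := by ring
  have h6 : C.E (fun i j => C.a j j ^ 2 * (|C.a j i| + |C.a j j * C.a i i|)) =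
      C.E (fun i j => C.a i i ^ 2 * (|C.a i j| + |C.a i i * C.a j j|)) :=
    C.E_swap fun i j => C.a i i ^ 2 * (|C.a i j| + |C.a i i * C.a j j|)
  have h7 : C.pm * C.rt ^ 2 ≤ 3 / 2 * C.rt ^ 2 := mul_le_mul_of_nonneg_right C.ok.pm2 (sq_nonneg _)
  rw [h4, h6] at h0
  have h8 : 0 ≤ C.rt ^ 2 := sq_nonneg _
  linarith

end Crest.Agent.R62
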