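import Crest.Agent.R62.H25e

/-!
# R62-L6a: diagonal, first order term

Notation: `M = C.a`, `m = s²`, `w = u²`, `B = bt²`, `f = M i j`, `g = M i i`, `h = M j j`, `d = dd M i j`,
`f_p = (M^p) i j`, `g_p`, `h_p` the diagonal entries, `r = rr M`, `y = r - 1`, `x = r - c`, `k = (1-f)/d`,
`‖X‖ = (∑ i j, X i j ²)^(1/2)`.  Tools: `Bas1`, `Bas2` (`E_eq`, `TP`, `T1`, `TF`, `TU`, `TUabs`, `E_one`,
`cs2`, `F_fgh`, `Sm.*`).  The constant `C0` is existential: be generous.  Useful: `1 ≤ de`, `dl ≤ de`,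
`de² ≤ bt ≤ s`, `1 ≤ u`, `w ≤ s`, `tt ≤ s`, `rt ≤ 2 s`, `lam ≤ bt`, `1 ≤ K`, `K² ≤ sS`.

`D_k = M k k`, `del k k = 2k M_ki M_kj + (h M_ki² + g M_kj²)/d`, so with `Y = M * diagonal D * M`,
`z_i = Y_ii = ∑_k D_k M_ki²`: `∑_k D_k del k k = 2k Y_ij + (h z_i + g z_j)/d`.
* `E(Y_ij)` by `E_eq`: plain sum `τ₁`, `|τ₁| ≤ s dl`; tilt `∑ y_ij Y_ij = ∑_k D_k (M y M)_kk ≤ dl sS`
  (`(MyM)_kk² ≤ r_k gam y M k`); `TP` with `μ = 1`, `u_i² = ∑_k |D_k| M_ki²`,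
  `∑ ω u² ≤ ∑|D| r + ∑_{k,i} |D_k| ξ_i M_ki² ≤ dl rt + √(3w dl²) √(3w·4w²) ≤ dl (rt + 6w²)`, `ξ = ω - 1`.
* remainder `(k-1) Y`: `cs2`, `F_fgh`, `‖Y‖ ≤ ∑_k |D_k| r_k ≤ dl rt`.
* `h z_i`: plain sum `τ₁ ∑ D r`, `TF` with `F = dl · 3 w dl` (`schurH`), remainder `cs2` with `tt + dl² ≤ 2s`.
-/

set_option autoImplicit false
open Matrix Finset

namespace Crest.Agent.R62

theorem L6a : ∃ C0 : ℝ, 0 ≤ C0 ∧ ∀ {ι : Type} [Fintype ι] [DecidableEq ι] (C : Ctx ι),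
    |C.E (fun i j => ∑ k, C.a k k * del C.a i j k k)| ≤ C0 * C.err6 |tau1 C.a| := by
  refine ⟨100, by norm_num, fun {ι} _ _ C => ?_⟩
  obtain ⟨e1, e2, e3, e4, e5, e6, e7, e8⟩ := C.h_err6 (abs_nonneg (tau1 C.a))
  have hM := C.let_a.symm
  have hdl := C.ok.dl0
  have hrt := C.ok.rt0
  have hw := C.h_w0
  set Y : ι → ι → ℝ := fun i j => ∑ k, C.a k k * (C.a k i * C.a k j) with hY
  set z : ι → ℝ := fun i => ∑ k, C.a k k * C.a k i ^ 2 with hz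
  have h0 : C.E (fun i j => ∑ k, C.a k k * del C.a i j k k) =
      2 * C.E (fun i j => (1 - C.a i j) / dd C.a i j * Y i j) +
        (C.E (fun i j => 1 / dd C.a i j * (C.a j j * z i)) +
          C.E (fun i j => 1 / dd C.a i j * (C.a i i * z j))) := by
    rw [← C.E_mul, ← C.E_add, ← C.E_add]
    refine C.E_congr fun i j _ => ?_
    simp only [hY, hz, Finset.mul_sum, ← Finset.sum_add_distrib]
    refine Finset.sum_congr rfl fun k _ => ?_
    simp only [del, kap1, kap2]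
    ring
  have h1 : |C.E (fun i j => (1 - C.a i j) / dd C.a i j * Y i j) - C.E Y| ≤
      3 / 2 * 2 * ((C.tt + C.dl ^ 2) * (C.dl * C.rt)) :=
    C.h_rem (by norm_num) (by positivity) (fun i j h => (C.h_sm h).k_sub) (C.h_Y _ hdl C.h_D_sq)
  have h2 : ∑ i, ∑ j, Y i j = tau1 C.a := by
    simp only [hY]
    rw [Finset.sum_comm]
    have : ∀ j, ∑ i, ∑ k, C.a k k * (C.a k i * C.a k j) = ∑ k, C.a k k * C.a k j := by
      intro j
      rw [Finset.sum_comm]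
      refine Finset.sum_congr rfl fun k _ => ?_
      rw [← Finset.mul_sum, ← Finset.sum_mul, C.ha.rs.2, one_mul]
    simp only [this]
    rw [Finset.sum_comm]
    simp only [← Finset.mul_sum, C.ha.rs.2, mul_one]
    rfl
  have h3 : |C.lam * ∑ i, ∑ j, C.φ i j * Y i j| ≤ 2 * (C.lam * (C.dl * C.sS)) := by
    refine C.h_tilt fun y hy => ?_
    have f1 : ∑ i, ∑ j, y i j * Y i j = ∑ k, C.a k k * ∑ j, C.a k j * (C.a * y) k j := by
      simp only [hY, Matrix.mul_apply, Finset.mul_sum]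
      rw [Finset.sum_comm]
      conv_rhs => rw [Finset.sum_comm]
      refine Finset.sum_congr rfl fun j _ => ?_
      rw [Finset.sum_comm]
      exact Finset.sum_congr rfl fun k _ => Finset.sum_congr rfl fun i _ => by ring
    rw [f1]
    refine (h_abs_sum_mul _ _).trans (le_trans (Finset.sum_le_sum fun k _ =>
      mul_le_mul_of_nonneg_left ?_ (abs_nonneg _))
      (C.h_sqrt_r_gam hy C.let_a (fun k => C.a k k) hdl C.h_D_sq))
    refine (h_abs_sum_mul _ _).trans (h_inner_le _ _ (Real.sqrt_nonneg _) (le_of_eq ?_))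
    rw [Real.sq_sqrt (mul_nonneg (rr_nonneg hM k) (h_gam_nonneg _ _ _)), ← rr_eq hM,
      h_gam_row hM hy.symm]
  have h4 : |∑ i, ∑ j, C.β i j * Y i j| ≤ C.bt ^ 2 * (C.dl * C.rt + 6 * C.w ^ 2 * C.dl) := by
    have f1 := C.TP (X := Y) (u := fun i => √(∑ k, |C.a k k| * C.a k i ^ 2))
      (v := fun i => √(∑ k, |C.a k k| * C.a k i ^ 2)) (fun i j => h_entry _ _ _) one_pos
    have f2 : ∀ i, √(∑ k, |C.a k k| * C.a k i ^ 2) ^ 2 = ∑ k, |C.a k k| * C.a k i ^ 2 := fun i =>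
      Real.sq_sqrt (Finset.sum_nonneg fun _ _ => by positivity)
    simp only [f2, one_mul, div_one] at f1
    have f3 := mul_le_mul_of_nonneg_left (C.h_om_zbar (fun k => C.a k k) hdl C.h_D_sq)
      (sq_nonneg C.bt)
    linarith
  have h5 := C.E_eq Y
  have h6 := C.abs_tau1_le C.let_a
  have hz2 : ∑ i, z i ^ 2 ≤ (3 * C.w * C.dl) ^ 2 := C.h_schur _ C.h_D_sq
  have hz1 : |tau1 C.a * ∑ i, z i| ≤ |tau1 C.a| * (C.dl * C.rt) := by
    rw [abs_mul]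
    refine mul_le_mul_of_nonneg_left ?_ (abs_nonneg _)
    simp only [hz]
    rw [C.h_sum_zbar]
    refine (h_abs_sum_mul _ _).trans ?_
    simpa only [abs_of_nonneg (rr_nonneg hM _)] using C.h_v_r _ hdl C.h_D_sq
  have h7 := C.h_TFd (X := fun i j => C.a j j * z i) (F := C.dl * (3 * C.w * C.dl)) (by positivity)
    (h_frob_prod' C.h_D_sq hz2)
  have h8 := C.h_TFd (X := fun i j => C.a i i * z j) (F := C.dl * (3 * C.w * C.dl)) (by positivity)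
    (h_frob_prod C.h_D_sq hz2)
  rw [h_prod'] at h7
  rw [h_prod] at h8
  have ht : ∑ i, C.a i i = tau1 C.a := rfl
  rw [ht] at h7 h8
  have f4 : 0 ≤ C.bt ^ 2 * C.dl * C.rt := by positivity
  rw [h0]
  rw [abs_le] at h1 h3 h4 h6 h7 h8 hz1 ⊢
  have f5 : 0 ≤ C.s * C.dl := mul_nonneg C.ok.s0 hdl
  constructor <;> linarith [h1.1, h1.2, h3.1, h3.2, h4.1, h4.2, h6.1, h6.2, h7.1, h7.2, h8.1, h8.2,
    hz1.1, hz1.2]

end Crest.Agent.R62
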