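import Crest.Agent.R62.Bas2

/-!
# R62-L7b: fourth powers, higher order terms

Notation: `M = C.a`, `m = s²`, `w = u²`, `B = bt²`, `f = M i j`, `g = M i i`, `h = M j j`, `d = dd M i j`,
`f_p = (M^p) i j`, `g_p`, `h_p` the diagonal entries, `r = rr M`, `y = r - 1`, `x = r - c`, `k = (1-f)/d`,
`‖X‖ = (∑ i j, X i j ²)^(1/2)`.  Tools: `Bas1`, `Bas2` (`E_eq`, `TP`, `T1`, `TF`, `TU`, `TUabs`, `E_one`,
`cs2`, `F_fgh`, `Sm.*`).  The constant `C0` is existential: be generous.  Useful: `1 ≤ de`, `dl ≤ de`,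
`de² ≤ bt ≤ s`, `1 ≤ u`, `w ≤ s`, `tt ≤ s`, `rt ≤ 2 s`, `lam ≤ bt`, `1 ≤ K`, `K² ≤ sS`.

`del k l = α₁ + α₂ + α₃ + α₄`, `α₁ = k M_kj M_li`, `α₂ = k M_ki M_lj`, `α₃ = (h/d) M_ki M_li`,
`α₄ = (g/d) M_kj M_lj`.
`L7b`: `del² ≤ 4∑α²`; `∑_{ij} α₁² ≤ C r_k r_l`, `∑_{ij} α₃² ≤ C dl² ∑_i M_ki² M_li² ≤ C dl² r_k r_l`,
`∑_{kl} M_kl² r_k r_l ≤ ∑ r³ ≤ ∑ ω³`.
`L7c`: `(A+B)⁴ ≤ 1.007 A⁴ + C B⁴` (e.g. twice `(a+b)² ≤ (1+ε)a² + (1+1/ε)b²`),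
`(α₁+α₂)⁴ ≤ 1.007(α₁⁴+α₂⁴) + C α₁²α₂²`, `k⁴ ≤ 1.005⁴`, `2·1.007²·1.005⁴ ≤ 2.07`;
`∑ M_kj⁴ M_li⁴ = Q4²`; `∑ α₁²α₂² ≤ C ∑_{ij} (∑_k M_ki² M_kj²)² ≤ C 9w² Q4` (`schurH` columnwise);
`∑ α₃⁴ ≤ C dl⁴ ∑_i q_i² ≤ C dl⁴ 9 w² Q4`, `q_i = ∑_k M_ki⁴ ≤ r_i²`.
-/

set_option autoImplicit false
open Matrix Finset

namespace Crest.Agent.R62

theorem L7b_sum4 {ι : Type} [Fintype ι] (F : ι → ι → ι → ι → ℝ) :
    ∑ i, ∑ j, ∑ k, ∑ l, F i j k l = ∑ k, ∑ l, ∑ i, ∑ j, F i j k l := by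
  calc ∑ i, ∑ j, ∑ k, ∑ l, F i j k l = ∑ i, ∑ k, ∑ j, ∑ l, F i j k l :=
        Finset.sum_congr rfl fun i _ => Finset.sum_comm
    _ = ∑ k, ∑ i, ∑ j, ∑ l, F i j k l := Finset.sum_comm
    _ = ∑ k, ∑ i, ∑ l, ∑ j, F i j k l :=
        Finset.sum_congr rfl fun k _ => Finset.sum_congr rfl fun i _ => Finset.sum_comm
    _ = _ := Finset.sum_congr rfl fun k _ => Finset.sum_comm

theorem L7b_del {ι : Type} [Fintype ι] [DecidableEq ι] (M : Matrix ι ι ℝ) (i j k l : ι) :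
    del M i j k l = (1 - M i j) / dd M i j * (M k j * M l i + M k i * M l j)
      + 1 / dd M i j * (M j j * (M k i * M l i) + M i i * (M k j * M l j)) := by
  unfold del kap1 kap2
  ring

theorem L7b_inv_pos {ι : Type} [Fintype ι] [DecidableEq ι] {x : Matrix ι ι ℝ} {i j : ι}
    (h : Sm x i j) : 0 ≤ 1 / dd x i j := by
  have := h.dd_pos
  positivity

theorem L7b_pt2 (κ δ a b c d : ℝ) (h1 : 0 ≤ κ) (h2 : κ ≤ 1.005) (h3 : 0 ≤ δ) (h4 : δ ≤ 1.0031) :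
    (κ * (a + b) + δ * (c + d)) ^ 2 ≤ 5 * (a ^ 2 + b ^ 2 + c ^ 2 + d ^ 2) := by
  have k2 : κ ^ 2 ≤ 1.25 := by nlinarith
  have d2 : δ ^ 2 ≤ 1.25 := by nlinarith
  have e1 : (κ * (a + b) + δ * (c + d)) ^ 2 ≤ 2 * (κ ^ 2 * (a + b) ^ 2) + 2 * (δ ^ 2 * (c + d) ^ 2) := by
    nlinarith [sq_nonneg (κ * (a + b) - δ * (c + d))]
  have e2 : κ ^ 2 * (a + b) ^ 2 ≤ 1.25 * (a + b) ^ 2 := mul_le_mul_of_nonneg_right k2 (sq_nonneg _)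
  have e3 : δ ^ 2 * (c + d) ^ 2 ≤ 1.25 * (c + d) ^ 2 := mul_le_mul_of_nonneg_right d2 (sq_nonneg _)
  nlinarith [sq_nonneg (a - b), sq_nonneg (c - d)]

theorem L7b_four (a b : ℝ) : (a + b) ^ 4 ≤ 1.0061 * a ^ 4 + 501 ^ 3 * b ^ 4 := by
  have h : ∀ x y : ℝ, (x + y) ^ 2 ≤ 1.002 * x ^ 2 + 501 * y ^ 2 := fun x y => by
    nlinarith [sq_nonneg (x - 500 * y)]
  have h1 := h a b
  have h2 := h (1.002 * a ^ 2) (501 * b ^ 2)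
  have h3 : ((a + b) ^ 2) ^ 2 ≤ (1.002 * a ^ 2 + 501 * b ^ 2) ^ 2 :=
    pow_le_pow_left₀ (sq_nonneg _) h1 2
  have h4 : 0 ≤ a ^ 4 := by positivity
  nlinarith

theorem L7b_pt4 (κ δ a b c d : ℝ) (h1 : 0 ≤ κ) (h2 : κ ≤ 1.005) (h3 : 0 ≤ δ) (h4 : δ ≤ 1.0031) :
    (κ * (a + b) + δ * (c + d)) ^ 4 ≤ 1.035 * (a ^ 4 + b ^ 4) + 3000 * (a ^ 2 * b ^ 2)
      + 16 * 501 ^ 3 * (c ^ 4 + d ^ 4) := by
  have k4 : κ ^ 4 ≤ 1.0202 := (pow_le_pow_left₀ h1 h2 4).trans (by norm_num)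
  have d4 : δ ^ 4 ≤ 2 := (pow_le_pow_left₀ h3 h4 4).trans (by norm_num)
  have e1 := L7b_four (κ * (a + b)) (δ * (c + d))
  have e2 : (a + b) ^ 4 ≤ 1.002 * (a ^ 4 + b ^ 4) + 2007 * (a ^ 2 * b ^ 2) := by
    nlinarith [sq_nonneg (a ^ 2 + b ^ 2 - 1000 * (a * b)), sq_nonneg (a * b)]
  have e3 : (c + d) ^ 4 ≤ 8 * (c ^ 4 + d ^ 4) := by
    nlinarith [sq_nonneg (c - d), sq_nonneg (c + d), sq_nonneg (c ^ 2 - d ^ 2), sq_nonneg ((c - d) ^ 2),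
      mul_nonneg (sq_nonneg (c - d)) (sq_nonneg (c + d))]
  have e4 : (κ * (a + b)) ^ 4 ≤ 1.0202 * (a + b) ^ 4 := by
    rw [mul_pow]; exact mul_le_mul_of_nonneg_right k4 (by positivity)
  have e5 : (δ * (c + d)) ^ 4 ≤ 2 * (c + d) ^ 4 := by
    rw [mul_pow]; exact mul_le_mul_of_nonneg_right d4 (by positivity)
  have p1 : 0 ≤ a ^ 4 + b ^ 4 := by positivity
  have p2 : 0 ≤ a ^ 2 * b ^ 2 := by positivity
  nlinarith

namespace Ctx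
variable {ι : Type} [Fintype ι] [DecidableEq ι] (C : Ctx ι)

theorem L7b_terms {qq : ℝ} (hq : 0 ≤ qq) :
    0 ≤ C.bt * C.s * qq * (C.s + C.u ^ 3) ∧ 0 ≤ C.de ^ 4 * (C.s ^ 2 + C.w ^ 3) ∧
      0 ≤ C.bt ^ 2 * C.w ^ 2 * qq ^ 2 ∧ 0 ≤ C.de ^ 2 * C.u * C.s * qq ^ 2 := by
  have h1 := C.ok.s0
  have h2 : 0 ≤ C.bt := by linarith [C.ok.bt1]
  have h3 : 0 ≤ C.u := by linarith [C.ok.u1]
  have h4 : 0 ≤ C.w := by linarith [C.one_le_w]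
  refine ⟨?_, ?_, ?_, ?_⟩ <;> positivity

theorem L7b_sym (k l : ι) : C.a k l = C.a l k := (C.let_a.symm.apply l k)

theorem L7b_r (k : ι) : ∑ l, C.a k l ^ 2 = rr C.a k := (rr_eq C.let_a.symm k).symm

theorem L7b_r' (k : ι) : ∑ l, C.a l k ^ 2 = rr C.a k := by
  rw [← C.L7b_r]
  exact Finset.sum_congr rfl fun l _ => by rw [C.L7b_sym]

theorem L7b_r3w (k : ι) : rr C.a k ≤ 3 * C.w := (C.rr_le_om C.let_a k).trans (C.om_le k)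

/-- `∑ M_kl² ω_k ω_l ≤ ∑ ω³` -/
theorem L7b_omom : ∑ k, ∑ l, C.a k l ^ 2 * (C.ω k * C.ω l) ≤ 9 * (C.s ^ 2 + 2 * C.w ^ 3) := by
  have h1 : ∑ k, ∑ l, C.a k l ^ 2 * (C.ω k * C.ω l) ≤
      ∑ k, ∑ l, (C.a k l ^ 2 * C.ω k ^ 2 / 2 + C.a k l ^ 2 * C.ω l ^ 2 / 2) := by
    refine Finset.sum_le_sum fun k _ => Finset.sum_le_sum fun l _ => ?_
    nlinarith [mul_nonneg (sq_nonneg (C.a k l)) (sq_nonneg (C.ω k - C.ω l))]
  have h2 : ∑ k, ∑ l, C.a k l ^ 2 * C.ω k ^ 2 / 2 = ∑ k, rr C.a k * C.ω k ^ 2 / 2 := by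
    refine Finset.sum_congr rfl fun k _ => ?_
    rw [← Finset.sum_div, ← Finset.sum_mul, C.L7b_r]
  have h3 : ∑ k, ∑ l, C.a k l ^ 2 * C.ω l ^ 2 / 2 = ∑ k, rr C.a k * C.ω k ^ 2 / 2 := by
    rw [Finset.sum_comm]
    refine Finset.sum_congr rfl fun k _ => ?_
    rw [← Finset.sum_div, ← Finset.sum_mul, C.L7b_r']
  have h4 : ∑ k, rr C.a k * C.ω k ^ 2 / 2 ≤ ∑ k, C.ω k ^ 3 / 2 := by
    refine Finset.sum_le_sum fun k _ => ?_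
    have := mul_le_mul_of_nonneg_right (C.rr_le_om C.let_a k) (sq_nonneg (C.ω k))
    nlinarith
  simp only [Finset.sum_add_distrib] at h1
  rw [← Finset.sum_div (f := fun k => C.ω k ^ 3)] at h4
  have := C.sum_om3
  linarith

theorem L7b_diag4 : ∑ j, C.a j j ^ 4 ≤ C.dl ^ 4 := by
  have h1 : ∑ j, C.a j j ^ 4 ≤ ∑ j, C.dl ^ 2 * C.a j j ^ 2 := by
    refine Finset.sum_le_sum fun j _ => ?_
    have : C.a j j ^ 2 ≤ C.dl ^ 2 := sq_le_sq' (abs_le.1 (C.abs_diag_le C.let_a j)).1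
      (abs_le.1 (C.abs_diag_le C.let_a j)).2
    nlinarith [sq_nonneg (C.a j j)]
  rw [← Finset.mul_sum] at h1
  have h2 : ∑ j, C.a j j ^ 2 ≤ C.dl ^ 2 := C.ha.dl
  nlinarith [sq_nonneg C.dl]

theorem L7b_dl4 : C.dl ^ 4 ≤ C.bt ^ 2 := by
  have h1 : C.dl ^ 2 ≤ C.bt := (pow_le_pow_left₀ C.ok.dl0 C.ok.dle 2).trans C.ok.deb
  have := pow_le_pow_left₀ (sq_nonneg C.dl) h1 2
  nlinarith

theorem L7b_q (i : ι) : ∑ k, C.a k i ^ 4 ≤ 9 * C.w ^ 2 := by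
  have h1 : ∑ k, C.a k i ^ 4 ≤ ∑ k, rr C.a i * C.a k i ^ 2 := by
    refine Finset.sum_le_sum fun k _ => ?_
    have := sq_le_rr C.let_a.symm i k
    rw [C.L7b_sym i k] at this
    nlinarith [sq_nonneg (C.a k i)]
  rw [← Finset.mul_sum, C.L7b_r'] at h1
  have h2 := C.L7b_r3w i
  have h3 := rr_nonneg C.let_a.symm i
  nlinarith

end Ctx

theorem L7b : ∃ C0 : ℝ, 0 ≤ C0 ∧ ∀ {ι : Type} [Fintype ι] [DecidableEq ι] (C : Ctx ι), ∀ qq : ℝ, 0 ≤ qq → Q4 C.a ≤ qq ^ 2 →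
    C.E (fun i j => ∑ k, ∑ l, C.a k l ^ 2 * del C.a i j k l ^ 2) ≤ C0 * C.err7 qq := by
  refine ⟨540, by norm_num, fun {ι} _ _ C qq hq _ => ?_⟩
  set M := C.a with hM
  have h1 := C.TU (X := fun i j => ∑ k, ∑ l, M k l ^ 2 * del M i j k l ^ 2)
    (Y := fun i j => ∑ k, ∑ l, M k l ^ 2 * (5 * ((M k j * M l i) ^ 2 + (M k i * M l j) ^ 2
      + (M j j * (M k i * M l i)) ^ 2 + (M i i * (M k j * M l j)) ^ 2))) (by
      intro i j hg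
      have hs := C.let_a.sm hg
      refine Finset.sum_le_sum fun k _ => Finset.sum_le_sum fun l _ => ?_
      refine mul_le_mul_of_nonneg_left ?_ (sq_nonneg _)
      rw [L7b_del]
      exact L7b_pt2 _ _ _ _ _ _ hs.k_pos hs.k_le (L7b_inv_pos hs) hs.inv_le)
    (fun i j => by positivity)
  rw [L7b_sum4] at h1
  have hD : ∑ j, M j j ^ 2 ≤ C.dl ^ 2 := C.ha.dl
  have h2 : ∀ k l, ∑ i, ∑ j, M k l ^ 2 * (5 * ((M k j * M l i) ^ 2 + (M k i * M l j) ^ 2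
      + (M j j * (M k i * M l i)) ^ 2 + (M i i * (M k j * M l j)) ^ 2)) ≤
      (10 + 10 * C.dl ^ 2) * (M k l ^ 2 * (C.ω k * C.ω l)) := by
    intro k l
    have hk := rr_nonneg C.let_a.symm k
    have hl := rr_nonneg C.let_a.symm l
    have hrr : rr M k * rr M l ≤ C.ω k * C.ω l :=
      mul_le_mul (C.rr_le_om C.let_a k) (C.rr_le_om C.let_a l) hl (by linarith [C.one_le_om k])
    have a1 : ∑ i, ∑ j, (M k j * M l i) ^ 2 = rr M k * rr M l := by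
      simp only [mul_pow, ← Finset.sum_mul, ← Finset.mul_sum, hM, C.L7b_r]
    have a2 : ∑ i, ∑ j, (M k i * M l j) ^ 2 = rr M k * rr M l := by
      simp only [mul_pow, ← Finset.sum_mul, ← Finset.mul_sum, hM, C.L7b_r]
    have a0 : ∑ i, (M k i * M l i) ^ 2 ≤ rr M k * rr M l := by
      rw [← C.L7b_r l, Finset.mul_sum]
      refine Finset.sum_le_sum fun i _ => ?_
      rw [mul_pow]
      exact mul_le_mul_of_nonneg_right (sq_le_rr C.let_a.symm k i) (sq_nonneg _)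
    have a00 : (∑ j, M j j ^ 2) * ∑ i, (M k i * M l i) ^ 2 ≤ C.dl ^ 2 * (rr M k * rr M l) :=
      mul_le_mul hD a0 (by positivity) (sq_nonneg _)
    have a3 : ∑ i, ∑ j, (M j j * (M k i * M l i)) ^ 2 ≤ C.dl ^ 2 * (rr M k * rr M l) := by
      refine le_of_eq_of_le ?_ a00
      rw [Finset.mul_sum]
      refine Finset.sum_congr rfl fun i _ => ?_
      rw [Finset.sum_mul]
      exact Finset.sum_congr rfl fun j _ => by ring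
    have a4 : ∑ i, ∑ j, (M i i * (M k j * M l j)) ^ 2 ≤ C.dl ^ 2 * (rr M k * rr M l) := by
      rw [Finset.sum_comm]; exact a3
    simp only [← Finset.mul_sum, Finset.sum_add_distrib]
    rw [a1, a2]
    have a5 := mul_le_mul_of_nonneg_left hrr (sq_nonneg C.dl)
    have a6 : 5 * (rr M k * rr M l + rr M k * rr M l + ∑ i, ∑ j, (M j j * (M k i * M l i)) ^ 2 +
        ∑ i, ∑ j, (M i i * (M k j * M l j)) ^ 2) ≤ (10 + 10 * C.dl ^ 2) * (C.ω k * C.ω l) := by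
      nlinarith
    have := mul_le_mul_of_nonneg_left a6 (sq_nonneg (M k l))
    linarith
  have h3 := (Finset.sum_le_sum fun k (_ : k ∈ univ) =>
    Finset.sum_le_sum fun l (_ : l ∈ univ) => h2 k l)
  simp only [← Finset.mul_sum (a := 10 + 10 * C.dl ^ 2)] at h3
  have h4 := C.L7b_omom
  have h5 : 10 + 10 * C.dl ^ 2 ≤ 20 * C.de ^ 4 := by
    have a1 : C.dl ^ 2 ≤ C.de ^ 2 := pow_le_pow_left₀ C.ok.dl0 C.ok.dle 2
    have a2 : 1 ≤ C.de ^ 2 := one_le_pow₀ C.ok.de1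
    nlinarith
  have hw : 0 ≤ C.w ^ 3 := by have := C.one_le_w; positivity
  have h6 : (10 + 10 * C.dl ^ 2) * ∑ k, ∑ l, M k l ^ 2 * (C.ω k * C.ω l) ≤
      20 * C.de ^ 4 * (18 * (C.s ^ 2 + C.w ^ 3)) := by
    refine mul_le_mul h5 (h4.trans (by nlinarith [sq_nonneg C.s])) ?_ (by positivity)
    refine Finset.sum_nonneg fun k _ => Finset.sum_nonneg fun l _ => ?_
    have := C.one_le_om k
    have := C.one_le_om l
    positivity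
  obtain ⟨t1, t2, t3, t4⟩ := C.L7b_terms hq
  have h7 := mul_le_mul C.ok.pm2 (h3.trans h6) (by positivity) (by norm_num)
  unfold Num.err7
  nlinarith

set_option maxHeartbeats 1000000 in
theorem L7c : ∃ C0 : ℝ, 0 ≤ C0 ∧ ∀ {ι : Type} [Fintype ι] [DecidableEq ι] (C : Ctx ι), ∀ qq : ℝ, 0 ≤ qq → Q4 C.a ≤ qq ^ 2 →
    C.E (fun i j => ∑ k, ∑ l, del C.a i j k l ^ 4) ≤ 2.07 * C.pm * Q4 C.a ^ 2 + C0 * C.err7 qq := by
  refine ⟨3 / 2 * (9 * (3000 + 32 * 501 ^ 3)), by norm_num, fun {ι} _ _ C qq hq hQ => ?_⟩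
  set M := C.a with hM
  have h1 := C.TU (X := fun i j => ∑ k, ∑ l, del M i j k l ^ 4)
    (Y := fun i j => ∑ k, ∑ l, (1.035 * ((M k j * M l i) ^ 4 + (M k i * M l j) ^ 4)
      + 3000 * ((M k j * M l i) ^ 2 * (M k i * M l j) ^ 2)
      + 16 * 501 ^ 3 * ((M j j * (M k i * M l i)) ^ 4 + (M i i * (M k j * M l j)) ^ 4))) (by
      intro i j hg
      have hs := C.let_a.sm hg
      refine Finset.sum_le_sum fun k _ => Finset.sum_le_sum fun l _ => ?_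
      rw [L7b_del]
      exact L7b_pt4 _ _ _ _ _ _ hs.k_pos hs.k_le (L7b_inv_pos hs) hs.inv_le)
    (fun i j => by positivity)
  have hQ0 := Q4_nonneg M
  have hQc : ∑ i, ∑ k, M k i ^ 4 = Q4 M := Finset.sum_comm
  have a1 : ∑ i, ∑ j, ∑ k, ∑ l, (M k j * M l i) ^ 4 = Q4 M ^ 2 := by
    simp only [mul_pow, ← Finset.sum_mul, ← Finset.mul_sum, hQc]
    ring
  have a2 : ∑ i, ∑ j, ∑ k, ∑ l, (M k i * M l j) ^ 4 = Q4 M ^ 2 := by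
    rw [Finset.sum_comm]; exact a1
  have a3 : ∑ i, ∑ j, ∑ k, ∑ l, (M k j * M l i) ^ 2 * (M k i * M l j) ^ 2 ≤ 9 * C.w ^ 2 * Q4 M := by
    rw [Finset.sum_comm, ← hQc, Finset.mul_sum]
    refine Finset.sum_le_sum fun j _ => ?_
    have := C.schurH C.let_a (fun k => M k j ^ 2)
    simp only [← pow_mul] at this
    refine le_of_eq_of_le (Finset.sum_congr rfl fun i _ => ?_) this
    rw [sq (∑ _, _), Finset.sum_mul_sum]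
    refine Finset.sum_congr rfl fun k _ => Finset.sum_congr rfl fun l _ => ?_
    rw [hM, C.L7b_sym i k, C.L7b_sym i l]
    ring
  have a4 : ∑ i, ∑ j, ∑ k, ∑ l, (M j j * (M k i * M l i)) ^ 4 ≤ C.bt ^ 2 * (9 * C.w ^ 2 * Q4 M) := by
    have e : ∑ i, ∑ j, ∑ k, ∑ l, (M j j * (M k i * M l i)) ^ 4 =
        (∑ j, M j j ^ 4) * ∑ i, (∑ k, M k i ^ 4) * ∑ k, M k i ^ 4 := by
      simp only [mul_pow, ← Finset.sum_mul, ← Finset.mul_sum]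
    rw [e]
    refine mul_le_mul (C.L7b_diag4.trans C.L7b_dl4) ?_ (by positivity) (sq_nonneg _)
    rw [← hQc, Finset.mul_sum]
    exact Finset.sum_le_sum fun i _ => mul_le_mul_of_nonneg_right (C.L7b_q i) (by positivity)
  have a5 : ∑ i, ∑ j, ∑ k, ∑ l, (M i i * (M k j * M l j)) ^ 4 ≤ C.bt ^ 2 * (9 * C.w ^ 2 * Q4 M) := by
    rw [Finset.sum_comm]; exact a4
  simp only [Finset.sum_add_distrib, ← Finset.mul_sum] at h1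
  rw [a1, a2] at h1
  have b1 : 1 ≤ C.bt ^ 2 := one_le_pow₀ C.ok.bt1
  have b2 : C.w ^ 2 * Q4 M ≤ C.w ^ 2 * qq ^ 2 := mul_le_mul_of_nonneg_left hQ (sq_nonneg _)
  have b3 : 0 ≤ C.w ^ 2 * Q4 M := by positivity
  have b4 : C.bt ^ 2 * (C.w ^ 2 * Q4 M) ≤ C.bt ^ 2 * (C.w ^ 2 * qq ^ 2) :=
    mul_le_mul_of_nonneg_left b2 (sq_nonneg _)
  have b5 : C.w ^ 2 * Q4 M ≤ C.bt ^ 2 * (C.w ^ 2 * Q4 M) := le_mul_of_one_le_left b3 b1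
  have p3 : 0 ≤ ∑ i, ∑ j, ∑ k, ∑ l, (M k j * M l i) ^ 2 * (M k i * M l j) ^ 2 :=
    sum_nonneg fun _ _ => sum_nonneg fun _ _ => sum_nonneg fun _ _ => sum_nonneg fun _ _ =>
      mul_nonneg (sq_nonneg _) (sq_nonneg _)
  have p4 : 0 ≤ ∑ i, ∑ j, ∑ k, ∑ l, (M j j * (M k i * M l i)) ^ 4 :=
    sum_nonneg fun _ _ => sum_nonneg fun _ _ => sum_nonneg fun _ _ => sum_nonneg fun _ _ =>
      Even.pow_nonneg (by decide) _
  have p5 : 0 ≤ ∑ i, ∑ j, ∑ k, ∑ l, (M i i * (M k j * M l j)) ^ 4 :=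
    sum_nonneg fun _ _ => sum_nonneg fun _ _ => sum_nonneg fun _ _ => sum_nonneg fun _ _ =>
      Even.pow_nonneg (by decide) _
  generalize ∑ i, ∑ j, ∑ k, ∑ l, (M k j * M l i) ^ 2 * (M k i * M l j) ^ 2 = A3 at *
  generalize ∑ i, ∑ j, ∑ k, ∑ l, (M j j * (M k i * M l i)) ^ 4 = A4 at *
  generalize ∑ i, ∑ j, ∑ k, ∑ l, (M i i * (M k j * M l j)) ^ 4 = A5 at *
  have hR0 : 0 ≤ 3000 * A3 + 16 * 501 ^ 3 * (A4 + A5) := by positivity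
  have hR1 : 3000 * A3 + 16 * 501 ^ 3 * (A4 + A5) ≤
      9 * (3000 + 32 * 501 ^ 3) * (C.bt ^ 2 * C.w ^ 2 * qq ^ 2) := by
    linarith
  have hR2 := mul_le_mul C.ok.pm2 hR1 hR0 (by norm_num)
  obtain ⟨t1, t2, t3, t4⟩ := C.L7b_terms hq
  unfold Num.err7
  linarith

end Crest.Agent.R62
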