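import Crest.Agent.R62.L7a
import Crest.Agent.R62.L7b

/-!
# R62-L7: drift of `Q4` (assembly)

Notation: `M = C.a`, `m = s²`, `w = u²`, `B = bt²`, `f = M i j`, `g = M i i`, `h = M j j`, `d = dd M i j`,
`f_p = (M^p) i j`, `g_p`, `h_p` the diagonal entries, `r = rr M`, `y = r - 1`, `x = r - c`, `k = (1-f)/d`,
`‖X‖ = (∑ i j, X i j ²)^(1/2)`.  Tools: `Bas1`, `Bas2` (`E_eq`, `TP`, `T1`, `TF`, `TU`, `TUabs`, `E_one`,
`cs2`, `F_fgh`, `Sm.*`).  The constant `C0` is existential: be generous.  Useful: `1 ≤ de`, `dl ≤ de`,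
`de² ≤ bt ≤ s`, `1 ≤ u`, `w ≤ s`, `tt ≤ s`, `rt ≤ 2 s`, `lam ≤ bt`, `1 ≤ K`, `K² ≤ sS`.

`Q4_upd` and `(M+δ)⁴ ≤ M⁴ + 4M³δ + 406 M²δ² + 1.01 δ⁴`; `1.01·2.07 ≤ 2.1`.
`∑_{k,l ∉ {i,j}} M⁴ = Q4 - 2q_i - 2q_j + g⁴ + h⁴ + 2f⁴` with `q_i = ∑_l M_il⁴`;
`E(q_i) ≥ m Q4 - 2 lam Q4 - 3 bt² w Q4` (`E_one`), `E(g⁴) ≤ C m dl⁴`, `E(f⁴) ≤ C Q4`.
-/

set_option autoImplicit false
open Matrix Finset

namespace Crest.Agent.R62

theorem L7_pt (a d : ℝ) : (a + d) ^ 4 ≤ a ^ 4 + 4 * (a ^ 3 * d) + 406 * (a ^ 2 * d ^ 2) + 1.01 * d ^ 4 := by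
  nlinarith [sq_nonneg (20 * (a * d) - 0.1 * d ^ 2)]

theorem L7_sdiff {ι : Type} [Fintype ι] [DecidableEq ι] (F : ι → ℝ) {i j : ι} (hij : i ≠ j) :
    ∑ k ∈ univ \ {i, j}, F k = ∑ k, F k - F i - F j := by
  rw [Finset.sum_sdiff_eq_sub (Finset.subset_univ _), Finset.sum_pair hij]
  ring

theorem L7_le_univ {ι : Type} [Fintype ι] [DecidableEq ι] (F : ι → ι → ℝ) (h : ∀ k l, 0 ≤ F k l)
    (S : Finset ι) : ∑ k ∈ S, ∑ l ∈ S, F k l ≤ ∑ k, ∑ l, F k l := by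
  refine (Finset.sum_le_sum fun k _ => Finset.sum_le_sum_of_subset_of_nonneg (Finset.subset_univ S)
    fun l _ _ => h k l).trans ?_
  exact Finset.sum_le_sum_of_subset_of_nonneg (Finset.subset_univ S)
    fun k _ _ => Finset.sum_nonneg fun l _ => h k l

theorem L7 : ∃ C0 : ℝ, 0 ≤ C0 ∧ ∀ {ι : Type} [Fintype ι] [DecidableEq ι] (C : Ctx ι), ∀ qq : ℝ, 0 ≤ qq → Q4 C.a ≤ qq ^ 2 →
    C.E (fun i j => Q4 (upd C.a i j) - Q4 C.a)
      ≤ -4 * C.s ^ 2 * Q4 C.a + 2.1 * C.pm * Q4 C.a ^ 2 + C0 * C.err7 qq := by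
  obtain ⟨Ca, hCa, ha⟩ := L7a
  obtain ⟨Cb, hCb, hb⟩ := L7b
  obtain ⟨Cc, hCc, hc⟩ := L7c
  refine ⟨4 * Ca + 406 * Cb + 1.01 * Cc + 26, by positivity, fun {ι} _ _ C qq hq hQ => ?_⟩
  have ha := (abs_le.1 (ha C qq hq hQ)).2
  have hb := hb C qq hq hQ
  have hc := hc C qq hq hQ
  set M := C.a with hM
  set q : ι → ℝ := fun i => ∑ l, M i l ^ 4 with hqd
  have hq' : ∀ i, ∑ l, M l i ^ 4 = q i := fun i =>
    Finset.sum_congr rfl fun l _ => by rw [hM, C.L7b_sym]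
  have hQq : ∑ i, q i = Q4 M := rfl
  have h1 := C.E_mono (X := fun i j => Q4 (upd M i j) - Q4 M)
    (Y := fun i j => ((((-2 * q i + -2 * q j) + (M i i ^ 4 + M j j ^ 4 + 2 * M i j ^ 4))
      + 4 * ∑ k ∈ univ \ {i, j}, ∑ l ∈ univ \ {i, j}, M k l ^ 3 * del M i j k l)
      + 406 * ∑ k, ∑ l, M k l ^ 2 * del M i j k l ^ 2) + 1.01 * ∑ k, ∑ l, del M i j k l ^ 4) (by
      intro i j hg
      have hij := hg.1
      have e1 : Q4 (upd M i j) ≤ ∑ k ∈ univ \ {i, j}, ∑ l ∈ univ \ {i, j}, (M k l ^ 4 +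
          4 * (M k l ^ 3 * del M i j k l) + 406 * (M k l ^ 2 * del M i j k l ^ 2)
          + 1.01 * del M i j k l ^ 4) := by
        rw [Q4_upd]
        exact Finset.sum_le_sum fun k _ => Finset.sum_le_sum fun l _ => L7_pt _ _
      simp only [Finset.sum_add_distrib, ← Finset.mul_sum] at e1
      have e2 := L7_le_univ (fun k l => M k l ^ 2 * del M i j k l ^ 2)
        (fun k l => mul_nonneg (sq_nonneg _) (sq_nonneg _)) (univ \ {i, j})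
      have e3 := L7_le_univ (fun k l => del M i j k l ^ 4)
        (fun k l => Even.pow_nonneg (by decide) _) (univ \ {i, j})
      have e4 : ∑ k ∈ univ \ {i, j}, ∑ l ∈ univ \ {i, j}, M k l ^ 4 =
          Q4 M - 2 * q i - 2 * q j + (M i i ^ 4 + M j j ^ 4 + 2 * M i j ^ 4) := by
        simp only [L7_sdiff _ hij, Finset.sum_sub_distrib, hq']
        have : M j i = M i j := C.L7b_sym j i
        rw [this]
        simp only [hqd, Q4]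
        ring
      linarith)
  rw [C.E_add, C.E_add, C.E_add, C.E_add, C.E_add, C.E_mul, C.E_mul, C.E_mul, C.E_mul,
    C.E_mul] at h1
  have h2 : C.E (fun _ j => q j) = C.E (fun i _ => q i) := C.E_swap (fun i _ => q i)
  have hQ0 := Q4_nonneg M
  have q0 : ∀ i, 0 ≤ q i := fun i => Finset.sum_nonneg fun l _ => Even.pow_nonneg (by decide) _
  have h3 := (abs_le.1 (C.E_one q)).1
  rw [hQq, abs_of_nonneg hQ0] at h3
  have h4 : ∑ i, C.ω i * |q i| ≤ 3 * C.w * Q4 M := by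
    rw [← hQq, Finset.mul_sum]
    refine Finset.sum_le_sum fun i _ => ?_
    rw [abs_of_nonneg (q0 i)]
    exact mul_le_mul_of_nonneg_right (C.om_le i) (q0 i)
  have h5 := C.TU (X := fun i j => M i i ^ 4 + M j j ^ 4 + 2 * M i j ^ 4) (fun _ _ _ => le_rfl)
    (fun i j => by positivity)
  have h6 : ∑ i, ∑ j, (M i i ^ 4 + M j j ^ 4 + 2 * M i j ^ 4) =
      2 * (C.s ^ 2 * ∑ i, M i i ^ 4) + 2 * Q4 M := by
    simp only [Finset.sum_add_distrib, ← Finset.mul_sum, Finset.sum_const, Finset.card_univ,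
      nsmul_eq_mul, C.card, Q4]
    ring
  rw [h6] at h5
  have h7 : ∑ i, M i i ^ 4 ≤ C.de ^ 4 :=
    C.L7b_diag4.trans (pow_le_pow_left₀ C.ok.dl0 C.ok.dle 4)
  have h70 : 0 ≤ ∑ i, M i i ^ 4 := Finset.sum_nonneg fun l _ => Even.pow_nonneg (by decide) _
  obtain ⟨t1, t2, t3, t4⟩ := C.L7b_terms hq
  have w1 := C.one_le_w
  have b1 := C.ok.bt1
  have c1 : C.w * Q4 M ≤ C.w ^ 2 * qq ^ 2 :=
    mul_le_mul (by nlinarith) hQ hQ0 (sq_nonneg _)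
  have c2 : C.bt ^ 2 * (C.w * Q4 M) ≤ C.bt ^ 2 * (C.w ^ 2 * qq ^ 2) :=
    mul_le_mul_of_nonneg_left c1 (sq_nonneg _)
  have c3 : Q4 M ≤ C.w * Q4 M := le_mul_of_one_le_left hQ0 w1
  have c4 : C.bt * Q4 M ≤ C.bt ^ 2 * (C.w * Q4 M) :=
    mul_le_mul (by nlinarith) c3 hQ0 (sq_nonneg _)
  have c5 : C.lam * Q4 M ≤ C.bt * Q4 M := mul_le_mul_of_nonneg_right C.ok.lamb hQ0
  have c6 : Q4 M ≤ C.bt * Q4 M := le_mul_of_one_le_left hQ0 b1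
  have c7 : C.s ^ 2 * ∑ i, M i i ^ 4 ≤ C.de ^ 4 * (C.s ^ 2 + C.w ^ 3) := by
    have a1 := mul_le_mul_of_nonneg_left h7 (sq_nonneg C.s)
    have a2 : 0 ≤ C.de ^ 4 * C.w ^ 3 := by positivity
    linarith
  have c8 : C.pm * (2 * (C.s ^ 2 * ∑ i, M i i ^ 4) + 2 * Q4 M) ≤
      3 / 2 * (2 * (C.s ^ 2 * ∑ i, M i i ^ 4) + 2 * Q4 M) :=
    mul_le_mul_of_nonneg_right C.ok.pm2 (by positivity)
  have c9 := mul_le_mul_of_nonneg_left h4 (sq_nonneg C.bt)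
  have c10 : 0 ≤ C.pm * Q4 M ^ 2 := mul_nonneg (by linarith [C.ok.pm1]) (sq_nonneg _)
  have herr : C.err7 qq = C.bt * C.s * qq * (C.s + C.u ^ 3) + C.de ^ 4 * (C.s ^ 2 + C.w ^ 3)
    + C.bt ^ 2 * C.w ^ 2 * qq ^ 2 + C.de ^ 2 * C.u * C.s * qq ^ 2 := rfl
  rw [h2] at h1
  have fin : -2 * C.E (fun i _ => q i) + -2 * C.E (fun i _ => q i) +
      C.E (fun i j => M i i ^ 4 + M j j ^ 4 + 2 * M i j ^ 4) ≤
      -4 * C.s ^ 2 * Q4 M + 26 * C.err7 qq := by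
    rw [herr]
    linarith
  linarith

end Crest.Agent.R62
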