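import Crest.Agent.R62.Bas2
import Crest.Agent.R62.IdR
import Crest.Agent.R62.L7b

/-!
# R62-L7a: fourth powers, first order term

Notation: `M = C.a`, `m = s²`, `w = u²`, `B = bt²`, `f = M i j`, `g = M i i`, `h = M j j`, `d = dd M i j`,
`f_p = (M^p) i j`, `g_p`, `h_p` the diagonal entries, `r = rr M`, `y = r - 1`, `x = r - c`, `k = (1-f)/d`,
`‖X‖ = (∑ i j, X i j ²)^(1/2)`.  Tools: `Bas1`, `Bas2` (`E_eq`, `TP`, `T1`, `TF`, `TU`, `TUabs`, `E_one`,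
`cs2`, `F_fgh`, `Sm.*`).  The constant `C0` is existential: be generous.  Useful: `1 ≤ de`, `dl ≤ de`,
`de² ≤ bt ≤ s`, `1 ≤ u`, `w ≤ s`, `tt ≤ s`, `rt ≤ 2 s`, `lam ≤ bt`, `1 ≤ K`, `K² ≤ sS`.

`N_kl = M_kl³`, `Y = M * N * M`.  Over all `k l`: `∑ N_kl del k l = 2k Y_ij + (h Y_ii + g Y_jj)/d`.
`Y = ∑_{kl} N_kl (M e_k)(M e_l)ᵀ`, hence `‖Y‖` and `∑_i |Y_ii|` are `≤ ∑|N_kl| √(r_k r_l) ≤ √Q4 √(∑ r³)
≤ qq · 5 (s + u³)` (`sum_om3`).  Plain sum `∑ N ≤ tt qq`; `TF`; remainder `cs2`; `∑|h| ≤ s dl`.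
Removing `k ∈ {i,j}` or `l ∈ {i,j}` costs at most `2∑_l |M_il|³|del i l| + 2 ∑_l |M_jl|³ |del j l|`
(`del_comm`), `|del i l| ≤ C((|f|+|gh|)|M_li| + |g||M_lj|)` (`kap1_i`, `kap2_i`); with `q_i = ∑_l M_il⁴`:
`∑ q_i |f| ≤ Q4 2 s u`, `∑ q_i|g| ∑|h| ≤ Q4 dl s dl`,
`∑_{i,l} |g_i||M_il|³ ∑_j |M_lj| ≤ s ∑ |g_i| |M_il|³ √r_l ≤ s √Q4 · 3 w dl`.
-/

set_option autoImplicit false
open Matrix Finset

namespace Crest.Agent.R62

theorem L7a_mink {P J : Type} [Fintype P] [Fintype J] (c : P → ℝ) (v : P → J → ℝ) (ρ : P → ℝ)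
    (hρ : ∀ p, 0 < ρ p) (hv : ∀ p, ∑ j, v p j ^ 2 ≤ ρ p ^ 2) :
    ∑ j, (∑ p, c p * v p j) ^ 2 ≤ (∑ p, |c p| * ρ p) ^ 2 := by
  have h1 : ∀ j, (∑ p, c p * v p j) ^ 2 ≤ (∑ p, |c p| * ρ p) * ∑ p, |c p| * (v p j ^ 2 / ρ p) := by
    intro j
    refine Finset.sum_sq_le_sum_mul_sum_of_sq_le_mul _
      (fun p _ => mul_nonneg (abs_nonneg _) (hρ p).le)
      (fun p _ => mul_nonneg (abs_nonneg _) (div_nonneg (sq_nonneg _) (hρ p).le)) fun p _ => ?_
    have := (hρ p).ne'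
    apply le_of_eq
    rw [mul_pow, ← sq_abs (c p)]
    field_simp
  refine (Finset.sum_le_sum fun j _ => h1 j).trans ?_
  rw [← Finset.mul_sum, sq]
  refine mul_le_mul_of_nonneg_left ?_
    (Finset.sum_nonneg fun p _ => mul_nonneg (abs_nonneg _) (hρ p).le)
  rw [Finset.sum_comm]
  refine Finset.sum_le_sum fun p _ => ?_
  rw [← Finset.mul_sum, ← Finset.sum_div]
  refine mul_le_mul_of_nonneg_left ?_ (abs_nonneg _)
  rw [div_le_iff₀ (hρ p), ← sq]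
  exact hv p

theorem L7a_split {ι : Type} [Fintype ι] [DecidableEq ι] (F : ι → ι → ℝ) {i j : ι} (hij : i ≠ j) :
    |∑ k ∈ univ \ {i, j}, ∑ l ∈ univ \ {i, j}, F k l - ∑ k, ∑ l, F k l| ≤
      (∑ l, |F i l| + ∑ l, |F j l|) + (∑ k, |F k i| + ∑ k, |F k j|) := by
  have e : ∀ G : ι → ℝ, ∑ k, G k = ∑ k ∈ univ \ {i, j}, G k + (G i + G j) := by
    intro G
    rw [Finset.sum_sdiff_eq_sub (Finset.subset_univ _), Finset.sum_pair hij]
    ring
  have e1 : ∑ k ∈ univ \ {i, j}, ∑ l ∈ univ \ {i, j}, F k l - ∑ k, ∑ l, F k l =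
      -((∑ l, F i l + ∑ l, F j l) + (∑ k ∈ univ \ {i, j}, F k i + ∑ k ∈ univ \ {i, j}, F k j)) := by
    rw [e (fun k => ∑ l, F k l), Finset.sum_congr rfl fun k (_ : k ∈ univ \ {i, j}) => e (F k)]
    simp only [Finset.sum_add_distrib]
    ring
  have e2 : ∀ G : ι → ℝ, |∑ k ∈ univ \ {i, j}, G k| ≤ ∑ k, |G k| := fun G =>
    (Finset.abs_sum_le_sum_abs _ _).trans (Finset.sum_le_sum_of_subset_of_nonneg
      (Finset.subset_univ _) fun _ _ _ => abs_nonneg _)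
  rw [e1, abs_neg]
  refine (abs_add_le _ _).trans (add_le_add ((abs_add_le _ _).trans (add_le_add ?_ ?_))
    ((abs_add_le _ _).trans (add_le_add (e2 _) (e2 _))))
  · exact Finset.abs_sum_le_sum_abs _ _
  · exact Finset.abs_sum_le_sum_abs _ _

theorem L7a_pt (κ δ f g h a b : ℝ) (h1 : 0 ≤ κ) (h2 : κ ≤ 1.005) (h3 : 0 ≤ δ) (h4 : δ ≤ 1.0031)
    (hf : |f| ≤ 1 / 1000) :
    |κ * (f * a + g * b) + δ * (h * (g * a) + g * (f * b))| ≤
      2 * ((|f| + |g * h|) * |a| + |g| * |b|) := by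
  have e : κ * (f * a + g * b) + δ * (h * (g * a) + g * (f * b)) =
      κ * (f * a) + δ * (g * h * a) + (κ + δ * f) * (g * b) := by ring
  rw [e]
  have a1 : |κ * (f * a)| ≤ 2 * (|f| * |a|) := by
    rw [abs_mul, abs_mul, abs_of_nonneg h1]
    exact mul_le_mul_of_nonneg_right (by linarith) (by positivity)
  have a2 : |δ * (g * h * a)| ≤ 2 * (|g * h| * |a|) := by
    rw [abs_mul, abs_mul, abs_of_nonneg h3]
    exact mul_le_mul_of_nonneg_right (by linarith) (by positivity)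
  have a3 : |(κ + δ * f) * (g * b)| ≤ 2 * (|g| * |b|) := by
    rw [abs_mul, abs_mul]
    refine mul_le_mul_of_nonneg_right ?_ (by positivity)
    have := abs_le.1 hf
    rw [abs_le]
    constructor <;> nlinarith
  have := abs_add_three (κ * (f * a)) (δ * (g * h * a)) ((κ + δ * f) * (g * b))
  linarith

namespace Ctx
variable {ι : Type} [Fintype ι] [DecidableEq ι] (C : Ctx ι)

/-- `Y = M N M` -/
def L7a_Y (i j : ι) : ℝ := ∑ k, ∑ l, C.a k l ^ 3 * (C.a k i * C.a l j)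

theorem L7a_T {qq : ℝ} (hq : 0 ≤ qq) (hQ : Q4 C.a ≤ qq ^ 2) :
    ∑ k, ∑ l, |C.a k l ^ 3| * (√(C.ω k) * √(C.ω l)) ≤ qq * (5 * (C.s + C.u ^ 3)) := by
  have hs := C.ok.s0
  have hu : 0 ≤ C.u := by linarith [C.ok.u1]
  have h := Ctx.cs2 (fun k l => C.a k l ^ 2) (fun k l => C.a k l * (√(C.ω k) * √(C.ω l))) hq
    (G := 5 * (C.s + C.u ^ 3)) (by positivity) (by simp only [← pow_mul]; exact hQ) (by
      have e : ∀ k l, (C.a k l * (√(C.ω k) * √(C.ω l))) ^ 2 = C.a k l ^ 2 * (C.ω k * C.ω l) := by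
        intro k l
        rw [mul_pow, mul_pow, Real.sq_sqrt (by linarith [C.one_le_om k]),
          Real.sq_sqrt (by linarith [C.one_le_om l])]
      simp only [e]
      refine C.L7b_omom.trans ?_
      have : C.w = C.u ^ 2 := rfl
      rw [this]
      have a1 : 0 ≤ C.s * C.u ^ 3 := by positivity
      have a2 : 0 ≤ C.u ^ 6 := by positivity
      nlinarith [sq_nonneg C.s])
  refine le_of_eq_of_le (Finset.sum_congr rfl fun k _ => Finset.sum_congr rfl fun l _ => ?_) h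
  rw [abs_mul, abs_of_nonneg (a := √(C.ω k) * √(C.ω l)) (by positivity), abs_pow, abs_pow]
  ring

theorem L7a_F {qq : ℝ} (hq : 0 ≤ qq) (hQ : Q4 C.a ≤ qq ^ 2) :
    ∑ i, ∑ j, C.L7a_Y i j ^ 2 ≤ (qq * (5 * (C.s + C.u ^ 3))) ^ 2 := by
  have h := L7a_mink (P := ι × ι) (J := ι × ι) (fun p => C.a p.1 p.2 ^ 3)
    (fun p x => C.a p.1 x.1 * C.a p.2 x.2) (fun p => √(C.ω p.1) * √(C.ω p.2))
    (fun p => mul_pos (Real.sqrt_pos.2 (by linarith [C.one_le_om p.1]))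
      (Real.sqrt_pos.2 (by linarith [C.one_le_om p.2]))) (by
      intro p
      rw [mul_pow, Real.sq_sqrt (by linarith [C.one_le_om p.1]),
        Real.sq_sqrt (by linarith [C.one_le_om p.2]), Fintype.sum_prod_type]
      simp only [mul_pow, ← Finset.sum_mul, ← Finset.mul_sum, C.L7b_r]
      exact mul_le_mul (C.rr_le_om C.let_a _) (C.rr_le_om C.let_a _) (rr_nonneg C.let_a.symm _)
        (by linarith [C.one_le_om p.1]))
  simp only [Fintype.sum_prod_type] at h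
  exact h.trans (pow_le_pow_left₀ (by positivity) (C.L7a_T hq hQ) 2)

theorem L7a_D {qq : ℝ} (hq : 0 ≤ qq) (hQ : Q4 C.a ≤ qq ^ 2) :
    ∑ i, |C.L7a_Y i i| ≤ qq * (5 * (C.s + C.u ^ 3)) := by
  refine le_trans ?_ (C.L7a_T hq hQ)
  have h1 : ∀ i, |C.L7a_Y i i| ≤ ∑ k, ∑ l, |C.a k l ^ 3| * (|C.a k i| * |C.a l i|) := by
    intro i
    refine (Finset.abs_sum_le_sum_abs _ _).trans (Finset.sum_le_sum fun k _ => ?_)
    refine (Finset.abs_sum_le_sum_abs _ _).trans (Finset.sum_le_sum fun l _ => ?_)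
    rw [abs_mul, abs_mul]
  refine (Finset.sum_le_sum fun i _ => h1 i).trans ?_
  rw [Finset.sum_comm]
  refine Finset.sum_le_sum fun k _ => ?_
  rw [Finset.sum_comm]
  refine Finset.sum_le_sum fun l _ => ?_
  rw [← Finset.mul_sum]
  refine mul_le_mul_of_nonneg_left ?_ (abs_nonneg _)
  refine (Real.sum_mul_le_sqrt_mul_sqrt _ _ _).trans ?_
  simp only [sq_abs, C.L7b_r]
  exact mul_le_mul (Real.sqrt_le_sqrt (C.rr_le_om C.let_a _))
    (Real.sqrt_le_sqrt (C.rr_le_om C.let_a _)) (Real.sqrt_nonneg _) (Real.sqrt_nonneg _)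

theorem L7a_sum : ∑ i, ∑ j, C.L7a_Y i j = ∑ k, ∑ l, C.a k l ^ 3 := by
  unfold L7a_Y
  rw [L7b_sum4]
  simp only [← Finset.mul_sum, C.ha.rs.2, mul_one]

theorem L7a_sum_le {qq : ℝ} (hq : 0 ≤ qq) (hQ : Q4 C.a ≤ qq ^ 2) :
    |∑ i, ∑ j, C.L7a_Y i j| ≤ qq * C.s := by
  rw [L7a_sum]
  have h := Ctx.cs2 (fun k l => C.a k l ^ 2) (fun k l => C.a k l) hq C.ok.tt0
    (by simp only [← pow_mul]; exact hQ) (C.sum_sq_le C.let_a)
  refine le_trans ?_ (h.trans (mul_le_mul_of_nonneg_left C.ok.tts hq))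
  refine (Finset.abs_sum_le_sum_abs _ _).trans (Finset.sum_le_sum fun k _ => ?_)
  refine (Finset.abs_sum_le_sum_abs _ _).trans (Finset.sum_le_sum fun l _ => ?_)
  rw [← abs_mul]
  exact le_of_eq (by congr 1)

theorem L7a_full (i j : ι) : ∑ k, ∑ l, C.a k l ^ 3 * del C.a i j k l =
    (1 - C.a i j) / dd C.a i j * (C.L7a_Y j i + C.L7a_Y i j)
      + 1 / dd C.a i j * (C.a j j * C.L7a_Y i i + C.a i i * C.L7a_Y j j) := by
  unfold L7a_Y
  simp only [L7b_del, Finset.mul_sum, ← Finset.sum_add_distrib]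
  exact Finset.sum_congr rfl fun k _ => Finset.sum_congr rfl fun l _ => by ring

/-- bound for a removed row -/
noncomputable def L7a_R (i j : ι) : ℝ :=
  ∑ l, |C.a i l| ^ 3 * (2 * ((|C.a i j| + |C.a i i * C.a j j|) * |C.a i l| + |C.a i i| * |C.a l j|))

theorem L7a_R0 (i j : ι) : 0 ≤ C.L7a_R i j := by
  unfold L7a_R; positivity

theorem L7a_row_i {i j : ι} (hs : Sm C.a i j) :
    ∑ l, |C.a i l ^ 3 * del C.a i j i l| ≤ C.L7a_R i j := by
  refine Finset.sum_le_sum fun l _ => ?_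
  rw [abs_mul, abs_pow, L7b_del, C.L7b_sym l i]
  exact mul_le_mul_of_nonneg_left
    (L7a_pt _ _ _ _ _ _ _ hs.k_pos hs.k_le (L7b_inv_pos hs) hs.inv_le hs.1) (by positivity)

theorem L7a_row_j {i j : ι} (hs : Sm C.a i j) :
    ∑ l, |C.a j l ^ 3 * del C.a i j j l| ≤ C.L7a_R j i := by
  refine Finset.sum_le_sum fun l _ => ?_
  rw [abs_mul, abs_pow, L7b_del, C.L7b_sym l j, C.L7b_sym j i]
  refine mul_le_mul_of_nonneg_left ?_ (by positivity)
  refine le_of_eq_of_le ?_ (L7a_pt _ _ (C.a i j) (C.a j j) (C.a i i) (C.a j l) (C.a l i)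
    hs.k_pos hs.k_le (L7b_inv_pos hs) hs.inv_le hs.1)
  congr 1
  ring

theorem L7a_Rsum {qq : ℝ} (hq : 0 ≤ qq) (hQ : Q4 C.a ≤ qq ^ 2) :
    ∑ i, ∑ j, C.L7a_R i j ≤ 6 * (C.de ^ 2 * C.u * C.s * qq ^ 2)
      + 8 * (C.bt * C.s * qq * (C.s + C.u ^ 3)) := by
  have hs := C.ok.s0
  have hu1 := C.ok.u1
  have hu : 0 ≤ C.u := by linarith
  have hdl := C.ok.dl0
  have e : ∀ i, ∑ j, C.L7a_R i j = ∑ l, (2 * C.a i l ^ 4 * (∑ j, |C.a i j| + |C.a i i| * ∑ j, |C.a j j|)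
      + 2 * (|C.a i l ^ 2| * |C.a i i * C.a i l|) * ∑ j, |C.a l j|) := by
    intro i
    unfold L7a_R
    rw [Finset.sum_comm]
    refine Finset.sum_congr rfl fun l _ => ?_
    simp only [Finset.mul_sum, ← Finset.sum_add_distrib]
    refine Finset.sum_congr rfl fun j _ => ?_
    have : C.a i l ^ 4 = |C.a i l| ^ 4 := (Even.pow_abs (by decide) _).symm
    rw [this, abs_mul, abs_mul, abs_pow]
    ring
  have h1 : ∀ i, ∑ j, C.L7a_R i j ≤ ∑ l, (2 * C.a i l ^ 4 * (2 * C.s * C.u + C.dl * (C.s * C.dl))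
      + 2 * (|C.a i l ^ 2| * |C.a i i * C.a i l|) * (2 * C.s * C.u)) := by
    intro i
    rw [e]
    refine Finset.sum_le_sum fun l _ => add_le_add ?_ ?_
    · refine mul_le_mul_of_nonneg_left (add_le_add (C.row_abs C.let_a i) ?_) (by positivity)
      exact mul_le_mul (C.abs_diag_le C.let_a i) (C.sum_abs_diag C.let_a) (by positivity) hdl
    · exact mul_le_mul_of_nonneg_left (C.row_abs C.let_a l) (by positivity)
  refine (Finset.sum_le_sum fun i _ => h1 i).trans ?_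
  simp only [Finset.sum_add_distrib, ← Finset.sum_mul, ← Finset.mul_sum]
  have h2 := Ctx.cs2 (fun k l => C.a k l ^ 2) (fun k l => C.a k k * C.a k l) hq
    (G := 2 * C.u * C.dl) (by positivity) (by simp only [← pow_mul]; exact hQ) (by
      simp only [mul_pow, ← Finset.mul_sum, C.L7b_r]
      have a1 : ∑ k, C.a k k ^ 2 * rr C.a k ≤ ∑ k, C.a k k ^ 2 * (3 * C.w) :=
        Finset.sum_le_sum fun k _ => mul_le_mul_of_nonneg_left (C.L7b_r3w k) (sq_nonneg _)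
      rw [← Finset.sum_mul] at a1
      have a2 : ∑ k, C.a k k ^ 2 ≤ C.dl ^ 2 := C.ha.dl
      have a3 : C.w = C.u ^ 2 := rfl
      rw [a3] at a1
      have a4 := mul_le_mul_of_nonneg_right a2 (sq_nonneg C.u)
      have a5 : 0 ≤ C.dl ^ 2 * C.u ^ 2 := by positivity
      linarith)
  have hQ' : ∑ i, ∑ l, C.a i l ^ 4 ≤ qq ^ 2 := hQ
  have d1 : C.dl ^ 2 ≤ C.de ^ 2 := pow_le_pow_left₀ C.ok.dl0 C.ok.dle 2
  have d2 : 1 ≤ C.de ^ 2 := one_le_pow₀ C.ok.de1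
  have d3 : 2 * C.s * C.u + C.dl * (C.s * C.dl) ≤ 3 * (C.de ^ 2 * C.u * C.s) := by
    have a1 : C.u * C.s ≤ C.de ^ 2 * (C.u * C.s) := le_mul_of_one_le_left (by positivity) d2
    have a2 : C.dl ^ 2 * C.s ≤ C.de ^ 2 * (C.u * C.s) :=
      mul_le_mul d1 (le_mul_of_one_le_left hs hu1) hs (sq_nonneg _)
    linarith
  have d4 := mul_le_mul hQ' d3 (by positivity) (sq_nonneg _)
  have d5 := mul_le_mul_of_nonneg_right h2 (show 0 ≤ 2 * C.s * C.u by positivity)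
  have d6 : C.dl ≤ C.bt := by
    have := C.ok.dle
    have := C.ok.deb
    have := C.ok.de1
    nlinarith
  have d7 : C.dl * C.u ^ 2 ≤ C.bt * (C.s + C.u ^ 3) := by
    refine mul_le_mul d6 ?_ (by positivity) (by linarith)
    have := C.ok.us
    have : 0 ≤ C.u ^ 3 := by positivity
    linarith
  have d8 := mul_le_mul_of_nonneg_left d7 (show 0 ≤ C.s * qq by positivity)
  linarith

end Ctx

theorem L7a : ∃ C0 : ℝ, 0 ≤ C0 ∧ ∀ {ι : Type} [Fintype ι] [DecidableEq ι] (C : Ctx ι), ∀ qq : ℝ, 0 ≤ qq → Q4 C.a ≤ qq ^ 2 →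
    |C.E (fun i j => ∑ k ∈ univ \ {i, j}, ∑ l ∈ univ \ {i, j}, C.a k l ^ 3 * del C.a i j k l)|
      ≤ C0 * C.err7 qq := by
  refine ⟨200, by norm_num, fun {ι} _ _ C qq hq hQ => ?_⟩
  have hs := C.ok.s0
  have hu1 := C.ok.u1
  have hb1 := C.ok.bt1
  have hu3 : 1 ≤ C.u ^ 3 := one_le_pow₀ hu1
  set F := qq * (5 * (C.s + C.u ^ 3)) with hF
  have hF0 : 0 ≤ F := by positivity
  set X : ι → ι → ℝ :=
    fun i j => ∑ k ∈ univ \ {i, j}, ∑ l ∈ univ \ {i, j}, C.a k l ^ 3 * del C.a i j k l with hX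
  have h1 := C.TF hF0 (C.L7a_F hq hQ)
  have h2 := C.L7a_sum_le hq hQ
  have h3 : C.E (fun i j => C.L7a_Y j i) = C.E C.L7a_Y := C.E_swap _
  have h4 := C.TUabs (X := fun i j => X i j - (C.L7a_Y j i + C.L7a_Y i j))
    (Y := fun i j => 2 * (C.L7a_R i j + C.L7a_R j i) +
      (2 * (|(|C.a i j| + |C.a i i * C.a j j|)| * |C.L7a_Y j i|
        + |(|C.a i j| + |C.a i i * C.a j j|)| * |C.L7a_Y i j|)
      + 2 * (|C.a j j| * |C.L7a_Y i i| + |C.a i i| * |C.L7a_Y j j|))) (by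
      intro i j hg
      have hsm := C.let_a.sm hg
      have e1 := L7a_split (fun k l => C.a k l ^ 3 * del C.a i j k l) hg.1
      have e2 : ∀ t, ∑ k, |C.a k t ^ 3 * del C.a i j k t| = ∑ k, |C.a t k ^ 3 * del C.a i j t k| :=
        fun t => Finset.sum_congr rfl fun k _ => by rw [C.L7b_sym k t, del_comm]
      rw [e2, e2, C.L7a_full] at e1
      have e3 := C.L7a_row_i hsm
      have e4 := C.L7a_row_j hsm
      have e5 : |((1 - C.a i j) / dd C.a i j - 1) * (C.L7a_Y j i + C.L7a_Y i j)| ≤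
          2 * (|C.a i j| + |C.a i i * C.a j j|) * (|C.L7a_Y j i| + |C.L7a_Y i j|) := by
        rw [abs_mul]
        exact mul_le_mul hsm.k_sub (abs_add_le _ _) (abs_nonneg _) (by positivity)
      have e6 : |1 / dd C.a i j * (C.a j j * C.L7a_Y i i + C.a i i * C.L7a_Y j j)| ≤
          2 * (|C.a j j| * |C.L7a_Y i i| + |C.a i i| * |C.L7a_Y j j|) := by
        rw [abs_mul, abs_of_nonneg (L7b_inv_pos hsm), ← abs_mul, ← abs_mul]
        exact mul_le_mul (hsm.inv_le.trans (by norm_num)) (abs_add_le _ _) (abs_nonneg _)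
          (by norm_num)
      rw [abs_of_nonneg (a := |C.a i j| + |C.a i i * C.a j j|) (by positivity)]
      rw [abs_le] at e1 e5 e6 ⊢
      simp only [hX]
      constructor <;> linarith [e1.1, e1.2, e5.1, e5.2, e6.1, e6.2])
    (fun i j => by have := C.L7a_R0 i j; have := C.L7a_R0 j i; positivity)
  rw [C.E_sub, C.E_add, h3] at h4
  simp only [Finset.sum_add_distrib, ← Finset.mul_sum] at h4
  have g1 := C.L7a_Rsum hq hQ
  have g2 : ∑ i, ∑ j, C.L7a_R j i = ∑ i, ∑ j, C.L7a_R i j := Finset.sum_comm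
  have hfgh : ∑ i, ∑ j, (|C.a i j| + |C.a i i * C.a j j|) ^ 2 ≤ (2 * C.s) ^ 2 :=
    (C.F_fgh C.let_a).trans (pow_le_pow_left₀ (add_nonneg C.ok.tt0 (sq_nonneg _)) C.tt_add_le 2)
  have g3 := Ctx.cs2 _ _ (by positivity) hF0 hfgh (C.L7a_F hq hQ)
  have g4 := Ctx.cs2 _ (fun i j => C.L7a_Y j i) (by positivity) hF0 hfgh
    (by rw [Finset.sum_comm]; exact C.L7a_F hq hQ)
  have d6 : C.dl ≤ C.bt := by
    have := C.ok.dle
    have := C.ok.deb
    have := C.ok.de1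
    nlinarith
  have g5 : (∑ j, |C.a j j|) * ∑ i, |C.L7a_Y i i| ≤ C.s * C.bt * F :=
    mul_le_mul ((C.sum_abs_diag C.let_a).trans (mul_le_mul_of_nonneg_left d6 hs)) (C.L7a_D hq hQ)
      (by positivity) (by positivity)
  have g6 : ∑ i, ∑ j, |C.a j j| * |C.L7a_Y i i| = (∑ j, |C.a j j|) * ∑ i, |C.L7a_Y i i| := by
    simp only [← Finset.sum_mul, ← Finset.mul_sum]
  have g7 : ∑ i, |C.a i i| * ∑ j, |C.L7a_Y j j| = (∑ j, |C.a j j|) * ∑ i, |C.L7a_Y i i| := by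
    simp only [← Finset.sum_mul]
  rw [g2, g6, g7] at h4
  obtain ⟨t1, t2, t3, t4⟩ := C.L7b_terms hq
  have k1 : C.s * F ≤ C.bt * (C.s * F) := le_mul_of_one_le_left (by positivity) hb1
  have k2 : 5 * (qq * C.s) ≤ C.s * F := by
    rw [hF]
    have : qq * C.s * 1 ≤ qq * C.s * (C.s + C.u ^ 3) :=
      mul_le_mul_of_nonneg_left (by linarith) (by positivity)
    linarith
  have k3 : C.bt * (C.s * F) = 5 * (C.bt * C.s * qq * (C.s + C.u ^ 3)) := by rw [hF]; ring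
  have herr : C.err7 qq = C.bt * C.s * qq * (C.s + C.u ^ 3) + C.de ^ 4 * (C.s ^ 2 + C.w ^ 3)
    + C.bt ^ 2 * C.w ^ 2 * qq ^ 2 + C.de ^ 2 * C.u * C.s * qq ^ 2 := rfl
  rw [herr]
  rw [abs_le] at h1 h2 h4 ⊢
  constructor <;> linarith [h1.1, h1.2, h2.1, h2.2, h4.1, h4.2]

end Crest.Agent.R62
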