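import Crest.Agent.R62.RegAt

/-!
# R62-Reg3: the hypotheses of `stepAB` hold, third phase

Take `s = √m`, `tt = s`, `rt = 2s`, `dl = de = t^ede`, `c = (parAB G m).c`, `R = t^er`, `tol = n/10`,
`G := n` (the gain), `cM = t^(eD+1)`, `qq = 1/√Wq`, `τ = t²`.  Every smallness condition is a sum of at most
a dozen monomials `const · t^a s^α`; each one satisfies `t^(a+400) s^α ≤ t^b s^β` against the right-hand side
(checked by script: slack at least `t^400`, except `de·m` and `m` against `de² m` in `e6` where it is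
`t^10`), so prove `monomial ≤ RHS / t^3` by `mono_lo`/`mono_hi` and absorb constants with `t ≥ t0`.
`sS ≤ 6 K²`; `n ≥ t^eD`, `m0 = q n ≤ t^(eD+1)`, `s ≤ t^((eD+1)/2)`; `qq² ≥ m²/(1.2 m0)` i.e.
`s² ≤ 2 qq t^((eD+1)/2)`; `qq² (1-c)² ≤ 10 E²/m0`; `qq² ≤ m/1.1`.  See `RegMov` for the moving targets.
NEVER let `simp`/`norm_num`/`decide` evaluate a numeral to these powers.
Here `bt = t^(2 ede + 1)`, `u = t^euB`, `K = t^ekB`, `η = t^ehB`, `lam = 0`, `θ = 1/1000`, `pm = 1`;
`ell = ell' = 0`, `a3L = 0`; `t^ega ≤ s ≤ t^eal`; `m ≤ m0`.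
-/

set_option autoImplicit false
open Matrix Finset

namespace Crest.Agent.R62

theorem reg3 (q : ℕ) (hq : 2 ≤ q) : ∃ t0 : ℝ, ∀ G : Glob ℝ, GoodG q G → t0 ≤ G.t → ∀ m : ℝ,
    G.t ^ (2 * ega) < m → m ≤ G.t ^ (2 * eal) →
    ∃ (N : Num) (θ R η tol Gs cM qq : ℝ),
      HypAB N (parAB G m) (parAB G (m - 2)) (G.t ^ 2) ((q + 1) ^ 2) θ R η tol Gs cM qq := by
  refine ⟨((10 ^ 30 : ℕ) : ℝ) + ((q : ℝ) + 1) ^ 2, fun G hG ht m h1 h2 => ?_⟩
  have ht1 : 1 ≤ G.t := le_trans (by norm_num) (le_trans (le_add_of_nonneg_right (sq_nonneg _)) ht)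
  have ht0 : 0 < G.t := lt_of_lt_of_le one_pos ht1
  have h4 : m ≤ G.m0 := by
    have h5 : G.t ^ (2 * eal) ≤ G.t ^ eD := pow_le_pow_right₀ ht1 (by decide)
    have h6 := hG.n1
    have h7 : (2 : ℝ) ≤ q := by exact_mod_cast hq
    have h8 : 0 < G.t ^ eD := pow_pos ht0 _
    rw [hG.m0]
    nlinarith
  obtain ⟨c, H⟩ := exists_regAt hq hG ht (lo := ega) (hi := eal) (by decide) (by decide)
    h1.le h2 h4
  have hc : ¬ G.t ^ (2 * eal) < m := not_lt.2 h2
  have hl0 : (parAB G m).ell = 0 := mov_ell_lo G ht1 h2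
  have Uell : c.Up (parAB G m).ell 0 0 0 := by
    rw [hl0]
    exact ⟨le_rfl, by simp⟩
  have hl : (parAB G m).ell - (parAB G (m - 2)).ell = 0 := by
    rw [hl0, mov_ell_lo G ht1 (by linarith), sub_self]
  have hm : 210 ≤ m := by reg_le c [H.Lm]
  have hm10 : 10 ≤ m := by linarith
  have hmp : 0 < m := by linarith
  have hn := H.Ln.pos
  have hE := H.LE.pos
  have hM := H.Lm0.pos.le
  have ha := mov_a G (m := m) ht1
  have one : ∀ a : ℕ, 1 ≤ G.t ^ a := fun a => one_le_pow₀ ht1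
  refine ⟨⟨√m, G.t ^ (2 * ede + 1), G.t ^ euB, G.t ^ ekB, √m, 2 * √m, G.t ^ ede, G.t ^ ede, 0,
    1, (parAB G m).c⟩, 1 / 1000, G.t ^ er, G.t ^ ehB, G.n / 10, G.n, G.t ^ (eD + 1),
    1 / √(parAB G m).Wq, ?_⟩
  exact
    { ok :=
        { s0 := Real.sqrt_nonneg _
          bt1 := one _
          bts := by dsimp only; reg_le c [H.U, H.Ls]
          u1 := one _
          us := by dsimp only; reg_le c [H.U, H.Ls]
          K1 := one _
          tt0 := Real.sqrt_nonneg _
          tts := le_rfl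
          rt0 := mul_nonneg two_pos.le (Real.sqrt_nonneg _)
          rts := le_rfl
          dl0 := (pow_pos ht0 _).le
          dle := le_rfl
          de1 := one _
          deb := by dsimp only; reg_le c [H.U, H.L]
          lam0 := le_rfl
          lamb := (pow_pos ht0 _).le
          pm1 := by norm_num
          pm2 := by norm_num
          c0 := mov_c0 G hE hm10
          c1 := mov_c1 G hE hm10 }
      m := (Real.sq_sqrt hmp.le).symm
      m' := rfl
      tt := rfl
      rt := rfl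
      dl := rfl
      wK := by dsimp only [Num.w]; reg_le c [H.U, H.L]
      c := rfl
      d0 := sq_nonneg _
      θ0 := by positivity
      θ1 := le_rfl
      lamθ := by norm_num
      pm := by norm_num
      B := by dsimp only; reg_le c [H.U, H.L, H.Uq]
      R0 := pow_pos ht0 _
      η0 := pow_pos ht0 _
      tol0 := by positivity
      qq0 := one_div_pos.2 (Real.sqrt_pos.2 (mov_W0 G hM hmp))
      a1 := by rw [← pow_mul, mul_comm]; rfl
      a2 := by rw [← pow_mul, mul_comm]; exact if_neg hc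
      a3 := RegAt_a3 hn
      a3L := Or.inl (if_neg hc)
      a4 := by dsimp only; rw [← pow_mul, mul_comm]; exact if_neg hc
      a5 := by dsimp only [Num.w]; rw [← pow_mul, ← pow_mul, mul_comm]; exact if_neg hc
      a6 := by dsimp only; rw [← pow_mul, mul_comm]; rfl
      a7 := rfl
      Wq := by rw [RegAt_qq (mov_W0 G hM hmp), one_div_one_div]
      a1' := ha.1
      a2' := ha.2.1
      a3' := ha.2.2.1
      a3L' := ha.2.2.2.1
      a4' := ha.2.2.2.2.1
      a5' := ha.2.2.2.2.2.1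
      a6' := ha.2.2.2.2.2.2
      a7' := rfl
      c3a := rfl
      c3b := rfl
      t0a := rfl
      t0b := rfl
      t0a0 := hG.ta
      t0b0 := hG.tb
      cMa := by
        have := hG.ca
        show |G.c3a| + _ ≤ _
        linarith
      cMb := by
        have := hG.cb
        show |G.c3b| + _ ≤ _
        linarith
      g := mov_g G hE hm10
      ηg := by
        refine le_trans ?_ (mov_g_ge G hE hm10)
        reg_le c [H.U, H.LE, H.Lm]
      dc := mov_dc G hE hm10
      dc2 := mov_dc2 G hE hm10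
      dg := mov_dg G hE hm10
      ell0 := mov_ell0 G ht1
      ell1 := mov_ell1 G ht1
      G0 := hn.le
      speed := by rw [hl]; simp
      speed2 := by rw [hl]; simpa using sq_nonneg _
      steer := Or.inl rfl
      Wq0 := (mov_W0 G hM (by linarith)).le
      dW := mov_dW G hM hm10
      rate7 := RegAt_rate7 G hM hm (sq_nonneg _)
      rate5 := RegAt_rate5 G hM hmp
      sB := by
        dsimp only [Num.err1, Num.var1, Num.err2, Num.var2, Num.err3, Num.var3, Num.err4, Num.err5,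
          Num.err6, Num.err7, Num.w, Num.sS]
        reg_le c [H.U, H.L, H.Us, H.Ls, H.Um, H.Lm, H.Um', H.Lm', H.Uq, H.Ln, H.Lm0, H.UE, H.LE, H.Ug, H.Uc, H.UW,
          H.LW, Uell, H.Udell]
      e1 := by
        refine le_trans ?_ (le_add_of_nonneg_right (zero_mul _).ge)
        dsimp only [Num.err1, Num.var1, Num.err2, Num.var2, Num.err3, Num.var3, Num.err4, Num.err5,
          Num.err6, Num.err7, Num.w, Num.sS]
        reg_le c [H.U, H.L, H.Us, H.Ls, H.Um, H.Lm, H.Um', H.Lm', H.Uq, H.Ln, H.Lm0, H.UE, H.LE, H.Ug, H.Uc, H.UW,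
          H.LW, Uell, H.Udell]
      v1 := by
        dsimp only [Num.err1, Num.var1, Num.err2, Num.var2, Num.err3, Num.var3, Num.err4, Num.err5,
          Num.err6, Num.err7, Num.w, Num.sS]
        reg_le c [H.U, H.L, H.Us, H.Ls, H.Um, H.Lm, H.Um', H.Lm', H.Uq, H.Ln, H.Lm0, H.UE, H.LE, H.Ug, H.Uc, H.UW,
          H.LW, Uell, H.Udell]
      e2 := by
        dsimp only [Num.err1, Num.var1, Num.err2, Num.var2, Num.err3, Num.var3, Num.err4, Num.err5,
          Num.err6, Num.err7, Num.w, Num.sS]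
        reg_le c [H.U, H.L, H.Us, H.Ls, H.Um, H.Lm, H.Um', H.Lm', H.Uq, H.Ln, H.Lm0, H.UE, H.LE, H.Ug, H.Uc, H.UW,
          H.LW, Uell, H.Udell]
      v2 := by
        dsimp only [Num.err1, Num.var1, Num.err2, Num.var2, Num.err3, Num.var3, Num.err4, Num.err5,
          Num.err6, Num.err7, Num.w, Num.sS]
        reg_le c [H.U, H.L, H.Us, H.Ls, H.Um, H.Lm, H.Um', H.Lm', H.Uq, H.Ln, H.Lm0, H.UE, H.LE, H.Ug, H.Uc, H.UW,
          H.LW, Uell, H.Udell]
      e3 := by
        dsimp only [Num.err1, Num.var1, Num.err2, Num.var2, Num.err3, Num.var3, Num.err4, Num.err5,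
          Num.err6, Num.err7, Num.w, Num.sS]
        reg_le c [H.U, H.L, H.Us, H.Ls, H.Um, H.Lm, H.Um', H.Lm', H.Uq, H.Ln, H.Lm0, H.UE, H.LE, H.Ug, H.Uc, H.UW,
          H.LW, Uell, H.Udell]
      v3 := by
        dsimp only [Num.err1, Num.var1, Num.err2, Num.var2, Num.err3, Num.var3, Num.err4, Num.err5,
          Num.err6, Num.err7, Num.w, Num.sS]
        reg_le c [H.U, H.L, H.Us, H.Ls, H.Um, H.Lm, H.Um', H.Lm', H.Uq, H.Ln, H.Lm0, H.UE, H.LE, H.Ug, H.Uc, H.UW,
          H.LW, Uell, H.Udell]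
      e4 := by
        dsimp only [Num.err1, Num.var1, Num.err2, Num.var2, Num.err3, Num.var3, Num.err4, Num.err5,
          Num.err6, Num.err7, Num.w, Num.sS]
        reg_le c [H.U, H.L, H.Us, H.Ls, H.Um, H.Lm, H.Um', H.Lm', H.Uq, H.Ln, H.Lm0, H.UE, H.LE, H.Ug, H.Uc, H.UW,
          H.LW, Uell, H.Udell]
      e5 := by
        dsimp only [Num.err1, Num.var1, Num.err2, Num.var2, Num.err3, Num.var3, Num.err4, Num.err5,
          Num.err6, Num.err7, Num.w, Num.sS]
        reg_le c [H.U, H.L, H.Us, H.Ls, H.Um, H.Lm, H.Um', H.Lm', H.Uq, H.Ln, H.Lm0, H.UE, H.LE, H.Ug, H.Uc, H.UW,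
          H.LW, Uell, H.Udell]
      q5 := by
        dsimp only [Num.err1, Num.var1, Num.err2, Num.var2, Num.err3, Num.var3, Num.err4, Num.err5,
          Num.err6, Num.err7, Num.w, Num.sS]
        reg_le c [H.U, H.L, H.Us, H.Ls, H.Um, H.Lm, H.Um', H.Lm', H.Uq, H.Ln, H.Lm0, H.UE, H.LE, H.Ug, H.Uc, H.UW,
          H.LW, Uell, H.Udell]
      e6 := by
        dsimp only [Num.err1, Num.var1, Num.err2, Num.var2, Num.err3, Num.var3, Num.err4, Num.err5,
          Num.err6, Num.err7, Num.w, Num.sS]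
        reg_le c [H.U, H.L, H.Us, H.Ls, H.Um, H.Lm, H.Um', H.Lm', H.Uq, H.Ln, H.Lm0, H.UE, H.LE, H.Ug, H.Uc, H.UW,
          H.LW, Uell, H.Udell]
      e7 := by
        dsimp only [Num.err1, Num.var1, Num.err2, Num.var2, Num.err3, Num.var3, Num.err4, Num.err5,
          Num.err6, Num.err7, Num.w, Num.sS]
        reg_le c [H.U, H.L, H.Us, H.Ls, H.Um, H.Lm, H.Um', H.Lm', H.Uq, H.Ln, H.Lm0, H.UE, H.LE, H.Ug, H.Uc, H.UW,
          H.LW, Uell, H.Udell] }

end Crest.Agent.R62
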