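import Crest.Agent.R62.RegCalc

/-!
# R62-RegAt: the atoms of the monomial calculus in the main phases
-/

set_option autoImplicit false

namespace Crest.Agent.R62

/-- size of the basic quantities -/
structure RegAt (c : Sc) (q : ℕ) (G : Glob ℝ) (m : ℝ) (lo hi : ℕ) : Prop where
  t1 : 1 ≤ G.t
  m0 : G.m0 ≤ G.t ^ (eD + 1)
  U : ∀ a : ℕ, c.Up (G.t ^ a) 1 a a
  L : ∀ a : ℕ, c.Lo (G.t ^ a) 1 a a
  Us : c.Up (√m) 1 lo hi
  Ls : c.Lo (√m) 1 lo hi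
  Um : c.Up m 1 (lo * 2) (hi * 2)
  Lm : c.Lo m 1 (lo * 2) (hi * 2)
  Um' : c.Up (parAB G m).m 1 (lo * 2) (hi * 2)
  Lm' : c.Lo (parAB G m).m 1 (lo * 2) (hi * 2)
  Uq : c.Up (((q : ℝ) + 1) ^ 2) 1 1 1
  Ln : c.Lo G.n 1 eD eD
  Lm0 : c.Lo G.m0 1 eD eD
  UE : c.Up G.E 1 (eE + 1) (eE + 1)
  LE : c.Lo G.E 1 eE eE
  Ug : c.Up (parAB G m).g 1 (eE + 1) (eE + 1)
  Uc : c.Up (1 - (parAB G m).c) 1 (eE + 1 - lo * 2) (eE + 1 - hi * 2)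
  UW : c.Up (parAB G m).Wq 2 (eD + 1 - lo * 4) (eD + 1 - hi * 4)
  LW : c.Lo (parAB G m).Wq 10 (eD - lo * 4) (eD - hi * 4)
  Uell : c.Up (parAB G m).ell 1 er0 er0
  Udell : c.Up ((parAB G m).ell - (parAB G (m - 2)).ell) 2 (er0 - 2 * eal) (er0 - 2 * eal)

theorem RegAt_m0 {q : ℕ} {G : Glob ℝ} (hG : GoodG q G)
    (ht : ((10 ^ 30 : ℕ) : ℝ) + ((q : ℝ) + 1) ^ 2 ≤ G.t) : G.m0 ≤ G.t ^ (eD + 1) := by
  have hq0 : (0 : ℝ) ≤ q := Nat.cast_nonneg q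
  have h30 : (1 : ℝ) ≤ ((10 ^ 30 : ℕ) : ℝ) := by norm_num
  have h1 : 2 * (q : ℝ) ≤ G.t := by nlinarith [sq_nonneg (q : ℝ)]
  have h2 : 0 ≤ G.t ^ eD := pow_nonneg (by linarith) _
  rw [hG.m0, pow_succ]
  calc q * G.n ≤ q * (2 * G.t ^ eD) := mul_le_mul_of_nonneg_left hG.n2 hq0
    _ = G.t ^ eD * (2 * q) := by ring
    _ ≤ _ := mul_le_mul_of_nonneg_left h1 h2

theorem exists_regAt {q : ℕ} (hq : 2 ≤ q) {G : Glob ℝ} (hG : GoodG q G)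
    (ht : ((10 ^ 30 : ℕ) : ℝ) + ((q : ℝ) + 1) ^ 2 ≤ G.t) {m : ℝ} {lo hi : ℕ} (hlo : 1 ≤ lo)
    (hlt : lo < hi) (h1 : G.t ^ (2 * lo) ≤ m) (h2 : m ≤ G.t ^ (2 * hi)) (h3 : m ≤ G.m0) :
    ∃ c : Sc, RegAt c q G m lo hi := by
  have hq0 : (2 : ℝ) ≤ q := by exact_mod_cast hq
  have h30 : (1 : ℝ) ≤ ((10 ^ 30 : ℕ) : ℝ) := by norm_num
  have hq1 : 0 ≤ ((q : ℝ) + 1) ^ 2 := sq_nonneg _
  have ht1 : 1 ≤ G.t := by linarith
  have ht0 : 0 < G.t := by linarith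
  have hm0 : 0 < m := (pow_pos ht0 _).trans_le h1
  obtain ⟨c, U, L, Us, Ls⟩ := exists_sc (t := G.t) (s := √m) (by linarith) hlt
    (Real.le_sqrt_of_sq_le (by rwa [← pow_mul, mul_comm]))
    (Real.sqrt_le_iff.2 ⟨(pow_pos ht0 _).le, by rwa [← pow_mul, mul_comm]⟩)
  have Um : c.Up m 1 (lo * 2) (hi * 2) := by
    have := Us.pow 2
    rwa [Real.sq_sqrt hm0.le] at this
  have Lm : c.Lo m 1 (lo * 2) (hi * 2) := by
    have := Ls.pow 2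
    rwa [Real.sq_sqrt hm0.le] at this
  have hm : 10 ≤ m := c.fin (Sc.Up.ofNat 10) Lm ⟨by norm_num, by omega, by omega⟩
  have Ln : c.Lo G.n 1 eD eD := (L eD).of_le hG.n1
  have Lm0 : c.Lo G.m0 1 eD eD := Ln.of_le (by
    rw [hG.m0]
    nlinarith [Ln.pos])
  have LE : c.Lo G.E 1 eE eE := (L eE).of_le hG.E1
  have hE := LE.pos
  have UE : c.Up G.E 1 (eE + 1) (eE + 1) := (U (eE + 1)).of_le hE.le hG.E2
  have Um0 : c.Up G.m0 1 (eD + 1) (eD + 1) := (U (eD + 1)).of_le Lm0.pos.le (RegAt_m0 hG ht)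
  refine ⟨c, ht1, RegAt_m0 hG ht, U, L, Us, Ls, Um, Lm, Um, Lm, ?_, Ln, Lm0, UE, LE, ?_, ?_, ?_, ?_,
    ?_, ?_⟩
  · exact (U 1).of_le hq1 (by rw [pow_one]; linarith)
  · refine UE.of_le ?_ (mov_g_le G hE hm)
    exact le_trans (div_nonneg (le_min hE.le hm0.le) two_pos.le) (mov_g_ge G hE hm)
  · exact (UE.div Lm).of_le (sub_nonneg.2 (mov_c1 G hE hm)) (mov_one_sub_c G hE hm)
  · refine ((((Sc.Up.ofNat 2).mul Um0).div (Lm.pow 2)).of_le (mov_W0 G Lm0.pos.le hm0).le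
      ((mov_W_le G hm0 h3).trans ?_)).weaken ⟨by norm_num, by omega, by omega⟩
    have := Lm0.pos
    gcongr
    norm_num
  · exact ((Lm0.div ((Sc.Up.ofNat 10).mul (Um.pow 2)) ((Sc.Lo.ofNat 10).mul (Lm.pow 2))).of_le
      (mov_W_ge2 G hm0)).weaken ⟨by norm_num, by omega, by omega⟩
  · exact (U er0).of_le (mov_ell0 G ht1) (mov_ell_le G ht1)
  · exact ((((Sc.Up.ofNat 2).mul (U er0)).div (L (2 * eal))).of_le (sub_nonneg.2 (mov_ell1 G ht1))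
      (mov_dell G ht1)).weaken ⟨by norm_num, by omega, by omega⟩

theorem RegAt_qq {W : ℝ} (hW : 0 < W) : (1 / √W) ^ 2 = 1 / W := by
  rw [div_pow, one_pow, Real.sq_sqrt hW.le]

theorem RegAt_rate (G : Glob ℝ) {m pm : ℝ} (h0 : 0 ≤ G.m0) (hm : 10 ≤ m) (hp : 0 ≤ pm) :
    (parAB G m).m ^ 2 * ((parAB G (m - 2)).Wq - (parAB G m).Wq) -
      4 * (parAB G m).m * (parAB G (m - 2)).Wq +
      2.1 * pm * (parAB G (m - 2)).Wq * (1 / √(parAB G m).Wq) ^ 2 ≤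
        -(11 / 5) + 2.1 * pm * (1 + 10 / m) := by
  have hW := mov_W0 G h0 (show 0 < m by linarith)
  have h1 := mov_rate G h0 hm
  have h2 := (abs_le.1 (mov_dW G h0 hm)).2
  have h3 : (parAB G (m - 2)).Wq * (1 / √(parAB G m).Wq) ^ 2 ≤ 1 + 10 / m := by
    rw [RegAt_qq hW, mul_one_div, div_le_iff₀ hW]
    have : 10 * (parAB G m).Wq / m = 10 / m * (parAB G m).Wq := by ring
    linarith
  have h4 := mul_le_mul_of_nonneg_left h3 (show 0 ≤ 2.1 * pm by positivity)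
  have e : (parAB G m).m = m := rfl
  rw [e]
  linarith

theorem RegAt_rate7 (G : Glob ℝ) {m τ : ℝ} (h0 : 0 ≤ G.m0) (hm : 210 ≤ m) (hτ : 0 ≤ τ) :
    τ * ((parAB G m).m ^ 2 * ((parAB G (m - 2)).Wq - (parAB G m).Wq) -
      4 * (parAB G m).m * (parAB G (m - 2)).Wq +
      2.1 * 1 * (parAB G (m - 2)).Wq * (1 / √(parAB G m).Wq) ^ 2) ≤
        (parAB G m).Wq * (parAB G m).m := by
  have hm0 : 0 < m := by linarith
  have h1 := RegAt_rate G h0 (show 10 ≤ m by linarith) zero_le_one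
  have h2 : 10 / m ≤ 1 / 21 := by
    rw [div_le_iff₀ hm0]
    linarith
  exact le_trans (mul_nonpos_of_nonneg_of_nonpos hτ (by linarith))
    (mul_pos (mov_W0 G h0 hm0) hm0).le

theorem RegAt_rate5 (G : Glob ℝ) {m : ℝ} (h0 : 0 ≤ G.m0) (hm : 0 < m) :
    2.2 * 1 * (1 / √(parAB G m).Wq) ^ 2 ≤ 2 * (parAB G m).m := by
  have hW := mov_W0 G h0 hm
  have h1 := mov_W_ge1 G h0 hm
  have e : (parAB G m).m = m := rfl
  rw [div_le_iff₀ (by positivity)] at h1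
  rw [e, RegAt_qq hW, mul_one_div, div_le_iff₀ hW]
  linarith

theorem RegAt_a3 {n : ℝ} (hn : 0 < n) : 100 / n ^ 2 = 1 / (n / 10) ^ 2 := by
  field_simp
  norm_num

end Crest.Agent.R62
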