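import Crest.Agent.R62.RegCalc
import Crest.Agent.R62.Bas1

/-!
# R62-RegC: final phase: hypotheses of `stepC`, transition, end

`regC`: `τ = t²`, `s = √m`, `ts = m²/t^eyy + 1/2`, `tt = K = √(1+ts)`, `ρs = m/t^(2 ev1)`,
`dl = √(t^(2ede+1) m/t^(2ega) + 1/t^(2edd))`, `de = t^(ede+1)`, `bt = t^(2ede+3)`,
`u = (min ρs tt⁴)^(1/4)` (`u = √√(min …)`), `rt = w = u²`, `lam = 0`, `pm = 1`, `c = 0`.
Use `t^eph ≤ s ≤ t^ega`, `1 ≤ tt`, `tt² ≤ 3 ts`, `tt · t^evv ≤ s`, `w · t^ev1 ≤ s`, `w ≤ tt²`,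
`1 ≤ dl · t^edd`, `dl ≤ de`, and `t³ dl² ≤ ts` (AM-GM: `ts ≥ m/t^(eyy/2)`, and `ts ≥ 1/2`).
`e2`: compare each monomial with `tt² s²`: `bt² w s`, `bt s w² ≤ bt s (s/t^ev1) tt²`, `bt s tt³`, `bt s tt`,
`bt s dl tt w`, `s dl tt³`, `tt⁴`, `dl² s²`, `w³ ≤ tt² (s/t^ev1)²`, `tt s w`.
`e5`: compare with `s⁴/t^(2ev1)` using `w ≤ s/t^ev1`, `K ≤ s/t^evv` (`u³ ≤ w²/u`, or `u⁴ ≤ ρs`, `t^100 ≤ √√ρs`).
`e6`: compare with `dl² s²`.  Slack at least `t^400` except `t³ /t^(2edd) ≤ 1/4`.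
`trans`: all terms of `pot (parAB …)` are `≥ 0`; `τ₂ ≤ m - g + η ≤ m²/E + t^ehB`,
`∑_S r² ≤ 2 t^(4 euB) + 2 c² m`, `c ≤ m/E`, `Del ≤ t^(2ede)`; each of the six terms of `pot (parC …)` is `≤ 1/12`
(`m ≥ t^(2ega)/2`).
`finalC`: the terms are `≥ 0` (`one_le_tau2`), `a7 ≥ 1`.
NEVER let `simp`/`norm_num`/`decide` evaluate a numeral to these powers.
-/

set_option autoImplicit false
open Matrix Finset

namespace Crest.Agent.R62

/-- the target for `τ₂ - 1` -/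
noncomputable def RegC_ts (t m : ℝ) : ℝ := m ^ 2 / t ^ eyy + 1 / 2
/-- the target for `ρ` -/
noncomputable def RegC_ρ (t m : ℝ) : ℝ := m / t ^ (2 * ev1)
/-- the target for `Δ` -/
noncomputable def RegC_D (t m : ℝ) : ℝ := t ^ (2 * ede + 1) * m / t ^ (2 * ega) + 1 / t ^ (2 * edd)
/-- `√T` -/
noncomputable def RegC_tt (t m : ℝ) : ℝ := √(1 + RegC_ts t m)
/-- `√w` -/
noncomputable def RegC_u (t m : ℝ) : ℝ := √√(min (RegC_ρ t m) (RegC_tt t m ^ 4))

/-- the parameters of the final phase -/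
noncomputable def RegC_N (t m : ℝ) : Num :=
  ⟨√m, t ^ (2 * ede + 3), RegC_u t m, RegC_tt t m, RegC_tt t m, RegC_u t m ^ 2, √(RegC_D t m),
    t ^ (ede + 1), 0, 1, 0⟩

/-- the smallness conditions of the final phase -/
structure RegC_Small (t m d2 : ℝ) : Prop where
  m10 : 10 ≤ m
  ρ1 : 1 ≤ RegC_ρ t m
  bts : 10 * (t ^ (2 * ede + 3)) ^ 2 ≤ √m ^ 2
  tts : RegC_tt t m ≤ √m
  dle : √(RegC_D t m) ≤ t ^ (ede + 1)
  deb : (t ^ (ede + 1)) ^ 2 ≤ t ^ (2 * ede + 3)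
  B : 2 * (d2 + 2 * 10 ^ 6 + 2 * 10 ^ 6 * (t ^ (ede + 1)) ^ 4) ≤ (t ^ (2 * ede + 3)) ^ 2
  tm : 10 * RegC_tt t m ^ 2 ≤ m
  ws : 30 * RegC_u t m ^ 2 ≤ √m
  e2 : t ^ 2 * ((RegC_N t m).err2 (√m * √(RegC_D t m) * RegC_tt t m ^ 3) + RegC_tt t m ^ 4) ≤
    RegC_ts t m * m
  e5 : t ^ 2 * (RegC_N t m).err5 ≤ RegC_ρ t m * m
  e6 : t ^ 2 * ((RegC_N t m).err6 (√m * √(RegC_D t m)) +
    (RegC_u t m ^ 2) ^ 2 * √(RegC_D t m) ^ 2) ≤ √(RegC_D t m) ^ 2 * m

theorem RegC_inv {X X' ε : ℝ} (h0 : 0 < X) (h0' : 0 < X') (h1 : X ≤ 2 * X') (h2 : (1 - ε) * X ≤ X') :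
    0 ≤ 1 / X' ∧ 1 / X' ≤ 2 * (1 / X) ∧ 1 / X' * (1 - ε) ≤ 1 / X := by
  refine ⟨by positivity, ?_, ?_⟩
  · rw [mul_one_div, div_le_div_iff₀ h0' h0]
    linarith
  · rw [one_div_mul_eq_div, div_le_div_iff₀ h0' h0]
    linarith

theorem RegC_hyp (G : Glob ℝ) {m d2 : ℝ} (ht1 : 1 ≤ G.t) (hd : 0 ≤ d2) (h : RegC_Small G.t m d2) :
    HypC (RegC_N G.t m) (parC G m) (parC G (m - 2)) (G.t ^ 2) d2 (RegC_ts G.t m) (RegC_ρ G.t m) := by
  have ht0 : 0 < G.t := lt_of_lt_of_le one_pos ht1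
  have hm := h.m10
  have hm0 : 0 < m := by linarith
  have hm2 : 0 < m - 2 := by linarith
  have one : ∀ a : ℕ, 1 ≤ G.t ^ a := fun a => one_le_pow₀ ht1
  have hts : 1 / 2 ≤ RegC_ts G.t m := le_add_of_nonneg_left (by positivity)
  have htt : 1 ≤ RegC_tt G.t m := Real.one_le_sqrt.2 (by linarith)
  have hμ : 1 ≤ min (RegC_ρ G.t m) (RegC_tt G.t m ^ 4) := le_min h.ρ1 (one_le_pow₀ htt)
  have hu : 1 ≤ RegC_u G.t m := Real.one_le_sqrt.2 (Real.one_le_sqrt.2 hμ)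
  have hD : 0 < RegC_D G.t m := by unfold RegC_D; positivity
  have hs : 0 ≤ √m := Real.sqrt_nonneg _
  have hw := h.ws
  have hw0 : 0 ≤ RegC_u G.t m ^ 2 := sq_nonneg _
  have e1 : (1 - 2 / m) * m = m - 2 := by field_simp
  have e2 : (1 - 4 / m) * m ^ 2 = m ^ 2 - 4 * m := by field_simp
  have e3 : 0 < 2 / m := by positivity
  have e4 : 0 < 4 / m := by positivity
  exact
    { ok :=
        { s0 := hs
          bt1 := one _
          bts := h.bts
          u1 := hu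
          us := by show RegC_u G.t m ^ 2 ≤ √m; linarith
          K1 := htt
          tt0 := Real.sqrt_nonneg _
          tts := h.tts
          rt0 := hw0
          rts := by show RegC_u G.t m ^ 2 ≤ 2 * √m; linarith
          dl0 := Real.sqrt_nonneg _
          dle := h.dle
          de1 := one _
          deb := h.deb
          lam0 := le_rfl
          lamb := (pow_pos ht0 _).le
          pm1 := le_rfl
          pm2 := by show (1 : ℝ) ≤ 3 / 2; norm_num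
          c0 := le_rfl
          c1 := zero_le_one }
      m := (Real.sq_sqrt hm0.le).symm
      m' := rfl
      lam := rfl
      pm := rfl
      c := rfl
      d0 := hd
      B := h.B
      ts1 := hts
      tt := Real.sq_sqrt (by linarith)
      K := rfl
      rt := rfl
      wmin := by
        show min (RegC_ρ G.t m) (RegC_tt G.t m ^ 4) ≤ (RegC_u G.t m ^ 2) ^ 2
        rw [RegC_u, Real.sq_sqrt (Real.sqrt_nonneg _), Real.sq_sqrt (by linarith)]
      ρ0 := lt_of_lt_of_le one_pos h.ρ1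
      dl0 := Real.sqrt_pos.2 hD
      z := ⟨rfl, rfl, rfl, rfl, rfl, rfl, rfl⟩
      z' := ⟨rfl, rfl, rfl, rfl, rfl, rfl, rfl⟩
      a5 := (one_div_div _ _).symm
      a6 := by
        show 1 / RegC_D G.t m = 1 / √(RegC_D G.t m) ^ 2
        rw [Real.sq_sqrt hD.le]
      a7 := rfl
      a5' := by
        have hY : 0 < G.t ^ (2 * ev1) := pow_pos ht0 _
        have := RegC_inv (X := m / G.t ^ (2 * ev1)) (X' := (m - 2) / G.t ^ (2 * ev1)) (ε := 2 / m)
          (by positivity) (by positivity)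
          (by rw [← mul_div_assoc]; exact div_le_div_of_nonneg_right (by linarith) hY.le)
          (by rw [← mul_div_assoc, e1])
        rwa [one_div_div, one_div_div] at this
      a6' := by
        have hα : 0 < G.t ^ (2 * ede + 1) / G.t ^ (2 * ega) := by positivity
        have hβ : 0 < 1 / G.t ^ (2 * edd) := by positivity
        have e : ∀ x : ℝ, G.t ^ (2 * ede + 1) * x / G.t ^ (2 * ega) =
            G.t ^ (2 * ede + 1) / G.t ^ (2 * ega) * x := fun x => by ring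
        refine RegC_inv hD (by positivity) ?_ ?_
        · rw [e, e]
          nlinarith
        · show (1 - 2 / m) * _ ≤ _
          rw [e, e, mul_add, mul_left_comm, e1]
          nlinarith
      a7' := by
        have hY : 0 < G.t ^ eyy := pow_pos ht0 _
        refine RegC_inv (by positivity) (by positivity) ?_ ?_
        · have : m ^ 2 / G.t ^ eyy ≤ 2 * (m - 2) ^ 2 / G.t ^ eyy :=
            div_le_div_of_nonneg_right (by nlinarith) hY.le
          rw [mul_add, ← mul_div_assoc]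
          linarith
        · show (1 - 4 / m) * _ ≤ _
          have : (m ^ 2 - 4 * m) / G.t ^ eyy ≤ (m - 2) ^ 2 / G.t ^ eyy :=
            div_le_div_of_nonneg_right (by nlinarith) hY.le
          rw [mul_add, ← mul_div_assoc, e2]
          linarith
      tm := h.tm
      ws := h.ws
      e2 := h.e2
      e5 := h.e5
      e6 := h.e6 }

theorem RegC_small0 {t m d2 : ℝ} (ht : ((10 ^ 30 : ℕ) : ℝ) ≤ t) (hd : 0 ≤ d2) (hd' : d2 ≤ t)
    (h1 : t ^ (2 * 167480) ≤ m) (h2 : m ≤ t ^ (2 * 167585)) : RegC_Small t m d2 := by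
  have ht0 : 0 < t := lt_of_lt_of_le (by norm_num) ht
  have hm0 : 0 < m := (pow_pos ht0 _).trans_le h1
  obtain ⟨c, U, L, Us, Ls⟩ := exists_sc (t := t) (s := √m) (lo := 167480) (hi := 167585) ht
    (by decide) (Real.le_sqrt_of_sq_le (by rwa [← pow_mul, mul_comm]))
    (Real.sqrt_le_iff.2 ⟨(pow_pos ht0 _).le, by rwa [← pow_mul, mul_comm]⟩)
  have Um := Us.pow 2
  have Lm := Ls.pow 2
  rw [Real.sq_sqrt hm0.le] at Um Lm
  have Uq : c.Up d2 1 1 1 := (U 1).of_le hd (by rwa [pow_one])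
  have Uts : c.Up (RegC_ts t m) 2 0 0 := by
    unfold RegC_ts
    apply Sc.Up.weaken
    · reg_bd [U, L, Um]
    · decide
  have Lts : c.Lo (RegC_ts t m) 2 0 0 := by
    refine Sc.Lo.addR ?_ (by positivity)
    apply Sc.Lo.weaken
    · reg_bd [U, L, Lm]
    · decide
  have Utt : c.Up (RegC_tt t m) 3 0 0 := (Sc.Up.one.add Uts).sqrt.weaken (by decide)
  have Uρ : c.Up (RegC_ρ t m) 1 334060 334270 := (Um.div (L _)).weaken (by decide)
  have Lρ : c.Lo (RegC_ρ t m) 1 334060 334270 := (Lm.div (U _) (L _)).weaken (by decide)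
  have Uu : c.Up (RegC_u t m) 81 0 0 :=
    ((Utt.pow 4).of_le (le_min Uρ.nonneg (Utt.pow 4).nonneg)
      (min_le_right _ _)).sqrt.sqrt.weaken (by decide)
  have UD : c.Up (RegC_D t m) 2 (-20) (-20) := by
    unfold RegC_D
    apply Sc.Up.weaken
    · reg_bd [U, L, Um]
    · decide
  have LD0 : c.Lo (RegC_D t m) 1 (-20) (-20) := by
    refine Sc.Lo.addR ?_ (by positivity)
    apply Sc.Lo.weaken
    · reg_bd [U, L, Lm]
    · decide
  have Udl : c.Up (√(RegC_D t m)) 2 (-10) (-10) := UD.sqrt.weaken (by decide)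
  have Udl2 : c.Up (√(RegC_D t m) ^ 2) 2 (-20) (-20) := by rwa [Real.sq_sqrt UD.nonneg]
  have LD : c.Lo (√(RegC_D t m) ^ 2) 1 (-20) (-20) := by rwa [Real.sq_sqrt UD.nonneg]
  exact
    { m10 := by reg_le c [Lm]
      ρ1 := by reg_le c [Lρ]
      bts := by reg_le c [U, Ls]
      tts := by reg_le c [Utt, Ls]
      dle := Real.sqrt_le_iff.2 ⟨(pow_pos ht0 _).le, by reg_le c [UD, L]⟩
      deb := by reg_le c [U, L]
      B := by reg_le c [U, L, Uq]
      tm := by reg_le c [Utt, Lm]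
      ws := by reg_le c [Uu, Ls]
      e2 := by
        dsimp only [RegC_N, Num.err2, Num.err5, Num.err6, Num.w, Num.sS]
        reg_le c [U, L, Us, Ls, Um, Lm, Uq, Utt, Uu, Udl2, Udl, Lts, Lρ, LD]
      e5 := by
        dsimp only [RegC_N, Num.err2, Num.err5, Num.err6, Num.w, Num.sS]
        reg_le c [U, L, Us, Ls, Um, Lm, Uq, Utt, Uu, Udl2, Udl, Lts, Lρ, LD]
      e6 := by
        dsimp only [RegC_N, Num.err2, Num.err5, Num.err6, Num.w, Num.sS]
        reg_le c [U, L, Us, Ls, Um, Lm, Uq, Utt, Uu, Udl2, Udl, Lts, Lρ, LD] }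

theorem RegC_small1 {t m d2 : ℝ} (ht : ((10 ^ 30 : ℕ) : ℝ) ≤ t) (hd : 0 ≤ d2) (hd' : d2 ≤ t)
    (h1 : t ^ (2 * 167585) ≤ m) (h2 : m ≤ t ^ (2 * 223297)) : RegC_Small t m d2 := by
  have ht0 : 0 < t := lt_of_lt_of_le (by norm_num) ht
  have hm0 : 0 < m := (pow_pos ht0 _).trans_le h1
  obtain ⟨c, U, L, Us, Ls⟩ := exists_sc (t := t) (s := √m) (lo := 167585) (hi := 223297) ht
    (by decide) (Real.le_sqrt_of_sq_le (by rwa [← pow_mul, mul_comm]))
    (Real.sqrt_le_iff.2 ⟨(pow_pos ht0 _).le, by rwa [← pow_mul, mul_comm]⟩)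
  have Um := Us.pow 2
  have Lm := Ls.pow 2
  rw [Real.sq_sqrt hm0.le] at Um Lm
  have Uq : c.Up d2 1 1 1 := (U 1).of_le hd (by rwa [pow_one])
  have Uts : c.Up (RegC_ts t m) 2 0 222848 := by
    unfold RegC_ts
    apply Sc.Up.weaken
    · reg_bd [U, L, Um]
    · decide
  have Lts : c.Lo (RegC_ts t m) 2 0 222848 := by
    refine Sc.Lo.addL ?_ (by positivity)
    apply Sc.Lo.weaken
    · reg_bd [U, L, Lm]
    · decide
  have Utt : c.Up (RegC_tt t m) 3 0 111424 := (Sc.Up.one.add Uts).sqrt.weaken (by decide)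
  have Uρ : c.Up (RegC_ρ t m) 1 334270 445694 := (Um.div (L _)).weaken (by decide)
  have Lρ : c.Lo (RegC_ρ t m) 1 334270 445694 := (Lm.div (U _) (L _)).weaken (by decide)
  have Uu : c.Up (RegC_u t m) 81 0 111424 :=
    ((Utt.pow 4).of_le (le_min Uρ.nonneg (Utt.pow 4).nonneg)
      (min_le_right _ _)).sqrt.sqrt.weaken (by decide)
  have UD : c.Up (RegC_D t m) 2 (-20) (-20) := by
    unfold RegC_D
    apply Sc.Up.weaken
    · reg_bd [U, L, Um]
    · decide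
  have LD0 : c.Lo (RegC_D t m) 1 (-20) (-20) := by
    refine Sc.Lo.addR ?_ (by positivity)
    apply Sc.Lo.weaken
    · reg_bd [U, L, Lm]
    · decide
  have Udl : c.Up (√(RegC_D t m)) 2 (-10) (-10) := UD.sqrt.weaken (by decide)
  have Udl2 : c.Up (√(RegC_D t m) ^ 2) 2 (-20) (-20) := by rwa [Real.sq_sqrt UD.nonneg]
  have LD : c.Lo (√(RegC_D t m) ^ 2) 1 (-20) (-20) := by rwa [Real.sq_sqrt UD.nonneg]
  exact
    { m10 := by reg_le c [Lm]
      ρ1 := by reg_le c [Lρ]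
      bts := by reg_le c [U, Ls]
      tts := by reg_le c [Utt, Ls]
      dle := Real.sqrt_le_iff.2 ⟨(pow_pos ht0 _).le, by reg_le c [UD, L]⟩
      deb := by reg_le c [U, L]
      B := by reg_le c [U, L, Uq]
      tm := by reg_le c [Utt, Lm]
      ws := by reg_le c [Uu, Ls]
      e2 := by
        dsimp only [RegC_N, Num.err2, Num.err5, Num.err6, Num.w, Num.sS]
        reg_le c [U, L, Us, Ls, Um, Lm, Uq, Utt, Uu, Udl2, Udl, Lts, Lρ, LD]
      e5 := by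
        dsimp only [RegC_N, Num.err2, Num.err5, Num.err6, Num.w, Num.sS]
        reg_le c [U, L, Us, Ls, Um, Lm, Uq, Utt, Uu, Udl2, Udl, Lts, Lρ, LD]
      e6 := by
        dsimp only [RegC_N, Num.err2, Num.err5, Num.err6, Num.w, Num.sS]
        reg_le c [U, L, Us, Ls, Um, Lm, Uq, Utt, Uu, Udl2, Udl, Lts, Lρ, LD] }

theorem RegC_small2 {t m d2 : ℝ} (ht : ((10 ^ 30 : ℕ) : ℝ) ≤ t) (hd : 0 ≤ d2) (hd' : d2 ≤ t)
    (h1 : t ^ (2 * 223297) ≤ m) (h2 : m ≤ t ^ (2 * 334080)) : RegC_Small t m d2 := by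
  have ht0 : 0 < t := lt_of_lt_of_le (by norm_num) ht
  have hm0 : 0 < m := (pow_pos ht0 _).trans_le h1
  obtain ⟨c, U, L, Us, Ls⟩ := exists_sc (t := t) (s := √m) (lo := 223297) (hi := 334080) ht
    (by decide) (Real.le_sqrt_of_sq_le (by rwa [← pow_mul, mul_comm]))
    (Real.sqrt_le_iff.2 ⟨(pow_pos ht0 _).le, by rwa [← pow_mul, mul_comm]⟩)
  have Um := Us.pow 2
  have Lm := Ls.pow 2
  rw [Real.sq_sqrt hm0.le] at Um Lm
  have Uq : c.Up d2 1 1 1 := (U 1).of_le hd (by rwa [pow_one])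
  have Uts : c.Up (RegC_ts t m) 2 222848 665980 := by
    unfold RegC_ts
    apply Sc.Up.weaken
    · reg_bd [U, L, Um]
    · decide
  have Lts : c.Lo (RegC_ts t m) 2 222848 665980 := by
    refine Sc.Lo.addL ?_ (by positivity)
    apply Sc.Lo.weaken
    · reg_bd [U, L, Lm]
    · decide
  have Utt : c.Up (RegC_tt t m) 3 111424 332990 := (Sc.Up.one.add Uts).sqrt.weaken (by decide)
  have Uρ : c.Up (RegC_ρ t m) 1 445694 667260 := (Um.div (L _)).weaken (by decide)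
  have Lρ : c.Lo (RegC_ρ t m) 1 445694 667260 := (Lm.div (U _) (L _)).weaken (by decide)
  have Uu : c.Up (RegC_u t m) 81 111424 166815 :=
    (Uρ.of_le (le_min Uρ.nonneg (Utt.pow 4).nonneg)
      (min_le_left _ _)).sqrt.sqrt.weaken (by decide)
  have UD : c.Up (RegC_D t m) 2 (-20) (-19) := by
    unfold RegC_D
    apply Sc.Up.weaken
    · reg_bd [U, L, Um]
    · decide
  have LD0 : c.Lo (RegC_D t m) 1 (-20) (-20) := by
    refine Sc.Lo.addR ?_ (by positivity)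
    apply Sc.Lo.weaken
    · reg_bd [U, L, Lm]
    · decide
  have Udl : c.Up (√(RegC_D t m)) 2 (-10) (-9) := UD.sqrt.weaken (by decide)
  have Udl2 : c.Up (√(RegC_D t m) ^ 2) 2 (-20) (-19) := by rwa [Real.sq_sqrt UD.nonneg]
  have LD : c.Lo (√(RegC_D t m) ^ 2) 1 (-20) (-20) := by rwa [Real.sq_sqrt UD.nonneg]
  exact
    { m10 := by reg_le c [Lm]
      ρ1 := by reg_le c [Lρ]
      bts := by reg_le c [U, Ls]
      tts := by reg_le c [Utt, Ls]
      dle := Real.sqrt_le_iff.2 ⟨(pow_pos ht0 _).le, by reg_le c [UD, L]⟩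
      deb := by reg_le c [U, L]
      B := by reg_le c [U, L, Uq]
      tm := by reg_le c [Utt, Lm]
      ws := by reg_le c [Uu, Ls]
      e2 := by
        dsimp only [RegC_N, Num.err2, Num.err5, Num.err6, Num.w, Num.sS]
        reg_le c [U, L, Us, Ls, Um, Lm, Uq, Utt, Uu, Udl2, Udl, Lts, Lρ, LD]
      e5 := by
        dsimp only [RegC_N, Num.err2, Num.err5, Num.err6, Num.w, Num.sS]
        reg_le c [U, L, Us, Ls, Um, Lm, Uq, Utt, Uu, Udl2, Udl, Lts, Lρ, LD]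
      e6 := by
        dsimp only [RegC_N, Num.err2, Num.err5, Num.err6, Num.w, Num.sS]
        reg_le c [U, L, Us, Ls, Um, Lm, Uq, Utt, Uu, Udl2, Udl, Lts, Lρ, LD] }

theorem RegC_small3 {t m d2 : ℝ} (ht : ((10 ^ 30 : ℕ) : ℝ) ≤ t) (hd : 0 ≤ d2) (hd' : d2 ≤ t)
    (h1 : t ^ (2 * 334080) ≤ m) (h2 : m ≤ t ^ (2 * 334100)) : RegC_Small t m d2 := by
  have ht0 : 0 < t := lt_of_lt_of_le (by norm_num) ht
  have hm0 : 0 < m := (pow_pos ht0 _).trans_le h1
  obtain ⟨c, U, L, Us, Ls⟩ := exists_sc (t := t) (s := √m) (lo := 334080) (hi := 334100) ht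
    (by decide) (Real.le_sqrt_of_sq_le (by rwa [← pow_mul, mul_comm]))
    (Real.sqrt_le_iff.2 ⟨(pow_pos ht0 _).le, by rwa [← pow_mul, mul_comm]⟩)
  have Um := Us.pow 2
  have Lm := Ls.pow 2
  rw [Real.sq_sqrt hm0.le] at Um Lm
  have Uq : c.Up d2 1 1 1 := (U 1).of_le hd (by rwa [pow_one])
  have Uts : c.Up (RegC_ts t m) 2 665980 666060 := by
    unfold RegC_ts
    apply Sc.Up.weaken
    · reg_bd [U, L, Um]
    · decide
  have Lts : c.Lo (RegC_ts t m) 2 665980 666060 := by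
    refine Sc.Lo.addL ?_ (by positivity)
    apply Sc.Lo.weaken
    · reg_bd [U, L, Lm]
    · decide
  have Utt : c.Up (RegC_tt t m) 3 332990 333030 := (Sc.Up.one.add Uts).sqrt.weaken (by decide)
  have Uρ : c.Up (RegC_ρ t m) 1 667260 667300 := (Um.div (L _)).weaken (by decide)
  have Lρ : c.Lo (RegC_ρ t m) 1 667260 667300 := (Lm.div (U _) (L _)).weaken (by decide)
  have Uu : c.Up (RegC_u t m) 81 166815 166825 :=
    (Uρ.of_le (le_min Uρ.nonneg (Utt.pow 4).nonneg)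
      (min_le_left _ _)).sqrt.sqrt.weaken (by decide)
  have UD : c.Up (RegC_D t m) 2 (-19) 21 := by
    unfold RegC_D
    apply Sc.Up.weaken
    · reg_bd [U, L, Um]
    · decide
  have LD0 : c.Lo (RegC_D t m) 1 (-19) 21 := by
    refine Sc.Lo.addL ?_ (by positivity)
    apply Sc.Lo.weaken
    · reg_bd [U, L, Lm]
    · decide
  have Udl : c.Up (√(RegC_D t m)) 2 (-9) 11 := UD.sqrt.weaken (by decide)
  have Udl2 : c.Up (√(RegC_D t m) ^ 2) 2 (-19) 21 := by rwa [Real.sq_sqrt UD.nonneg]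
  have LD : c.Lo (√(RegC_D t m) ^ 2) 1 (-19) 21 := by rwa [Real.sq_sqrt UD.nonneg]
  exact
    { m10 := by reg_le c [Lm]
      ρ1 := by reg_le c [Lρ]
      bts := by reg_le c [U, Ls]
      tts := by reg_le c [Utt, Ls]
      dle := Real.sqrt_le_iff.2 ⟨(pow_pos ht0 _).le, by reg_le c [UD, L]⟩
      deb := by reg_le c [U, L]
      B := by reg_le c [U, L, Uq]
      tm := by reg_le c [Utt, Lm]
      ws := by reg_le c [Uu, Ls]
      e2 := by
        dsimp only [RegC_N, Num.err2, Num.err5, Num.err6, Num.w, Num.sS]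
        reg_le c [U, L, Us, Ls, Um, Lm, Uq, Utt, Uu, Udl2, Udl, Lts, Lρ, LD]
      e5 := by
        dsimp only [RegC_N, Num.err2, Num.err5, Num.err6, Num.w, Num.sS]
        reg_le c [U, L, Us, Ls, Um, Lm, Uq, Utt, Uu, Udl2, Udl, Lts, Lρ, LD]
      e6 := by
        dsimp only [RegC_N, Num.err2, Num.err5, Num.err6, Num.w, Num.sS]
        reg_le c [U, L, Us, Ls, Um, Lm, Uq, Utt, Uu, Udl2, Udl, Lts, Lρ, LD] }

theorem regC (q : ℕ) : ∃ t0 : ℝ, ∀ G : Glob ℝ, t0 ≤ G.t → ∀ m : ℝ,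
    G.t ^ (2 * eph) < m → m ≤ G.t ^ (2 * ega) →
    ∃ (N : Num) (ts ρs : ℝ), HypC N (parC G m) (parC G (m - 2)) (G.t ^ 2) ((q + 1) ^ 2) ts ρs := by
  refine ⟨((10 ^ 30 : ℕ) : ℝ) + ((q : ℝ) + 1) ^ 2, fun G ht m h1 h2 => ?_⟩
  have hd : 0 ≤ ((q : ℝ) + 1) ^ 2 := sq_nonneg _
  have ht' : ((10 ^ 30 : ℕ) : ℝ) ≤ G.t := le_trans (le_add_of_nonneg_right hd) ht
  have hd' : ((q : ℝ) + 1) ^ 2 ≤ G.t := le_trans (le_add_of_nonneg_left (Nat.cast_nonneg _)) ht
  refine ⟨_, _, _, RegC_hyp G (le_trans (by norm_num) ht') hd ?_⟩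
  rcases le_total m (G.t ^ (2 * 167585)) with h3 | h3
  · exact RegC_small0 ht' hd hd' h1.le h3
  rcases le_total m (G.t ^ (2 * 223297)) with h4 | h4
  · exact RegC_small1 ht' hd hd' h3 h4
  rcases le_total m (G.t ^ (2 * 334080)) with h5 | h5
  · exact RegC_small2 ht' hd hd' h4 h5
  · exact RegC_small3 ht' hd hd' h5 h2

section

set_option linter.unusedSectionVars false

variable {ι : Type} [Fintype ι] [DecidableEq ι]

theorem RegC_pp (x : ℝ) : 0 ≤ pp x := sq_nonneg _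

theorem RegC_rho (S : Finset ι) (c : ℝ) (x : Matrix ι ι ℝ) : 0 ≤ rho S c x :=
  Finset.sum_nonneg fun _ _ => sq_nonneg _

theorem RegC_Del (x : Matrix ι ι ℝ) : 0 ≤ Del x := Finset.sum_nonneg fun _ _ => sq_nonneg _

theorem RegC_rho_le (S : Finset ι) (c : ℝ) (x : Matrix ι ι ℝ) :
    rho S 0 x ≤ 2 * rho S c x + 2 * c ^ 2 * S.card := by
  unfold rho
  rw [Finset.mul_sum, mul_comm _ (S.card : ℝ), ← nsmul_eq_mul, ← Finset.sum_const,
    ← Finset.sum_add_distrib]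
  exact Finset.sum_le_sum fun k _ => by nlinarith [sq_nonneg (rr x k - 2 * c)]

theorem RegC_halfC (G : Glob ℝ) (m : ℝ) (S : Finset ι) (x y : Matrix ι ι ℝ) (c3 t0 : ℝ) :
    half (parC G m) S x y c3 t0 = G.t ^ (2 * ev1) / m * rho S 0 x +
      1 / RegC_D G.t m * Del x + 1 / RegC_ts G.t m * (tau2 x - 1) := by
  simp only [half, parC, zero_mul, zero_add, add_zero, RegC_D, RegC_ts]

theorem RegC_halfAB (G : Glob ℝ) {m : ℝ} (ht : 1 ≤ G.t) (hc : ¬ G.t ^ (2 * eal) < m) (S : Finset ι)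
    {x : Matrix ι ι ℝ} (hx : x.IsSymm) (y : Matrix ι ι ℝ) (c3 t0 : ℝ) :
    0 ≤ half (parAB G m) S x y c3 t0 ∧ (half (parAB G m) S x y c3 t0 ≤ 1 →
      tau2 x ≤ m - (parAB G m).g + G.t ^ ehB ∧ rho S (parAB G m).c x ≤ G.t ^ (4 * euB) ∧
        Del x ≤ G.t ^ (2 * ede)) := by
  have ht0 : 0 < G.t := lt_of_lt_of_le one_pos ht
  have e2 : (parAB G m).a2 = 1 / G.t ^ (2 * ehB) := if_neg hc
  have e3 : (parAB G m).a3L = 0 := if_neg hc
  have e4 : (parAB G m).a4 = 1 / G.t ^ (4 * ekB) := if_neg hc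
  have e5 : (parAB G m).a5 = 1 / G.t ^ (4 * euB) := if_neg hc
  have e6 : (parAB G m).a6 = 1 / G.t ^ (2 * ede) := rfl
  have e7 : (parAB G m).a7 = 0 := rfl
  have em : (parAB G m).m = m := rfl
  have p1 : 0 ≤ (parAB G m).a1 * pp (|tau1 x| - (parAB G m).ell) :=
    mul_nonneg (one_div_pos.2 (pow_pos ht0 _)).le (RegC_pp _)
  have p2 : 0 ≤ 1 / G.t ^ (2 * ehB) * (tau2 x - m + (parAB G m).g) ^ 2 :=
    mul_nonneg (one_div_pos.2 (pow_pos ht0 _)).le (sq_nonneg _)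
  have a3 : 0 ≤ (parAB G m).a3 := div_nonneg (by norm_num) (sq_nonneg _)
  have p3 := mul_nonneg a3 (RegC_pp (|WW x x| - |c3|))
  have p3' := mul_nonneg a3 (RegC_pp (|WW x y| - t0))
  have p4 := mul_nonneg (one_div_pos.2 (pow_pos ht0 (4 * ekB))).le (tau4_nonneg hx)
  have p5 := mul_nonneg (one_div_pos.2 (pow_pos ht0 (4 * euB))).le (RegC_rho S (parAB G m).c x)
  have p6 := mul_nonneg (one_div_pos.2 (pow_pos ht0 (2 * ede))).le (RegC_Del x)
  unfold half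
  rw [e2, e3, e4, e5, e6, e7, em, zero_mul, zero_mul, add_zero, add_zero]
  refine ⟨by linarith, fun h => ⟨?_, ?_, ?_⟩⟩
  · have h1 : 1 / G.t ^ (2 * ehB) * (tau2 x - m + (parAB G m).g) ^ 2 ≤ 1 := by linarith
    rw [one_div_mul_eq_div, div_le_one (pow_pos ht0 _), mul_comm, pow_mul] at h1
    have := (abs_le_of_sq_le_sq' h1 (pow_pos ht0 _).le).2
    linarith
  · have h1 : 1 / G.t ^ (4 * euB) * rho S (parAB G m).c x ≤ 1 := by linarith
    rwa [one_div_mul_eq_div, div_le_one (pow_pos ht0 _)] at h1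
  · have h1 : 1 / G.t ^ (2 * ede) * Del x ≤ 1 := by linarith
    rwa [one_div_mul_eq_div, div_le_one (pow_pos ht0 _)] at h1

end

theorem trans (q : ℕ) (hq : 2 ≤ q) : ∃ t0 : ℝ, ∀ G : Glob ℝ, GoodG q G → t0 ≤ G.t →
    ∀ {ι : Type} [Fintype ι] [DecidableEq ι] (S : Finset ι) (a b : Matrix ι ι ℝ), RSU S a → RSU S b →
    G.t ^ (2 * ega) - 2 < S.card → (S.card : ℝ) ≤ G.t ^ (2 * ega) →
    pot (parAB G S.card) S a b ≤ 1 → pot (parC G S.card) S a b ≤ 1 / 2 := by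
  refine ⟨((10 ^ 30 : ℕ) : ℝ), fun G hG ht ι _ _ S a b ha hb h1 h2 h => ?_⟩
  have ht1 : 1 ≤ G.t := le_trans (by norm_num) ht
  have ht0 : 0 < G.t := lt_of_lt_of_le one_pos ht1
  obtain ⟨c, U, L, -, -⟩ := exists_sc (t := G.t) (s := 1) (lo := 0) (hi := 1) ht one_pos
    (pow_zero _).le (one_le_pow₀ ht1)
  have h4 : 4 ≤ G.t ^ (2 * ega) := by reg_le c [L]
  have hm0 : (0 : ℝ) < S.card := by linarith
  have Um := (U (2 * ega)).of_le hm0.le h2
  have Lm := ((L (2 * ega)).div (Sc.Up.ofNat 2) (Sc.Lo.ofNat 2)).of_le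
    (show G.t ^ (2 * ega) / 2 ≤ S.card by linarith)
  have LE := (L eE).of_le hG.E1
  have hE := LE.pos
  have hm : (10 : ℝ) ≤ S.card := by reg_le c [Lm]
  have hc : ¬ G.t ^ (2 * eal) < S.card :=
    not_lt.2 (h2.trans (pow_le_pow_right₀ ht1 (by decide)))
  have hM : 0 ≤ G.m0 := by
    rw [hG.m0]
    exact mul_nonneg (Nat.cast_nonneg _) ((pow_pos ht0 _).le.trans hG.n1)
  have Uc := (Um.div LE).of_le (mov_c0 G hE hm) (mov_c_le G hE hm0)
  have LD : c.Lo (RegC_D G.t S.card) 2 21 21 := by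
    refine Sc.Lo.addL ?_ (by positivity)
    apply Sc.Lo.weaken
    · reg_bd [U, L, Lm]
    · decide
  have Lts : c.Lo (RegC_ts G.t S.card) 4 666060 666060 := by
    refine Sc.Lo.addL ?_ (by positivity)
    apply Sc.Lo.weaken
    · reg_bd [U, L, Lm]
    · decide
  have key : ∀ (x y : Matrix ι ι ℝ) (c3 t0 c3' t0' : ℝ), x.IsSymm →
      half (parAB G S.card) S x y c3 t0 ≤ 1 → half (parC G S.card) S x y c3' t0' ≤ 1 / 4 := by
    intro x y c3 t0 c3' t0' hx h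
    obtain ⟨k1, k2, k3⟩ := (RegC_halfAB G ht1 hc S hx y c3 t0).2 h
    have k4 := mov_m_sub_g G hE hm0
    have Uρ := (U _).of_le (RegC_rho _ _ _) k2
    have UΔ := (U _).of_le (RegC_Del _) k3
    have b1 : G.t ^ (2 * ev1) / S.card * rho S 0 x ≤ 1 / 12 := by
      refine le_trans (mul_le_mul_of_nonneg_left (RegC_rho_le S (parAB G S.card).c x)
        (by positivity)) ?_
      reg_le c [U, Um, Lm, Uρ, Uc]
    have b2 : 1 / RegC_D G.t S.card * Del x ≤ 1 / 12 := by reg_le c [LD, UΔ]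
    have b3 : 1 / RegC_ts G.t S.card * (tau2 x - 1) ≤ 1 / 12 := by
      refine le_trans (mul_le_mul_of_nonneg_left
        (show _ ≤ (S.card : ℝ) ^ 2 / G.E + G.t ^ ehB by linarith) (one_div_pos.2 Lts.pos).le) ?_
      reg_le c [U, Um, LE, Lts]
    rw [RegC_halfC]
    linarith
  have n1 := (RegC_halfAB G ht1 hc S ha.1 b (parAB G S.card).c3a (parAB G S.card).t0a).1
  have n2 := (RegC_halfAB G ht1 hc S hb.1 a (parAB G S.card).c3b (parAB G S.card).t0b).1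
  have n3 := mul_nonneg (mov_W0 G hM hm0).le (add_nonneg (Q4_nonneg a) (Q4_nonneg b))
  unfold pot at h ⊢
  have r1 := key a b _ _ (parC G S.card).c3a (parC G S.card).t0a ha.1 (by linarith : _ ≤ (1 : ℝ))
  have r2 := key b a _ _ (parC G S.card).c3b (parC G S.card).t0b hb.1 (by linarith : _ ≤ (1 : ℝ))
  have e : (parC G S.card).Wq = 0 := rfl
  rw [e, zero_mul]
  linarith

theorem finalC : ∃ t0 : ℝ, ∀ G : Glob ℝ, t0 ≤ G.t →
    ∀ {ι : Type} [Fintype ι] [DecidableEq ι] (S : Finset ι) (a b : Matrix ι ι ℝ), RSU S a → RSU S b →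
    S.Nonempty → (S.card : ℝ) ≤ G.t ^ (2 * eph) → pot (parC G S.card) S a b ≤ 1 →
    tau2 a ≤ 2 ∧ tau2 b ≤ 2 := by
  refine ⟨((10 ^ 30 : ℕ) : ℝ), fun G ht ι _ _ S a b ha hb hS h2 h => ?_⟩
  have ht1 : 1 ≤ G.t := le_trans (by norm_num) ht
  have ht0 : 0 < G.t := lt_of_lt_of_le one_pos ht1
  obtain ⟨c, U, L, -, -⟩ := exists_sc (t := G.t) (s := 1) (lo := 0) (hi := 1) ht one_pos
    (pow_zero _).le (one_le_pow₀ ht1)
  have Um := (U (2 * eph)).of_le (Nat.cast_nonneg _) h2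
  have h1 : (S.card : ℝ) ^ 2 / G.t ^ eyy ≤ 1 / 2 := by reg_le c [Um, L]
  have h3 : 1 ≤ 1 / RegC_ts G.t S.card := by
    unfold RegC_ts
    exact (one_le_div (by positivity)).2 (by linarith)
  have hD : 0 ≤ 1 / RegC_D G.t S.card := by
    unfold RegC_D
    positivity
  have key : ∀ (x y : Matrix ι ι ℝ) (c3 t0 : ℝ), RSU S x →
      tau2 x - 1 ≤ half (parC G S.card) S x y c3 t0 := by
    intro x y c3 t0 hx
    have p1 : 0 ≤ G.t ^ (2 * ev1) / S.card * rho S 0 x :=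
      mul_nonneg (by positivity) (RegC_rho _ _ _)
    have p2 := mul_nonneg hD (RegC_Del x)
    have p3 := le_mul_of_one_le_left (sub_nonneg.2 (one_le_tau2 hx hS)) h3
    rw [RegC_halfC]
    linarith
  have r1 := key a b (parC G S.card).c3a (parC G S.card).t0a ha
  have r2 := key b a (parC G S.card).c3b (parC G S.card).t0b hb
  have r3 := one_le_tau2 ha hS
  have r4 := one_le_tau2 hb hS
  have e : (parC G S.card).Wq = 0 := rfl
  unfold pot at h
  rw [e, zero_mul] at h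
  constructor <;> linarith

end Crest.Agent.R62
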