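import Crest.Agent.R62.RegMov

/-!
# R62-RegCalc: a calculus for monomial inequalities

If `t^lo ≤ s ≤ t^hi` then `t = A B` and `s = A^lo B^hi` with `A, B ≥ 1`.  Upper bounds
`x ≤ k A^p B^r` and lower bounds `A^p B^r ≤ k y` are compositional, and `x ≤ y` follows from a
comparison of the exponents.
-/

set_option autoImplicit false

namespace Crest.Agent.R62

/-- two scales -/
structure Sc where
  A : ℝ
  B : ℝ
  hA : 1 ≤ A
  hB : 1 ≤ B
  big : ((10 ^ 30 : ℕ) : ℝ) ≤ A * B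

namespace Sc

variable {c : Sc} {x y : ℝ} {k k' : ℕ} {p r p' r' : ℤ}

/-- the monomial -/
noncomputable def M (c : Sc) (p r : ℤ) : ℝ := c.A ^ p * c.B ^ r

/-- upper bound -/
def Up (c : Sc) (x : ℝ) (k : ℕ) (p r : ℤ) : Prop := 0 ≤ x ∧ x ≤ k * c.M p r

/-- lower bound -/
def Lo (c : Sc) (y : ℝ) (k : ℕ) (p r : ℤ) : Prop := c.M p r ≤ k * y

theorem A_pos (c : Sc) : 0 < c.A := lt_of_lt_of_le one_pos c.hA
theorem B_pos (c : Sc) : 0 < c.B := lt_of_lt_of_le one_pos c.hB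

theorem M_pos (c : Sc) (p r : ℤ) : 0 < c.M p r :=
  mul_pos (zpow_pos c.A_pos _) (zpow_pos c.B_pos _)

theorem M_mono (c : Sc) (h1 : p ≤ p') (h2 : r ≤ r') : c.M p r ≤ c.M p' r' :=
  mul_le_mul (zpow_le_zpow_right₀ c.hA h1) (zpow_le_zpow_right₀ c.hB h2)
    (zpow_pos c.B_pos _).le (zpow_pos c.A_pos _).le

theorem M_add (c : Sc) (p r p' r' : ℤ) : c.M (p + p') (r + r') = c.M p r * c.M p' r' := by
  unfold M
  rw [zpow_add₀ c.A_pos.ne', zpow_add₀ c.B_pos.ne']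
  ring

theorem M_pow (c : Sc) (p r : ℤ) (n : ℕ) : c.M (p * n) (r * n) = c.M p r ^ n := by
  unfold M
  rw [zpow_mul, zpow_mul, zpow_natCast, zpow_natCast, mul_pow]

theorem M_zero (c : Sc) : c.M 0 0 = 1 := by simp [M]

theorem Up.nonneg (h : c.Up x k p r) : 0 ≤ x := h.1

theorem Lo.k_pos (h : c.Lo y k p r) : (0 : ℝ) < k := by
  rcases Nat.eq_zero_or_pos k with rfl | hk
  · have := c.M_pos p r
    unfold Lo at h
    simp only [Nat.cast_zero, zero_mul] at h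
    linarith
  · exact_mod_cast hk

theorem Lo.pos (h : c.Lo y k p r) : 0 < y :=
  pos_of_mul_pos_of_pos_left' h
where
  pos_of_mul_pos_of_pos_left' (h : c.Lo y k p r) : 0 < y :=
    (pos_iff_pos_of_mul_pos ((c.M_pos p r).trans_le h)).1 h.k_pos

theorem Up.of_le (h : c.Up y k p r) (h0 : 0 ≤ x) (h1 : x ≤ y) : c.Up x k p r := ⟨h0, h1.trans h.2⟩

theorem Lo.of_le (h : c.Lo x k p r) (h1 : x ≤ y) : c.Lo y k p r :=
  le_trans h (mul_le_mul_of_nonneg_left h1 (Nat.cast_nonneg k))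

theorem Up.zero : c.Up 0 0 (-10 ^ 9) (-10 ^ 9) := ⟨le_rfl, by simp⟩

theorem Up.one : c.Up 1 1 0 0 := ⟨zero_le_one, by simp [M_zero]⟩

theorem Lo.one : c.Lo 1 1 0 0 := by simp [Lo, M_zero]

theorem Up.ofNat (n : ℕ) [n.AtLeastTwo] : c.Up (OfNat.ofNat n) n 0 0 :=
  ⟨Nat.cast_nonneg n, by rw [M_zero, mul_one]; exact le_rfl⟩

theorem Lo.ofNat (n : ℕ) [h : n.AtLeastTwo] : c.Lo (OfNat.ofNat n) 1 0 0 := by
  unfold Lo
  rw [M_zero, Nat.cast_one, one_mul]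
  exact Nat.one_le_ofNat

theorem Up.add (h : c.Up x k p r) (h' : c.Up y k' p' r') :
    c.Up (x + y) (k + k') (max p p') (max r r') := by
  refine ⟨add_nonneg h.1 h'.1, ?_⟩
  have h1 := mul_le_mul_of_nonneg_left (c.M_mono (le_max_left p p') (le_max_left r r'))
    (Nat.cast_nonneg (α := ℝ) k)
  have h2 := mul_le_mul_of_nonneg_left (c.M_mono (le_max_right p p') (le_max_right r r'))
    (Nat.cast_nonneg (α := ℝ) k')
  have h3 := h.2
  have h4 := h'.2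
  push_cast
  linarith

theorem Up.mul (h : c.Up x k p r) (h' : c.Up y k' p' r') :
    c.Up (x * y) (k * k') (p + p') (r + r') := by
  refine ⟨mul_nonneg h.1 h'.1, (mul_le_mul h.2 h'.2 h'.1 (h.1.trans h.2)).trans_eq ?_⟩
  rw [M_add]
  push_cast
  ring

theorem Lo.mul (h : c.Lo x k p r) (h' : c.Lo y k' p' r') :
    c.Lo (x * y) (k * k') (p + p') (r + r') := by
  unfold Lo
  rw [M_add]
  refine (mul_le_mul h h' (c.M_pos _ _).le ((c.M_pos _ _).le.trans h)).trans_eq ?_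
  push_cast
  ring

theorem Up.pow (h : c.Up x k p r) (n : ℕ) : c.Up (x ^ n) (k ^ n) (p * n) (r * n) := by
  refine ⟨pow_nonneg h.1 n, (pow_le_pow_left₀ h.1 h.2 n).trans_eq ?_⟩
  rw [M_pow, mul_pow]
  push_cast
  ring

theorem Lo.pow (h : c.Lo x k p r) (n : ℕ) : c.Lo (x ^ n) (k ^ n) (p * n) (r * n) := by
  unfold Lo
  rw [M_pow]
  refine (pow_le_pow_left₀ (c.M_pos _ _).le h n).trans_eq ?_
  rw [mul_pow]
  push_cast
  ring

theorem Up.div (h : c.Up x k p r) (h' : c.Lo y k' p' r') :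
    c.Up (x / y) (k * k') (p - p') (r - r') := by
  refine ⟨div_nonneg h.1 h'.pos.le, ?_⟩
  rw [div_le_iff₀ h'.pos]
  have e : c.M p r = c.M (p - p') (r - r') * c.M p' r' := by
    rw [← M_add, sub_add_cancel, sub_add_cancel]
  have h1 := mul_le_mul_of_nonneg_left h' (mul_nonneg (Nat.cast_nonneg (α := ℝ) k)
    (c.M_pos (p - p') (r - r')).le)
  refine h.2.trans ?_
  rw [e, ← mul_assoc]
  refine h1.trans_eq ?_
  push_cast
  ring

/-- lower bound for a quotient; the lower bound of the denominator only serves to see that it is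
positive -/
theorem Lo.div {k'' : ℕ} {p'' r'' : ℤ} (h : c.Lo x k p r) (h' : c.Up y k' p' r')
    (h'' : c.Lo y k'' p'' r'') : c.Lo (x / y) (k * k') (p - p') (r - r') := by
  unfold Lo
  have hy := h''.pos
  rw [← mul_div_assoc, le_div_iff₀ hy]
  have e : c.M p r = c.M (p - p') (r - r') * c.M p' r' := by
    rw [← M_add, sub_add_cancel, sub_add_cancel]
  have h1 := mul_le_mul_of_nonneg_left h'.2 (c.M_pos (p - p') (r - r')).le
  have h2 := mul_le_mul_of_nonneg_left h (Nat.cast_nonneg (α := ℝ) k')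
  refine h1.trans ?_
  rw [mul_left_comm, ← e]
  refine h2.trans_eq ?_
  push_cast
  ring

theorem nat_le_sq (k : ℕ) : (k : ℝ) ≤ (k : ℝ) ^ 2 := by
  exact_mod_cast Nat.le_self_pow two_ne_zero k

theorem Up.sqrt (h : c.Up x k p r) : c.Up (√x) k ((p + 1) / 2) ((r + 1) / 2) := by
  refine ⟨Real.sqrt_nonneg _, Real.sqrt_le_iff.2 ⟨mul_nonneg (Nat.cast_nonneg k) (c.M_pos _ _).le,
    h.2.trans ?_⟩⟩
  rw [mul_pow, ← M_pow]
  exact mul_le_mul (nat_le_sq k) (c.M_mono (by omega) (by omega)) (c.M_pos _ _).le (sq_nonneg _)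

theorem Lo.sqrt (h : c.Lo x k p r) : c.Lo (√x) k (p / 2) (r / 2) := by
  unfold Lo
  refine abs_le_of_sq_le_sq' ?_ (mul_nonneg (Nat.cast_nonneg k) (Real.sqrt_nonneg _)) |>.2
  rw [mul_pow, Real.sq_sqrt h.pos.le, ← M_pow]
  exact (c.M_mono (by omega) (by omega)).trans
    (le_trans h (mul_le_mul_of_nonneg_right (nat_le_sq k) h.pos.le))

theorem Lo.addL (h : c.Lo x k p r) (h' : 0 ≤ y) : c.Lo (x + y) k p r :=
  h.of_le (le_add_of_nonneg_right h')

theorem Lo.addR (h : c.Lo y k p r) (h' : 0 ≤ x) : c.Lo (x + y) k p r :=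
  h.of_le (le_add_of_nonneg_left h')

theorem Lo.min (h : c.Lo x k p r) (h' : c.Lo y k' p' r') :
    c.Lo (min x y) (k + k') (min p p') (min r r') := by
  unfold Lo
  have h1 := (c.M_mono (min_le_left p p') (min_le_left r r')).trans h
  have h2 := (c.M_mono (min_le_right p p') (min_le_right r r')).trans h'
  have h3 := mul_pos h.k_pos h'.pos
  have h4 := mul_pos h'.k_pos h.pos
  push_cast
  rcases le_total x y with hxy | hxy
  · rw [min_eq_left hxy]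
    linarith
  · rw [min_eq_right hxy]
    linarith

theorem Up.weaken {k' : ℕ} (h : c.Up x k p r) (h' : k ≤ k' ∧ p ≤ p' ∧ r ≤ r') :
    c.Up x k' p' r' :=
  ⟨h.1, h.2.trans (mul_le_mul (by exact_mod_cast h'.1) (c.M_mono h'.2.1 h'.2.2) (c.M_pos _ _).le
    (Nat.cast_nonneg _))⟩

theorem Lo.weaken {k' : ℕ} (h : c.Lo x k p r) (h' : k ≤ k' ∧ p' ≤ p ∧ r' ≤ r) :
    c.Lo x k' p' r' :=
  (c.M_mono h'.2.1 h'.2.2).trans
    (le_trans h (mul_le_mul_of_nonneg_right (by exact_mod_cast h'.1) h.pos.le))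

theorem fin (c : Sc) (h : c.Up x k p r) (h' : c.Lo y k' p' r')
    (h'' : k * k' ≤ 10 ^ 30 ∧ p + 1 ≤ p' ∧ r + 1 ≤ r') : x ≤ y := by
  have h1 : ((k * k' : ℕ) : ℝ) ≤ c.M 1 1 := by
    refine le_trans (by exact_mod_cast h''.1) (c.big.trans_eq ?_)
    simp [M]
  have h2 := (c.M_mono h''.2.1 h''.2.2).trans h'
  rw [M_add] at h2
  refine le_of_mul_le_mul_left ?_ h'.k_pos
  calc (k' : ℝ) * x ≤ k' * (k * c.M p r) := mul_le_mul_of_nonneg_left h.2 (Nat.cast_nonneg _)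
    _ = c.M p r * ((k * k' : ℕ) : ℝ) := by push_cast; ring
    _ ≤ c.M p r * c.M 1 1 := mul_le_mul_of_nonneg_left h1 (c.M_pos _ _).le
    _ ≤ _ := h2

end Sc

theorem exists_sc {t s : ℝ} (ht : ((10 ^ 30 : ℕ) : ℝ) ≤ t) {lo hi : ℕ} (hlt : lo < hi)
    (h1 : t ^ lo ≤ s) (h2 : s ≤ t ^ hi) : ∃ c : Sc, (∀ a : ℕ, c.Up (t ^ a) 1 a a) ∧
      (∀ a : ℕ, c.Lo (t ^ a) 1 a a) ∧ c.Up s 1 lo hi ∧ c.Lo s 1 lo hi := by
  have ht1 : 1 ≤ t := le_trans (by norm_num) ht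
  have ht0 : 0 < t := by linarith
  obtain ⟨d, rfl⟩ := Nat.exists_eq_add_of_lt hlt
  have hp : 0 < t ^ lo := pow_pos ht0 _
  have hq : 1 ≤ s / t ^ lo := (one_le_div hp).2 h1
  obtain ⟨B, hB0, hB⟩ : ∃ B : ℝ, 0 ≤ B ∧ B ^ (d + 1) = s / t ^ lo :=
    ⟨(s / t ^ lo) ^ (((d + 1 : ℕ) : ℝ)⁻¹), Real.rpow_nonneg (by linarith) _,
      Real.rpow_inv_natCast_pow (by linarith) (Nat.succ_ne_zero d)⟩
  have hB1 : 1 ≤ B := (one_le_pow_iff_of_nonneg hB0 (Nat.succ_ne_zero d)).1 (hB ▸ hq)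
  have hBt : B ≤ t := by
    refine le_of_pow_le_pow_left₀ (Nat.succ_ne_zero d) ht0.le ?_
    rw [hB, div_le_iff₀ hp, ← pow_add]
    refine h2.trans_eq ?_
    congr 1
    omega
  have hBp : 0 < B := by linarith
  have hAB : t / B * B = t := div_mul_cancel₀ _ hBp.ne'
  let c : Sc := ⟨t / B, B, (one_le_div hBp).2 hBt, hB1, by rw [hAB]; exact ht⟩
  have e1 : ∀ a : ℕ, c.M a a = t ^ a := by
    intro a
    show (t / B) ^ (a : ℤ) * B ^ (a : ℤ) = _
    rw [zpow_natCast, zpow_natCast, ← mul_pow, hAB]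
  have e2 : c.M lo ((lo + d + 1 : ℕ) : ℤ) = s := by
    show (t / B) ^ (lo : ℤ) * B ^ ((lo + d + 1 : ℕ) : ℤ) = _
    rw [zpow_natCast, zpow_natCast, add_assoc, pow_add, ← mul_assoc, ← mul_pow, hAB, hB]
    field_simp
  refine ⟨c, fun a => ⟨(pow_pos ht0 a).le, ?_⟩, fun a => ?_, ⟨by linarith, ?_⟩, ?_⟩
  · rw [e1, Nat.cast_one, one_mul]
  · unfold Sc.Lo
    rw [e1, Nat.cast_one, one_mul]
  · rw [e2, Nat.cast_one, one_mul]
  · unfold Sc.Lo
    rw [e2, Nat.cast_one, one_mul]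

/-- compute upper and lower bounds from the given atoms -/
syntax "reg_bd" "[" term,* "]" : tactic

macro_rules
  | `(tactic| reg_bd [$ts,*]) => `(tactic| repeat' with_reducible first
      | (first $[| apply $ts]*)
      | apply Sc.Up.add | apply Sc.Up.mul | apply Sc.Up.pow | apply Sc.Up.div | apply Sc.Up.sqrt
      | apply Sc.Lo.mul | apply Sc.Lo.pow | apply Sc.Lo.div | apply Sc.Lo.sqrt | apply Sc.Lo.min
      | apply Sc.Up.ofNat | apply Sc.Lo.ofNat | exact Sc.Up.one | exact Sc.Lo.one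
      | exact Sc.Up.zero)

/-- prove an inequality by comparing exponents -/
syntax "reg_le" term:max "[" term,* "]" : tactic

macro_rules
  | `(tactic| reg_le $c [$ts,*]) => `(tactic| (
      apply Sc.fin $c
      · reg_bd [$ts,*]
      · reg_bd [$ts,*]
      · decide))

example (t s : ℝ) (c : Sc) (U : ∀ a : ℕ, c.Up (t ^ a) 1 a a) (L : ∀ a : ℕ, c.Lo (t ^ a) 1 a a)
    (Us : c.Up s 1 eal 500001) (Ls : c.Lo s 1 eal 500001) :
    t ^ 2 * (3 * s ^ 2 + (t ^ ekA) ^ 2 * √s / 10 + 0) ≤ t ^ er * (s ^ 2 / 7) := by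
  reg_le c [U, L, Us, Ls]

end Crest.Agent.R62
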