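import Crest.Agent.R62.AlgDefs
import Crest.Agent.R62.Upd

/-!
# R62-Size: bit size of the reachable matrices

Let `Xm pm k l = if pm k = l ∧ k ≠ l then 1 else 0`.  By induction on `Reach M0 pm M` there is a matrix `N̂` with
`pm` involutive, `N̂` symmetric, `N̂ (1 - Xm M0) = M0`, and `M k l = N̂ k l` if `k, l` are free, `0` otherwise.
Step: `N̂' = N̂ + N̂ E K Eᵀ N̂` (entries `N̂ k l + del N̂ i j k l`; `dd N̂ i j = dd M i j`), `Xm' = Xm + E X Eᵀ`,
`K (X - br N̂) = 1` gives `N̂' E X = N̂ E K`, hence `N̂'(1 - Xm' M0) = M0`.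
Then `(1 + Xm N̂)(1 - Xm M0) = 1`, so `1 - Xm M0` is invertible.  Write `M0 = A/δ` with `δ` the product of all
denominators (`≤ 2^(N² h)`), `A` integral with entries `≤ 2^((N²+1) h)`; `B = δ - Xm A` is integral,
`det B ≠ 0`, `N̂ = A adj(B)/det B` (`Matrix.mul_adjugate`), `|det| ≤ N! c^N` (`Matrix.det_le`),
`ht_mkRat`/`Rat.divInt`.  The polynomial in the statement is generous.
`sz_le`: `sz_list_le`, `Ht.sz_le`, numbers `< N` have size `O(N)`.
-/

set_option autoImplicit false
open Matrix Finset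

namespace Crest.Agent.R62

open Crest.Agent.PTime

section
variable {H : Type} [Fintype H] [DecidableEq H]

/-- the permutation matrix of the matched half-edges -/
def Size_X (R : Type*) [Ring R] (pm : H → H) : Matrix H H R :=
  Matrix.of fun k l => if pm k = l ∧ pm k ≠ k then 1 else 0

theorem Size_X_mul {R : Type*} [Ring R] (pm : H → H) (A : Matrix H H R) (m l : H) :
    (Size_X R pm * A) m l = if pm m = m then 0 else A (pm m) l := by
  by_cases h : pm m = m <;> simp [Size_X, mul_apply, h]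

theorem Size_inv {M0 : Matrix H H ℚ} (hs : M0.IsSymm) {pm : H → H} {M : Matrix H H ℚ}
    (hr : Reach M0 pm M) : ∃ N : Matrix H H ℚ, N.IsSymm ∧ N * (1 - Size_X ℚ pm * M0) = M0 ∧
      ∀ k l, M k l = if pm k = k ∧ pm l = l then N k l else 0 := by
  induction hr with
  | init =>
    refine ⟨M0, hs, ?_, by simp⟩
    have : Size_X ℚ (id : H → H) * M0 = 0 := by ext m l; simp [Size_X_mul]
    rw [this, sub_zero, Matrix.mul_one]
  | @step pm M i j _ hij hi hj hd ih =>
    obtain ⟨N, h1, h2, h3⟩ := ih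
    have hd' : dd M i j = dd N i j := by simp [dd, h3, hi, hj]
    rw [hd'] at hd
    refine ⟨Matrix.of fun k l => N k l + del N i j k l,
      Matrix.IsSymm.ext fun k l => by simp only [of_apply]; rw [h1.apply k l, del_comm], ?_,
      fun k l => ?_⟩
    · ext k l
      have e : ∀ m, (1 - Size_X ℚ (join pm i j) * M0) m l = (1 - Size_X ℚ pm * M0) m l -
          (if m = i then M0 j l else 0) - if m = j then M0 i l else 0 := fun m => by
        simp only [Matrix.sub_apply, Size_X_mul, join]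
        by_cases a1 : m = i
        · subst a1; simp [hi, hij, hij.symm]
        by_cases a2 : m = j
        · subst a2; simp [hj, a1, hij]
        · simp [a1, a2]
      have r : ∀ k, ∑ m, N k m * (1 - Size_X ℚ pm * M0) m l = M0 k l := fun k =>
        congrFun (congrFun h2 k) l
      have e2 : ∑ m, del N i j k m * (1 - Size_X ℚ pm * M0) m l =
          kap1 N i j k * M0 i l + kap2 N i j k * M0 j l := by
        rw [← r i, ← r j, mul_sum, mul_sum, ← sum_add_distrib]
        exact sum_congr rfl fun m _ => by rw [del, h1.apply i m, h1.apply j m]; ring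
      have e3 : N k i + del N i j k i = kap2 N i j k := by
        simp only [del, kap1, kap2, h1.apply i j]
        field_simp
        unfold dd
        ring
      have e4 : N k j + del N i j k j = kap1 N i j k := by
        simp only [del, kap1, kap2, h1.apply i j]
        field_simp
        unfold dd
        ring
      generalize (1 - Size_X ℚ pm * M0) = Y at *
      simp only [mul_apply (M := Matrix.of _), of_apply, e, mul_sub, sum_sub_distrib, mul_ite,
        mul_zero, sum_ite_eq', mem_univ, if_true, e3, e4]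
      simp only [add_mul, sum_add_distrib, r, e2]
      ring
    · simp only [upd, of_apply, join, del, kap1, kap2, hd', h3, hi, hj]
      by_cases a1 : k = i
      · subst a1; simp [hij.symm]
      by_cases a2 : k = j
      · subst a2; simp [a1, hij]
      by_cases a3 : l = i
      · subst a3; simp [hij.symm]
      by_cases a4 : l = j
      · subst a4; simp [a3, hij]
      by_cases a5 : pm k = k <;> by_cases a6 : pm l = l <;> simp [a1, a2, a3, a4, a5, a6]

theorem Size_div {p d : ℤ} {k : ℕ} (hp : |p| ≤ 2 ^ k) (hd : |d| ≤ 2 ^ k) : Ht ((p : ℚ) / d) k := by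
  rw [← Rat.divInt_eq_div]
  have h1 : p.natAbs ≤ 2 ^ k := by zify; exact hp
  have h2 : d.natAbs ≤ 2 ^ k := by zify; exact hd
  cases d with
  | ofNat d => exact ht_mkRat h1 h2
  | negSucc d => exact ht_mkRat (by simpa using h1) h2

theorem Size_det {B : Matrix H H ℤ} {c : ℕ} (h : ∀ i j, |B i j| ≤ 2 ^ c) :
    |B.det| ≤ 2 ^ (Fintype.card H * (Fintype.card H + c)) := by
  refine (Matrix.det_le (abv := AbsoluteValue.abs) h).trans ?_
  rw [nsmul_eq_mul, mul_add, pow_add, ← pow_mul, mul_comm c]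
  refine mul_le_mul_of_nonneg_right ?_ (by positivity)
  have h1 := Nat.factorial_le_pow (Fintype.card H)
  have h2 : Fintype.card H ^ Fintype.card H ≤ (2 ^ Fintype.card H) ^ Fintype.card H :=
    Nat.pow_le_pow_left Nat.lt_two_pow_self.le _
  rw [← pow_mul] at h2
  exact_mod_cast h1.trans h2

end

theorem reach_ht {H : Type} [Fintype H] [DecidableEq H] {M0 : Matrix H H ℚ} (hs : M0.IsSymm) {h : ℕ}
    (h0 : ∀ k l, Ht (M0 k l) h) {pm : H → H} {M : Matrix H H ℚ} (hr : Reach M0 pm M) (k l : H) :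
    Ht (M k l) (8 * (Fintype.card H + 1) ^ 4 * (h + 1)) := by
  obtain ⟨N, -, h2, h3⟩ := Size_inv hs hr
  rw [h3]
  split_ifs
  swap
  · exact ⟨by simp, Nat.one_le_two_pow⟩
  obtain ⟨δ, hδ⟩ : ∃ δ : ℕ, δ = ∏ z : H × H, (M0 z.1 z.2).den := ⟨_, rfl⟩
  have δ0 : 0 < δ := hδ ▸ prod_pos fun z _ => Rat.den_pos _
  have δ1 : δ ≤ 2 ^ (Fintype.card H * Fintype.card H * h) := by
    rw [hδ, mul_comm _ h, pow_mul, ← Fintype.card_prod]
    exact prod_le_pow_card _ _ _ fun z _ => (h0 z.1 z.2).2
  have hA : ∀ k l, ∃ a : ℤ, (a : ℚ) = δ * M0 k l ∧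
      |a| ≤ 2 ^ (Fintype.card H * Fintype.card H * h + h) := fun k l => by
    obtain ⟨e, he⟩ : (M0 k l).den ∣ δ := hδ ▸ dvd_prod_of_mem (fun z : H × H => (M0 z.1 z.2).den)
      (mem_univ (k, l))
    refine ⟨e * (M0 k l).num, ?_, ?_⟩
    · rw [he]
      push_cast
      rw [← Rat.den_mul_eq_num]
      ring
    · have h1 : e ≤ δ := Nat.le_of_dvd δ0 (Dvd.intro_left _ he.symm)
      have h2 := Nat.mul_le_mul (h1.trans δ1) (h0 k l).1
      rw [← pow_add] at h2
      zify at h2
      rwa [abs_mul, Nat.abs_cast]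
  choose A hA1 hA2 using hA
  obtain ⟨B, hB⟩ : ∃ B : Matrix H H ℤ, B = (δ : ℤ) • 1 - Size_X ℤ pm * Matrix.of A := ⟨_, rfl⟩
  have hB1 : B.map (Int.cast : ℤ → ℚ) = (δ : ℚ) • (1 - Size_X ℚ pm * M0) := by
    ext m l
    simp only [hB, map_apply, Matrix.sub_apply, Matrix.smul_apply, Size_X_mul, one_apply, of_apply]
    split_ifs <;> simp [hA1, mul_sub]
  have p1 : (2 : ℤ) ^ (Fintype.card H * Fintype.card H * h) ≤
      2 ^ (Fintype.card H * Fintype.card H * h + h) := pow_le_pow_right₀ one_le_two (by omega)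
  have hB2 : ∀ m l, |B m l| ≤ 2 ^ (Fintype.card H * Fintype.card H * h + h + 1) := fun m l => by
    have a1 : |((δ : ℤ) • (1 : Matrix H H ℤ)) m l| ≤ 2 ^ (Fintype.card H * Fintype.card H * h) := by
      simp only [Matrix.smul_apply, one_apply]
      split_ifs
      · simpa using (by exact_mod_cast δ1 : (δ : ℤ) ≤ 2 ^ (Fintype.card H * Fintype.card H * h))
      · simp
    have a2 : |(Size_X ℤ pm * Matrix.of A) m l| ≤ 2 ^ (Fintype.card H * Fintype.card H * h + h) := by
      rw [Size_X_mul]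
      split_ifs
      · simp
      · exact hA2 _ _
    rw [hB, Matrix.sub_apply, pow_succ]
    linarith [abs_sub (((δ : ℤ) • (1 : Matrix H H ℤ)) m l) ((Size_X ℤ pm * Matrix.of A) m l)]
  have hdet : ((B.det : ℤ) : ℚ) ≠ 0 := by
    rw [Int.cast_det, hB1, det_smul]
    refine mul_ne_zero (by positivity) (det_ne_zero_of_left_inverse (B := 1 + Size_X ℚ pm * N) ?_)
    rw [add_mul, Matrix.mul_assoc, h2, Matrix.one_mul, sub_add_cancel]
  have key : N k l = ((B.updateRow l (A k)).det : ℤ) / (B.det : ℤ) := by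
    rw [eq_div_iff hdet, Int.cast_det, Int.cast_det, ← smul_eq_mul, ← det_updateRow_sum, map_updateRow]
    congr 2
    ext m
    have := congrFun (congrFun h2 k) m
    simp only [Function.comp_apply, hA1, ← this, hB1, Finset.sum_apply, Pi.smul_apply,
      Matrix.smul_apply, smul_eq_mul, mul_apply (M := N), mul_sum]
    exact sum_congr rfl fun _ _ => by ring
  rw [key]
  refine (Size_div (Size_det fun a b => ?_) (Size_det hB2)).mono ?_
  · rw [updateRow_apply]
    split_ifs
    · exact (hA2 _ _).trans (pow_le_pow_right₀ one_le_two (by omega))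
    · exact hB2 _ _
  · generalize Fintype.card H = n
    ring_nf
    omega

theorem sz_le {N h : ℕ} {σ : StL} (hw : WFS N σ) (ha : ∀ i j, Ht (decM N σ.2.1 i j) h)
    (hb : ∀ i j, Ht (decM N σ.2.2 i j) h) : sz σ ≤ 100 * (N + 1) ^ 2 * (h + 1) := by
  have hM : ∀ A, WFM N A → (∀ i j, Ht (decM N A i j) h) → sz A ≤ N * (N * (8 * h + 16) + 2) + 1 := by
    intro A hA hh
    rw [← hA.1]
    refine sz_list_le (B := A.length * (8 * h + 16) + 1) fun r hr => ?_
    rw [hA.1, ← hA.2 r hr]
    refine sz_list_le (B := 8 * h + 15) fun x hx => Ht.sz_le ?_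
    obtain ⟨i, hi, rfl⟩ := List.getElem_of_mem hr
    obtain ⟨j, hj, rfl⟩ := List.getElem_of_mem hx
    have := hh ⟨i, hA.1 ▸ hi⟩ ⟨j, hA.2 _ hr ▸ hj⟩
    simpa [decM, getM, hi, hj] using this
  have h1 := hM _ hw.2.1 ha
  have h2 := hM _ hw.2.2 hb
  have h3 := sz_list_le (l := σ.1) (B := 4 * N) fun x hx => by
    have := sz_le_self x
    have := hw.1.2 x hx
    omega
  rw [hw.1.1] at h3
  rw [sz_prod, sz_prod σ.2]
  ring_nf at *
  omega

theorem ht_of_sz (N : ℕ) (σ : StL) (i j : Fin N) :
    Ht (decM N σ.2.1 i j) (sz σ) ∧ Ht (decM N σ.2.2 i j) (sz σ) := by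
  have hM : ∀ A : List (List ℚ), Ht (decM N A i j) (sz A) := fun A => by
    simp only [decM, getM, of_apply]
    by_cases hi : i.val < A.length
    · by_cases hj : j.val < A[i.val].length
      · have h1 := sz_mem (List.getElem_mem hi)
        have h2 := sz_mem (List.getElem_mem hj)
        simpa [hi, hj] using (ht_sz A[i.val][j.val]).mono (h2.trans h1).le
      · simpa [hi, hj] using ⟨by simp, Nat.one_le_two_pow⟩
    · simpa [hi] using ⟨by simp, Nat.one_le_two_pow⟩
  rw [sz_prod, sz_prod σ.2]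
  exact ⟨(hM _).mono (by omega), (hM _).mono (by omega)⟩

end Crest.Agent.R62
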