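import Crest.Agent.R62.L1
import Crest.Agent.R62.L2
import Crest.Agent.R62.Upd

/-!
# R62-TermA: potential terms for `tau1` and `tau2`

`m = P.m = s²`, `Z ≤ pm m² ≤ 1.5 m²` (`Z_le`).  Since the new normaliser is smaller and the terms are `≥ 0`,
`a' U' - a U ≤ a (U' - U)`.
`TermP1`: `tau1_upd` and `pp_step` with `x = τ₁`, `δ = eps1`, `p = max (|τ₁| - ell) 0 ≤ R`:
`E(U' - U) ≤ 2p [sg E(eps1) + Z (ell - ell')] + 2 E(eps1²) + 2 Z (ell-ell')²`; by `L1`,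
`sg E(eps1) ≤ 2|τ₁|(τ₂ - m) - 2 lam G + C err1 ≤ -2 lam G + C err1`, `Z(ell - ell') ≤ lam G` (`speed`),
`C err1 ≤ (C/τ)(R m + lam G) ≤ C R m/τ + lam G` (`e1`, `τ ≥ C`); `v1`, `speed2`.
`TermP2`: `A = τ₂ - m + g`, `|A| ≤ η`, `A' = A + δ`, `δ = (Δτ₂ + 2) + (g' - g)`,
`δ = [Δτ₂ + 2 - 2(1-c)²] + [g' - g + 2(1-c)²]`.  By `L2` with `e = τ₂ - m`, `g = m(1-c)`:
`E δ = 2(e² - g²) + 4m + O(err2) + O(Z · 8/m)`, and `A (e² - g²) = A² (e - g) ≤ 0` because `e ≤ 0 ≤ g`.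
`err2` is monotone in `p`.  `E δ² ≤ 2 V2 + 2 Z (g'-g)²`, `|g' - g| ≤ 3`, `s⁴ ≤ var2`.
-/

set_option autoImplicit false
open Matrix Finset

namespace Crest.Agent.R62

theorem TermA_abs {a η A : ℝ} (hη : 0 < η) (ha : a = 1 / η ^ 2) (h : a * A ^ 2 ≤ 1) : |A| ≤ η := by
  rw [ha, one_div, inv_mul_le_iff₀ (by positivity), mul_one] at h
  exact abs_le.2 (abs_le_of_sq_le_sq' h hη.le)

theorem TermA_fin {a η X C0 m τ : ℝ} (hη : 0 < η) (hτ : 0 < τ) (ha : a = 1 / η)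
    (h : τ * X ≤ C0 * m * η) : a * X ≤ C0 * m / τ := by
  rw [ha, one_div, inv_mul_le_iff₀ hη, ← mul_div_assoc, le_div_iff₀ hτ]
  linarith

theorem TermA_Z {ι : Type} [Fintype ι] [DecidableEq ι] (C : Ctx ι) :
    0 ≤ C.Z ∧ C.Z ≤ 3 / 2 * (C.s ^ 2) ^ 2 := by
  have h : 0 ≤ C.s ^ 4 := by positivity
  refine ⟨by linarith [C.Z_ge], C.Z_le.trans ?_⟩
  rw [← pow_mul]
  exact mul_le_mul_of_nonneg_right C.ok.pm2 h

theorem TermA_sg (x : ℝ) :
    (if 0 ≤ x then (1 : ℝ) else -1) * x = |x| ∧ |(if 0 ≤ x then (1 : ℝ) else -1)| = 1 := by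
  split_ifs with h
  · simp [abs_of_nonneg h]
  · simp [abs_of_neg (not_le.1 h)]

theorem TermA_err2 (N : Num) (h : N.OK) {p p' : ℝ} (h0 : 0 ≤ p) (h1 : p ≤ p') :
    0 ≤ N.err2 p ∧ N.err2 p ≤ N.err2 p' := by
  have := h.s0
  have := h.tt0
  have := h.rt0
  have := h.dl0
  have : 0 ≤ N.bt := by linarith [h.bt1]
  have : 0 ≤ N.K := by linarith [h.K1]
  unfold Num.err2 Num.w
  exact ⟨by positivity, by linarith⟩

theorem TermP1 : ∃ C0 : ℝ, 1 ≤ C0 ∧ ∀ {ι : Type} [Fintype ι] [DecidableEq ι] (C : Ctx ι)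
    {P P' : Par ℝ} {τ d2 θ R η tol G cM qq : ℝ}, HypAB C.toNum P P' τ d2 θ R η tol G cM qq → C0 ≤ τ →
    P.a1 * pp (|tau1 C.a| - P.ell) ≤ 1 →
    C.lam * G ≤ C.lam * ((if 0 ≤ tau1 C.a then 1 else -1) * (C.χa * WW C.a C.a + C.χb * WW C.a C.b)) →
    C.E (fun i j => P'.a1 * pp (|tau1 (upd C.a i j)| - P'.ell) - P.a1 * pp (|tau1 C.a| - P.ell))
      ≤ C0 * P.m / τ := by
  obtain ⟨C1, hC1, h1⟩ := L1
  obtain ⟨C2, hC2, h2⟩ := V1
  refine ⟨2 * C1 + 2 * C2 + 3, by linarith, ?_⟩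
  intro ι _ _ C P P' τ d2 θ R η tol G cM qq H hτ hp hst
  have hτ0 : 0 < τ := by linarith
  have hR := H.R0
  have hm := H.m
  obtain ⟨sg1, sg2⟩ := TermA_sg (tau1 C.a)
  set sg : ℝ := if 0 ≤ tau1 C.a then 1 else -1 with hsg
  set p := max (|tau1 C.a| - P.ell) 0 with hpd
  set D := P.ell - P'.ell with hD
  have hD0 : 0 ≤ D := sub_nonneg.2 H.ell1
  have hp0 : 0 ≤ p := le_max_right _ _
  have hpR : p ≤ R := (le_abs_self _).trans (TermA_abs hR H.a1 hp)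
  have ha0 : 0 ≤ P.a1 := H.a1'.1.trans H.a1'.2
  have e1 : C.E (fun i j => P'.a1 * pp (|tau1 (upd C.a i j)| - P'.ell) -
      P.a1 * pp (|tau1 C.a| - P.ell)) ≤ C.E (fun i j => P.a1 *
        (2 * p * sg * eps1 C.a i j + 2 * eps1 C.a i j ^ 2 + (2 * p * D + 2 * D ^ 2))) := by
    refine C.E_mono fun i j g => ?_
    have a1 := tau1_upd C.ha.rs.1 g.1 (C.let_a.sm g).dd_pos.ne'
    have a2 := pp_step (tau1 C.a) (eps1 C.a i j) P.ell P'.ell H.ell0 H.ell1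
    rw [show tau1 C.a + eps1 C.a i j = tau1 (upd C.a i j) by linarith, ← hsg, ← hpd, ← hD] at a2
    have a3 : (|eps1 C.a i j| + D) ^ 2 ≤ 2 * eps1 C.a i j ^ 2 + 2 * D ^ 2 := by
      rw [← sq_abs (eps1 C.a i j)]
      nlinarith [sq_nonneg (|eps1 C.a i j| - D)]
    have a4 : P'.a1 * pp (|tau1 (upd C.a i j)| - P'.ell) ≤
        P.a1 * pp (|tau1 (upd C.a i j)| - P'.ell) :=
      mul_le_mul_of_nonneg_right H.a1'.2 (sq_nonneg _)
    have a5 := mul_le_mul_of_nonneg_left (a2.trans (add_le_add le_rfl a3)) ha0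
    linarith
  refine e1.trans ?_
  rw [C.E_mul, C.E_add, C.E_add, C.E_mul, C.E_mul, C.E_const]
  refine TermA_fin (by positivity) hτ0 H.a1 ?_
  obtain ⟨hZ0, hZ⟩ := TermA_Z C
  rw [← hm] at hZ
  have hm0 : 0 ≤ P.m := hm ▸ sq_nonneg _
  have hlG : 0 ≤ C.lam * G := mul_nonneg C.ok.lam0 H.G0
  have b1 : sg * C.E (eps1 C.a) ≤ -2 * (C.lam * G) + C1 * C.err1 := by
    have c1 := h1 C
    have c2 := (le_abs_self _).trans (abs_mul sg (C.E (eps1 C.a) -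
      2 * tau1 C.a * (tau2 C.a - C.s ^ 2) +
      2 * C.lam * (C.χa * WW C.a C.a + C.χb * WW C.a C.b))).le
    rw [sg2, one_mul] at c2
    have c3 : |tau1 C.a| * (tau2 C.a - C.s ^ 2) ≤ 0 :=
      mul_nonpos_of_nonneg_of_nonpos (abs_nonneg _) (sub_nonpos.2 (C.tau2_le_m C.let_a))
    rw [← sg1] at c3
    linarith
  have b2 : D * C.Z ≤ C.lam * G := by
    have := mul_le_mul_of_nonneg_left hZ hD0
    have := H.speed
    have : 0 ≤ P.m ^ 2 * D := by positivity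
    linarith
  have b3 : τ * (sg * C.E (eps1 C.a) + D * C.Z) ≤ C1 * (R * P.m) := by
    have c1 := mul_le_mul_of_nonneg_left (add_le_add b1 b2) hτ0.le
    have c2 := mul_le_mul_of_nonneg_left H.e1 hC1
    have c3 : C1 * (C.lam * G) ≤ τ * (C.lam * G) :=
      mul_le_mul_of_nonneg_right (by linarith) hlG
    linarith
  have b4 : p * (τ * (sg * C.E (eps1 C.a) + D * C.Z)) ≤ R * (C1 * (R * P.m)) :=
    (mul_le_mul_of_nonneg_left b3 hp0).trans (mul_le_mul_of_nonneg_right hpR (by positivity))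
  have b5 : τ * C.E (fun i j => eps1 C.a i j ^ 2) ≤ C2 * (R ^ 2 * P.m) := by
    have c1 := mul_le_mul_of_nonneg_left (h2 C) hτ0.le
    have c2 := mul_le_mul_of_nonneg_left H.v1 hC2
    linarith
  have b6 : τ * (D ^ 2 * C.Z) ≤ 3 / 2 * (P.m * R ^ 2) := by
    have c1 := mul_le_mul_of_nonneg_left hZ (show 0 ≤ τ * D ^ 2 by positivity)
    have c2 := mul_le_mul_of_nonneg_left H.speed2 hm0
    linarith
  linarith

theorem TermP2 : ∃ C0 : ℝ, 1 ≤ C0 ∧ ∀ {ι : Type} [Fintype ι] [DecidableEq ι] (C : Ctx ι)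
    {P P' : Par ℝ} {τ d2 θ R η tol G cM qq : ℝ}, HypAB C.toNum P P' τ d2 θ R η tol G cM qq → C0 ≤ τ →
    P.a2 * (tau2 C.a - P.m + P.g) ^ 2 ≤ 1 → |tau1 C.a| ≤ P.ell + R → |WW C.a C.a| ≤ cM →
    C.E (fun i j => P'.a2 * (tau2 (upd C.a i j) - P'.m + P'.g) ^ 2
        - P.a2 * (tau2 C.a - P.m + P.g) ^ 2) ≤ C0 * P.m / τ := by
  obtain ⟨C1, hC1, h1⟩ := L2
  obtain ⟨C2, hC2, h2⟩ := V2
  refine ⟨2 * (16 + C1) + 2 * C2 + 27, by linarith, ?_⟩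
  intro ι _ _ C P P' τ d2 θ R η tol G cM qq H hτ hp ht hW
  have hτ0 : 0 < τ := by linarith
  have hη := H.η0
  have hm := H.m
  have hA := TermA_abs hη H.a2 hp
  set A := tau2 C.a - P.m + P.g with hAd
  set k := P'.g - P.g + 2 * (1 - P.c) ^ 2 with hk
  have ha0 : 0 ≤ P.a2 := H.a2'.1.trans H.a2'.2
  have e1 : C.E (fun i j => P'.a2 * (tau2 (upd C.a i j) - P'.m + P'.g) ^ 2 - P.a2 * A ^ 2) ≤
      C.E (fun i j => P.a2 * (2 * A * (tau2 (upd C.a i j) - tau2 C.a + 2 - 2 * (1 - C.c) ^ 2) +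
        2 * (tau2 (upd C.a i j) - tau2 C.a + 2) ^ 2 + (2 * A * k + 2 * (P'.g - P.g) ^ 2))) := by
    refine C.E_mono fun i j _ => ?_
    have a4 : P'.a2 * (tau2 (upd C.a i j) - P'.m + P'.g) ^ 2 ≤
        P.a2 * (tau2 (upd C.a i j) - P'.m + P'.g) ^ 2 :=
      mul_le_mul_of_nonneg_right H.a2'.2 (sq_nonneg _)
    have a2 : (tau2 (upd C.a i j) - P'.m + P'.g) ^ 2 - A ^ 2 ≤
        2 * A * (tau2 (upd C.a i j) - tau2 C.a + 2 - 2 * (1 - C.c) ^ 2) +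
        2 * (tau2 (upd C.a i j) - tau2 C.a + 2) ^ 2 + (2 * A * k + 2 * (P'.g - P.g) ^ 2) := by
      rw [hk, hAd, H.m', ← H.c]
      nlinarith [sq_nonneg (tau2 (upd C.a i j) - tau2 C.a + 2 - (P'.g - P.g))]
    have a5 := mul_le_mul_of_nonneg_left a2 ha0
    linarith
  refine e1.trans ?_
  rw [C.E_mul, C.E_add, C.E_add, C.E_mul, C.E_mul, C.E_const]
  refine TermA_fin (by positivity) hτ0 H.a2 ?_
  obtain ⟨hZ0, hZ⟩ := TermA_Z C
  rw [← hm] at hZ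
  have hm10 : 10 ≤ P.m := hm ▸ C.ten_le_m
  have hm0 : 0 < P.m := by linarith
  obtain ⟨q1, q2⟩ := TermA_err2 C.toNum C.ok (p := |tau1 C.a| * |WW C.a C.a|)
    (p' := (P.ell + R) * cM) (by positivity)
    (mul_le_mul ht hW (abs_nonneg _) ((abs_nonneg _).trans ht))
  set EX := C.E (fun i j => tau2 (upd C.a i j) - tau2 C.a + 2 - 2 * (1 - C.c) ^ 2) with hEX
  have b1 : A * EX ≤ η * (4 * P.m + C1 * C.err2 ((P.ell + R) * cM)) := by
    have c1 := h1 C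
    rw [← hEX, show C.s ^ 4 = (C.s ^ 2) ^ 2 by ring, ← hm, ← H.c] at c1
    have c2 : |EX - (2 * (tau2 C.a - P.m) ^ 2 - 2 * P.g ^ 2)| ≤
        4 * P.m + C1 * C.err2 ((P.ell + R) * cM) := by
      have := mul_le_mul_of_nonneg_left q2 hC1
      rw [H.g]
      rw [abs_le] at c1 ⊢
      constructor <;> nlinarith [c1.1, c1.2]
    have c3 := (le_abs_self _).trans ((abs_mul A (EX - (2 * (tau2 C.a - P.m) ^ 2 - 2 * P.g ^ 2))).le.trans
      (mul_le_mul hA c2 (abs_nonneg _) hη.le))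
    have c4 : A ^ 2 * (tau2 C.a - P.m - P.g) ≤ 0 :=
      mul_nonpos_of_nonneg_of_nonpos (sq_nonneg _) (by linarith [C.tau2_le_m C.let_a, H.ηg])
    have c5 : A * (2 * (tau2 C.a - P.m) ^ 2 - 2 * P.g ^ 2) = 2 * (A ^ 2 * (tau2 C.a - P.m - P.g)) := by
      rw [hAd]; ring
    linarith
  have b2 : A * k * C.Z ≤ η * (12 * P.m) := by
    have c1 : A * k ≤ η * (8 / P.m) := (le_abs_self _).trans ((abs_mul A k).le.trans
      (mul_le_mul hA H.dg (abs_nonneg _) hη.le))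
    refine (mul_le_mul c1 hZ hZ0 (by positivity)).trans (le_of_eq ?_)
    field_simp
    norm_num
  have b3 : τ * (A * EX + A * k * C.Z) ≤ (16 + C1) * (η ^ 2 * P.m) := by
    have c1 := mul_le_mul_of_nonneg_left (add_le_add b1 b2) hτ0.le
    have c2 := mul_le_mul_of_nonneg_left H.e2 (show 0 ≤ (16 + C1) * η by positivity)
    have c3 : 0 ≤ τ * η * (16 * C.err2 ((P.ell + R) * cM) + C1 * P.m) :=
      mul_nonneg (by positivity) (add_nonneg (by linarith) (by positivity))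
    linarith
  have b5 : τ * C.E (fun i j => (tau2 (upd C.a i j) - tau2 C.a + 2) ^ 2) ≤ C2 * (η ^ 2 * P.m) := by
    have c1 := mul_le_mul_of_nonneg_left (h2 C) hτ0.le
    have c2 := mul_le_mul_of_nonneg_left H.v2 hC2
    linarith
  have b6 : τ * ((P'.g - P.g) ^ 2 * C.Z) ≤ 27 / 2 * (η ^ 2 * P.m) := by
    have c0 : (P'.g - P.g) ^ 2 ≤ 3 ^ 2 := by
      have d1 := abs_le.1 H.dg
      have d2 : 8 / P.m ≤ 1 := by rw [div_le_one hm0]; linarith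
      have d3 : (1 - P.c) ^ 2 ≤ 1 := by
        rw [H.c]; nlinarith [C.ok.c0, C.ok.c1]
      have d4 := sq_nonneg (1 - P.c)
      exact sq_le_sq' (by linarith [d1.1]) (by linarith [d1.2])
    have c1 : P.m ^ 2 ≤ C.var2 := by
      rw [hm]
      unfold Num.var2
      have : 0 ≤ C.K ^ 6 + C.de ^ 2 * C.K ^ 2 * C.s ^ 2 + C.de ^ 4 * C.w ^ 2 * C.s ^ 2 := by
        positivity
      linarith
    have c2 := mul_le_mul_of_nonneg_left (mul_le_mul c0 hZ hZ0 (by norm_num)) hτ0.le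
    have c3 := mul_le_mul_of_nonneg_left c1 hτ0.le
    linarith [H.v2]
  linarith

end Crest.Agent.R62
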