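import Crest.Agent.R62.L3
import Crest.Agent.R62.L4
import Crest.Agent.R62.TermA

/-!
# R62-TermB: potential terms for the cubic traces and `tau4`

`TermP3`: `pp_step` with `l = l' = cc`; by `L3`, `E ΔW = -κ W + O(err3)`, `κ = 6m - 2τ₂ - 4 tr(a y) ≥ 0`
(`tau2_le_m`, `trace_mul_le`), so `sg(W) E ΔW ≤ C err3`; `p = max (|W| - cc) 0 ≤ tol`; `e3`, `v3`.
`TermP3L`: trivial if `P.a3L = 0` (then `P'.a3L = 0`).  Otherwise `|W - c3| ≤ tol`,
`κ = 6(m - τ₂) ≤ 6(g + η) ≤ 12 g`, `|κ W| ≤ 12 g cM ≤ 12 tol m/τ`.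
`TermP4`: `L4`, `e4`, `tau4 (upd) ≥ 0` (`tau4_nonneg`, `upd_symm`).
-/

set_option autoImplicit false
open Matrix Finset

namespace Crest.Agent.R62

theorem TermP3 : ∃ C0 : ℝ, 1 ≤ C0 ∧ ∀ {ι : Type} [Fintype ι] [DecidableEq ι] (C : Ctx ι)
    {P P' : Par ℝ} {τ d2 θ R η tol G cM qq : ℝ}, HypAB C.toNum P P' τ d2 θ R η tol G cM qq → C0 ≤ τ →
    ∀ {y : Matrix ι ι ℝ} {cc : ℝ}, C.Let y → 0 ≤ cc → P.a3 * pp (|WW C.a y| - cc) ≤ 1 →
    C.E (fun i j => P'.a3 * pp (|WW (upd C.a i j) (upd y i j)| - cc) - P.a3 * pp (|WW C.a y| - cc))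
      ≤ C0 * P.m / τ := by
  obtain ⟨C1, hC1, h1⟩ := L3
  refine ⟨3 * C1 + 1, by linarith, ?_⟩
  intro ι _ _ C P P' τ d2 θ R η tol G cM qq H hτ y cc hy hcc hp
  have hτ0 : 0 < τ := by linarith
  have hR := H.tol0
  have hm0 : 0 ≤ P.m := H.m ▸ sq_nonneg _
  obtain ⟨sg1, sg2⟩ := TermA_sg (WW C.a y)
  set sg : ℝ := if 0 ≤ WW C.a y then 1 else -1 with hsg
  set p := max (|WW C.a y| - cc) 0 with hpd
  have hp0 : 0 ≤ p := le_max_right _ _
  have hpR : p ≤ tol := (le_abs_self _).trans (TermA_abs hR H.a3 hp)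
  have ha0 : 0 ≤ P.a3 := H.a3'.1.trans H.a3'.2
  have e1 : C.E (fun i j => P'.a3 * pp (|WW (upd C.a i j) (upd y i j)| - cc) -
      P.a3 * pp (|WW C.a y| - cc)) ≤ C.E (fun i j => P.a3 *
        (2 * p * sg * (WW (upd C.a i j) (upd y i j) - WW C.a y) +
          (WW (upd C.a i j) (upd y i j) - WW C.a y) ^ 2)) := by
    refine C.E_mono fun i j _ => ?_
    have a2 := pp_step (WW C.a y) (WW (upd C.a i j) (upd y i j) - WW C.a y) cc cc hcc le_rfl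
    rw [add_sub_cancel, ← hsg, ← hpd, sub_self, add_zero, add_zero, sq_abs] at a2
    have a4 : P'.a3 * pp (|WW (upd C.a i j) (upd y i j)| - cc) ≤
        P.a3 * pp (|WW (upd C.a i j) (upd y i j)| - cc) :=
      mul_le_mul_of_nonneg_right H.a3'.2 (sq_nonneg _)
    have a5 := mul_le_mul_of_nonneg_left a2 ha0
    linarith
  refine e1.trans ?_
  rw [C.E_mul, C.E_add, C.E_mul]
  refine TermA_fin (by positivity) hτ0 H.a3 ?_
  obtain ⟨c1, c1'⟩ := h1 C H.wK hy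
  set EX := C.E (fun i j => WW (upd C.a i j) (upd y i j) - WW C.a y) with hEX
  have b1 : sg * EX ≤ C1 * C.err3 := by
    have c2 := (le_abs_self _).trans (abs_mul sg (EX +
      WW C.a y * (6 * C.s ^ 2 - 2 * tau2 C.a - 4 * (C.a * y).trace))).le
    rw [sg2, one_mul] at c2
    have c3 : 0 ≤ |WW C.a y| * (6 * C.s ^ 2 - 2 * tau2 C.a - 4 * (C.a * y).trace) :=
      mul_nonneg (abs_nonneg _) (by linarith [C.tau2_le_m C.let_a, C.trace_mul_le C.let_a hy])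
    rw [← sg1] at c3
    linarith
  have b3 : τ * (sg * EX) ≤ C1 * (tol * P.m) := by
    have c1 := mul_le_mul_of_nonneg_left b1 hτ0.le
    have c2 := mul_le_mul_of_nonneg_left H.e3 hC1
    linarith
  have b4 : p * (τ * (sg * EX)) ≤ tol * (C1 * (tol * P.m)) :=
    (mul_le_mul_of_nonneg_left b3 hp0).trans (mul_le_mul_of_nonneg_right hpR (by positivity))
  have b5 := mul_le_mul_of_nonneg_left c1' hτ0.le
  have b6 := mul_le_mul_of_nonneg_left H.v3 hC1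
  have b7 : 0 ≤ P.m * tol ^ 2 := by positivity
  linarith

theorem TermP3L : ∃ C0 : ℝ, 1 ≤ C0 ∧ ∀ {ι : Type} [Fintype ι] [DecidableEq ι] (C : Ctx ι)
    {P P' : Par ℝ} {τ d2 θ R η tol G cM qq : ℝ}, HypAB C.toNum P P' τ d2 θ R η tol G cM qq → C0 ≤ τ →
    ∀ {c3 : ℝ}, P.a3L * (WW C.a C.a - c3) ^ 2 ≤ 1 → |WW C.a C.a| ≤ cM →
    P.a2 * (tau2 C.a - P.m + P.g) ^ 2 ≤ 1 →
    C.E (fun i j => P'.a3L * (WW (upd C.a i j) (upd C.a i j) - c3) ^ 2
        - P.a3L * (WW C.a C.a - c3) ^ 2) ≤ C0 * P.m / τ := by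
  obtain ⟨C1, hC1, h1⟩ := L3
  refine ⟨3 * C1 + 24, by linarith, ?_⟩
  intro ι _ _ C P P' τ d2 θ R η tol G cM qq H hτ c3 hp hW h2
  have hτ0 : 0 < τ := by linarith
  have hR := H.tol0
  have hm0 : 0 ≤ P.m := H.m ▸ sq_nonneg _
  rcases H.a3L with h0 | ⟨h0, h0'⟩
  · have h0' : P'.a3L = 0 := le_antisymm (h0 ▸ H.a3L'.2) H.a3L'.1
    simp only [h0, h0', zero_mul, sub_self, C.E_const]
    positivity
  have hA := TermA_abs H.η0 H.a2 h2
  have hB := TermA_abs hR h0 hp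
  set B := WW C.a C.a - c3 with hBd
  have ha0 : 0 ≤ P.a3L := H.a3L'.1.trans H.a3L'.2
  have e1 : C.E (fun i j => P'.a3L * (WW (upd C.a i j) (upd C.a i j) - c3) ^ 2 - P.a3L * B ^ 2) ≤
      C.E (fun i j => P.a3L * (2 * B * (WW (upd C.a i j) (upd C.a i j) - WW C.a C.a) +
          (WW (upd C.a i j) (upd C.a i j) - WW C.a C.a) ^ 2)) := by
    refine C.E_mono fun i j _ => ?_
    have a4 : P'.a3L * (WW (upd C.a i j) (upd C.a i j) - c3) ^ 2 ≤
        P.a3L * (WW (upd C.a i j) (upd C.a i j) - c3) ^ 2 :=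
      mul_le_mul_of_nonneg_right H.a3L'.2 (sq_nonneg _)
    rw [hBd]
    linarith
  refine e1.trans ?_
  rw [C.E_mul, C.E_add, C.E_mul]
  refine TermA_fin (by positivity) hτ0 h0 ?_
  obtain ⟨c1, c1'⟩ := h1 C H.wK C.let_a
  set EX := C.E (fun i j => WW (upd C.a i j) (upd C.a i j) - WW C.a C.a) with hEX
  have b1 : |EX| ≤ 12 * (P.g * cM) + C1 * C.err3 := by
    have d1 : |6 * C.s ^ 2 - 2 * tau2 C.a - 4 * (C.a * C.a).trace| ≤ 12 * P.g := by
      have d2 := C.tau2_le_m C.let_a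
      have d3 := (abs_le.1 hA).1
      have d4 := H.ηg
      have d5 := H.m
      have d6 := H.η0
      rw [show (C.a * C.a).trace = tau2 C.a from rfl, abs_le]
      constructor <;> linarith
    have d2 := abs_le.1 ((abs_mul _ _).le.trans
      (mul_le_mul hW d1 (abs_nonneg _) ((abs_nonneg _).trans hW)))
    rw [abs_le] at c1 ⊢
    constructor <;> linarith [c1.1, c1.2, d2.1, d2.2]
  have b2 : B * EX ≤ tol * (12 * (P.g * cM) + C1 * C.err3) :=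
    (le_abs_self _).trans ((abs_mul _ _).le.trans (mul_le_mul hB b1 (abs_nonneg _) hR.le))
  have b3 := mul_le_mul_of_nonneg_left b2 hτ0.le
  have b4 := mul_le_mul_of_nonneg_left H.e3 (mul_nonneg hR.le hC1)
  have b4' := mul_le_mul_of_nonneg_left h0' hR.le
  have b5 := mul_le_mul_of_nonneg_left c1' hτ0.le
  have b6 := mul_le_mul_of_nonneg_left H.v3 hC1
  linarith

theorem TermP4 : ∃ C0 : ℝ, 1 ≤ C0 ∧ ∀ {ι : Type} [Fintype ι] [DecidableEq ι] (C : Ctx ι)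
    {P P' : Par ℝ} {τ d2 θ R η tol G cM qq : ℝ}, HypAB C.toNum P P' τ d2 θ R η tol G cM qq → C0 ≤ τ →
    |WW C.a C.a| ≤ cM →
    C.E (fun i j => P'.a4 * tau4 (upd C.a i j) - P.a4 * tau4 C.a) ≤ C0 * P.m / τ := by
  obtain ⟨C1, hC1, h1⟩ := L4
  refine ⟨C1 + 4, by linarith, ?_⟩
  intro ι _ _ C P P' τ d2 θ R η tol G cM qq H hτ hW
  have hτ0 : 0 < τ := by linarith
  have hK : 0 < C.K := by linarith [C.ok.K1]
  have e1 : C.E (fun i j => P'.a4 * tau4 (upd C.a i j) - P.a4 * tau4 C.a) ≤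
      C.E (fun i j => P.a4 * (tau4 (upd C.a i j) - tau4 C.a)) := by
    refine C.E_mono fun i j _ => ?_
    have a4 := mul_le_mul_of_nonneg_right H.a4'.2 (tau4_nonneg (upd_symm C.ha.rs.1 i j))
    linarith
  refine e1.trans ?_
  rw [C.E_mul]
  refine TermA_fin (by positivity) hτ0 H.a4 ?_
  have b1 := mul_le_mul_of_nonneg_left (h1 C H.wK) hτ0.le
  have b2 : WW C.a C.a ^ 2 ≤ cM ^ 2 := sq_le_sq' (abs_le.1 hW).1 (abs_le.1 hW).2
  have b3 : 0 ≤ C.err4 := by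
    have := C.ok.s0
    have : 0 ≤ C.bt := by linarith [C.ok.bt1]
    have : 0 ≤ C.de := by linarith [C.ok.de1]
    unfold Num.err4
    positivity
  have b4 := mul_le_mul_of_nonneg_left H.e4 (show 0 ≤ C1 + 4 by linarith)
  have b5 := mul_le_mul_of_nonneg_left b2 hτ0.le
  have b6 : 0 ≤ τ * (C1 * cM ^ 2 + 4 * C.err4) := by positivity
  linarith

end Crest.Agent.R62
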