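import Crest.Agent.R62.L5
import Crest.Agent.R62.L6
import Crest.Agent.R62.L7
import Crest.Agent.R62.TermA

/-!
# R62-TermC: potential terms for `rho`, `Del`, `Q4`

`TermP5`: `L5` with `c' = P'.c`, `ζ = 14(η + bt²)`: with `e = τ₂ - m`,
`2ce - Z(c'-c) = 2c(e+g) - (2cg + m²(c'-c)) - (Z - m²)(c'-c)` (`dc`, `dc2`, `Z_sub`).  `e ≤ 0`;
`∑(r-1)² ≤ 1.04 ρ + 26 m (1-c)²`; `2.1·1.04 pm Q ≤ 2.2 pm qq² ≤ 2m` (`rate5`); `q5`, `e5`.
`TermP6`: `L6`, `rate5`, `err6` monotone in `p`, `e6`.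
`TermP7`: `E(W'Q' - WQ) = W' E(Q' - Q) + (W' - W) Z Q
  ≤ Q [m²(W'-W) - 4mW' + 2.1 pm W' qq²] + |W'-W||Z - m²| Q + C W' err7`; `rate7`, `W Q ≤ 1`, `dW`,
`Z_sub`, `sB`, `W' ≤ 2W` (`m ≥ 10`), `e7`.
-/

set_option autoImplicit false
open Matrix Finset

namespace Crest.Agent.R62

theorem TermC_err5 (N : Num) (h : N.OK) : 0 ≤ N.err5 := by
  have := h.s0
  have := h.lam0
  have : 0 ≤ N.bt := by linarith [h.bt1]
  have : 0 ≤ N.K := by linarith [h.K1]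
  have : 0 ≤ N.u := by linarith [h.u1]
  have : 0 ≤ N.de := by linarith [h.de1]
  unfold Num.err5 Num.w Num.sS
  positivity

theorem TermC_err6 (N : Num) (h : N.OK) {p p' : ℝ} (h0 : 0 ≤ p) (h1 : p ≤ p') :
    0 ≤ N.err6 p ∧ N.err6 p ≤ N.err6 p' := by
  have := h.s0
  have := h.tt0
  have := h.rt0
  have := h.dl0
  have := h.lam0
  have : 0 ≤ N.bt := by linarith [h.bt1]
  have : 0 ≤ N.K := by linarith [h.K1]
  have := mul_le_mul_of_nonneg_right h1 (show 0 ≤ N.dl * N.rt by positivity)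
  unfold Num.err6 Num.w Num.sS
  exact ⟨by positivity, by linarith⟩

theorem TermC_rho {ι : Type} [Fintype ι] [DecidableEq ι] (S : Finset ι) (c : ℝ)
    (x : Matrix ι ι ℝ) : 0 ≤ rho S c x := Finset.sum_nonneg fun _ _ => sq_nonneg _

theorem TermC_Del {ι : Type} [Fintype ι] [DecidableEq ι] (x : Matrix ι ι ℝ) : 0 ≤ Del x :=
  Finset.sum_nonneg fun _ _ => sq_nonneg _

theorem TermP5 : ∃ C0 : ℝ, 1 ≤ C0 ∧ ∀ {ι : Type} [Fintype ι] [DecidableEq ι] (C : Ctx ι)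
    {P P' : Par ℝ} {τ d2 θ R η tol G cM qq : ℝ}, HypAB C.toNum P P' τ d2 θ R η tol G cM qq → C0 ≤ τ →
    Q4 C.a ≤ qq ^ 2 → P.a2 * (tau2 C.a - P.m + P.g) ^ 2 ≤ 1 →
    C.E (fun i j => P'.a5 * rho (univ \ {i, j}) P'.c (upd C.a i j) - P.a5 * rho univ P.c C.a)
      ≤ C0 * P.m / τ := by
  obtain ⟨C1, hC1, h1⟩ := L5
  refine ⟨C1 + 110, by linarith, ?_⟩
  intro ι _ _ C P P' τ d2 θ R η tol G cM qq H hτ hQ h2
  have hτ0 : 0 < τ := by linarith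
  have hw : 0 < C.w := by linarith [C.one_le_w]
  have hm := H.m
  have hm10 : 10 ≤ P.m := hm ▸ C.ten_le_m
  have hm0 : 0 < P.m := by linarith
  have hA := TermA_abs H.η0 H.a2 h2
  have hη := H.η0
  have e1 : C.E (fun i j => P'.a5 * rho (univ \ {i, j}) P'.c (upd C.a i j) -
      P.a5 * rho univ P.c C.a) ≤
      C.E (fun i j => P.a5 * (rho (univ \ {i, j}) P'.c (upd C.a i j) - rho univ C.c C.a)) := by
    refine C.E_mono fun i j _ => ?_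
    have a4 := mul_le_mul_of_nonneg_right H.a5'.2 (TermC_rho (univ \ {i, j}) P'.c (upd C.a i j))
    rw [H.c]
    linarith
  refine e1.trans ?_
  rw [C.E_mul]
  refine TermA_fin (by positivity) hτ0 H.a5 ?_
  have b0 := h1 C P'.c (14 * (η + C.bt ^ 2)) (by rw [← hm, ← H.c]; exact H.dc) (by
    have d1 : |2 * C.c * (tau2 C.a - P.m + P.g)| ≤ 2 * η := by
      rw [abs_mul, abs_of_nonneg (by linarith [C.ok.c0])]
      exact mul_le_mul (by linarith [C.ok.c1]) hA (abs_nonneg _) (by norm_num)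
    have d2 := H.dc2
    have d3 : |(C.Z - C.s ^ 4) * (P'.c - P.c)| ≤ 10 * C.bt ^ 2 := by
      rw [abs_mul]
      refine (mul_le_mul C.Z_sub H.dc (abs_nonneg _) (by positivity)).trans (le_of_eq ?_)
      rw [← hm]
      field_simp
      ring
    have d4 : 1 ≤ C.bt ^ 2 := one_le_pow₀ C.ok.bt1
    rw [show C.s ^ 4 = (C.s ^ 2) ^ 2 by ring, ← hm] at d3
    rw [H.c] at d2 d3
    rw [← hm]
    rw [abs_le] at d1 d2 d3 ⊢
    constructor <;> linarith [d1.1, d1.2, d2.1, d2.2, d3.1, d3.2])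
  have hρ := TermC_rho univ C.c C.a
  have b1 : ∑ k, (rr C.a k - 1) ^ 2 ≤ 1.04 * rho univ C.c C.a + 26 * (P.m * (1 - P.c) ^ 2) := by
    have d1 : ∀ k, (rr C.a k - 1) ^ 2 ≤ 1.04 * (rr C.a k - C.c) ^ 2 + 26 * (1 - C.c) ^ 2 * 1 :=
      fun k => by nlinarith [sq_nonneg (0.2 * (rr C.a k - C.c) + 5 * (1 - C.c))]
    refine (Finset.sum_le_sum fun k _ => d1 k).trans (le_of_eq ?_)
    rw [Finset.sum_add_distrib, ← Finset.mul_sum, ← Finset.mul_sum, C.Bas1_one, hm, H.c, rho]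
    ring
  have hpm : 0 ≤ C.pm := by linarith [C.ok.pm1]
  have b2 : 2.1 * C.pm * Q4 C.a * ∑ k, (rr C.a k - 1) ^ 2 ≤ 2.1 * C.pm * qq ^ 2 *
      (1.04 * rho univ C.c C.a + 26 * (P.m * (1 - P.c) ^ 2)) :=
    mul_le_mul (mul_le_mul_of_nonneg_left hQ (by positivity)) b1
      (Finset.sum_nonneg fun _ _ => sq_nonneg _) (by positivity)
  have b3 := mul_le_mul_of_nonneg_right H.rate5 hρ
  have b4 : (tau2 C.a - C.s ^ 2) * rho univ C.c C.a ≤ 0 :=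
    mul_nonpos_of_nonpos_of_nonneg (sub_nonpos.2 (C.tau2_le_m C.let_a)) hρ
  have b5 : C.pm * (qq ^ 2 * (P.m * (1 - P.c) ^ 2)) ≤ 3 / 2 * (qq ^ 2 * (P.m * (1 - P.c) ^ 2)) :=
    mul_le_mul_of_nonneg_right C.ok.pm2 (by positivity)
  have b6 : 0 ≤ C.pm * qq ^ 2 * rho univ C.c C.a := by positivity
  have b6' : 0 ≤ qq ^ 2 * (P.m * (1 - P.c) ^ 2) := by positivity
  have b7 : C.E (fun i j => rho (univ \ {i, j}) P'.c (upd C.a i j) - rho univ C.c C.a) ≤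
      82 * (qq ^ 2 * (P.m * (1 - P.c) ^ 2)) + 28 * ((η + C.bt ^ 2) * C.s * C.w) + C1 * C.err5 := by
    rw [← hm] at b0 b4
    linarith
  have b8 := mul_le_mul_of_nonneg_left b7 hτ0.le
  have b9 := mul_le_mul_of_nonneg_left H.q5 hm0.le
  have b10 := mul_le_mul_of_nonneg_left H.e5 (show 0 ≤ C1 + 28 by linarith)
  have b11 : 0 ≤ τ * (28 * C.err5 + C1 * ((η + C.bt ^ 2) * C.s * C.w)) := by
    have := TermC_err5 C.toNum C.ok
    have := C.ok.s0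
    positivity
  linarith

theorem TermP6 : ∃ C0 : ℝ, 1 ≤ C0 ∧ ∀ {ι : Type} [Fintype ι] [DecidableEq ι] (C : Ctx ι)
    {P P' : Par ℝ} {τ d2 θ R η tol G cM qq : ℝ}, HypAB C.toNum P P' τ d2 θ R η tol G cM qq → C0 ≤ τ →
    Q4 C.a ≤ qq ^ 2 → |tau1 C.a| ≤ P.ell + R →
    C.E (fun i j => P'.a6 * Del (upd C.a i j) - P.a6 * Del C.a) ≤ C0 * P.m / τ := by
  obtain ⟨C1, hC1, h1⟩ := L6
  refine ⟨C1 + 1, by linarith, ?_⟩
  intro ι _ _ C P P' τ d2 θ R η tol G cM qq H hτ hQ ht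
  have hτ0 : 0 < τ := by linarith
  have hde : 0 < C.de := by linarith [C.ok.de1]
  have hm := H.m
  have hm0 : 0 ≤ P.m := hm ▸ sq_nonneg _
  have e1 : C.E (fun i j => P'.a6 * Del (upd C.a i j) - P.a6 * Del C.a) ≤
      C.E (fun i j => P.a6 * (Del (upd C.a i j) - Del C.a)) := by
    refine C.E_mono fun i j _ => ?_
    have a4 := mul_le_mul_of_nonneg_right H.a6'.2 (TermC_Del (upd C.a i j))
    linarith
  refine e1.trans ?_
  rw [C.E_mul]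
  refine TermA_fin (by positivity) hτ0 H.a6 ?_
  have b0 := h1 C
  have hD := TermC_Del C.a
  have hpm : 0 ≤ C.pm := by linarith [C.ok.pm1]
  have b1 := mul_le_mul_of_nonneg_left (TermC_err6 C.toNum C.ok (abs_nonneg _) ht).2 hC1
  have b2 := mul_le_mul_of_nonneg_right H.rate5 hD
  have b3 := mul_le_mul_of_nonneg_left hQ (mul_nonneg hpm hD)
  have b4 : 0 ≤ C.pm * qq ^ 2 * Del C.a := by positivity
  have b5 : C.E (fun i j => Del (upd C.a i j) - Del C.a) ≤ C1 * C.err6 (P.ell + R) := by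
    rw [← hm] at b0
    linarith
  have b6 := mul_le_mul_of_nonneg_left b5 hτ0.le
  have b7 := mul_le_mul_of_nonneg_left H.e6 hC1
  have b8 : 0 ≤ P.m * C.de ^ 2 := by positivity
  linarith

theorem TermP7 : ∃ C0 : ℝ, 1 ≤ C0 ∧ ∀ {ι : Type} [Fintype ι] [DecidableEq ι] (C : Ctx ι)
    {P P' : Par ℝ} {τ d2 θ R η tol G cM qq : ℝ}, HypAB C.toNum P P' τ d2 θ R η tol G cM qq → C0 ≤ τ →
    Q4 C.a ≤ qq ^ 2 →
    C.E (fun i j => P'.Wq * Q4 (upd C.a i j) - P.Wq * Q4 C.a) ≤ C0 * P.m / τ := by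
  obtain ⟨C1, hC1, h1⟩ := L7
  refine ⟨2 * C1 + 51, by linarith, ?_⟩
  intro ι _ _ C P P' τ d2 θ R η tol G cM qq H hτ hQ
  have hτ0 : 0 < τ := by linarith
  have hm := H.m
  have hm10 : 10 ≤ P.m := hm ▸ C.ten_le_m
  have hm0 : 0 < P.m := by linarith
  have hq := H.qq0
  have hW0 : 0 < P.Wq := by rw [H.Wq]; positivity
  have hWq : P.Wq * qq ^ 2 = 1 := by rw [H.Wq]; field_simp
  have hQ0 := Q4_nonneg C.a
  have hWQ : P.Wq * Q4 C.a ≤ 1 := hWq ▸ mul_le_mul_of_nonneg_left hQ hW0.le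
  have hW' : P'.Wq ≤ 2 * P.Wq := by
    have d1 := (abs_le.1 H.dW).2
    have d2 : 10 * P.Wq / P.m ≤ P.Wq := by
      rw [div_le_iff₀ hm0]; nlinarith
    linarith
  have hpm : 0 ≤ C.pm := by linarith [C.ok.pm1]
  have e1 : C.E (fun i j => P'.Wq * Q4 (upd C.a i j) - P.Wq * Q4 C.a) =
      P'.Wq * C.E (fun i j => Q4 (upd C.a i j) - Q4 C.a) + (P'.Wq - P.Wq) * Q4 C.a * C.Z := by
    rw [← C.E_mul, ← C.E_const, ← C.E_add]
    exact C.E_congr fun i j _ => by ring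
  rw [e1, le_div_iff₀' hτ0]
  have b0 := mul_le_mul_of_nonneg_left (h1 C qq hq.le hQ) H.Wq0
  have b1 : (P'.Wq - P.Wq) * (C.Z - C.s ^ 4) ≤ 50 * (C.bt ^ 2 * P.Wq) := by
    refine (le_abs_self _).trans ((abs_mul _ _).le.trans
      ((mul_le_mul H.dW C.Z_sub (abs_nonneg _) (by positivity)).trans (le_of_eq ?_)))
    rw [← hm]
    field_simp
    ring
  have b2 := mul_le_mul_of_nonneg_right b1 hQ0
  have b3 := mul_le_mul_of_nonneg_left hWQ (sq_nonneg C.bt)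
  have b4 := mul_le_mul_of_nonneg_left hQ (show 0 ≤ C.pm * P'.Wq * Q4 C.a from
    mul_nonneg (mul_nonneg hpm H.Wq0) hQ0)
  have b5 : 0 ≤ C.err7 qq := by
    have := C.ok.s0
    have : 0 ≤ C.bt := by linarith [C.ok.bt1]
    have : 0 ≤ C.u := by linarith [C.ok.u1]
    unfold Num.err7 Num.w
    positivity
  have b6 := mul_le_mul_of_nonneg_right hW' (mul_nonneg hC1 b5)
  have b7 : P'.Wq * C.E (fun i j => Q4 (upd C.a i j) - Q4 C.a) + (P'.Wq - P.Wq) * Q4 C.a * C.Z ≤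
      (P.m ^ 2 * (P'.Wq - P.Wq) - 4 * P.m * P'.Wq + 2.1 * C.pm * P'.Wq * qq ^ 2) * Q4 C.a +
        50 * C.bt ^ 2 + 2 * P.Wq * (C1 * C.err7 qq) := by
    rw [show C.s ^ 4 = (C.s ^ 2) ^ 2 by ring, ← hm] at b2
    rw [← hm] at b0
    linarith
  have b8 := mul_le_mul_of_nonneg_left b7 hτ0.le
  have b9 := mul_le_mul_of_nonneg_right H.rate7 hQ0
  have b10 := mul_le_mul_of_nonneg_left hWQ hm0.le
  have b11 := mul_le_mul_of_nonneg_left H.e7 (mul_nonneg hW0.le hC1)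
  have b12 : P.Wq * C1 * (qq ^ 2 * P.m) = C1 * P.m := by
    linear_combination (C1 * P.m) * hWq
  have b13 := H.sB
  linarith

end Crest.Agent.R62
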