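import Crest.Agent.R62.Bas1

/-!
# R62-Weights: construction of the averaging weight

`good i j := al i j ∧ |a i j| ≤ θ ∧ |b i j| ≤ θ ∧ |a i i * a j j| ≤ 1/1000 ∧ |b i i * b j j| ≤ 1/1000`,
`π i j = if good i j then 1 - lam (χa a i j + χb b i j) else 0` (symmetric, in `[1/2, 1 + 2 lam θ]`).
Let `B0 = d2 + 2/θ² + 2·10⁶ de⁴ ≤ bt²/2` and `ω = om a b c ≥ 1`, `ω ≥ rr a, rr b` (as `0 ≤ c ≤ 1`).
Number of bad `j` for a given `i` (Markov): `≤ d2 + (r^a_i + r^b_i)/θ² + 2·10⁶ dl⁴ ≤ B0 ω_i`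
(`#{j : |g h_j| > 1/1000} ≤ 10⁶ g² ∑ h_j² ≤ 10⁶ dl⁴`).
`∑_{j bad} |1 - lam φ| ≤ deg + lam ∑_{bad}(|a|+|b|) ≤ B0 ω + 2 lam √(deg ω) ≤ 2 B0 ω` since
`lam ≤ 1/(4θ) ≤ √B0/4`.  `∑ (1-π)² ≤ lam² ‖φ‖_F² + #bad ≤ 4 lam² m + 3 B0 m ≤ 2 bt² m`
(`∑ ω ≤ m + 2 w s ≤ 3m`; you cannot use the `Ctx` lemmas before the `Ctx` exists, redo these two lines
or build first a dummy `Ctx`-free version).
-/

set_option autoImplicit false
open Matrix Finset

namespace Crest.Agent.R62

theorem Weights_ind {t θ : ℝ} (hθ : 0 < θ) (h : ¬ |t| ≤ θ) : 1 ≤ t ^ 2 / θ ^ 2 := by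
  rw [one_le_div (by positivity), ← sq_abs t]
  exact pow_le_pow_left₀ hθ.le (not_le.1 h).le 2

theorem Weights_diag {ι : Type} [Fintype ι] [DecidableEq ι] {N : Num} (hN : N.OK)
    {x : Matrix ι ι ℝ} (hx : Bnd N x) (i : ι) : ∑ j, (x i i * x j j) ^ 2 ≤ N.de ^ 4 := by
  have h1 : x i i ^ 2 ≤ Del x :=
    Finset.single_le_sum (f := fun k => x k k ^ 2) (fun _ _ => sq_nonneg _) (Finset.mem_univ i)
  have h2 : Del x ≤ N.de ^ 2 := hx.dl.trans (pow_le_pow_left₀ hN.dl0 hN.dle 2)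
  simp only [mul_pow, ← Finset.mul_sum]
  calc _ ≤ N.de ^ 2 * N.de ^ 2 :=
        mul_le_mul (h1.trans h2) h2 (Finset.sum_nonneg fun _ _ => sq_nonneg _) (sq_nonneg _)
    _ = _ := by ring

theorem exists_ctx {ι : Type} [Fintype ι] [DecidableEq ι] (N : Num) (hN : N.OK)
    (hcard : N.s ^ 2 = Fintype.card ι) {a b : Matrix ι ι ℝ} (ha : Bnd N a) (hb : Bnd N b)
    (al : ι → ι → Prop) [DecidableRel al] (hsym : ∀ i j, al i j → al j i) (hirr : ∀ i, ¬ al i i)
    {d2 θ χa χb : ℝ} (hd0 : 0 ≤ d2)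
    (hdeg : ∀ i, ((univ.filter fun j => ¬ al i j).card : ℝ) ≤ d2)
    (hθ0 : 0 < θ) (hθ1 : θ ≤ 1 / 1000) (hlam : N.lam * θ ≤ 1 / 4) (hpm : N.pm = 1 + 2 * N.lam * θ)
    (hB : 2 * (d2 + 2 / θ ^ 2 + 2 * 10 ^ 6 * N.de ^ 4) ≤ N.bt ^ 2)
    (hχa : |χa| ≤ 1) (hχb : |χb| ≤ 1) :
    ∃ C : Ctx ι, C.toNum = N ∧ C.a = a ∧ C.b = b ∧ C.χa = χa ∧ C.χb = χb ∧
      ∀ i j, C.π i j ≠ 0 → al i j := by
  classical
  have l0 := hN.lam0
  let good : ι → ι → Prop := fun i j => al i j ∧ |a i j| ≤ θ ∧ |b i j| ≤ θ ∧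
    |a i i * a j j| ≤ 1 / 1000 ∧ |b i i * b j j| ≤ 1 / 1000
  let φ : ι → ι → ℝ := fun i j => χa * a i j + χb * b i j
  let I : ι → ι → ℝ := fun i j => if good i j then 0 else 1
  have gs : ∀ i j, good i j → good j i := fun i j h =>
    ⟨hsym i j h.1, by rw [ha.rs.1.apply i j]; exact h.2.1, by rw [hb.rs.1.apply i j]; exact h.2.2.1,
      by rw [mul_comm]; exact h.2.2.2.1, by rw [mul_comm]; exact h.2.2.2.2⟩
  have hφ : ∀ i j, |φ i j| ≤ |a i j| + |b i j| := fun i j => by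
    refine (abs_add_le _ _).trans (add_le_add ?_ ?_) <;> rw [abs_mul]
    · exact mul_le_of_le_one_left (abs_nonneg _) hχa
    · exact mul_le_of_le_one_left (abs_nonneg _) hχb
  have hφ2 : ∀ i j, good i j → |N.lam * φ i j| ≤ 2 * N.lam * θ := fun i j h => by
    rw [abs_mul, abs_of_nonneg l0]
    have := (hφ i j).trans (add_le_add h.2.1 h.2.2.1)
    nlinarith
  set B0 := d2 + 2 / θ ^ 2 + 2 * 10 ^ 6 * N.de ^ 4 with hB0
  have o1 : ∀ i, 1 ≤ om a b N.c i := fun i => by
    unfold om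
    linarith [abs_nonneg (rr a i - N.c), abs_nonneg (rr b i - N.c)]
  have r2 : ∀ i, ∑ j, (a i j ^ 2 + b i j ^ 2) ≤ 2 * om a b N.c i := fun i => by
    rw [Finset.sum_add_distrib, ← rr_eq ha.rs.1, ← rr_eq hb.rs.1]
    unfold om
    linarith [le_abs_self (rr a i - N.c), le_abs_self (rr b i - N.c), abs_nonneg (rr a i - N.c),
      abs_nonneg (rr b i - N.c), hN.c1]
  have hI : ∀ i, ∑ j, I i j ≤ B0 * om a b N.c i := fun i => by
    have h1 : ∀ j, I i j ≤ (if ¬ al i j then 1 else 0) + 1 / θ ^ 2 * (a i j ^ 2 + b i j ^ 2) +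
        10 ^ 6 * (a i i * a j j) ^ 2 + 10 ^ 6 * (b i i * b j j) ^ 2 := fun j => by
      have p1 : (0 : ℝ) ≤ if ¬ al i j then 1 else 0 := by split_ifs <;> norm_num
      have p2 : 0 ≤ a i j ^ 2 / θ ^ 2 := by positivity
      have p3 : 0 ≤ b i j ^ 2 / θ ^ 2 := by positivity
      have p4 := sq_nonneg (a i i * a j j)
      have p5 := sq_nonneg (b i i * b j j)
      have e : 1 / θ ^ 2 * (a i j ^ 2 + b i j ^ 2) = a i j ^ 2 / θ ^ 2 + b i j ^ 2 / θ ^ 2 := by ring
      rw [e]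
      by_cases hg : good i j
      · simp only [I, if_pos hg]
        linarith
      · simp only [I, if_neg hg]
        simp only [good, not_and_or] at hg
        rcases hg with hg | hg | hg | hg | hg
        · rw [if_pos hg]
          linarith
        · linarith [Weights_ind hθ0 hg]
        · linarith [Weights_ind hθ0 hg]
        · have := Weights_ind (by norm_num) hg
          rw [one_le_div (by positivity)] at this
          linarith
        · have := Weights_ind (by norm_num) hg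
          rw [one_le_div (by positivity)] at this
          linarith
    refine (Finset.sum_le_sum fun j _ => h1 j).trans ?_
    rw [Finset.sum_add_distrib, Finset.sum_add_distrib, Finset.sum_add_distrib, ← Finset.mul_sum,
      ← Finset.mul_sum, ← Finset.mul_sum, Finset.sum_boole]
    have a1 := mul_le_mul_of_nonneg_left (r2 i) (by positivity : 0 ≤ 1 / θ ^ 2)
    have a2 := Weights_diag hN ha i
    have a3 := Weights_diag hN hb i
    have a4 := hdeg i
    have a5 : d2 ≤ d2 * om a b N.c i := le_mul_of_one_le_right hd0 (o1 i)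
    have a6 : N.de ^ 4 ≤ N.de ^ 4 * om a b N.c i := le_mul_of_one_le_right (by positivity) (o1 i)
    have e : B0 * om a b N.c i = d2 * om a b N.c i + 1 / θ ^ 2 * (2 * om a b N.c i) +
        2 * 10 ^ 6 * (N.de ^ 4 * om a b N.c i) := by rw [hB0]; ring
    linarith
  have hl : 32 * N.lam ^ 2 ≤ B0 := by
    have a1 : N.lam ≤ 1 / (4 * θ) := by
      rw [le_div_iff₀ (by positivity)]
      linarith
    have a2 := pow_le_pow_left₀ l0 a1 2
    have a3 : 32 * (1 / (4 * θ)) ^ 2 = 2 / θ ^ 2 := by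
      field_simp
      norm_num
    have a4 : 0 ≤ N.de ^ 4 := by positivity
    linarith
  have hl2 : ∀ i, N.lam ^ 2 * ∑ j, (a i j ^ 2 + b i j ^ 2) ≤ B0 * om a b N.c i / 16 := fun i => by
    have a1 := mul_le_mul_of_nonneg_left (r2 i) (sq_nonneg N.lam)
    nlinarith [o1 i]
  have B00 : 0 ≤ B0 := le_trans (by positivity) hl
  have so : ∑ i, om a b N.c i ≤ 3 * N.s ^ 2 := by
    have a1 := Bas1_abs_sum _ hN.s0 (sq_nonneg N.u) hcard ha.rho
    have a2 := Bas1_abs_sum _ hN.s0 (sq_nonneg N.u) hcard hb.rho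
    simp only [om, Finset.sum_add_distrib, Finset.sum_const, Finset.card_univ, nsmul_eq_mul,
      mul_one, ← hcard]
    nlinarith [hN.us, hN.s0]
  refine ⟨{ toNum := N, a := a, b := b, χa := χa, χb := χb
            π := fun i j => if good i j then 1 - N.lam * φ i j else 0
            ok := hN, card := hcard, ha := ha, hb := hb, χa1 := hχa, χb1 := hχb
            π0 := fun i j => ?_, πle := fun i j => ?_, πs := fun i j => ?_, supp := fun i j h => ?_
            hβ := fun i => ?_, hF := ?_ }, rfl, rfl, rfl, rfl, rfl, fun i j h => ?_⟩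
  · split_ifs with h
    · linarith [(abs_le.1 (hφ2 i j h)).2]
    · exact le_rfl
  · split_ifs with h
    · linarith [(abs_le.1 (hφ2 i j h)).1]
    · linarith [hN.pm1]
  · refine if_congr ⟨gs i j, gs j i⟩ ?_ rfl
    simp only [φ, ha.rs.1.apply i j, hb.rs.1.apply i j]
  · have hg : good i j := by_contra fun hn => h (if_neg hn)
    exact ⟨fun e => hirr i (e ▸ hg.1), hg.2.1.trans hθ1, hg.2.2.1.trans hθ1, hg.2.2.2.1, hg.2.2.2.2⟩
  · have h1 : ∀ j, |1 - N.lam * φ i j - if good i j then 1 - N.lam * φ i j else 0| ≤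
        3 / 2 * I i j + N.lam ^ 2 * (a i j ^ 2 + b i j ^ 2) := fun j => by
      by_cases hg : good i j
      · simp only [I, if_pos hg, sub_self, abs_zero]
        positivity
      · simp only [I, if_neg hg, sub_zero]
        have a1 : |1 - N.lam * φ i j| ≤ 1 + N.lam * (|a i j| + |b i j|) := by
          refine (abs_sub _ _).trans ?_
          rw [abs_one, abs_mul, abs_of_nonneg l0]
          gcongr
          exact hφ i j
        rw [← sq_abs (a i j), ← sq_abs (b i j)]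
        nlinarith [sq_nonneg (N.lam * |a i j| - 1 / 2), sq_nonneg (N.lam * |b i j| - 1 / 2)]
    refine (Finset.sum_le_sum fun j _ => h1 j).trans ?_
    rw [Finset.sum_add_distrib, ← Finset.mul_sum, ← Finset.mul_sum]
    have a1 := mul_le_mul_of_nonneg_right hB ((o1 i).trans' zero_le_one)
    have a2 := mul_nonneg B00 ((o1 i).trans' zero_le_one)
    show _ ≤ N.bt ^ 2 * om a b N.c i
    linarith [hI i, hl2 i]
  · have h1 : ∀ i j, (1 - if good i j then 1 - N.lam * φ i j else 0) ^ 2 ≤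
        I i j + 2 * (N.lam ^ 2 * (a i j ^ 2 + b i j ^ 2)) := fun i j => by
      by_cases hg : good i j
      · simp only [I, if_pos hg, sub_sub_cancel, mul_pow, zero_add]
        have a1 : φ i j ^ 2 ≤ 2 * (a i j ^ 2 + b i j ^ 2) := by
          rw [← sq_abs (φ i j), ← sq_abs (a i j), ← sq_abs (b i j)]
          nlinarith [pow_le_pow_left₀ (abs_nonneg _) (hφ i j) 2, sq_nonneg (|a i j| - |b i j|)]
        nlinarith [mul_le_mul_of_nonneg_left a1 (sq_nonneg N.lam)]
      · simp only [I, if_neg hg, sub_zero, one_pow]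
        have : 0 ≤ N.lam ^ 2 * (a i j ^ 2 + b i j ^ 2) := by positivity
        linarith
    have h2 : ∀ i, ∑ j, (1 - if good i j then 1 - N.lam * φ i j else 0) ^ 2 ≤
        9 / 8 * B0 * om a b N.c i := fun i => by
      refine (Finset.sum_le_sum fun j _ => h1 i j).trans ?_
      rw [Finset.sum_add_distrib, ← Finset.mul_sum, ← Finset.mul_sum]
      linarith [hI i, hl2 i]
    refine (Finset.sum_le_sum fun i _ => h2 i).trans ?_
    rw [← Finset.mul_sum]
    have a1 := mul_le_mul_of_nonneg_left so (by positivity : 0 ≤ 9 / 8 * B0)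
    have a2 := mul_le_mul_of_nonneg_right hB (sq_nonneg N.s)
    have a3 := mul_nonneg B00 (sq_nonneg N.s)
    show _ ≤ 2 * N.bt ^ 2 * N.s ^ 2
    linarith
  · exact (by_contra fun hn => h (if_neg hn) : good i j).1

end Crest.Agent.R62
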