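import Crest.Agent.R62.TermA
import Crest.Agent.R62.TermB
import Crest.Agent.R62.TermC
import Crest.Agent.R62.Weights

/-!
# R62-StepAB: one step in the main phases

All terms of `pot` are `≥ 0` (`a7 = 0`), so `pot ≤ 1` bounds each of them by `1`:
`Bnd N a`, `Bnd N b` (`τ₂ ≤ m - g + η ≤ m = tt²`, `∑ r² ≤ (c s + w)² ≤ 4m = rt²`), `|τ₁| ≤ ell + R`,
`|WW a a| ≤ |c3a| + tol ≤ cM`, `|WW a b| ≤ t0a + tol`, `Q4 ≤ qq²`, and if `a3L = 1/tol²`,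
`WW a a ≥ c3a - tol`, `-WW b b ≥ -c3b - tol`.  Take `χa = sg(τ₁ a)`, `χb = -sg(τ₁ b)`
(`sg x = if 0 ≤ x then 1 else -1`) in `exists_ctx`.  Then `sg(τ₁ a)(χa WW a a + χb WW a b) ≥ WW a a - |WW a b| ≥ G`
and `sg(τ₁ b)(χb WW b b + χa WW b a) ≥ -WW b b - |WW b a| ≥ G` when `lam ≠ 0` (`steer`).
Add the 16 term lemmas (for `C` and `C.swap`), then `exists_le`; `π i j ≠ 0` gives `al i j` and `Good`,
hence `dd > 0`.
-/

set_option autoImplicit false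
open Matrix Finset

namespace Crest.Agent.R62

/-- the single terms of one half of the potential -/
structure StepAB_T {ι : Type} [Fintype ι] [DecidableEq ι] (P : Par ℝ) (x y : Matrix ι ι ℝ)
    (c3 t0 B : ℝ) : Prop where
  t1 : P.a1 * pp (|tau1 x| - P.ell) ≤ B
  t2 : P.a2 * (tau2 x - P.m + P.g) ^ 2 ≤ B
  t3 : P.a3 * pp (|WW x x| - |c3|) ≤ B
  t3' : P.a3 * pp (|WW x y| - t0) ≤ B
  t3L : P.a3L * (WW x x - c3) ^ 2 ≤ B
  t4 : P.a4 * tau4 x ≤ B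
  t5 : P.a5 * rho univ P.c x ≤ B
  t6 : P.a6 * Del x ≤ B
  t0 : 0 ≤ B

theorem StepAB_half {ι : Type} [Fintype ι] [DecidableEq ι] {N : Num}
    {P P' : Par ℝ} {τ d2 θ R η tol G cM qq : ℝ} (H : HypAB N P P' τ d2 θ R η tol G cM qq)
    {x : Matrix ι ι ℝ} (hx : RS x) (y : Matrix ι ι ℝ) (c3 t0 : ℝ) :
    StepAB_T P x y c3 t0 (half P univ x y c3 t0) := by
  have a1 : 0 ≤ P.a1 * pp (|tau1 x| - P.ell) := mul_nonneg (H.a1'.1.trans H.a1'.2) (sq_nonneg _)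
  have a2 : 0 ≤ P.a2 * (tau2 x - P.m + P.g) ^ 2 := mul_nonneg (H.a2'.1.trans H.a2'.2) (sq_nonneg _)
  have a3 : 0 ≤ P.a3 * pp (|WW x x| - |c3|) := mul_nonneg (H.a3'.1.trans H.a3'.2) (sq_nonneg _)
  have a3' : 0 ≤ P.a3 * pp (|WW x y| - t0) := mul_nonneg (H.a3'.1.trans H.a3'.2) (sq_nonneg _)
  have a3L : 0 ≤ P.a3L * (WW x x - c3) ^ 2 := mul_nonneg (H.a3L'.1.trans H.a3L'.2) (sq_nonneg _)
  have a4 : 0 ≤ P.a4 * tau4 x := mul_nonneg (H.a4'.1.trans H.a4'.2) (tau4_nonneg hx.1)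
  have a5 : 0 ≤ P.a5 * rho univ P.c x := mul_nonneg (H.a5'.1.trans H.a5'.2) (TermC_rho _ _ _)
  have a6 : 0 ≤ P.a6 * Del x := mul_nonneg (H.a6'.1.trans H.a6'.2) (TermC_Del _)
  unfold half
  rw [H.a7]
  constructor <;> linarith

theorem StepAB_T.mono {ι : Type} [Fintype ι] [DecidableEq ι] {P : Par ℝ} {x y : Matrix ι ι ℝ}
    {c3 t0 B B' : ℝ} (h : StepAB_T P x y c3 t0 B) (hB : B ≤ B') : StepAB_T P x y c3 t0 B' :=
  ⟨h.t1.trans hB, h.t2.trans hB, h.t3.trans hB, h.t3'.trans hB, h.t3L.trans hB, h.t4.trans hB,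
    h.t5.trans hB, h.t6.trans hB, h.t0.trans hB⟩

theorem StepAB_le {a η X : ℝ} (hη : 0 < η) (ha : a = 1 / η) (h : a * X ≤ 1) : X ≤ η := by
  rwa [ha, one_div, inv_mul_le_iff₀ hη, mul_one] at h

theorem StepAB_pp {a η X : ℝ} (hη : 0 < η) (ha : a = 1 / η ^ 2) (h : a * pp X ≤ 1) : X ≤ η :=
  (le_max_left _ _).trans ((le_abs_self _).trans (TermA_abs hη ha h))

theorem StepAB_bnd {ι : Type} [Fintype ι] [DecidableEq ι] {N : Num}
    {P P' : Par ℝ} {τ d2 θ R η tol G cM qq : ℝ} (H : HypAB N P P' τ d2 θ R η tol G cM qq)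
    {x y : Matrix ι ι ℝ} (hx : RS x) (hm : P.m = Fintype.card ι) {c3 t0 : ℝ}
    (h : StepAB_T P x y c3 t0 1) : Bnd N x := by
  have hw : 1 ≤ N.w := one_le_pow₀ H.ok.u1
  have hK := H.ok.K1
  have hde := H.ok.de1
  have h5 : rho univ N.c x ≤ N.w ^ 2 := H.c ▸ StepAB_le (by positivity) H.a5 h.t5
  refine ⟨hx, h5, StepAB_le (by positivity) H.a4 h.t4, ?_, ?_,
    H.dl ▸ StepAB_le (by positivity) H.a6 h.t6⟩
  · have := (abs_le.1 (TermA_abs H.η0 H.a2 h.t2)).2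
    rw [H.tt, ← H.m]
    linarith [H.ηg]
  · have d1 : ∀ k, rr x k ^ 2 ≤ 2 * (rr x k - N.c) ^ 2 + 2 := fun k => by
      nlinarith [sq_nonneg (rr x k - 2 * N.c), H.ok.c0, H.ok.c1]
    refine (Finset.sum_le_sum fun k _ => d1 k).trans ?_
    rw [Finset.sum_add_distrib, ← Finset.mul_sum, Finset.sum_const, Finset.card_univ, nsmul_eq_mul,
      ← hm, H.m, H.rt]
    have d2 : N.w ^ 2 ≤ N.s ^ 2 := pow_le_pow_left₀ (sq_nonneg _) H.ok.us 2
    unfold rho at h5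
    linarith

theorem StepAB_E : ∃ C0 : ℝ, 1 ≤ C0 ∧ ∀ {ι : Type} [Fintype ι] [DecidableEq ι] (C : Ctx ι)
    {P P' : Par ℝ} {τ d2 θ R η tol G cM qq : ℝ}, HypAB C.toNum P P' τ d2 θ R η tol G cM qq → C0 ≤ τ →
    ∀ {c3 t0 : ℝ}, StepAB_T P C.a C.b c3 t0 1 → 0 ≤ t0 → |c3| + tol ≤ cM → Q4 C.a ≤ qq ^ 2 →
    C.lam * G ≤ C.lam * ((if 0 ≤ tau1 C.a then 1 else -1) * (C.χa * WW C.a C.a + C.χb * WW C.a C.b)) →
    C.E (fun i j => (P'.Wq * Q4 (upd C.a i j) +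
      half P' (univ \ {i, j}) (upd C.a i j) (upd C.b i j) c3 t0) -
      (P.Wq * Q4 C.a + half P univ C.a C.b c3 t0)) ≤ C0 * P.m / τ := by
  obtain ⟨C1, g1, h1⟩ := TermP1
  obtain ⟨C2, g2, h2⟩ := TermP2
  obtain ⟨C3, g3, h3⟩ := TermP3
  obtain ⟨C3L, g3L, h3L⟩ := TermP3L
  obtain ⟨C4, g4, h4⟩ := TermP4
  obtain ⟨C5, g5, h5⟩ := TermP5
  obtain ⟨C6, g6, h6⟩ := TermP6
  obtain ⟨C7, g7, h7⟩ := TermP7
  refine ⟨C1 + C2 + C3 + C3 + C3L + C4 + C5 + C6 + C7, by linarith, ?_⟩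
  intro ι _ _ C P P' τ d2 θ R η tol G cM qq H hτ c3 t0 T ht0 hc3 hQ hst
  have k1 : |tau1 C.a| ≤ P.ell + R := by linarith [StepAB_pp H.R0 H.a1 T.t1]
  have k3 : |WW C.a C.a| ≤ cM := by linarith [StepAB_pp H.tol0 H.a3 T.t3]
  have a1 := h1 C H (by linarith) T.t1 hst
  have a2 := h2 C H (by linarith) T.t2 k1 k3
  have a3 := h3 C H (by linarith) C.let_a (abs_nonneg c3) T.t3
  have a3' := h3 C H (by linarith) C.let_b ht0 T.t3'
  have a3L := h3L C H (by linarith) T.t3L k3 T.t2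
  have a4 := h4 C H (by linarith) k3
  have a5 := h5 C H (by linarith) hQ T.t2
  have a6 := h6 C H (by linarith) hQ k1
  have a7 := h7 C H (by linarith) hQ
  have b := add_le_add (add_le_add (add_le_add (add_le_add (add_le_add (add_le_add (add_le_add
    (add_le_add a1 a2) a3) a3') a3L) a4) a5) a6) a7
  simp only [← C.E_add] at b
  refine le_trans (le_of_eq (C.E_congr fun i j _ => ?_)) (b.trans (le_of_eq (by ring)))
  unfold half
  rw [H.a7, H.a7']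
  ring

theorem StepAB_WW {u v p q : ℝ} (hu : |u| = 1) (hv : |v| = 1) :
    p - |q| ≤ u * (u * p + -v * q) ∧ -p - |q| ≤ v * (-v * p + u * q) := by
  have h1 : u * u = 1 := by rw [← abs_mul_abs_self, hu, one_mul]
  have h2 : v * v = 1 := by rw [← abs_mul_abs_self, hv, one_mul]
  have h3 : |u * v * q| = |q| := by rw [abs_mul, abs_mul, hu, hv, one_mul, one_mul]
  have h4 := le_abs_self (u * v * q)
  have h5 := neg_abs_le (u * v * q)
  constructor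
  · linear_combination h4 + h3.le - p * h1
  · linear_combination h5 + h3.le + p * h2

theorem stepAB : ∃ C0 : ℝ, 1 ≤ C0 ∧ ∀ {ι : Type} [Fintype ι] [DecidableEq ι] {N : Num}
    {P P' : Par ℝ} {τ d2 θ R η tol G cM qq : ℝ}, HypAB N P P' τ d2 θ R η tol G cM qq → C0 ≤ τ →
    ∀ {a b : Matrix ι ι ℝ}, RS a → RS b → P.m = Fintype.card ι →
    ∀ (al : ι → ι → Prop) [DecidableRel al], (∀ i j, al i j → al j i) → (∀ i, ¬ al i i) →
    (∀ i, ((univ.filter fun j => ¬ al i j).card : ℝ) ≤ d2) → pot P univ a b ≤ 1 →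
    ∃ i j, al i j ∧ 0 < dd a i j ∧ 0 < dd b i j ∧
      pot P' (univ \ {i, j}) (upd a i j) (upd b i j) ≤ pot P univ a b + C0 / (τ * P.m) := by
  obtain ⟨C1, g1, h1⟩ := StepAB_E
  refine ⟨4 * C1, by linarith, ?_⟩
  intro ι _ _ N P P' τ d2 θ R η tol G cM qq H hτ a b ha hb hm al _ hsym hirr hdeg hpot
  have hτ0 : 0 < τ := by linarith
  have Ta := StepAB_half H ha b P.c3a P.t0a
  have Tb := StepAB_half H hb a P.c3b P.t0b
  have hq := H.qq0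
  have hW : 0 ≤ P.Wq := by rw [H.Wq]; positivity
  have Qa := mul_nonneg hW (Q4_nonneg a)
  have Qb := mul_nonneg hW (Q4_nonneg b)
  unfold pot at hpot
  have Ta' := Ta.mono (B' := 1) (by linarith [Tb.t0])
  have Tb' := Tb.mono (B' := 1) (by linarith [Ta.t0])
  have Qa' : Q4 a ≤ qq ^ 2 := StepAB_le (by positivity) H.Wq (by linarith [Ta.t0, Tb.t0])
  have Qb' : Q4 b ≤ qq ^ 2 := StepAB_le (by positivity) H.Wq (by linarith [Ta.t0, Tb.t0])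
  have sa := (TermA_sg (tau1 a)).2
  have sb := (TermA_sg (tau1 b)).2
  obtain ⟨C, rfl, rfl, rfl, e1, e2, hal⟩ := exists_ctx N H.ok (H.m.symm.trans hm)
    (StepAB_bnd H ha hm Ta') (StepAB_bnd H hb hm Tb') al hsym hirr H.d0 hdeg H.θ0 H.θ1 H.lamθ H.pm
    H.B (χa := if 0 ≤ tau1 a then 1 else -1) (χb := -(if 0 ≤ tau1 b then 1 else -1)) sa.le
    (by rw [abs_neg]; exact sb.le)
  have st : C.lam * G ≤ C.lam * ((if 0 ≤ tau1 C.a then 1 else -1) *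
      (C.χa * WW C.a C.a + C.χb * WW C.a C.b)) ∧ C.lam * G ≤ C.lam *
      ((if 0 ≤ tau1 C.b then 1 else -1) * (C.χb * WW C.b C.b + C.χa * WW C.b C.a)) := by
    rcases H.steer with h | ⟨k1, k2, k3⟩
    · simp [h]
    · have m1 := abs_le.1 (TermA_abs H.tol0 k1 Ta'.t3L)
      have m2 := abs_le.1 (TermA_abs H.tol0 k1 Tb'.t3L)
      have m3 := StepAB_pp H.tol0 H.a3 Ta'.t3'
      have m4 := StepAB_pp H.tol0 H.a3 Tb'.t3'
      rw [e1, e2]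
      exact ⟨mul_le_mul_of_nonneg_left (le_trans (by linarith [m1.1]) (StepAB_WW sa sb).1) C.ok.lam0,
        mul_le_mul_of_nonneg_left (le_trans (by linarith [m2.2]) (StepAB_WW sa sb).2) C.ok.lam0⟩
  have a1 := h1 C H (by linarith) Ta' H.t0a0 H.cMa Qa' st.1
  have a2 := h1 C.swap H (by linarith) Tb' H.t0b0 H.cMb Qb' st.2
  have hm0 : 0 < P.m := by linarith [C.ten_le_m, H.m]
  have a3 := add_le_add a1 a2
  simp only [Ctx.swap_E, Ctx.swap_a, Ctx.swap_b, ← C.E_add] at a3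
  obtain ⟨i, j, b1, b2⟩ := C.exists_le (by positivity) a3
  have g := C.supp i j b1
  refine ⟨i, j, hal i j b1, (C.let_a.sm g).dd_pos, (C.let_b.sm g).dd_pos, ?_⟩
  have b3 : 2 * (C1 * P.m / τ + C1 * P.m / τ) / C.s ^ 4 = 4 * C1 / (τ * P.m) := by
    rw [show C.s ^ 4 = (C.s ^ 2) ^ 2 by ring, ← H.m]
    field_simp
    ring
  unfold pot
  rw [H.c3a, H.c3b, H.t0a, H.t0b]
  linarith

end Crest.Agent.R62
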