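import Crest.Agent.R62.L2
import Crest.Agent.R62.L5
import Crest.Agent.R62.L6
import Crest.Agent.R62.Weights
import Crest.Agent.R62.TermC

/-!
# R62-StepC: one step in the final phase

Here `c = 0`, `lam = 0`, `pm = 1`, so `Z ≤ m²`; `T = tt² = 1 + ts ≤ 3 ts`.
General remark: if `E(X' - X) ≤ -k m X + A` with `X, X' ≥ 0`, `a'(1 - k/m) ≤ a`, `0 ≤ a' ≤ 2a`, `0 ≤ Z ≤ m²`
then `E(a'X' - aX) = a' E(X'-X) + (a'-a) Z X ≤ 2aA` (if `a' ≥ a` use `Z ≤ m²`).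
`TermC7`: `L2` with `c = 0`: `E Δτ₂ ≤ -4m(τ₂ - 1) + 2τ₂² + C err2`, `|τ₁||τ₃| ≤ s dl tt³`
(`abs_tau1_le`, `WW_sq_le`, `K = tt`); `X = τ₂ - 1 ≥ 0` (`one_le_tau2`).
`TermC5`: `L5` with `c' = 0`, `ζ = 0`: `Q4 ≤ ∑ r² = ρ`, `∑ (r-1)² ≤ (s + w)² ≤ 1.1 m`, `τ₂ - m ≤ -0.9 m`,
so `4(τ₂-m)ρ + 2.1 Q4 ∑(r-1)² ≤ 0`.
`TermC6`: `L6`, `Q4 ≤ rt² = w²`, `|τ₁| ≤ s dl`.
`stepC`: from `pot ≤ 1` (three non-negative terms per matrix): `τ₂ ≤ 1 + ts = tt²`, `τ₄ ≤ τ₂² ≤ K⁴`,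
`∑ r² = ρ ≤ min ρs tt⁴ ≤ w²`, `Del ≤ dl²`; `exists_ctx` with `θ = 1/1000`, `χ = 0`; sum, `exists_le`.
-/

set_option autoImplicit false
open Matrix Finset

namespace Crest.Agent.R62

theorem StepC_gen {ι : Type} [Fintype ι] [DecidableEq ι] (C : Ctx ι) (hpm : C.pm = 1)
    {X' : ι → ι → ℝ} {X a a' k A m η τ C0 : ℝ} (hm : m = C.s ^ 2) (hX : 0 ≤ X) (hk : 0 ≤ k)
    (hA : 0 ≤ A) (hE : C.E (fun i j => X' i j - X) ≤ -(k * m * X) + A)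
    (ha : 0 ≤ a' ∧ a' ≤ 2 * a ∧ a' * (1 - k / m) ≤ a) (hη : 0 < η) (hτ : 0 < τ) (ha' : a = 1 / η)
    (h : τ * A ≤ C0 * (η * m)) :
    C.E (fun i j => a' * X' i j - a * X) ≤ 2 * C0 * m / τ := by
  have hm0 : 0 < m := by linarith [C.ten_le_m]
  have e1 : C.E (fun i j => a' * X' i j - a * X) =
      a' * C.E (fun i j => X' i j - X) + (a' - a) * X * C.Z := by
    rw [← C.E_mul, ← C.E_const, ← C.E_add]
    exact C.E_congr fun i j _ => by ring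
  have hZ := C.Z_le
  rw [hpm, one_mul, show C.s ^ 4 = (C.s ^ 2) ^ 2 by ring, ← hm] at hZ
  have hZ0 := (TermA_Z C).1
  have b1 := mul_le_mul_of_nonneg_left hE ha.1
  have b2 : (a' - a) * X * C.Z ≤ a' * (k * m * X) := by
    rcases le_total a a' with h1 | h1
    · have c1 := mul_le_mul_of_nonneg_left hZ (mul_nonneg (sub_nonneg.2 h1) hX)
      have c2 := mul_le_mul_of_nonneg_right ha.2.2 (show 0 ≤ X * m ^ 2 by positivity)
      have c3 : a' * (k / m) * (X * m ^ 2) = a' * (k * m * X) := by field_simp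
      linarith
    · have c1 : (a' - a) * X * C.Z ≤ 0 := mul_nonpos_of_nonpos_of_nonneg
        (mul_nonpos_of_nonpos_of_nonneg (sub_nonpos.2 h1) hX) hZ0
      have c2 : 0 ≤ a' * (k * m * X) := mul_nonneg ha.1 (by positivity)
      linarith
  have b3 := mul_le_mul_of_nonneg_right ha.2.1 hA
  have b4 := TermA_fin (X := 2 * A) (C0 := 2 * C0) (m := m) hη hτ ha' (by linarith)
  linarith

theorem StepC_ne {ι : Type} [Fintype ι] {s : ℝ} (h : s ^ 2 = Fintype.card ι) (h' : 0 < s ^ 2) :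
    (univ : Finset ι).Nonempty := by
  rw [h, Nat.cast_pos] at h'
  exact Finset.card_pos.1 h'

theorem StepC_rho {ι : Type} [Fintype ι] [DecidableEq ι] (x : Matrix ι ι ℝ) :
    rho univ 0 x = ∑ k, rr x k ^ 2 := by simp only [rho, sub_zero]

theorem TermC7 : ∃ C0 : ℝ, 1 ≤ C0 ∧ ∀ {ι : Type} [Fintype ι] [DecidableEq ι] (C : Ctx ι)
    {P P' : Par ℝ} {τ d2 ts ρs : ℝ}, HypC C.toNum P P' τ d2 ts ρs → C0 ≤ τ →
    C.E (fun i j => P'.a7 * (tau2 (upd C.a i j) - 1) - P.a7 * (tau2 C.a - 1)) ≤ C0 * P.m / τ := by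
  obtain ⟨C1, hC1, h1⟩ := L2
  refine ⟨2 * (C1 + 2), by linarith, ?_⟩
  intro ι _ _ C P P' τ d2 ts ρs H hτ
  have hτ0 : 0 < τ := by linarith
  have t1 := one_le_tau2 C.ha.rs.rsu (StepC_ne C.card (by linarith [C.ten_le_m]))
  have htt := C.ok.tt0
  have hW : |WW C.a C.a| ≤ C.tt ^ 3 := by
    refine abs_le.2 (abs_le_of_sq_le_sq' ((WW_sq_le C.ha.rs.1).trans ?_) (by positivity))
    refine (mul_le_mul C.ha.t2 C.ha.t4 (tau4_nonneg C.ha.rs.1) (sq_nonneg _)).trans (le_of_eq ?_)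
    rw [H.K]
    ring
  obtain ⟨q1, q2⟩ := TermA_err2 C.toNum C.ok (p := |tau1 C.a| * |WW C.a C.a|)
    (p' := C.s * C.dl * C.tt ^ 3) (by positivity)
    (mul_le_mul (C.abs_tau1_le C.let_a) hW (abs_nonneg _) (mul_nonneg C.ok.s0 C.ok.dl0))
  have q3 := q1.trans q2
  refine StepC_gen C H.pm (A := (C1 + 2) * (C.err2 (C.s * C.dl * C.tt ^ 3) + C.tt ^ 4)) H.m
    (sub_nonneg.2 t1) (by norm_num) (by positivity) ?_ H.a7' (by linarith [H.ts1]) hτ0 H.a7 ?_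
  · have c1 := (abs_le.1 (h1 C)).2
    rw [H.c] at c1
    have c2 : C.E (fun i j => tau2 (upd C.a i j) - 1 - (tau2 C.a - 1)) =
        C.E (fun i j => tau2 (upd C.a i j) - tau2 C.a + 2 - 2 * (1 - 0) ^ 2) :=
      C.E_congr fun i j _ => by ring
    have c3 := mul_le_mul_of_nonneg_left q2 hC1
    have c4 : tau2 C.a ^ 2 ≤ (C.tt ^ 2) ^ 2 := pow_le_pow_left₀ (by linarith) C.ha.t2 2
    have c5 : 0 ≤ C1 * C.tt ^ 4 := by positivity
    rw [c2, H.m]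
    linarith
  · have := mul_le_mul_of_nonneg_left H.e2 (show 0 ≤ C1 + 2 by linarith)
    linarith

theorem TermC5 : ∃ C0 : ℝ, 1 ≤ C0 ∧ ∀ {ι : Type} [Fintype ι] [DecidableEq ι] (C : Ctx ι)
    {P P' : Par ℝ} {τ d2 ts ρs : ℝ}, HypC C.toNum P P' τ d2 ts ρs → C0 ≤ τ →
    C.E (fun i j => P'.a5 * rho (univ \ {i, j}) 0 (upd C.a i j) - P.a5 * rho univ 0 C.a)
      ≤ C0 * P.m / τ := by
  obtain ⟨C1, hC1, h1⟩ := L5
  refine ⟨2 * (C1 + 1), by linarith, ?_⟩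
  intro ι _ _ C P P' τ d2 ts ρs H hτ
  have hτ0 : 0 < τ := by linarith
  have q := TermC_err5 C.toNum C.ok
  have hρ := TermC_rho univ 0 C.a
  have hm0 : 0 ≤ P.m := H.m ▸ sq_nonneg _
  refine StepC_gen C H.pm (A := C1 * C.err5) H.m hρ (by norm_num) (by positivity) ?_ H.a5' H.ρ0
    hτ0 H.a5 ?_
  · have c1 := h1 C 0 0 (by rw [H.c, sub_self, abs_zero]; positivity) (by simp [H.c])
    rw [H.c, H.pm] at c1
    have c2 : Q4 C.a ≤ rho univ 0 C.a := StepC_rho C.a ▸ Q4_le C.ha.rs.1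
    have c3 : ∑ k, (rr C.a k - 1) ^ 2 ≤ 1.1 * C.s ^ 2 := by
      have d1 : ∀ k, (rr C.a k - 1) ^ 2 ≤ 26 * rr C.a k ^ 2 + 1.04 * 1 :=
        fun k => by nlinarith [sq_nonneg (5 * rr C.a k + 0.2)]
      refine (Finset.sum_le_sum fun k _ => d1 k).trans ?_
      rw [Finset.sum_add_distrib, ← Finset.mul_sum, ← Finset.mul_sum, C.Bas1_one]
      have d2 := C.ha.r2
      rw [H.rt] at d2
      have d3 : (30 * C.w) ^ 2 ≤ C.s ^ 2 := pow_le_pow_left₀ (by linarith [C.one_le_w]) H.ws 2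
      linarith [sq_nonneg C.s]
    have c4 := mul_le_mul c2 c3 (Finset.sum_nonneg fun _ _ => sq_nonneg _) hρ
    have c5 : tau2 C.a - C.s ^ 2 ≤ -(0.9 * C.s ^ 2) := by linarith [C.ha.t2, H.tm, H.m]
    have c6 := mul_le_mul_of_nonneg_right c5 hρ
    have c7 : 0 ≤ C.s ^ 2 * rho univ 0 C.a := by positivity
    rw [H.m]
    linarith
  · have := mul_le_mul_of_nonneg_left H.e5 hC1
    have : 0 ≤ ρs * P.m := mul_nonneg H.ρ0.le hm0
    linarith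

theorem TermC6 : ∃ C0 : ℝ, 1 ≤ C0 ∧ ∀ {ι : Type} [Fintype ι] [DecidableEq ι] (C : Ctx ι)
    {P P' : Par ℝ} {τ d2 ts ρs : ℝ}, HypC C.toNum P P' τ d2 ts ρs → C0 ≤ τ →
    C.E (fun i j => P'.a6 * Del (upd C.a i j) - P.a6 * Del C.a) ≤ C0 * P.m / τ := by
  obtain ⟨C1, hC1, h1⟩ := L6
  refine ⟨2 * (C1 + 3), by linarith, ?_⟩
  intro ι _ _ C P P' τ d2 ts ρs H hτ
  have hτ0 : 0 < τ := by linarith
  obtain ⟨q1, q2⟩ := TermC_err6 C.toNum C.ok (abs_nonneg _) (C.abs_tau1_le C.let_a)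
  have q3 := q1.trans q2
  have hD := TermC_Del C.a
  have hdl := H.dl0
  refine StepC_gen C H.pm (A := (C1 + 3) * (C.err6 (C.s * C.dl) + C.w ^ 2 * C.dl ^ 2)) H.m hD
    (by norm_num) (by positivity) ?_ H.a6' (by positivity) hτ0 H.a6 ?_
  · have c1 := h1 C
    rw [H.pm] at c1
    have c2 : Q4 C.a ≤ C.w ^ 2 := H.rt ▸ (Q4_le C.ha.rs.1).trans C.ha.r2
    have c3 := mul_le_mul c2 C.ha.dl hD (sq_nonneg _)
    have c4 := mul_le_mul_of_nonneg_left q2 hC1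
    have c5 : 0 ≤ C1 * (C.w ^ 2 * C.dl ^ 2) := by positivity
    have c6 : 0 ≤ C.w ^ 2 * C.dl ^ 2 := by positivity
    rw [H.m]
    linarith
  · have := mul_le_mul_of_nonneg_left H.e6 (show 0 ≤ C1 + 3 by linarith)
    linarith

theorem StepC_half {ι : Type} [Fintype ι] [DecidableEq ι] {P : Par ℝ}
    (h : P.c = 0 ∧ P.Wq = 0 ∧ P.a1 = 0 ∧ P.a2 = 0 ∧ P.a3 = 0 ∧ P.a3L = 0 ∧ P.a4 = 0)
    (S : Finset ι) (x y : Matrix ι ι ℝ) :
    pot P S x y = (P.a5 * rho S 0 x + P.a6 * Del x + P.a7 * (tau2 x - 1)) +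
      (P.a5 * rho S 0 y + P.a6 * Del y + P.a7 * (tau2 y - 1)) := by
  obtain ⟨h0, h1, h2, h3, h4, h5, h6⟩ := h
  simp only [pot, half, h0, h1, h2, h3, h4, h5, h6, zero_mul, zero_add]

theorem StepC_le {a η X : ℝ} (hη : 0 < η) (ha : a = 1 / η) (h : a * X ≤ 1) : X ≤ η := by
  rwa [ha, one_div, inv_mul_le_iff₀ hη, mul_one] at h

theorem StepC_bnd {ι : Type} [Fintype ι] [DecidableEq ι] {N : Num}
    {P P' : Par ℝ} {τ d2 ts ρs : ℝ} (H : HypC N P P' τ d2 ts ρs) {x : Matrix ι ι ℝ} (hx : RS x)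
    (h0 : 1 ≤ tau2 x) (h5 : P.a5 * rho univ 0 x ≤ 1) (h6 : P.a6 * Del x ≤ 1)
    (h7 : P.a7 * (tau2 x - 1) ≤ 1) : Bnd N x := by
  have hdl := H.dl0
  have t2 : tau2 x ≤ N.tt ^ 2 := by
    have := StepC_le (by linarith [H.ts1]) H.a7 h7
    linarith [H.tt]
  have t2' : tau2 x ^ 2 ≤ N.tt ^ 4 :=
    (pow_le_pow_left₀ (by linarith) t2 2).trans (le_of_eq (by ring))
  have r : rho univ 0 x ≤ N.w ^ 2 := le_trans (le_min (StepC_le H.ρ0 H.a5 h5)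
    (StepC_rho x ▸ (sum_rr_sq_le hx.1).trans t2')) H.wmin
  exact ⟨hx, H.c ▸ r, H.K ▸ (tau4_le_sq hx.1).trans t2', t2, H.rt ▸ StepC_rho x ▸ r,
    StepC_le (by positivity) H.a6 h6⟩

theorem stepC : ∃ C0 : ℝ, 1 ≤ C0 ∧ ∀ {ι : Type} [Fintype ι] [DecidableEq ι] {N : Num}
    {P P' : Par ℝ} {τ d2 ts ρs : ℝ}, HypC N P P' τ d2 ts ρs → C0 ≤ τ →
    ∀ {a b : Matrix ι ι ℝ}, RS a → RS b → P.m = Fintype.card ι →
    ∀ (al : ι → ι → Prop) [DecidableRel al], (∀ i j, al i j → al j i) → (∀ i, ¬ al i i) →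
    (∀ i, ((univ.filter fun j => ¬ al i j).card : ℝ) ≤ d2) → pot P univ a b ≤ 1 →
    ∃ i j, al i j ∧ 0 < dd a i j ∧ 0 < dd b i j ∧
      pot P' (univ \ {i, j}) (upd a i j) (upd b i j) ≤ pot P univ a b + C0 / (τ * P.m) := by
  obtain ⟨C5, g5, h5⟩ := TermC5
  obtain ⟨C6, g6, h6⟩ := TermC6
  obtain ⟨C7, g7, h7⟩ := TermC7
  refine ⟨4 * (C5 + C6 + C7), by linarith, ?_⟩
  intro ι _ _ N P P' τ d2 ts ρs H hτ a b ha hb hm al _ hsym hirr hdeg hpot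
  have hτ0 : 0 < τ := by linarith
  have hm0 : 0 < P.m := by nlinarith [H.tm, H.tt, H.ts1]
  have hne : (univ : Finset ι).Nonempty := StepC_ne (H.m.symm.trans hm) (H.m ▸ hm0)
  have ta := one_le_tau2 ha.rsu hne
  have tb := one_le_tau2 hb.rsu hne
  have p5 : 0 ≤ P.a5 := by linarith [H.a5'.1, H.a5'.2.1]
  have p6 : 0 ≤ P.a6 := by linarith [H.a6'.1, H.a6'.2.1]
  have p7 : 0 ≤ P.a7 := by linarith [H.a7'.1, H.a7'.2.1]
  have u1 := mul_nonneg p5 (TermC_rho univ 0 a)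
  have u2 := mul_nonneg p6 (TermC_Del a)
  have u3 := mul_nonneg p7 (sub_nonneg.2 ta)
  have v1 := mul_nonneg p5 (TermC_rho univ 0 b)
  have v2 := mul_nonneg p6 (TermC_Del b)
  have v3 := mul_nonneg p7 (sub_nonneg.2 tb)
  rw [StepC_half H.z] at hpot
  obtain ⟨C, rfl, rfl, rfl, -, -, hal⟩ := exists_ctx N H.ok (H.m.symm.trans hm)
    (StepC_bnd H ha ta (by linarith) (by linarith) (by linarith))
    (StepC_bnd H hb tb (by linarith) (by linarith) (by linarith)) al hsym hirr H.d0 hdeg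
    (θ := 1 / 1000) (by norm_num) le_rfl (by rw [H.lam]; norm_num) (by rw [H.lam, H.pm]; norm_num)
    (le_trans (le_of_eq (by norm_num)) H.B) (χa := 0) (χb := 0) (by norm_num) (by norm_num)
  have a3 := add_le_add (add_le_add (add_le_add (h5 C H (by linarith)) (h6 C H (by linarith)))
    (h7 C H (by linarith))) (add_le_add (add_le_add (h5 C.swap H (by linarith))
    (h6 C.swap H (by linarith))) (h7 C.swap H (by linarith)))
  simp only [Ctx.swap_E, Ctx.swap_a, ← C.E_add] at a3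
  obtain ⟨i, j, b1, b2⟩ := C.exists_le (by positivity) a3
  have g := C.supp i j b1
  refine ⟨i, j, hal i j b1, (C.let_a.sm g).dd_pos, (C.let_b.sm g).dd_pos, ?_⟩
  have b3 : 2 * (C5 * P.m / τ + C6 * P.m / τ + C7 * P.m / τ +
      (C5 * P.m / τ + C6 * P.m / τ + C7 * P.m / τ)) / C.s ^ 4 = 4 * (C5 + C6 + C7) / (τ * P.m) := by
    rw [show C.s ^ 4 = (C.s ^ 2) ^ 2 by ring, ← H.m]
    field_simp
    ring
  rw [StepC_half H.z, StepC_half H.z']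
  linarith

end Crest.Agent.R62
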