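import Crest.Agent.R62.Defs

/-!
# R62-Transp: restriction to the free half-edges

For matrices supported on `U × U` products, traces and sums only see `U` (`Finset.sum_subtype`,
`Finset.sum_coe_sort`, `Finset.sum_subset`).  Prove first `res (A * B) = res A * res B` for `A` with columns
supported on `U`, and `trace (res A) = trace A` for `A` with rows supported on `U`.
-/

set_option autoImplicit false
open Matrix Finset

namespace Crest.Agent.R62

variable {H : Type} [Fintype H] [DecidableEq H]

/-- restriction to `U` -/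
def res (U : Finset H) (M : Matrix H H ℝ) : Matrix U U ℝ := M.submatrix Subtype.val Subtype.val

/-- supported on `U × U` -/
def Supp (U : Finset H) (M : Matrix H H ℝ) : Prop := ∀ k l, k ∉ U ∨ l ∉ U → M k l = 0

theorem RSU.supp {U : Finset H} {M : Matrix H H ℝ} (h : RSU U M) : Supp U M := by
  rintro k l (hk | hl)
  · exact h.2.1 k l hk
  · rw [← h.1.apply k l]; exact h.2.1 l k hl

theorem Transp_sum (U : Finset H) {f : H → ℝ} (h : ∀ k, k ∉ U → f k = 0) :
    ∑ k : U, f k = ∑ k, f k := by
  rw [sum_coe_sort U f]
  exact sum_subset (subset_univ _) fun k _ hk => h k hk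

theorem RSU.res {U : Finset H} {M : Matrix H H ℝ} (h : RSU U M) : RS (res U M) := by
  refine ⟨h.1.submatrix _, fun k => ?_⟩
  rw [← h.2.2 k k.2]
  exact Transp_sum U fun l hl => h.supp k l (Or.inr hl)

theorem Supp.upd {U : Finset H} {M : Matrix H H ℝ} (h : Supp U M) (i j : H) : Supp U (upd M i j) := by
  intro k l hkl
  simp only [R62.upd, of_apply]
  split_ifs
  · rfl
  rcases hkl with hk | hl
  · simp [del, kap1, kap2, h k _ (Or.inl hk)]
  · simp [del, h k l (Or.inr hl), h l _ (Or.inl hl)]

theorem res_upd (U : Finset H) (M : Matrix H H ℝ) (i j : U) :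
    res U (upd M i j) = upd (res U M) i j := by
  ext k l
  simp only [res, upd, submatrix_apply, of_apply, Subtype.val_inj]
  rfl

theorem dd_res (U : Finset H) (M : Matrix H H ℝ) (i j : U) : dd (res U M) i j = dd M i j := by
  rfl

theorem Supp.mul {U : Finset H} {A B : Matrix H H ℝ} (hA : Supp U A) (hB : Supp U B) :
    Supp U (A * B) := by
  rintro k l (h | h)
  · simp [mul_apply, hA k _ (Or.inl h)]
  · simp [mul_apply, hB _ l (Or.inr h)]

theorem res_mul {U : Finset H} {A : Matrix H H ℝ} (hA : Supp U A) (B : Matrix H H ℝ) :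
    res U A * res U B = res U (A * B) := by
  ext k l
  exact Transp_sum U (f := fun m => A k m * B m l) fun m hm => by rw [hA _ _ (Or.inr hm), zero_mul]

theorem trace_res {U : Finset H} {A : Matrix H H ℝ} (hA : Supp U A) :
    (res U A).trace = A.trace :=
  Transp_sum U (f := fun m => A m m) fun m hm => hA _ _ (Or.inl hm)

theorem Q4_res {U : Finset H} {A : Matrix H H ℝ} (hA : Supp U A) : Q4 (res U A) = Q4 A := by
  rw [Q4, Q4, ← Transp_sum U fun k hk => by simp [hA k _ (Or.inl hk)]]
  exact sum_congr rfl fun k _ => Transp_sum U (f := fun l => A k l ^ 4) fun l hl => by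
    simp [hA _ l (Or.inr hl)]

theorem half_res {U : Finset H} {a b : Matrix H H ℝ} (ha : Supp U a) (hb : Supp U b) (P : Par ℝ)
    (S : Finset U) (c t : ℝ) :
    half P S (res U a) (res U b) c t = half P (S.map (Function.Embedding.subtype _)) a b c t := by
  have h1 : Del (res U a) = Del a :=
    Transp_sum U (f := fun m => a m m ^ 2) fun m hm => by simp [ha m _ (Or.inl hm)]
  have h2 : rho S P.c (res U a) = rho (S.map (Function.Embedding.subtype _)) P.c a := by
    rw [rho, rho, sum_map]
    simp only [rr, res_mul ha]
    rfl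
  have h3 := ha.mul ha
  simp only [half, h1, h2, tau1, tau2, tau4, WW, res_mul ha, res_mul h3, res_mul (h3.mul ha),
    trace_res ha, trace_res h3, trace_res (h3.mul ha), trace_res (h3.mul hb),
    trace_res ((h3.mul ha).mul ha)]

theorem pot_res {U : Finset H} {a b : Matrix H H ℝ} (ha : Supp U a) (hb : Supp U b) (P : Par ℝ)
    (S : Finset U) :
    pot P S (res U a) (res U b) = pot P (S.map (Function.Embedding.subtype _)) a b := by
  rw [pot, pot, half_res ha hb, half_res hb ha, Q4_res ha, Q4_res hb]

end Crest.Agent.R62
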