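import Crest.Agent.R62.StepAB
import Crest.Agent.R62.StepC
import Crest.Agent.R62.Reg1
import Crest.Agent.R62.Reg2
import Crest.Agent.R62.Reg3
import Crest.Agent.R62.RegC
import Crest.Agent.R62.Transp
import Crest.Agent.R62.Upd

/-!
# R62-StepU: one step, all phases

Let `m = |U|`.  Restrict to `ι = U` (`res`, `RSU.res`, `pot_res` with `S = univ` and `S = univ \ {i,j}`,
`res_upd`, `dd_res`, `Supp.upd`).  If `m > t^(2ega)`: `reg1`/`reg2`/`reg3` + `stepAB` (with `τ = t² ≥ C0`)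
give a pair with `pot (parAB G (m-2)) ≤ A + C0/(t² m) ≤ 1`; if moreover `m - 2 ≤ t^(2ega)` apply `trans`
to `S = U \ {i,j}` (`upd_RSU`) to get `≤ 1/2 ≤ A`.  If `m ≤ t^(2ega)`: `regC` + `stepC`.
-/

set_option autoImplicit false
open Matrix Finset

namespace Crest.Agent.R62

theorem StepU_univ {H : Type} [Fintype H] [DecidableEq H] (U : Finset H) :
    (univ : Finset U).map (Function.Embedding.subtype _) = U := by
  ext k
  simp

theorem StepU_sdiff {H : Type} [Fintype H] [DecidableEq H] (U : Finset H) (i j : U) :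
    ((univ : Finset U) \ {i, j}).map (Function.Embedding.subtype _) = U \ {i.1, j.1} := by
  ext k
  simp only [mem_map, mem_sdiff, mem_univ, true_and, mem_insert, mem_singleton,
    Function.Embedding.coe_subtype]
  constructor
  · rintro ⟨x, hx, rfl⟩
    exact ⟨x.2, fun h => hx (h.imp Subtype.ext Subtype.ext)⟩
  · rintro ⟨hk, h⟩
    exact ⟨⟨k, hk⟩, fun h' => h (h'.imp (congrArg Subtype.val) (congrArg Subtype.val)), rfl⟩

theorem StepU_card {H : Type} [Fintype H] [DecidableEq H] (U : Finset H) (al : H → H → Prop)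
    [DecidableRel al] (i : U) :
    (univ.filter fun j : U => ¬ al i j).card ≤ (univ.filter fun j : H => ¬ al i j).card := by
  refine card_le_card_of_injOn Subtype.val (fun j hj => ?_) (Subtype.val_injective.injOn)
  simpa using hj

theorem StepU_transfer {H : Type} [Fintype H] [DecidableEq H] (U : Finset H) (a b : Matrix H H ℝ)
    (ha : RSU U a) (hb : RSU U b) (al : H → H → Prop) (P P' : Par ℝ) (B : ℝ)
    (h : ∃ i j : U, al i j ∧ 0 < dd (res U a) i j ∧ 0 < dd (res U b) i j ∧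
      pot P' (univ \ {i, j}) (upd (res U a) i j) (upd (res U b) i j)
        ≤ pot P univ (res U a) (res U b) + B) :
    ∃ i ∈ U, ∃ j ∈ U, al i j ∧ 0 < dd a i j ∧ 0 < dd b i j ∧
      pot P' (U \ {i, j}) (upd a i j) (upd b i j) ≤ pot P U a b + B := by
  obtain ⟨i, j, h1, h2, h3, h4⟩ := h
  refine ⟨i, i.2, j, j.2, h1, h2, h3, ?_⟩
  rw [← res_upd, ← res_upd, pot_res (ha.supp.upd _ _) (hb.supp.upd _ _), pot_res ha.supp hb.supp,
    StepU_univ, StepU_sdiff] at h4
  exact h4

theorem stepU (q : ℕ) (hq : 2 ≤ q) : ∃ C0 t0 : ℝ, 1 ≤ C0 ∧ ∀ G : Glob ℝ, GoodG q G → t0 ≤ G.t →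
    ∀ {H : Type} [Fintype H] [DecidableEq H] (U : Finset H) (a b : Matrix H H ℝ), RSU U a → RSU U b →
    G.t ^ (2 * eph) < U.card → (U.card : ℝ) ≤ G.m0 →
    ∀ (al : H → H → Prop) [DecidableRel al], (∀ i j, al i j → al j i) → (∀ i, ¬ al i i) →
    (∀ i, (univ.filter fun j => ¬ al i j).card ≤ (q + 1) ^ 2) →
    ∀ A : ℝ, 1 / 2 ≤ A → A ≤ 0.99 → pot (par G U.card) U a b ≤ A →
    ∃ i ∈ U, ∃ j ∈ U, al i j ∧ 0 < dd a i j ∧ 0 < dd b i j ∧
      pot (par G (U.card - 2)) (U \ {i, j}) (upd a i j) (upd b i j) ≤ A + C0 / (G.t ^ 2 * U.card) := by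
  obtain ⟨CA, hCA, hA⟩ := stepAB
  obtain ⟨CC, hCC, hC⟩ := stepC
  obtain ⟨t1, h1⟩ := reg1 q hq
  obtain ⟨t2, h2⟩ := reg2 q hq
  obtain ⟨t3, h3⟩ := reg3 q hq
  obtain ⟨t4, h4⟩ := regC q
  obtain ⟨t5, h5⟩ := trans q hq
  refine ⟨max CA CC, max (max (max t1 t2) (max t3 t4)) (max t5 (100 * max CA CC)),
    le_max_of_le_left hCA, ?_⟩
  intro G hG ht H _ _ U a b ha hb hm1 hm2 al _ hs hi hcard A hA1 hA2 hpot
  simp only [max_le_iff] at ht
  obtain ⟨⟨⟨ht1, ht2⟩, ht3, ht4⟩, ht5, ht6⟩ := ht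
  have hC0 : 1 ≤ max CA CC := le_max_of_le_left hCA
  have ht0 : 1 ≤ G.t := by linarith
  have htt : G.t ≤ G.t ^ 2 := by nlinarith
  have hτA : CA ≤ G.t ^ 2 := by linarith [le_max_left CA CC]
  have hτC : CC ≤ G.t ^ 2 := by linarith [le_max_right CA CC]
  have hm0 : (1 : ℝ) < U.card := lt_of_le_of_lt (one_le_pow₀ ht0) hm1
  have hden : 0 < G.t ^ 2 * (U.card : ℝ) := by positivity
  have hcardU : (U.card : ℝ) = Fintype.card U := by simp
  have hal : ∀ i : U, ((univ.filter fun j : U => ¬ al i j).card : ℝ) ≤ ((q : ℝ) + 1) ^ 2 := fun i => by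
    exact_mod_cast (StepU_card U al i).trans (hcard i)
  have hpu : ∀ P : Par ℝ, pot P univ (res U a) (res U b) = pot P U a b := fun P => by
    rw [pot_res ha.supp hb.supp, StepU_univ]
  have hmono : ∀ C : ℝ, C ≤ max CA CC →
      C / (G.t ^ 2 * U.card) ≤ max CA CC / (G.t ^ 2 * U.card) := fun C h =>
    div_le_div_of_nonneg_right h hden.le
  have hsmall : max CA CC / (G.t ^ 2 * U.card) ≤ 0.01 := by
    rw [div_le_iff₀ hden]
    nlinarith
  have hnn : 0 ≤ max CA CC / (G.t ^ 2 * U.card) := by positivity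
  by_cases hga : G.t ^ (2 * ega) < U.card
  · have hpar : par G (U.card : ℝ) = parAB G U.card := by rw [par, if_pos hga]
    rw [hpar] at hpot
    have hreg : ∃ (N : Num) (θ R η tol Gs cM qq : ℝ), HypAB N (parAB G U.card)
        (parAB G (U.card - 2)) (G.t ^ 2) ((q + 1) ^ 2) θ R η tol Gs cM qq := by
      by_cases c1 : 3 * G.t ^ (2 * eal) < U.card
      · exact h1 G hG ht1 _ c1 hm2
      by_cases c2 : G.t ^ (2 * eal) < U.card
      · exact h2 G hG ht2 _ c2 (not_lt.1 c1)
      · exact h3 G hG ht3 _ hga (not_lt.1 c2)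
    obtain ⟨N, θ, R, η, tol, Gs, cM, qq, hyp⟩ := hreg
    obtain ⟨i, hiU, j, hjU, e1, e2, e3, e4⟩ := StepU_transfer U a b ha hb al _ _ _
      (hA hyp hτA ha.res hb.res hcardU (fun i j : U => al i j) (fun i j => hs i j) (fun i => hi i)
        hal (by rw [hpu]; linarith))
    refine ⟨i, hiU, j, hjU, e1, e2, e3, ?_⟩
    have e5 : pot (parAB G (U.card - 2)) (U \ {i, j}) (upd a i j) (upd b i j)
        ≤ A + max CA CC / (G.t ^ 2 * U.card) := by
      have := hmono CA (le_max_left _ _)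
      have e : (parAB G (U.card : ℝ)).m = U.card := rfl
      rw [e] at e4
      linarith
    by_cases hga2 : G.t ^ (2 * ega) < (U.card : ℝ) - 2
    · rw [par, if_pos hga2]
      exact e5
    · rw [par, if_neg hga2]
      have hij : i ≠ j := fun h => hi i (h ▸ e1)
      have hsub : ({i, j} : Finset H) ⊆ U := by
        intro k hk
        rcases mem_insert.1 hk with rfl | hk
        · exact hiU
        · rw [mem_singleton.1 hk]; exact hjU
      have hc : ((U \ {i, j}).card : ℝ) = U.card - 2 := by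
        have h6 := card_sdiff_add_card_eq_card hsub
        rw [card_pair hij] at h6
        rw [← h6]
        push_cast
        ring
      have := h5 G hG ht5 (U \ {i, j}) (upd a i j) (upd b i j) (upd_RSU ha hiU hjU hij e2.ne')
        (upd_RSU hb hiU hjU hij e3.ne') (by rw [hc]; linarith) (by rw [hc]; exact not_lt.1 hga2)
        (by rw [hc]; linarith)
      rw [hc] at this
      linarith
  · have hpar : par G (U.card : ℝ) = parC G U.card := by rw [par, if_neg hga]
    rw [hpar] at hpot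
    obtain ⟨N, ts, ρs, hyp⟩ := h4 G ht4 _ hm1 (not_lt.1 hga)
    obtain ⟨i, hiU, j, hjU, e1, e2, e3, e4⟩ := StepU_transfer U a b ha hb al _ _ _
      (hC hyp hτC ha.res hb.res hcardU (fun i j : U => al i j) (fun i j => hs i j) (fun i => hi i)
        hal (by rw [hpu]; linarith))
    refine ⟨i, hiU, j, hjU, e1, e2, e3, ?_⟩
    have hga2 : ¬ G.t ^ (2 * ega) < (U.card : ℝ) - 2 := fun h => hga (by linarith)
    rw [par, if_neg hga2]
    have := hmono CC (le_max_right _ _)
    have e : (parC G (U.card : ℝ)).m = U.card := rfl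
    rw [e] at e4
    linarith

end Crest.Agent.R62
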